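import Mathlib

/-! Invariance of `τ (log (T⋆ T))` under a square-zero traceless factor. -/

set_option autoImplicit false

namespace Crest.Agent.R177

open Finset Filter Topology

section FK
variable {A : Type*} [CStarAlgebra A]

lemma fk_spec {T S : A} (h1 : S * T = 1) (h2 : T * S = 1) {K : ℝ} (hK : 1 ≤ K) (hT : ‖T‖ ≤ K)
    (hS : ‖S‖ ≤ K) : ∀ s ∈ spectrum ℝ (star T * T), (K ^ 2)⁻¹ ≤ s ∧ s ≤ K ^ 2 := by
  intro s hs
  rcases subsingleton_or_nontrivial A with hA | hA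
  · simp at hs
  have h0 : 0 ≤ s := spectrum_star_mul_self_nonneg s hs
  have hn : ∀ a : A, ‖a‖ ≤ K → ‖star a * a‖ ≤ K ^ 2 := fun a ha => by
    rw [CStarRing.norm_star_mul_self]; nlinarith [norm_nonneg a]
  have hle : s ≤ K ^ 2 := by
    have := spectrum.norm_le_norm_of_mem hs
    rw [Real.norm_of_nonneg h0] at this
    exact this.trans (hn T hT)
  refine ⟨?_, hle⟩
  let x : Aˣ := ⟨star T * T, S * star S, by
      rw [mul_assoc, ← mul_assoc T, h2, one_mul, ← star_mul, h1, star_one], by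
      rw [mul_assoc, ← mul_assoc (star S), ← star_mul, h2, star_one, one_mul, h1]⟩
  have hs0 : s ≠ 0 := by
    rintro rfl
    exact (spectrum.zero_notMem_iff ℝ).mpr x.isUnit hs
  have hi : s⁻¹ ∈ spectrum ℝ ((x⁻¹ : Aˣ) : A) := by
    rw [spectrum.inv₀_mem_inv_iff]; exact hs
  have h3 := spectrum.norm_le_norm_of_mem hi
  have h4 : ‖((x⁻¹ : Aˣ) : A)‖ ≤ K ^ 2 := by
    have := hn (star S) (by rwa [norm_star])
    rwa [star_star] at this
  rw [Real.norm_of_nonneg (inv_nonneg.mpr h0)] at h3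
  have hp : 0 < s := lt_of_le_of_ne h0 hs0.symm
  exact inv_le_of_inv_le₀ hp (h3.trans h4)

lemma fk_abs {C s : ℝ} (hC : 1 ≤ C) (h1 : C⁻¹ ≤ s) (h2 : s ≤ C) :
    |1 - C⁻¹ * s| ≤ 1 - (C ^ 2)⁻¹ := by
  have hC0 : 0 < C := by linarith
  have h3 : C⁻¹ * s ≤ 1 := by rw [inv_mul_le_iff₀ hC0]; linarith
  have h4 : (C ^ 2)⁻¹ ≤ C⁻¹ * s := by
    rw [sq, mul_inv]; exact mul_le_mul_of_nonneg_left h1 (by positivity)
  rw [abs_of_nonneg (by linarith)]; linarith

lemma fk_cfc_u {x : A} (hx : IsSelfAdjoint x) (C : ℝ) :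
    cfc (fun s : ℝ => 1 - C⁻¹ * s) x = 1 - C⁻¹ • x := by
  rw [cfc_sub _ _ x, cfc_const_mul _ _ x, cfc_id' ℝ x, cfc_const_one ℝ x]

lemma fk_norm_u {x : A} (hx : IsSelfAdjoint x) {C : ℝ} (hC : 1 ≤ C)
    (h : ∀ s ∈ spectrum ℝ x, C⁻¹ ≤ s ∧ s ≤ C) : ‖1 - C⁻¹ • x‖ ≤ 1 - (C ^ 2)⁻¹ := by
  rw [← fk_cfc_u hx]
  have : (C ^ 2)⁻¹ ≤ 1 := inv_le_one_of_one_le₀ (by nlinarith)
  exact norm_cfc_le (by linarith) fun s hs => fk_abs hC (h s hs).1 (h s hs).2

lemma fk_log {x : A} (hx : IsSelfAdjoint x) {C : ℝ} (hC : 1 ≤ C)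
    (h : ∀ s ∈ spectrum ℝ x, C⁻¹ ≤ s ∧ s ≤ C) :
    Tendsto (fun N => ∑ n ∈ range N, ((n : ℝ) + 1)⁻¹ • (1 - C⁻¹ • x) ^ (n + 1)) atTop
      (𝓝 (Real.log C • (1 : A) - cfc Real.log x)) := by
  have hC0 : 0 < C := by linarith
  have hr0 : 0 < (C ^ 2)⁻¹ := by positivity
  have hr1 : (C ^ 2)⁻¹ ≤ 1 := inv_le_one_of_one_le₀ (by nlinarith)
  have hpos : ∀ s ∈ spectrum ℝ x, 0 < s := fun s hs => lt_of_lt_of_le (by positivity) (h s hs).1
  have hlog : ContinuousOn Real.log (spectrum ℝ x) :=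
    Real.continuousOn_log.mono fun s hs => (hpos s hs).ne'
  have e1 : Real.log C • (1 : A) - cfc Real.log x =
      cfc (fun s : ℝ => ∑' n : ℕ, ((n : ℝ) + 1)⁻¹ * (1 - C⁻¹ * s) ^ (n + 1)) x := by
    have : cfc (fun s : ℝ => Real.log C - Real.log s) x = Real.log C • (1 : A) - cfc Real.log x := by
      rw [cfc_sub _ _ x, cfc_const _ x, Algebra.algebraMap_eq_smul_one]
    rw [← this]
    refine cfc_congr fun s hs => ?_
    have h1 := fk_abs hC (h s hs).1 (h s hs).2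
    have h2 := Real.hasSum_pow_div_log_of_abs_lt_one (x := 1 - C⁻¹ * s) (by linarith)
    simp only [div_eq_inv_mul] at h2
    rw [h2.tsum_eq, sub_sub_cancel, Real.log_mul (by positivity) (hpos s hs).ne', Real.log_inv]
    ring
  have e2 : ∀ N, ∑ n ∈ range N, ((n : ℝ) + 1)⁻¹ • (1 - C⁻¹ • x) ^ (n + 1) =
      cfc (fun s : ℝ => ∑ n ∈ range N, ((n : ℝ) + 1)⁻¹ * (1 - C⁻¹ * s) ^ (n + 1)) x := by
    intro N
    have := cfc_sum (fun (n : ℕ) (s : ℝ) => ((n : ℝ) + 1)⁻¹ * (1 - C⁻¹ * s) ^ (n + 1)) x (range N)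
      (fun _ _ => by fun_prop)
    rw [← Finset.sum_fn] 
    rw [this]
    refine Finset.sum_congr rfl fun n _ => ?_
    rw [cfc_const_mul _ _ x, cfc_pow _ _ x, fk_cfc_u hx]
  simp_rw [e2]
  rw [e1]
  refine tendsto_cfc_fun ?_ (Eventually.of_forall fun N => by fun_prop)
  refine tendstoUniformlyOn_tsum_nat (u := fun n => (1 - (C ^ 2)⁻¹) ^ n)
    (summable_geometric_of_lt_one (by linarith) (by linarith)) fun n s hs => ?_
  have h1 := fk_abs hC (h s hs).1 (h s hs).2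
  rw [norm_mul, norm_pow, Real.norm_eq_abs, Real.norm_eq_abs, abs_of_nonneg (by positivity)]
  have h2 : ((n : ℝ) + 1)⁻¹ ≤ 1 := inv_le_one_of_one_le₀ (by linarith [Nat.cast_nonneg (α := ℝ) n])
  have h3 : |1 - C⁻¹ * s| ^ (n + 1) ≤ (1 - (C ^ 2)⁻¹) ^ n := by
    rw [pow_succ]
    calc _ ≤ (1 - (C ^ 2)⁻¹) ^ n * 1 := by gcongr; linarith
      _ = _ := mul_one _
  calc _ ≤ 1 * (1 - (C ^ 2)⁻¹) ^ n := by gcongr
    _ = _ := one_mul _

lemma fk_tr_pow (M : StarSubalgebra ℝ A) (τ : A →L[ℝ] ℝ)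
    (htr : ∀ a ∈ M, ∀ b ∈ M, τ (a * b) = τ (b * a)) {u : ℝ → A} {u' : A} {t : ℝ}
    (hu : HasDerivAt u u' t) (h1 : u t ∈ M) (h2 : u' ∈ M) (n : ℕ) :
    HasDerivAt (fun t => τ (((n : ℝ) + 1)⁻¹ • u t ^ (n + 1))) (τ (u t ^ n * u')) t := by
  have h3 := τ.hasFDerivAt.comp_hasDerivAt t ((hu.fun_pow' (n + 1)).const_smul ((n : ℝ) + 1)⁻¹)
  refine HasDerivAt.congr_deriv h3 ?_
  rw [map_smul, map_sum, Finset.sum_congr rfl (g := fun _ => τ (u t ^ n * u'))]
  · simp only [sum_const, card_range, nsmul_eq_mul, smul_eq_mul]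
    push_cast
    field_simp
  · intro i hi
    rw [htr _ (mul_mem (pow_mem h1 _) h2) _ (pow_mem h1 _), ← mul_assoc, ← pow_add]
    congr 3
    have := mem_range.mp hi
    simp only [Nat.pred_succ]
    omega

/-- The logarithmic determinant does not see a factor `1 + N` with `N ^ 2 = 0` and `τ N = 0`. -/
theorem fk_inv (M : StarSubalgebra ℝ A) (τ : A →L[ℝ] ℝ)
    (htr : ∀ a ∈ M, ∀ b ∈ M, τ (a * b) = τ (b * a)) (hst : ∀ a, τ (star a) = τ a)
    {X Xi Y Yi N : A} (hX : X ∈ M) (hXi : Xi ∈ M) (hY : Y ∈ M) (hYi : Yi ∈ M) (hN : N ∈ M)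
    (x1 : X * Xi = 1) (x2 : Xi * X = 1) (y1 : Y * Yi = 1) (y2 : Yi * Y = 1) (hNN : N * N = 0)
    (hτ : τ N = 0) :
    τ (cfc Real.log (star (X * (1 + N) * Y) * (X * (1 + N) * Y))) =
      τ (cfc Real.log (star (X * Y) * (X * Y))) := by
  rcases subsingleton_or_nontrivial A with hA | hA
  · congr 1; exact Subsingleton.elim _ _
  set T : ℝ → A := fun t => X * (1 + t • N) * Y with hT
  set S : ℝ → A := fun t => Yi * (1 - t • N) * Xi with hS
  have n1 : ∀ t : ℝ, (1 - t • N) * (1 + t • N) = 1 := fun t => by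
    simp [mul_add, sub_mul, hNN]
  have n2 : ∀ t : ℝ, (1 + t • N) * (1 - t • N) = 1 := fun t => by
    simp [mul_sub, add_mul, hNN]
  have ST : ∀ t, S t * T t = 1 := fun t => by
    simp only [hS, hT]
    calc _ = Yi * ((1 - t • N) * (Xi * X) * (1 + t • N)) * Y := by simp only [mul_assoc]
      _ = 1 := by rw [x2, mul_one, n1, mul_one, y2]
  have TS : ∀ t, T t * S t = 1 := fun t => by
    simp only [hS, hT]
    calc _ = X * ((1 + t • N) * (Y * Yi) * (1 - t • N)) * Xi := by simp only [mul_assoc]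
      _ = 1 := by rw [y1, mul_one, n2, mul_one, x1]
  have TM : ∀ t, T t ∈ M := fun t =>
    mul_mem (mul_mem hX (add_mem (one_mem _) (M.smul_mem hN t))) hY
  have SM : ∀ t, S t ∈ M := fun t =>
    mul_mem (mul_mem hYi (sub_mem (one_mem _) (M.smul_mem hN t))) hXi
  obtain ⟨K, hK, hb⟩ : ∃ K : ℝ, 1 ≤ K ∧ ∀ t ∈ Set.Ioo (-2 : ℝ) 2, ‖T t‖ ≤ K ∧ ‖S t‖ ≤ K := by
    have cT : Continuous T := by simp only [hT]; fun_prop
    have cS : Continuous S := by simp only [hS]; fun_prop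
    obtain ⟨a, ha⟩ := (isCompact_Icc (a := (-2 : ℝ)) (b := 2)).exists_bound_of_continuousOn
      cT.continuousOn
    obtain ⟨b, hb⟩ := (isCompact_Icc (a := (-2 : ℝ)) (b := 2)).exists_bound_of_continuousOn
      cS.continuousOn
    refine ⟨max 1 (max a b), le_max_left _ _, fun t ht => ⟨?_, ?_⟩⟩
    · exact (ha t (Set.Ioo_subset_Icc_self ht)).trans (by simp)
    · exact (hb t (Set.Ioo_subset_Icc_self ht)).trans (by simp)
  set C : ℝ := K ^ 2 with hC
  have hC1 : 1 ≤ C := by rw [hC]; nlinarith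
  have hC0 : 0 < C := by linarith
  have hr0 : 0 < (C ^ 2)⁻¹ := by positivity
  have hr1 : (C ^ 2)⁻¹ ≤ 1 := inv_le_one_of_one_le₀ (by nlinarith)
  have hsp : ∀ t ∈ Set.Ioo (-2 : ℝ) 2, ∀ s ∈ spectrum ℝ (star (T t) * T t), C⁻¹ ≤ s ∧ s ≤ C :=
    fun t ht => fk_spec (ST t) (TS t) hK (hb t ht).1 (hb t ht).2
  set T' : A := X * N * Y with hT'
  have T'M : T' ∈ M := mul_mem (mul_mem hX hN) hY
  set u : ℝ → A := fun t => 1 - C⁻¹ • (star (T t) * T t) with hu
  set u' : ℝ → A := fun t => -(C⁻¹ • (star T' * T t + star (T t) * T')) with hu'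
  have uM : ∀ t, u t ∈ M := fun t =>
    sub_mem (one_mem _) (M.smul_mem (mul_mem (star_mem (TM t)) (TM t)) _)
  have u'M : ∀ t, u' t ∈ M := fun t =>
    neg_mem (M.smul_mem (add_mem (mul_mem (star_mem T'M) (TM t)) (mul_mem (star_mem (TM t)) T'M)) _)
  have dT : ∀ t, HasDerivAt T T' t := fun t => by
    have := ((((hasDerivAt_id t).smul_const N).const_add 1).const_mul X).mul_const Y
    simpa using this
  have du : ∀ t, HasDerivAt u (u' t) t := fun t =>
    ((((dT t).star).mul (dT t)).const_smul C⁻¹).const_sub 1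
  have nu : ∀ t ∈ Set.Ioo (-2 : ℝ) 2, ‖u t‖ ≤ 1 - (C ^ 2)⁻¹ := fun t ht =>
    fk_norm_u (IsSelfAdjoint.star_mul_self _) hC1 (hsp t ht)
  have nu' : ∀ t ∈ Set.Ioo (-2 : ℝ) 2, ‖u' t‖ ≤ C⁻¹ * (‖T'‖ * K + K * ‖T'‖) := fun t ht => by
    simp only [hu', norm_neg, norm_smul, Real.norm_of_nonneg (inv_nonneg.mpr hC0.le)]
    gcongr
    refine (norm_add_le _ _).trans (add_le_add ?_ ?_)
    · refine (norm_mul_le _ _).trans ?_
      rw [norm_star]; gcongr; exact (hb t ht).1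
    · refine (norm_mul_le _ _).trans ?_
      rw [norm_star]; gcongr; exact (hb t ht).1
  have hgeo := summable_geometric_of_lt_one (r := 1 - (C ^ 2)⁻¹) (by linarith) (by linarith)
  have hsum : ∀ t ∈ Set.Ioo (-2 : ℝ) 2,
      Summable fun n : ℕ => τ (((n : ℝ) + 1)⁻¹ • u t ^ (n + 1)) := fun t ht => by
    refine Summable.of_norm_bounded (hgeo.mul_left ‖τ‖) fun n => (τ.le_opNorm _).trans ?_
    gcongr
    rw [norm_smul, Real.norm_of_nonneg (by positivity)]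
    have h2 : ((n : ℝ) + 1)⁻¹ ≤ 1 :=
      inv_le_one_of_one_le₀ (by linarith [Nat.cast_nonneg (α := ℝ) n])
    have h3 : ‖u t ^ (n + 1)‖ ≤ (1 - (C ^ 2)⁻¹) ^ n := by
      refine (norm_pow_le _ _).trans ?_
      rw [pow_succ]
      have := nu t ht
      calc _ ≤ (1 - (C ^ 2)⁻¹) ^ n * 1 := by gcongr; linarith
        _ = _ := mul_one _
    calc _ ≤ 1 * (1 - (C ^ 2)⁻¹) ^ n := by gcongr
      _ = _ := one_mul _
  set F : ℝ → ℝ := fun t => ∑' n : ℕ, τ (((n : ℝ) + 1)⁻¹ • u t ^ (n + 1)) with hF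
  have dF : ∀ t ∈ Set.Ioo (-2 : ℝ) 2, HasDerivAt F 0 t := fun t ht => by
    have h := hasDerivAt_tsum_of_isPreconnected
      (g := fun (n : ℕ) t => τ (((n : ℝ) + 1)⁻¹ • u t ^ (n + 1)))
      (g' := fun (n : ℕ) t => τ (u t ^ n * u' t))
      ((hgeo.mul_right (C⁻¹ * (‖T'‖ * K + K * ‖T'‖))).mul_left ‖τ‖) isOpen_Ioo isPreconnected_Ioo
      (fun n y _ => fk_tr_pow M τ htr (du y) (uM y) (u'M y) n)
      (fun n y hy => (τ.le_opNorm _).trans (by
        have := nu y hy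
        have := nu' y hy
        gcongr
        refine (norm_mul_le _ _).trans ?_
        gcongr
        exact (norm_pow_le _ _).trans (by gcongr))) ht (hsum t ht) ht
    refine HasDerivAt.congr_deriv h ?_
    have hlt : ‖u t‖ < 1 := lt_of_le_of_lt (nu t ht) (by linarith)
    have hs := summable_geometric_of_norm_lt_one hlt
    have e1 : ∑' n : ℕ, u t ^ n = C • (S t * star (S t)) := by
      have h1 := geom_series_mul_neg _ hlt
      have h2 : (1 - u t) * (C • (S t * star (S t))) = 1 := by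
        simp only [hu, sub_sub_cancel, smul_mul_smul_comm, inv_mul_cancel₀ hC0.ne', one_smul]
        rw [mul_assoc, ← mul_assoc (T t), TS, one_mul, ← star_mul, ST, star_one]
      rw [← mul_one (∑' n : ℕ, u t ^ n), ← h2, ← mul_assoc, h1, one_mul]
    rw [← τ.map_tsum (hs.mul_right _), hs.tsum_mul_right, e1]
    have e2 : C • (S t * star (S t)) * u' t =
        -(S t * (star (T' * S t) * T t) + S t * T') := by
      simp only [hu', mul_neg, smul_mul_smul_comm, mul_inv_cancel₀ hC0.ne', one_smul, mul_add]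
      rw [star_mul T' (S t), mul_assoc (S t) _ (star (T t) * T'), ← mul_assoc (star (S t)) (star (T t)),
        ← star_mul, TS, star_one, one_mul]
      simp only [mul_assoc]
    have e3 : T' * S t = X * (N * Xi) := by
      simp only [hT', hS]
      calc _ = X * (N * (Y * Yi) * (1 - t • N) * Xi) := by simp only [mul_assoc]
        _ = _ := by rw [y1, mul_one, mul_sub, mul_one, mul_smul_comm, hNN, smul_zero, sub_zero]
    have e4 : τ (T' * S t) = 0 := by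
      rw [e3, htr _ hX _ (mul_mem hN hXi), mul_assoc, x2, mul_one, hτ]
    rw [e2, map_neg, map_add, htr _ (SM t) _ T'M, e4,
      htr _ (SM t) _ (mul_mem (star_mem (mul_mem T'M (SM t))) (TM t)), mul_assoc, TS, mul_one, hst,
      e4]
    simp
  have hFt : ∀ t ∈ Set.Ioo (-2 : ℝ) 2,
      F t = Real.log C * τ 1 - τ (cfc Real.log (star (T t) * T t)) := fun t ht => by
    have h1 := (τ.continuous.tendsto _).comp
      (fk_log (IsSelfAdjoint.star_mul_self (T t)) hC1 (hsp t ht))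
    have h2 := (hsum t ht).hasSum.tendsto_sum_nat
    rw [map_sub, map_smul, smul_eq_mul] at h1
    refine tendsto_nhds_unique h2 ?_
    convert h1 using 2 with N
    simp only [Function.comp, map_sum, hu]
  have hsub : Set.Icc (0 : ℝ) 1 ⊆ Set.Ioo (-2 : ℝ) 2 := fun t ht =>
    ⟨by linarith [ht.1], by linarith [ht.2]⟩
  have hc := constant_of_has_deriv_right_zero (f := F) (a := 0) (b := 1)
    (fun t ht => (dF t (hsub ht)).continuousAt.continuousWithinAt)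
    (fun t ht => (dF t (hsub (Set.Ico_subset_Icc_self ht))).hasDerivWithinAt) 1 (by simp)
  rw [hFt 1 (hsub (by simp)), hFt 0 (hsub (by simp))] at hc
  simp only [hT, one_smul, zero_smul, add_zero, mul_one] at hc
  linarith

/-- The logarithm of `1 - (3/4) P + 3 Q` for orthogonal projections. -/
lemma fk_log_proj {P Q : A} (hP : IsSelfAdjoint P) (hQ : IsSelfAdjoint Q) (PP : P * P = P)
    (QQ : Q * Q = Q) (PQ : P * Q = 0) (QP : Q * P = 0) :
    cfc Real.log (1 + ((-3 / 4 : ℝ) • P + (3 : ℝ) • Q)) = Real.log 4 • (Q - P) := by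
  set w : A := (-3 / 4 : ℝ) • P + (3 : ℝ) • Q with hw
  have hws : IsSelfAdjoint w :=
    ((IsSelfAdjoint.all _).smul hP).add ((IsSelfAdjoint.all _).smul hQ)
  have hx : IsSelfAdjoint (1 + w) := (IsSelfAdjoint.one A).add hws
  have e1 : cfc (fun s : ℝ => s - 1) (1 + w) = w := by
    rw [cfc_sub _ _ (1 + w), cfc_id' ℝ (1 + w), cfc_const_one ℝ (1 + w), add_sub_cancel_left]
  have w2 : w * w = (9 / 16 : ℝ) • P + (9 : ℝ) • Q := by
    simp only [hw, add_mul, mul_add, smul_mul_smul_comm, PP, QQ, PQ, QP, smul_zero]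
    module
  have w3 : w * w * w = (-27 / 64 : ℝ) • P + (27 : ℝ) • Q := by
    rw [w2]
    simp only [hw, add_mul, mul_add, smul_mul_smul_comm, PP, QQ, PQ, QP, smul_zero]
    module
  have key : ∀ a b c : ℝ,
      cfc (fun s : ℝ => a * (s - 1) + b * ((s - 1) * (s - 1)) + c * ((s - 1) * (s - 1) * (s - 1)))
        (1 + w) = a • w + b • (w * w) + c • (w * w * w) := fun a b c => by
    rw [cfc_add (1 + w) _ _, cfc_add (1 + w) _ _, cfc_const_mul _ _ (1 + w),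
      cfc_const_mul _ _ (1 + w), cfc_const_mul _ _ (1 + w), cfc_mul (fun s : ℝ => (s - 1) * (s - 1)) _ (1 + w),
      cfc_mul _ _ (1 + w), e1]
  have hz := key (-9 / 4) (-9 / 4) 1
  have hz' : (-9 / 4 : ℝ) • w + (-9 / 4 : ℝ) • (w * w) + (1 : ℝ) • (w * w * w) =
      cfc (fun _ : ℝ => (0 : ℝ)) (1 + w) := by
    rw [cfc_const_zero, w3, w2, hw]; module
  have hroot := eqOn_of_cfc_eq_cfc (hz.trans hz') (ha := hx)
  have h := key (17 / 15 * Real.log 4) (-4 / 15 * Real.log 4) 0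
  have h' : (17 / 15 * Real.log 4) • w + (-4 / 15 * Real.log 4) • (w * w) + (0 : ℝ) • (w * w * w) =
      Real.log 4 • (Q - P) := by
    rw [w2, hw]; module
  rw [← h', ← h]
  refine cfc_congr fun s hs => ?_
  have h0 := hroot hs
  simp only at h0
  have h1 : (s - 1) * (s - 4) * (s - 4⁻¹) = 0 := by linarith
  rcases mul_eq_zero.mp h1 with h2 | h2
  · rcases mul_eq_zero.mp h2 with h3 | h3
    · rw [sub_eq_zero.mp h3]; simp
    · rw [sub_eq_zero.mp h3]; ring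
  · rw [sub_eq_zero.mp h2, Real.log_inv]; ring

/-- The operator `log (T⋆ T)`. -/
noncomputable def fkLog (T : A) : A := cfc Real.log (star T * T)

theorem fk_inv' (M : StarSubalgebra ℂ A) (τ : A →L[ℂ] ℂ)
    (htr : ∀ a ∈ M, ∀ b ∈ M, τ (a * b) = τ (b * a)) (hst : ∀ a, (τ (star a)).re = (τ a).re)
    {X Xi Y Yi N : A} (hX : X ∈ M) (hXi : Xi ∈ M) (hY : Y ∈ M) (hYi : Yi ∈ M) (hN : N ∈ M)
    (x1 : X * Xi = 1) (x2 : Xi * X = 1) (y1 : Y * Yi = 1) (y2 : Yi * Y = 1) (hNN : N * N = 0)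
    (hτ : τ N = 0) :
    (τ (fkLog (X * (1 + N) * Y))).re = (τ (fkLog (X * Y))).re :=
  fk_inv { M.toSubalgebra.restrictScalars ℝ with star_mem' := fun h => M.star_mem' h }
    (Complex.reCLM.comp (τ.restrictScalars ℝ))
    (fun a ha b hb => congrArg Complex.re (htr a ha b hb)) hst hX hXi hY hYi hN x1 x2 y1 y2 hNN
    (congrArg Complex.re hτ)

lemma fk_log_proj' {P Q : A} (hP : IsSelfAdjoint P) (hQ : IsSelfAdjoint Q) (PP : P * P = P)
    (QQ : Q * Q = Q) (PQ : P * Q = 0) (QP : Q * P = 0) :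
    fkLog (1 - (3 / 2 : ℂ) • P - (3 : ℂ) • Q) = (Real.log 4 : ℂ) • (Q - P) := by
  rw [fkLog, Complex.coe_smul, ← fk_log_proj hP hQ PP QQ PQ QP]
  congr 1
  have e1 : (3 / 2 : ℂ) • P = (3 / 2 : ℝ) • P := by rw [← Complex.coe_smul]; norm_num
  have e2 : (3 : ℂ) • Q = (3 : ℝ) • Q := by rw [← Complex.coe_smul]; norm_num
  rw [e1, e2]
  simp only [star_sub, star_one, star_smul, star_trivial, hP.star_eq, hQ.star_eq, sub_mul, mul_sub,
    smul_mul_smul_comm, one_mul, mul_one, PP, QQ, PQ, QP, smul_zero]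
  module

end FK

end Crest.Agent.R177
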