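import Crest.Agent.R177.Defs

set_option autoImplicit false

namespace Crest.Agent.R177

open Finset

/-- Functions on a group twisted by right translation. -/
@[ext] structure Wr (G Q : Type) where
  f : G → Q
  g : G

namespace Wr

variable {G Q : Type} [Group G] [Group Q]

instance : Mul (Wr G Q) := ⟨fun a b => ⟨fun x => a.f x * b.f (x * a.g), a.g * b.g⟩⟩
instance : One (Wr G Q) := ⟨⟨fun _ => 1, 1⟩⟩
instance : Inv (Wr G Q) := ⟨fun a => ⟨fun x => (a.f (x * a.g⁻¹))⁻¹, a.g⁻¹⟩⟩

@[simp] theorem mul_f (a b : Wr G Q) (x : G) : (a * b).f x = a.f x * b.f (x * a.g) := rfl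
@[simp] theorem mul_g (a b : Wr G Q) : (a * b).g = a.g * b.g := rfl
@[simp] theorem one_f (x : G) : (1 : Wr G Q).f x = 1 := rfl
@[simp] theorem one_g : (1 : Wr G Q).g = 1 := rfl
@[simp] theorem inv_f (a : Wr G Q) (x : G) : a⁻¹.f x = (a.f (x * a.g⁻¹))⁻¹ := rfl
@[simp] theorem inv_g (a : Wr G Q) : a⁻¹.g = a.g⁻¹ := rfl

instance : Group (Wr G Q) :=
  Group.ofLeftAxioms (fun a b c => by ext <;> simp [mul_assoc]) (fun a => by ext <;> simp)
    (fun a => by ext <;> simp)

/-- The projection to the group. -/
def gHom : Wr G Q →* G where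
  toFun a := a.g
  map_one' := rfl
  map_mul' _ _ := rfl

end Wr

section

variable {Gen Tr : Type} (l : Tr → Fin 3 → Gen)

/-- The projection from the free group. -/
abbrev prj : FreeGroup Gen →* PG l := PresentedGroup.mk (Set.range (relator l))

theorem prj_of (s : Gen) : prj l (FreeGroup.of s) = pgen l s := rfl

theorem prj_relator (t : Tr) : prj l (relator l t) = 1 :=
  PresentedGroup.one_of_mem ⟨t, rfl⟩

end

theorem rel_pgen {Gen Tr : Type} (l : Tr → Fin 3 → Gen) : Rel (pgen l) l := by
  intro t
  have := prj_relator l t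
  simp only [relator, map_mul, map_inv, prj_of] at this
  exact mul_inv_eq_one.1 this

theorem closure_pgen {Gen Tr : Type} (l : Tr → Fin 3 → Gen) :
    Subgroup.closure (Set.range (pgen l)) = ⊤ :=
  PresentedGroup.closure_range_of _

section

variable {Gen Tr : Type} (l : Tr → Fin 3 → Gen)

theorem vkProd_nil : vkProd l [] = 1 := rfl

theorem vkProd_cons (a : FreeGroup Gen × Tr × Bool) (L : List (FreeGroup Gen × Tr × Bool)) :
    vkProd l (a :: L) = conjRel l a * vkProd l L := by simp [vkProd]

theorem vkProd_append (L L' : List (FreeGroup Gen × Tr × Bool)) :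
    vkProd l (L ++ L') = vkProd l L * vkProd l L' := by simp [vkProd]

theorem vkChain_nil : vkChain l [] = 0 := rfl

theorem vkChain_cons (a : FreeGroup Gen × Tr × Bool) (L : List (FreeGroup Gen × Tr × Bool)) :
    vkChain l (a :: L) = Finsupp.single (prj l a.1, a.2.1) 1 + vkChain l L := by simp [vkChain]

theorem vkChain_append (L L' : List (FreeGroup Gen × Tr × Bool)) :
    vkChain l (L ++ L') = vkChain l L + vkChain l L' := by simp [vkChain]

/-- The inverse of a list of conjugates of relators. -/
def vkInv : List (FreeGroup Gen × Tr × Bool) → List (FreeGroup Gen × Tr × Bool)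
  | [] => []
  | a :: L => vkInv L ++ [(a.1, a.2.1, !a.2.2)]

theorem vkProd_inv (L : List (FreeGroup Gen × Tr × Bool)) :
    vkProd l (vkInv L) = (vkProd l L)⁻¹ := by
  induction L with
  | nil => simp [vkInv, vkProd_nil]
  | cons a L ih =>
    rw [vkInv, vkProd_append, ih, vkProd_cons, vkProd_cons, vkProd_nil, mul_one, mul_inv_rev]
    congr 1
    obtain ⟨u, t, b⟩ := a
    cases b <;> simp [conjRel, mul_assoc]

theorem vkChain_inv (L : List (FreeGroup Gen × Tr × Bool)) :
    vkChain l (vkInv L) = vkChain l L := by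
  induction L with
  | nil => rfl
  | cons a L ih =>
    rw [vkInv, vkChain_append, ih, vkChain_cons, vkChain_cons, vkChain_nil, add_zero, add_comm]

theorem prj_conjRel (a : FreeGroup Gen × Tr × Bool) : prj l (conjRel l a) = 1 := by
  obtain ⟨u, t, b⟩ := a
  cases b <;> simp [conjRel, prj_relator]

end

/-- Elements trivial in the presented group are van Kampen products. -/
theorem exists_vkProd {Gen Tr : Type} (l : Tr → Fin 3 → Gen) (w : FreeGroup Gen)
    (hw : PresentedGroup.mk (Set.range (relator l)) w = 1) : ∃ L, vkProd l L = w := by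
  rw [PresentedGroup.mk_eq_one_iff, Subgroup.normalClosure] at hw
  induction hw using Subgroup.closure_induction with
  | mem x hx =>
    obtain ⟨_, ⟨t, rfl⟩, hc⟩ := Group.mem_conjugatesOfSet_iff.1 hx
    obtain ⟨c, rfl⟩ := isConj_iff.1 hc
    exact ⟨[(c, t, true)], by simp [vkProd, conjRel]⟩
  | one => exact ⟨[], rfl⟩
  | mul x y _ _ hx hy =>
    obtain ⟨L, rfl⟩ := hx
    obtain ⟨L', rfl⟩ := hy
    exact ⟨L ++ L', vkProd_append l L L'⟩
  | inv x _ hx =>
    obtain ⟨L, rfl⟩ := hx
    exact ⟨vkInv L, vkProd_inv l L⟩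

section

variable {Gen Tr : Type} (l : Tr → Fin 3 → Gen) {Q : Type} [Group Q]

/-- Holonomy of words along the Cayley graph. -/
def holHom (ω : PG l → Gen → Q) : FreeGroup Gen →* Wr (PG l) Q :=
  FreeGroup.lift fun s => ⟨fun x => ω x s, pgen l s⟩

theorem holHom_of (ω : PG l → Gen → Q) (s : Gen) :
    holHom l ω (FreeGroup.of s) = ⟨fun x => ω x s, pgen l s⟩ := FreeGroup.lift_apply_of

theorem holHom_g (ω : PG l → Gen → Q) (w : FreeGroup Gen) : (holHom l ω w).g = prj l w := by
  have : Wr.gHom.comp (holHom l ω) = prj l := by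
    ext s
    simp only [MonoidHom.comp_apply, holHom_of]
    rfl
  exact DFunLike.congr_fun this w

end

theorem ls_pgen {Gen Tr : Type} (l : Tr → Fin 3 → Gen) : LS (pgen l) l := by
  intro Q _ ω hω
  have h : ∀ r ∈ Set.range (relator l), FreeGroup.lift
      (fun s => (⟨fun x => ω x s, pgen l s⟩ : Wr (PG l) Q)) r = 1 := by
    rintro _ ⟨t, rfl⟩
    simp only [relator, map_mul, map_inv, FreeGroup.lift_apply_of]
    rw [mul_inv_eq_one]
    ext x
    · exact hω x t
    · exact rel_pgen l t
  let Ψ := PresentedGroup.toGroup h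
  have hΨ : ∀ s, Ψ (pgen l s) = ⟨fun x => ω x s, pgen l s⟩ :=
    fun s => PresentedGroup.toGroup.of h
  have hg : Wr.gHom.comp Ψ = MonoidHom.id _ := by
    apply PresentedGroup.ext
    intro s
    exact congrArg Wr.g (hΨ s)
  have hg' : ∀ x, (Ψ x).g = x := fun x => DFunLike.congr_fun hg x
  refine ⟨fun x => (Ψ x).f 1, fun x s => ?_⟩
  simp only [map_mul, Wr.mul_f, hΨ, hg', one_mul]

theorem two_add_self {α : Type} (z : α →₀ ZMod 2) : z + z = 0 := by
  ext a
  exact CharTwo.add_self_eq_zero _

theorem two_neg {α : Type} (z : α →₀ ZMod 2) : -z = z :=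
  neg_eq_of_add_eq_zero_left (two_add_self z)

section

variable {Gen Tr : Type} [DecidableEq Gen] (l : Tr → Fin 3 → Gen)

theorem vkChain_eq_of_dehn {C : ℕ} (h : Dehn l C) {L L' : List (FreeGroup Gen × Tr × Bool)}
    (hL : vkProd l L = vkProd l L') : vkChain l L = vkChain l L' := by
  have h1 := h (L ++ vkInv L')
  rw [vkProd_append, vkProd_inv, hL, mul_inv_cancel, FreeGroup.toWord_one, List.length_nil,
    mul_zero, Nat.le_zero, Finset.card_eq_zero, Finsupp.support_eq_empty, vkChain_append,
    vkChain_inv] at h1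
  rw [eq_neg_of_add_eq_zero_left h1, two_neg]

omit [DecidableEq Gen] in
theorem bd2_single {G : Type} [Group G] (gen : Gen → G) (x : G) (t : Tr) :
    bd2 gen l (Finsupp.single (x, t) 1) = Finsupp.single (x, l t 0) 1 +
      Finsupp.single (x * gen (l t 0), l t 1) 1 + Finsupp.single (x, l t 2) 1 := by
  simp [bd2]

theorem bd2_inj_of_dehn {C : ℕ} (h : Dehn l C) : Function.Injective (bd2 (pgen l) l) := by
  choose p hp using PresentedGroup.mk_surjective (Set.range (relator l))
  have h1 : ∀ (x : PG l) (s : Gen),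
      ∃ L, vkProd l L = p x * FreeGroup.of s * (p (x * pgen l s))⁻¹ := fun x s =>
    exists_vkProd l _ (by
      rw [map_mul, map_mul, map_inv, hp, hp]
      exact mul_inv_cancel _)
  choose L hL using h1
  let τ : (PG l × Gen →₀ ZMod 2) →ₗ[ZMod 2] (PG l × Tr →₀ ZMod 2) :=
    Finsupp.linearCombination (ZMod 2) fun e => vkChain l (L e.1 e.2)
  have hτ : ∀ e, τ (Finsupp.single e 1) = vkChain l (L e.1 e.2) := fun e => by simp [τ]
  have h2 : τ.comp (bd2 (pgen l) l) = LinearMap.id := by
    apply Finsupp.lhom_ext'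
    rintro ⟨x, t⟩
    apply LinearMap.ext_ring
    simp only [LinearMap.comp_apply, Finsupp.lsingle_apply, LinearMap.id_apply, bd2_single,
      map_add, hτ]
    rw [← vkChain_inv l (L x (l t 2)), ← vkChain_append, ← vkChain_append,
      vkChain_eq_of_dehn l h (L' := [(p x, t, true)]), vkChain_cons, vkChain_nil, add_zero, hp]
    rw [vkProd_append, vkProd_append, vkProd_inv, hL, hL, hL, mul_assoc x, rel_pgen l t,
      vkProd_cons, vkProd_nil]
    simp only [conjRel, relator, if_true]
    group
  intro a b hab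
  have h3 : ∀ c, τ (bd2 (pgen l) l c) = c := fun c => DFunLike.congr_fun h2 c
  rw [← h3 a, hab, h3]

end

/-- The integral boundary map. -/
noncomputable def d2 {G Gen Tr : Type} [Group G] (gen : Gen → G) (l : Tr → Fin 3 → Gen) :
    (G × Tr →₀ ℤ) →ₗ[ℤ] (G × Gen →₀ ℤ) :=
  Finsupp.linearCombination ℤ
    (fun f : G × Tr => Finsupp.single (f.1, l f.2 0) (1 : ℤ) +
      Finsupp.single (f.1 * gen (l f.2 0), l f.2 1) 1 - Finsupp.single (f.1, l f.2 2) 1)

theorem d2_single {G Gen Tr : Type} [Group G] (gen : Gen → G) (l : Tr → Fin 3 → Gen)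
    (x : G) (t : Tr) : d2 gen l (Finsupp.single (x, t) 1) = Finsupp.single (x, l t 0) 1 +
      Finsupp.single (x * gen (l t 0), l t 1) 1 - Finsupp.single (x, l t 2) 1 := by
  simp [d2]

theorem d2_inj {G Gen Tr : Type} [DecidableEq Gen] [Group G] (gen : Gen → G)
    (l : Tr → Fin 3 → Gen) (h : Function.Injective (bd2 gen l)) :
    Function.Injective (d2 gen l) := by
  let r : ∀ α : Type, (α →₀ ℤ) →+ (α →₀ ZMod 2) :=
    fun α => Finsupp.mapRange.addMonoidHom (Int.castAddHom (ZMod 2))
  have hr : ∀ α (a : α), r α (Finsupp.single a 1) = Finsupp.single a 1 := fun α a => by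
    simp [r]
  have hc : ∀ c, r _ (d2 gen l c) = bd2 gen l (r _ c) := by
    have : (r _).toIntLinearMap.comp (d2 gen l) =
        ((bd2 gen l).toAddMonoidHom.comp (r _)).toIntLinearMap := by
      apply Finsupp.lhom_ext'
      rintro ⟨x, t⟩
      apply LinearMap.ext_ring
      simp only [LinearMap.comp_apply, Finsupp.lsingle_apply, d2_single,
        AddMonoidHom.coe_toIntLinearMap, map_add, map_sub, hr, AddMonoidHom.comp_apply,
        LinearMap.toAddMonoidHom_coe, bd2_single]
      rw [sub_eq_add_neg, two_neg]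
    exact fun c => DFunLike.congr_fun this c
  have key : ∀ (k : ℕ) c, d2 gen l c = 0 → ∀ a, (2 : ℤ) ^ k ∣ c a := by
    intro k
    induction k with
    | zero => intro c _ a; simp
    | succ k ih =>
      intro c hc0 a
      have h1 : r _ c = 0 := h (by rw [← hc, hc0, map_zero, map_zero])
      have h2 : ∀ a, (2 : ℤ) ∣ c a := fun a => by
        have : ((c a : ℤ) : ZMod 2) = 0 := DFunLike.congr_fun h1 a
        exact (ZMod.intCast_zmod_eq_zero_iff_dvd _ 2).1 this
      let c' := Finsupp.mapRange (fun n : ℤ => n / 2) (by simp) c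
      have h3 : c = (2 : ℤ) • c' := by
        ext b
        simp only [c', Finsupp.smul_apply, Finsupp.mapRange_apply, smul_eq_mul]
        exact (Int.mul_ediv_cancel' (h2 b)).symm
      have h4 : d2 gen l c' = 0 := by
        rw [h3, map_smul] at hc0
        ext e
        have : (2 : ℤ) * d2 gen l c' e = 0 := DFunLike.congr_fun hc0 e
        simpa using this
      rw [h3, pow_succ']
      exact mul_dvd_mul_left 2 (ih c' h4 a)
  rw [injective_iff_map_eq_zero]
  intro c hc0
  ext a
  refine Int.eq_zero_of_abs_lt_dvd (key (c a).natAbs c hc0 a) ?_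
  rw [← Int.natCast_natAbs]
  exact_mod_cast Nat.lt_two_pow_self

theorem h2_of_dehn {Gen Tr : Type} [DecidableEq Gen] (l : Tr → Fin 3 → Gen) (C : ℕ)
    (h : Dehn l C) : H2 (pgen l) l := by
  intro A _ ζ
  have hinj := d2_inj (pgen l) l (bd2_inj_of_dehn l h)
  let N := LinearMap.range (d2 (pgen l) l)
  obtain ⟨π, hπ⟩ := ls_pgen l (Multiplicative ((PG l × Gen →₀ ℤ) ⧸ N))
    (fun x s => Multiplicative.ofAdd (N.mkQ (Finsupp.single (x, s) 1))) (fun x t => by
      rw [← ofAdd_add, ← map_add]
      congr 1
      exact (Submodule.Quotient.eq N).2 ⟨Finsupp.single (x, t) 1, d2_single _ l x t⟩)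
  choose ρ hρ using fun x => N.mkQ_surjective (Multiplicative.toAdd (π x))
  have h1 : ∀ x s, ∃ c, d2 (pgen l) l c = ρ x + Finsupp.single (x, s) 1 - ρ (x * pgen l s) := by
    intro x s
    refine (Submodule.Quotient.eq N).1 ?_
    change N.mkQ _ = N.mkQ _
    rw [map_add, hρ, hρ, hπ, toAdd_mul, toAdd_ofAdd]
  choose τ hτ using h1
  let Z : (PG l × Tr →₀ ℤ) →ₗ[ℤ] A := Finsupp.linearCombination ℤ fun f => ζ f.1 f.2
  refine ⟨fun x s => Z (τ x s), fun x t => ?_⟩
  have h2 : τ x (l t 0) + τ (x * pgen l (l t 0)) (l t 1) - τ x (l t 2) =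
      Finsupp.single (x, t) 1 := by
    apply hinj
    rw [map_sub, map_add, hτ, hτ, hτ, d2_single, mul_assoc x, rel_pgen l t]
    abel
  rw [← map_add, ← map_sub, h2]
  simp [Z]

section

variable {Gen Tr : Type} (l : Tr → Fin 3 → Gen)

/-- The mod 2 chain of the path that starts at `x` and reads `w`. -/
noncomputable def pc (w : FreeGroup Gen) (x : PG l) : PG l × Gen →₀ ZMod 2 :=
  Multiplicative.toAdd ((holHom l
    (fun x s => Multiplicative.ofAdd (Finsupp.single (x, s) (1 : ZMod 2))) w).f x)

theorem pc_one (x : PG l) : pc l 1 x = 0 := by simp [pc]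

theorem pc_of (s : Gen) (x : PG l) : pc l (FreeGroup.of s) x = Finsupp.single (x, s) 1 := by
  simp [pc, holHom_of]

theorem pc_mul (u v : FreeGroup Gen) (x : PG l) :
    pc l (u * v) x = pc l u x + pc l v (x * prj l u) := by
  simp [pc, holHom_g]

theorem pc_inv (u : FreeGroup Gen) (x : PG l) : pc l u⁻¹ x = pc l u (x * (prj l u)⁻¹) := by
  rw [← two_neg (pc l u _)]
  simp [pc, holHom_g]

variable [DecidableEq Gen]

theorem pc_relator (t : Tr) (x : PG l) :
    pc l (relator l t) x = bd2 (pgen l) l (Finsupp.single (x, t) 1) := by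
  rw [bd2_single, relator, pc_mul, pc_mul, pc_inv, pc_of, pc_of, pc_of, map_mul, prj_of, prj_of,
    prj_of, rel_pgen l t, mul_inv_cancel_right]

theorem pc_conjRel (a : FreeGroup Gen × Tr × Bool) (x : PG l) :
    pc l (conjRel l a) x = bd2 (pgen l) l (Finsupp.single (x * prj l a.1, a.2.1) 1) := by
  obtain ⟨u, t, b⟩ := a
  have h : ∀ r, prj l r = 1 → pc l (u * r * u⁻¹) x = pc l r (x * prj l u) := fun r hr => by
    rw [pc_mul, pc_mul, pc_inv, map_mul, hr, mul_one, mul_inv_cancel_right, add_right_comm,
      two_add_self, zero_add]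
  cases b
  · simp only [conjRel, Bool.false_eq_true, if_false]
    rw [h _ (by rw [map_inv, prj_relator, inv_one]), pc_inv, prj_relator, inv_one, mul_one,
      pc_relator]
  · simp only [conjRel, if_true]
    rw [h _ (prj_relator l t), pc_relator]

theorem pc_vkProd (L : List (FreeGroup Gen × Tr × Bool)) (x : PG l) :
    pc l (vkProd l L) x = bd2 (pgen l) l
      (Finsupp.mapDomain (fun f : PG l × Tr => (x * f.1, f.2)) (vkChain l L)) := by
  induction L with
  | nil => rw [vkProd_nil, vkChain_nil, pc_one, Finsupp.mapDomain_zero, map_zero]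
  | cons a L ih =>
    rw [vkProd_cons, vkChain_cons, pc_mul, prj_conjRel, mul_one, ih, Finsupp.mapDomain_add,
      map_add, Finsupp.mapDomain_single, pc_conjRel]

theorem fill_closed {C : ℕ} (h : Dehn l C) (w : FreeGroup Gen) (hw : prj l w = 1) (x : PG l) :
    ∃ c, bd2 (pgen l) l c = pc l w x ∧ c.support.card ≤ C * w.norm := by
  classical
  obtain ⟨L, rfl⟩ := exists_vkProd l w hw
  exact ⟨_, (pc_vkProd l L x).symm,
    (Finset.card_le_card Finsupp.mapDomain_support).trans (Finset.card_image_le.trans (h L))⟩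

end

theorem bd1_single {G Gen : Type} [Group G] (gen : Gen → G) (x : G) (s : Gen) :
    bd1 gen (Finsupp.single (x, s) 1) = Finsupp.single x 1 + Finsupp.single (x * gen s) 1 := by
  simp [bd1]

theorem card_support_add_single {α : Type} (z : α →₀ ZMod 2) {e : α} (he : e ∈ z.support) :
    (z + Finsupp.single e 1).support.card + 1 = z.support.card := by
  classical
  have h1 : z e = 1 := by
    have := Finsupp.mem_support_iff.1 he
    generalize z e = a at this
    revert a
    decide
  have : (z + Finsupp.single e 1).support = z.support.erase e := by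
    ext a
    by_cases ha : a = e
    · subst ha
      simp [h1, CharTwo.add_self_eq_zero]
    · simp [ha]
  rw [this, Finset.card_erase_add_one he]

theorem exists_edge_of_bd1 {G Gen : Type} [Group G] (gen : Gen → G) (z : G × Gen →₀ ZMod 2)
    (y : G) (hy : bd1 gen z y ≠ 0) : ∃ e ∈ z.support, e.1 = y ∨ e.1 * gen e.2 = y := by
  classical
  by_contra hc
  push Not at hc
  apply hy
  rw [bd1, Finsupp.linearCombination_apply, Finsupp.sum, Finsupp.finsetSum_apply]
  refine Finset.sum_eq_zero fun e he => ?_
  simp [(hc e he).1, (hc e he).2]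

theorem fill_of_dehn {Gen Tr : Type} [DecidableEq Gen] (l : Tr → Fin 3 → Gen) (C : ℕ)
    (h : Dehn l C) : Fill (pgen l) l := by
  classical
  have key : ∀ (n : ℕ) (z : PG l × Gen →₀ ZMod 2), z.support.card = n → ∀ x w,
      bd1 (pgen l) z = Finsupp.single x 1 + Finsupp.single (x * prj l w) 1 →
      ∃ c, bd2 (pgen l) l c = z + pc l w x ∧ c.support.card ≤ C * (n + w.norm) := by
    intro n
    induction n with
    | zero =>
      intro z hz x w hb
      rw [Finset.card_eq_zero, Finsupp.support_eq_empty] at hz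
      subst hz
      rw [map_zero] at hb
      have h1 := eq_neg_of_add_eq_zero_left hb.symm
      rw [two_neg, Finsupp.single_left_inj one_ne_zero, left_eq_mul] at h1
      rw [zero_add, zero_add]
      exact fill_closed l h w h1 x
    | succ n ih =>
      intro z hz x w hb
      by_cases hw : prj l w = 1
      · obtain ⟨c, hc, hc'⟩ := fill_closed l h w hw x
        obtain ⟨⟨a, s⟩, he⟩ : z.support.Nonempty := Finset.card_pos.1 (by omega)
        have h1 := card_support_add_single z he
        obtain ⟨c', hd, hd'⟩ := ih (z + Finsupp.single (a, s) 1) (by omega) a (FreeGroup.of s) (by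
          rw [map_add, hb, hw, mul_one, two_add_self, zero_add, bd1_single, prj_of])
        refine ⟨c' + c, ?_, ?_⟩
        · rw [map_add, hd, hc, pc_of, add_assoc z, two_add_self, add_zero]
        · refine (Finset.card_le_card Finsupp.support_add).trans
            ((Finset.card_union_le _ _).trans ?_)
          rw [FreeGroup.norm_of] at hd'
          rw [mul_add]
          omega
      · have hne : x ≠ x * prj l w := fun e => hw (left_eq_mul.1 e)
        obtain ⟨⟨a, s⟩, he, hes⟩ := exists_edge_of_bd1 (pgen l) z (x * prj l w) (by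
          rw [hb]
          simp [hw])
        have h1 := card_support_add_single z he
        rcases hes with hes | hes
        · simp only at hes
          obtain ⟨c, hd, hd'⟩ := ih (z + Finsupp.single (a, s) 1) (by omega) x
            (w * FreeGroup.of s) (by
              rw [map_add, hb, bd1_single, map_mul, prj_of, ← mul_assoc, ← hes, add_assoc,
                ← add_assoc (Finsupp.single a 1), two_add_self, zero_add])
          refine ⟨c, ?_, hd'.trans (Nat.mul_le_mul_left _ ?_)⟩
          · rw [hd, pc_mul, pc_of, ← hes, add_assoc, add_comm (pc l w x), ← add_assoc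
              (Finsupp.single (a, s) 1), two_add_self, zero_add]
          · have := FreeGroup.norm_mul_le w (FreeGroup.of s)
            rw [FreeGroup.norm_of] at this
            omega
        · simp only at hes
          have ha : x * prj l w * (pgen l s)⁻¹ = a := by rw [← hes, mul_inv_cancel_right]
          obtain ⟨c, hd, hd'⟩ := ih (z + Finsupp.single (a, s) 1) (by omega) x
            (w * (FreeGroup.of s)⁻¹) (by
              rw [map_add, hb, bd1_single, map_mul, map_inv, prj_of, ← mul_assoc, ha, ← hes,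
                add_comm (Finsupp.single a 1), add_assoc,
                ← add_assoc (Finsupp.single (a * pgen l s) 1), two_add_self, zero_add])
          refine ⟨c, ?_, hd'.trans (Nat.mul_le_mul_left _ ?_)⟩
          · rw [hd, pc_mul, pc_inv, pc_of, prj_of, ha, add_assoc, add_comm (pc l w x),
              ← add_assoc (Finsupp.single (a, s) 1), two_add_self, zero_add]
          · have := FreeGroup.norm_mul_le w (FreeGroup.of s)⁻¹
            rw [FreeGroup.norm_inv_eq, FreeGroup.norm_of] at this
            omega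
  refine ⟨C, fun z hz => ?_⟩
  obtain ⟨c, hc, hc'⟩ := key _ z rfl 1 1 (by rw [hz, map_one, mul_one, two_add_self])
  rw [pc_one, add_zero] at hc
  rw [FreeGroup.norm_one, add_zero] at hc'
  exact ⟨c, hc, hc'⟩

end Crest.Agent.R177
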