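import Crest.Agent.R177.ContrB

set_option autoImplicit false

namespace Crest.Agent.R177

open Finset

namespace Contr

open unitInterval CategoryTheory

variable {G Gen Tr : Type} [Group G] {gen : Gen → G} {l : Tr → Fin 3 → Gen}
  {Y : Type} [TopologicalSpace Y]

/-- An edge as a path. -/
def edP (c : Cells gen l Y) (x : G) (s : Gen) (y : G) (h : x * gen s = y) :
    Path (c.vx x) (c.vx y) :=
  ⟨c.ed x s, c.ed0 x s, h ▸ c.ed1 x s⟩

theorem edP_apply (c : Cells gen l Y) (x : G) (s : Gen) (y : G) (h : x * gen s = y) (u : I) :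
    edP c x s y h u = c.ed x s u := rfl

theorem joined_vx (hgen : Subgroup.closure (Set.range gen) = ⊤) (c : Cells gen l Y) (x : G) :
    Joined (c.vx 1) (c.vx x) := by
  have hx : x ∈ Subgroup.closure (Set.range gen) := hgen ▸ Subgroup.mem_top x
  induction hx using Subgroup.closure_induction_right with
  | one => exact Joined.refl _
  | mul_right x _ y hy ih =>
    obtain ⟨s, rfl⟩ := hy
    exact ih.trans ⟨edP c x s _ rfl⟩
  | mul_inv_cancel x _ y hy ih =>
    obtain ⟨s, rfl⟩ := hy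
    exact ih.trans (Joined.symm ⟨edP c _ s x (by simp)⟩)

theorem edP_flat (c : Cells gen l Y) (x : G) (t : Tr) (y : G)
    (h1 : x * gen (l t 0) * gen (l t 1) = y) (h2 : x * gen (l t 2) = y) :
    ((edP c x (l t 0) _ rfl).trans (edP c _ (l t 1) y h1)).Homotopic (edP c x (l t 2) y h2) :=
  htpy_of_sc (c.tr x t) _ _ ((segP 0 1).trans (segP 1 2)) (segP 0 2)
    (trans_eq_map (c.tr x t) _ _ _ _ (fun u => (c.tr0 x t u).symm) (fun u => (c.tr1 x t u).symm))
    (fun u => (c.tr2 x t u).symm)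

theorem ls_groupoid {𝒞 : Type} [Groupoid.{0} 𝒞] (hrel : Rel gen l) (hLS : LS gen l) (O : G → 𝒞)
    (o : 𝒞) (p : ∀ x, o ⟶ O x) (F : ∀ x s y, x * gen s = y → (O x ⟶ O y))
    (hF : ∀ x t y (h1 : x * gen (l t 0) * gen (l t 1) = y) (h2 : x * gen (l t 2) = y),
      F x (l t 0) _ rfl ≫ F _ (l t 1) y h1 = F x (l t 2) y h2) :
    ∃ p' : ∀ x, o ⟶ O x, ∀ x s, p' x ≫ F x s _ rfl = p' (x * gen s) := by
  let ω' : ∀ x s y, x * gen s = y → End o := fun x s y h => p y ≫ inv (F x s y h) ≫ inv (p x)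
  have hω : ∀ x s y h, ω' x s y h = ω' x s _ rfl := by
    intro x s y h; subst h; rfl
  obtain ⟨π, hπ⟩ := hLS (End o) (fun x s => ω' x s _ rfl) (by
    intro x t
    have h2 : x * gen (l t 2) = x * gen (l t 0) * gen (l t 1) := by rw [mul_assoc, hrel t]
    rw [← hω x (l t 2) _ h2]
    simp only [ω', End.mul_def, ← hF x t _ rfl h2]
    simp)
  refine ⟨fun x => inv (show o ⟶ o from π x) ≫ p x, fun x s => ?_⟩
  have := hπ x s
  simp only [ω', End.mul_def] at this
  simp [this]

theorem exists_paths (hrel : Rel gen l) (hgen : Subgroup.closure (Set.range gen) = ⊤)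
    (hLS : LS gen l) (c : Cells gen l Y) :
    ∃ p : ∀ x, Path (c.vx 1) (c.vx x), ∀ x s,
      ((p x).trans (edP c x s _ rfl)).Homotopic (p (x * gen s)) := by
  obtain ⟨p', hp'⟩ := ls_groupoid (𝒞 := FundamentalGroupoid Y) hrel hLS (fun x => ⟨c.vx x⟩)
    ⟨c.vx 1⟩ (fun x => Path.Homotopic.Quotient.mk (joined_vx hgen c x).somePath)
    (fun x s y h => Path.Homotopic.Quotient.mk (edP c x s y h))
    (fun x t y h1 h2 => Path.Homotopic.Quotient.eq.2 (edP_flat c x t y h1 h2))
  choose p hp using fun x => Path.Homotopic.Quotient.mk_surjective (p' x)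
  refine ⟨p, fun x s => ?_⟩
  rw [← Path.Homotopic.Quotient.eq, Path.Homotopic.Quotient.mk_trans, hp, hp]
  exact hp' x s

/-- The face map of path spaces. -/
noncomputable def face {y0 : Y} {φ : C(Tri, Y)} {ψ : C(I, Y)} (i j : Fin 3)
    (h : ∀ u, φ (seg i j u) = ψ u) : C(W y0 ψ, W y0 φ) where
  toFun z := ⟨(z.1.1, seg i j z.1.2), z.2.1, by rw [h]; exact z.2.2⟩
  continuous_toFun := Continuous.subtype_mk (Continuous.prodMk (by fun_prop)
    ((continuous_seg i j).comp (by fun_prop))) _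

theorem fin_face {y0 : Y} {φ : C(Tri, Y)} {ψ : C(I, Y)} (i j : Fin 3)
    (h : ∀ u, φ (seg i j u) = ψ u) (a : Path y0 y0) (z : W y0 ψ) (u : I) :
    fin combTri (act y0 φ (a, face i j h z), seg i j u) = fin combI (act y0 ψ (a, z), u) := by
  refine cat_congr _ _ rfl ?_
  ext r
  change φ (combTri.cb (seg i j z.1.2, seg i j u) r) = ψ (combI.cb (z.1.2, u) r)
  rw [combTri_seg, h]

theorem exists_section (hrel : Rel gen l) (hgen : Subgroup.closure (Set.range gen) = ⊤)
    (hLS : LS gen l) (hH2 : H2 gen l) (c : Cells gen l Y) :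
    ∃ d : Cells gen l C(I, Y), (∀ x, d.vx x 0 = c.vx 1 ∧ d.vx x 1 = c.vx x) ∧
      (∀ x s u, d.ed x s u 0 = c.vx 1 ∧ d.ed x s u 1 = c.ed x s u) ∧
      ∀ x t q, d.tr x t q 0 = c.vx 1 ∧ d.tr x t q 1 = c.tr x t q := by
  let y0 := c.vx 1
  obtain ⟨p, hp⟩ : ∃ p : ∀ x, Path y0 (c.vx x), ∀ x s,
      ((p x).trans (edP c x s _ rfl)).Homotopic (p (x * gen s)) := exists_paths hrel hgen hLS c
  let a : ∀ x s, W y0 (c.ed x s) := fun x s =>
    ⟨((p x).toContinuousMap, 0), by simp, by simp [c.ed0]⟩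
  let b : ∀ x s, W y0 (c.ed x s) := fun x s =>
    ⟨((p (x * gen s)).toContinuousMap, 1), by simp, by simp [c.ed1]⟩
  have hab : ∀ x s, Joined (a x s) (b x s) := fun x s =>
    edge_step (p x) (p (x * gen s)) (edP c x s _ rfl) (fun u => rfl) (hp x s)
  let h : ∀ x s, Path (a x s) (b x s) := fun x s => (hab x s).somePath
  have e01 : ∀ x t, face 1 2 (c.tr1 x t) (a (x * gen (l t 0)) (l t 1)) =
      face 0 1 (c.tr0 x t) (b x (l t 0)) := by
    intro x t; apply Subtype.ext; simp [face, a, b]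
  have e00 : ∀ x t, face 0 1 (c.tr0 x t) (a x (l t 0)) =
      face 0 2 (c.tr2 x t) (a x (l t 2)) := by
    intro x t; apply Subtype.ext; simp [face, a]
  have e22 : ∀ x t, face 1 2 (c.tr1 x t) (b (x * gen (l t 0)) (l t 1)) =
      face 0 2 (c.tr2 x t) (b x (l t 2)) := by
    intro x t; apply Subtype.ext
    have : x * gen (l t 0) * gen (l t 1) = x * gen (l t 2) := by rw [mul_assoc, hrel t]
    simp only [face, b, ContinuousMap.coe_mk, seg_one]
    rw [this]
  choose ζ hζ using fun x t => tri_step (y0 := y0) (φ := c.tr x t)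
    ((h x (l t 0)).map (face 0 1 (c.tr0 x t)).continuous)
    (((h (x * gen (l t 0)) (l t 1)).map (face 1 2 (c.tr1 x t)).continuous).cast (e01 x t).symm rfl)
    (((h x (l t 2)).map (face 0 2 (c.tr2 x t)).continuous).cast (e00 x t) (e22 x t))
  let _ : CommGroup (FundamentalGroup (Path y0 y0) (Path.refl y0)) :=
    { (inferInstance : Group (FundamentalGroup (Path y0 y0) (Path.refl y0))) with
      mul_comm := loop_comm y0 }
  obtain ⟨κ', hκ'⟩ := hH2 (Additive (FundamentalGroup (Path y0 y0) (Path.refl y0)))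
    (fun x t => Additive.ofMul (ζ x t))
  choose κ hκ using fun x s => Path.Homotopic.Quotient.mk_surjective
    (FundamentalGroup.toPath (Additive.toMul (κ' x s)))
  have hκκ : ∀ x t, (Path.Homotopic.Quotient.mk (κ x (l t 0))).trans
      (Path.Homotopic.Quotient.mk (κ (x * gen (l t 0)) (l t 1))) =
      (FundamentalGroup.toPath (ζ x t)).trans (Path.Homotopic.Quotient.mk (κ x (l t 2))) := by
    intro x t
    rw [hκ, hκ, hκ]
    have h1 := sub_eq_iff_eq_add.1 (hκ' x t)
    have h2 : (κ' (x * gen (l t 0)) (l t 1)).toMul * (κ' x (l t 0)).toMul =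
        (κ' x (l t 2)).toMul * ζ x t := by
      rw [loop_comm, loop_comm y0 _ (ζ x t)]
      exact congrArg Additive.toMul h1
    exact h2
  choose g hg using fun x t => hζ x t _ _ _ (hκκ x t)
  have hv : ∀ x, (Path.refl y0).toContinuousMap 1 = (p x).toContinuousMap 0 := fun x => by simp
  have hv' : ∀ x, cat _ _ (hv x) 1 = ContinuousMap.const I (c.vx x) 0 := fun x => by simp
  refine ⟨⟨fun x => cat _ _ (hv' x),
    fun x s => ⟨fun u => fin combI (act y0 (c.ed x s) (κ x s u, h x s u), u), by fun_prop⟩,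
    fun x t => ⟨fun q => fin combTri (g x t q, q), by fun_prop⟩, ?_, ?_, ?_, ?_, ?_⟩,
    fun x => ⟨by simp [y0], by simp⟩, fun x s u => ⟨fin_zero _ _, fin_one _ _⟩,
    fun x t q => ⟨fin_zero _ _, fin_one _ _⟩⟩
  · intro x s
    simp only [ContinuousMap.coe_mk, Path.source]
    refine cat_congr _ _ rfl ?_
    ext r
    change c.ed x s (combI.cb (0, 0) r) = c.vx x
    rw [combI.self, c.ed0]
  · intro x s
    simp only [ContinuousMap.coe_mk, Path.target]
    refine cat_congr _ _ rfl ?_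
    ext r
    change c.ed x s (combI.cb (1, 1) r) = c.vx (x * gen s)
    rw [combI.self, c.ed1]
  · intro x t u
    simp only [ContinuousMap.coe_mk]
    rw [(hg x t).1]
    exact fin_face 0 1 (c.tr0 x t) _ _ u
  · intro x t u
    simp only [ContinuousMap.coe_mk]
    rw [(hg x t).2.1]
    exact fin_face 1 2 (c.tr1 x t) _ _ u
  · intro x t u
    simp only [ContinuousMap.coe_mk]
    rw [(hg x t).2.2]
    exact fin_face 0 2 (c.tr2 x t) _ _ u

end Contr

/-- The realisation of a simply connected, 2-acyclic Cayley complex is contractible. -/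
theorem contractible {G Gen Tr : Type} [Group G] {gen : Gen → G} {l : Tr → Fin 3 → Gen}
    (hrel : Rel gen l) (hgen : Subgroup.closure (Set.range gen) = ⊤)
    (hLS : LS gen l) (hH2 : H2 gen l)
    {Y : Type} [TopologicalSpace Y] (c : Cells gen l Y) (hc : IsReal c) :
    ContractibleSpace Y := by
  obtain ⟨d, h0, h1, h2⟩ := Contr.exists_section hrel hgen hLS hH2 c
  obtain ⟨f, f0, f1, f2⟩ := hc.lift _ d
  have hf : ∀ y, f y 0 = c.vx 1 ∧ f y 1 = y := by
    intro y
    rcases hc.surj y with ⟨x, rfl⟩ | ⟨x, s, u, rfl⟩ | ⟨x, t, q, rfl⟩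
    · rw [f0]; exact h0 x
    · rw [f1]; exact h1 x s u
    · rw [f2]; exact h2 x t q
  rw [contractible_iff_id_nullhomotopic]
  refine ⟨c.vx 1, ContinuousMap.Homotopic.symm ⟨⟨⟨fun z => f z.2 z.1, by fun_prop⟩, ?_, ?_⟩⟩⟩
  · intro y; exact (hf y).1
  · intro y; exact (hf y).2

end Crest.Agent.R177
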