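import Crest.Agent.R177.Defs

/-! Generic homotopy lemmas for `Contr.lean`. -/

set_option autoImplicit false

namespace Crest.Agent.R177.Contr

open unitInterval Set Topology

section Generic

variable {X : Type} [TopologicalSpace X]

/-- Two paths factoring through a simply connected space are homotopic. -/
theorem htpy_of_sc {M : Type} [TopologicalSpace M] [SimplyConnectedSpace M] (f : C(M, X))
    {a b : X} (P Q : Path a b) {m m' : M} (p q : Path m m') (hP : ∀ u, P u = f (p u))
    (hQ : ∀ u, Q u = f (q u)) : P.Homotopic Q := by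
  obtain rfl : a = f m := by simpa using hP 0
  obtain rfl : b = f m' := by simpa using hP 1
  have e1 : P = p.map f.continuous := by ext u; simpa using hP u
  have e2 : Q = q.map f.continuous := by ext u; simpa using hQ u
  rw [e1, e2]
  exact (SimplyConnectedSpace.paths_homotopic p q).map f

instance : ContractibleSpace I := (convex_Icc (0 : ℝ) 1).contractibleSpace ⟨0, by simp⟩

instance : ContractibleSpace Tri :=
  (convex_stdSimplex ℝ (Fin 3)).contractibleSpace ⟨_, single_mem_stdSimplex ℝ 0⟩

theorem trans_eq_map {M : Type} [TopologicalSpace M] (f : C(M, X)) {a b c : X} (P : Path a b)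
    (Q : Path b c) {m m' m'' : M} (p : Path m m') (q : Path m' m'') (hP : ∀ u, P u = f (p u))
    (hQ : ∀ u, Q u = f (q u)) (u : I) : (P.trans Q) u = f ((p.trans q) u) := by
  simp only [Path.trans_apply]
  split_ifs
  · exact hP _
  · exact hQ _

/-- The square lemma. -/
theorem sq (H : C(I × I, X)) {a b c d : X} (B : Path a b) (R : Path b d) (L : Path a c)
    (T : Path c d) (hB : ∀ u, B u = H (u, 0)) (hR : ∀ u, R u = H (1, u))
    (hL : ∀ u, L u = H (0, u)) (hT : ∀ u, T u = H (u, 1)) :
    (B.trans R).Homotopic (L.trans T) := by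
  let b' : Path ((0, 0) : I × I) (1, 0) := ⟨⟨fun u => (u, 0), by fun_prop⟩, rfl, rfl⟩
  let r' : Path ((1, 0) : I × I) (1, 1) := ⟨⟨fun u => (1, u), by fun_prop⟩, rfl, rfl⟩
  let l' : Path ((0, 0) : I × I) (0, 1) := ⟨⟨fun u => (0, u), by fun_prop⟩, rfl, rfl⟩
  let t' : Path ((0, 1) : I × I) (1, 1) := ⟨⟨fun u => (u, 1), by fun_prop⟩, rfl, rfl⟩
  exact htpy_of_sc H _ _ (b'.trans r') (l'.trans t') (trans_eq_map H B R b' r' hB hR)
    (trans_eq_map H L T l' t' hL hT)

/-- The fundamental group of an H-space is commutative. -/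
theorem hspace_comm [HSpace X] (α β : Path (HSpace.e : X) HSpace.e) :
    (α.trans β).Homotopic (β.trans α) := by
  let α' : Path (HSpace.e : X) HSpace.e :=
    ⟨⟨fun u => HSpace.hmul (α u, HSpace.e), by fun_prop⟩, by simp [HSpace.hmul_e_e],
      by simp [HSpace.hmul_e_e]⟩
  let β' : Path (HSpace.e : X) HSpace.e :=
    ⟨⟨fun u => HSpace.hmul (HSpace.e, β u), by fun_prop⟩, by simp [HSpace.hmul_e_e],
      by simp [HSpace.hmul_e_e]⟩
  have hα : α'.Homotopic α := by
    refine ⟨⟨⟨⟨fun z => HSpace.hmulE (z.1, α z.2), by fun_prop⟩, ?_, ?_⟩, ?_⟩⟩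
    · intro u; simp [α']
    · intro u; simp
    · intro t u hu
      have : α u = HSpace.e := by rcases hu with rfl | rfl <;> simp
      simp only [ContinuousMap.coe_mk, α', this]
      rw [(HSpace.hmulE (X := X)).eq_fst t (Set.mem_singleton _)]
      simp
  have hβ : β'.Homotopic β := by
    refine ⟨⟨⟨⟨fun z => HSpace.eHmul (z.1, β z.2), by fun_prop⟩, ?_, ?_⟩, ?_⟩⟩
    · intro u; simp [β']
    · intro u; simp
    · intro t u hu
      have : β u = HSpace.e := by rcases hu with rfl | rfl <;> simp
      simp only [ContinuousMap.coe_mk, β', this]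
      rw [(HSpace.eHmul (X := X)).eq_fst t (Set.mem_singleton _)]
      simp
  have h := sq (X := X) ⟨fun z => HSpace.hmul (α z.1, β z.2), by fun_prop⟩ α' β' β' α'
    (by intro u; simp [α']) (by intro u; simp [β']) (by intro u; simp [β']) (by intro u; simp [α'])
  exact ((hα.hcomp hβ).symm.trans h).trans (hβ.hcomp hα)

theorem loop_comm (y : X) (a b : FundamentalGroup (Path y y) (Path.refl y)) : a * b = b * a := by
  rw [FundamentalGroup.mul_def, FundamentalGroup.mul_def]
  induction a using Path.Homotopic.Quotient.ind with | _ α => ?_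
  induction b using Path.Homotopic.Quotient.ind with | _ β => ?_
  rw [← Path.Homotopic.Quotient.mk_trans, ← Path.Homotopic.Quotient.mk_trans,
    Path.Homotopic.Quotient.eq]
  exact hspace_comm (X := Path y y) β α

end Generic

section Fill

variable {X : Type} [TopologicalSpace X]

theorem continuous_seg (i j : Fin 3) : Continuous (seg i j) := by
  unfold seg
  fun_prop

/-- Vertices of the triangle. -/
noncomputable def vt (i : Fin 3) : Tri := ⟨Pi.single i 1, single_mem_stdSimplex ℝ i⟩

@[simp] theorem seg_zero (i j : Fin 3) : seg i j 0 = vt i := by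
  apply Subtype.ext; simp [seg, vt]

@[simp] theorem seg_one (i j : Fin 3) : seg i j 1 = vt j := by
  apply Subtype.ext; simp [seg, vt]

/-- Sides of the triangle as paths. -/
noncomputable def segP (i j : Fin 3) : Path (vt i) (vt j) :=
  ⟨⟨seg i j, continuous_seg i j⟩, seg_zero i j, seg_one i j⟩

@[simp] theorem segP_apply (i j : Fin 3) (u : I) : segP i j u = seg i j u := rfl

/-- Convex combination in the triangle. -/
noncomputable def combT (p q : Tri) (r : I) : Tri :=
  ⟨(1 - (r : ℝ)) • p.1 + (r : ℝ) • q.1,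
    convex_stdSimplex ℝ (Fin 3) p.2 q.2 (unitInterval.one_minus_nonneg r) r.2.1 (by ring)⟩

theorem continuous_combT : Continuous fun z : (Tri × Tri) × I => combT z.1.1 z.1.2 z.2 := by
  unfold combT
  fun_prop

/-- The collapsing map from the square onto the triangle. -/
noncomputable def qT : C(I × I, Tri) :=
  ⟨fun z => combT (((segP 0 1).trans (segP 1 2)) z.2) (seg 0 2 z.2) z.1, by
    have h1 : Continuous fun z : I × I => ((((segP 0 1).trans (segP 1 2)) z.2, seg 0 2 z.2), z.1) :=
      ((((segP 0 1).trans (segP 1 2)).continuous.comp continuous_snd).prodMk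
        ((continuous_seg 0 2).comp continuous_snd)).prodMk continuous_fst
    exact continuous_combT.comp h1⟩

theorem qT_val (s u : I) : (qT (s, u)).1 0 = (1 - s) * max (1 - 2 * (u : ℝ)) 0 + s * (1 - u) ∧
    (qT (s, u)).1 1 = (1 - s) * min (2 * (u : ℝ)) (2 - 2 * u) ∧
    (qT (s, u)).1 2 = (1 - s) * max (2 * (u : ℝ) - 1) 0 + s * u := by
  simp only [qT, combT, ContinuousMap.coe_mk, Path.trans_apply, segP_apply]
  split_ifs with h
  · rw [max_eq_left (by linarith), min_eq_left (by linarith), max_eq_right (by linarith)]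
    simp [seg]
  · rw [max_eq_right (by linarith), min_eq_right (by linarith), max_eq_left (by linarith)]
    simp [seg]
    left; ring

theorem qT_diff (s u : I) : (qT (s, u)).1 2 - (qT (s, u)).1 0 = 2 * u - 1 := by
  obtain ⟨e0, e1, e2⟩ := qT_val s u
  rw [e0, e2]
  rcases le_total (2 * (u : ℝ)) 1 with h | h
  · rw [max_eq_right (by linarith), max_eq_left (by linarith)]; ring
  · rw [max_eq_left (by linarith), max_eq_right (by linarith)]; ring

theorem qT_surj : Function.Surjective qT := by
  intro p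
  have h0 : 0 ≤ p.1 0 := p.2.1 0
  have h1 : 0 ≤ p.1 1 := p.2.1 1
  have h2 : 0 ≤ p.1 2 := p.2.1 2
  have hs : p.1 0 + p.1 1 + p.1 2 = 1 := by simpa [Fin.sum_univ_three] using p.2.2
  set m : ℝ := min (p.1 0) (p.1 2) with hm
  have hm0 : 0 ≤ m := le_min h0 h2
  let u : I := ⟨(1 + p.1 2 - p.1 0) / 2, by constructor <;> linarith⟩
  let s : I := ⟨2 * m / (p.1 1 + 2 * m), by positivity,
    div_le_one_of_le₀ (by linarith) (by positivity)⟩
  refine ⟨(s, u), ?_⟩
  obtain ⟨e0, e1, e2⟩ := qT_val s u
  have hu : (u : ℝ) = (1 + p.1 2 - p.1 0) / 2 := rfl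
  have hss : (s : ℝ) = 2 * m / (p.1 1 + 2 * m) := rfl
  have key : (1 - (s : ℝ)) * (p.1 1 + 2 * m) = p.1 1 := by
    rcases eq_or_lt_of_le (show 0 ≤ p.1 1 + 2 * m by positivity) with h | h
    · rw [← h]; linarith
    · rw [hss]; field_simp; ring
  have hmin : min (2 * (u : ℝ)) (2 - 2 * u) = p.1 1 + 2 * m := by
    rw [hu, hm]
    rcases le_total (p.1 0) (p.1 2) with h | h
    · rw [min_eq_left h, min_eq_right (by linarith)]; linarith
    · rw [min_eq_right h, min_eq_left (by linarith)]; linarith
  have f1 : (qT (s, u)).1 1 = p.1 1 := by rw [e1, hmin, key]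
  have hd : (qT (s, u)).1 2 - (qT (s, u)).1 0 = p.1 2 - p.1 0 := by
    rw [qT_diff, hu]; ring
  have hs' : (qT (s, u)).1 0 + (qT (s, u)).1 1 + (qT (s, u)).1 2 = 1 := by
    simpa [Fin.sum_univ_three] using (qT (s, u)).2.2
  apply Subtype.ext
  funext i
  fin_cases i
  · show (qT (s, u)).1 0 = p.1 0
    linarith
  · exact f1
  · show (qT (s, u)).1 2 = p.1 2
    linarith

theorem qT_fiber {s u s' u' : I} (h : qT (s, u) = qT (s', u')) :
    u = u' ∧ (s = s' ∨ u = 0 ∨ u = 1) := by
  obtain ⟨e0, e1, e2⟩ := qT_val s u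
  obtain ⟨f0, f1, f2⟩ := qT_val s' u'
  have huu : u = u' := by
    have a := qT_diff s u
    have b := qT_diff s' u'
    rw [h] at a
    apply Subtype.ext; linarith
  subst huu
  refine ⟨rfl, ?_⟩
  by_contra hc
  push Not at hc
  obtain ⟨c1, c2, c3⟩ := hc
  have hu0 : 0 < (u : ℝ) := lt_of_le_of_ne u.2.1 (fun h => c2 (Subtype.ext h.symm))
  have hu1 : (u : ℝ) < 1 := lt_of_le_of_ne u.2.2 (fun h => c3 (Subtype.ext h))
  have hpos : 0 < min (2 * (u : ℝ)) (2 - 2 * u) := lt_min (by linarith) (by linarith)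
  rw [h, f1] at e1
  have := mul_right_cancel₀ hpos.ne' e1
  exact c1 (Subtype.ext (by linarith))

/-- Filling a triangle. -/
theorem tri_fill {a b c : X} (γ0 : Path a b) (γ1 : Path b c) (γ2 : Path a c)
    (h : (γ0.trans γ1).Homotopic γ2) :
    ∃ g : C(Tri, X), (∀ u, g (seg 0 1 u) = γ0 u) ∧ (∀ u, g (seg 1 2 u) = γ1 u) ∧
      ∀ u, g (seg 0 2 u) = γ2 u := by
  obtain ⟨F⟩ := h
  have hq : IsQuotientMap qT := qT.continuous.isClosedMap.isQuotientMap qT.continuous qT_surj
  have hf : Function.FactorsThrough F.toContinuousMap qT := by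
    rintro ⟨s, u⟩ ⟨s', u'⟩ h
    obtain ⟨rfl, rfl | rfl | rfl⟩ := qT_fiber h
    · rfl
    · exact (F.source s).trans (F.source s').symm
    · exact (F.target s).trans (F.target s').symm
  have hg : ∀ z, hq.lift F.toContinuousMap hf (qT z) = F z := fun z =>
    congrArg (fun f : C(I × I, X) => f z) (hq.lift_comp F.toContinuousMap hf)
  refine ⟨hq.lift F.toContinuousMap hf, fun u => ?_, fun u => ?_, fun u => ?_⟩
  · let v : I := ⟨u / 2, by constructor <;> linarith [u.2.1, u.2.2]⟩
    have hv : (v : ℝ) ≤ 1 / 2 := by show (u : ℝ) / 2 ≤ 1 / 2; linarith [u.2.2]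
    have e : qT (0, v) = seg 0 1 u := by
      apply Subtype.ext
      simp only [qT, combT, ContinuousMap.coe_mk, Path.trans_apply, segP_apply, dif_pos hv]
      simp only [Set.Icc.coe_zero, sub_zero, one_smul, zero_smul, add_zero]
      congr 2
      apply Subtype.ext; show 2 * ((u : ℝ) / 2) = u; ring
    rw [← e, hg]
    simp only [ContinuousMap.HomotopyWith.apply_zero, Path.coe_toContinuousMap, Path.trans_apply,
      dif_pos hv]
    congr 1
    apply Subtype.ext; show 2 * ((u : ℝ) / 2) = u; ring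
  · let v : I := ⟨(1 + u) / 2, by constructor <;> linarith [u.2.1, u.2.2]⟩
    have e : ∀ {Z : Type} [TopologicalSpace Z] {a b c : Z} (p : Path a b) (q : Path b c),
        (p.trans q) v = q u := by
      intro Z _ a b c p q
      simp only [Path.trans_apply]
      split_ifs with hv
      · have hu : u = 0 := by
          have : ((1 + u) / 2 : ℝ) ≤ 1 / 2 := hv
          apply Subtype.ext; show (u : ℝ) = 0; linarith [u.2.1]
        have : (⟨2 * v, (mul_pos_mem_iff zero_lt_two).2 ⟨v.2.1, hv⟩⟩ : I) = 1 := by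
          apply Subtype.ext; show 2 * ((1 + (u : ℝ)) / 2) = 1; rw [hu]; simp
        rw [this, hu]; simp
      · congr 1
        apply Subtype.ext; show 2 * ((1 + (u : ℝ)) / 2) - 1 = u; ring
    have e' : qT (0, v) = seg 1 2 u := by
      apply Subtype.ext
      simp only [qT, combT, ContinuousMap.coe_mk, e, segP_apply]
      simp
    rw [← e', hg]
    simp only [ContinuousMap.HomotopyWith.apply_zero, Path.coe_toContinuousMap, e]
  · have e' : qT (1, u) = seg 0 2 u := by
      apply Subtype.ext
      simp [qT, combT]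
    rw [← e', hg]
    simp only [ContinuousMap.HomotopyWith.apply_one, Path.coe_toContinuousMap]

end Fill

end Crest.Agent.R177.Contr
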