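import Crest.Agent.R177.ContrA

/-! Path spaces over cells and the action of the loop space. -/

set_option autoImplicit false

namespace Crest.Agent.R177.Contr

open unitInterval Set Topology

variable {Y : Type} [TopologicalSpace Y]

/-- Concatenation of paths given as continuous maps. -/
noncomputable def cat (a b : C(I, Y)) (h : a 1 = b 0) : C(I, Y) :=
  ((⟨a, rfl, h⟩ : Path (a 0) (b 0)).trans (⟨b, rfl, rfl⟩ : Path (b 0) (b 1))).toContinuousMap

@[simp] theorem cat_zero (a b : C(I, Y)) (h : a 1 = b 0) : cat a b h 0 = a 0 := by simp [cat]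

@[simp] theorem cat_one (a b : C(I, Y)) (h : a 1 = b 0) : cat a b h 1 = b 1 := by simp [cat]

theorem cat_congr {a b a' b' : C(I, Y)} (h : a 1 = b 0) (h' : a' 1 = b' 0) (ha : a = a')
    (hb : b = b') : cat a b h = cat a' b' h' := by
  subst ha hb; rfl

theorem cat_eq {x y z : Y} (p : Path x y) (q : Path y z) {a b : C(I, Y)} (h : a 1 = b 0)
    (ha : ∀ u, a u = p u) (hb : ∀ u, b u = q u) (u : I) : cat a b h u = (p.trans q) u := by
  simp only [cat, Path.coe_toContinuousMap, Path.trans_apply]
  split_ifs
  · exact ha _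
  · exact hb _

theorem continuous_cat {X : Type} [TopologicalSpace X] {a b : X → C(I, Y)} (ha : Continuous a)
    (hb : Continuous b) (h : ∀ x, a x 1 = b x 0) : Continuous fun x => cat (a x) (b x) (h x) := by
  apply ContinuousMap.continuous_of_continuous_uncurry
  exact Path.trans_continuous_family (fun x => (⟨a x, rfl, h x⟩ : Path (a x 0) (b x 0)))
    ((ha.comp continuous_fst).eval continuous_snd)
    (fun x => (⟨b x, rfl, rfl⟩ : Path (b x 0) (b x 1)))
    ((hb.comp continuous_fst).eval continuous_snd)

/-- A continuous family of segments. -/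
structure Comb (M : Type) [TopologicalSpace M] where
  cb : C(M × M, C(I, M))
  zero : ∀ p q, cb (p, q) 0 = p
  one : ∀ p q, cb (p, q) 1 = q
  self : ∀ p u, cb (p, p) u = p

/-- Segments in the interval. -/
noncomputable def combI : Comb I where
  cb := ContinuousMap.curry ⟨fun z : (I × I) × I => Set.Icc.convexComb z.1.1 z.1.2 z.2, by
    unfold Set.Icc.convexComb; fun_prop⟩
  zero p q := by simp
  one p q := by simp
  self p u := by simp

theorem combI_apply (p q u : I) : combI.cb (p, q) u = Set.Icc.convexComb p q u := rfl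

/-- Segments in the triangle. -/
noncomputable def combTri : Comb Tri where
  cb := ContinuousMap.curry ⟨fun z : (Tri × Tri) × I => combT z.1.1 z.1.2 z.2, continuous_combT⟩
  zero p q := by apply Subtype.ext; simp [combT]
  one p q := by apply Subtype.ext; simp [combT]
  self p u := by
    apply Subtype.ext
    simp only [combT, ContinuousMap.curry_apply, ContinuousMap.coe_mk]
    rw [← add_smul]; simp

theorem combTri_seg (i j : Fin 3) (p q u : I) :
    combTri.cb (seg i j p, seg i j q) u = seg i j (combI.cb (p, q) u) := by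
  apply Subtype.ext
  simp only [combTri, combT, ContinuousMap.curry_apply, ContinuousMap.coe_mk, combI_apply, seg,
    Set.Icc.coe_convexComb]
  funext k
  simp only [Pi.add_apply, Pi.smul_apply, smul_eq_mul]
  ring

/-- Paths from the base point to a point of a cell. -/
abbrev W (y0 : Y) {M : Type} [TopologicalSpace M] (φ : C(M, Y)) : Type :=
  {z : C(I, Y) × M // z.1 0 = y0 ∧ z.1 1 = φ z.2}

theorem continuous_toCM {x y : Y} : Continuous fun p : Path x y => p.toContinuousMap :=
  continuous_induced_dom

variable {y0 : Y} {M : Type} [TopologicalSpace M] {φ : C(M, Y)}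

/-- The action of the loop space. -/
noncomputable def act (y0 : Y) (φ : C(M, Y)) : C(Path y0 y0 × W y0 φ, W y0 φ) where
  toFun z := ⟨(cat z.1.toContinuousMap z.2.1.1 (by simp [z.2.2.1]), z.2.1.2), by simp, by
    simp [z.2.2.2]⟩
  continuous_toFun := by
    refine Continuous.subtype_mk (Continuous.prodMk ?_ (by fun_prop)) _
    exact continuous_cat (continuous_toCM.comp continuous_fst) (by fun_prop) _

/-- The action on homotopy classes of paths. -/
noncomputable def actQ {e e' : Path y0 y0} {b b' : W y0 φ} (a : Path.Homotopic.Quotient e e')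
    (l : Path.Homotopic.Quotient b b') :
    Path.Homotopic.Quotient (act y0 φ (e, b)) (act y0 φ (e', b')) :=
  (Path.Homotopic.prod a l).map (act y0 φ)

theorem actQ_trans {e e' e'' : Path y0 y0} {b b' b'' : W y0 φ} (a : Path.Homotopic.Quotient e e')
    (a' : Path.Homotopic.Quotient e' e'') (l : Path.Homotopic.Quotient b b')
    (l' : Path.Homotopic.Quotient b' b'') :
    (actQ a l).trans (actQ a' l') = actQ (a.trans a') (l.trans l') := by
  unfold actQ
  rw [← Path.Homotopic.comp_prod_eq_prod_comp]
  exact ((FundamentalGroupoid.map (act y0 φ)).map_comp (X := ⟨(e, b)⟩) (Y := ⟨(e', b')⟩)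
    (Z := ⟨(e'', b'')⟩) _ _).symm

theorem actQ_mk {e e' : Path y0 y0} {b b' : W y0 φ} (a : Path e e') (l : Path b b') :
    actQ (Path.Homotopic.Quotient.mk a) (Path.Homotopic.Quotient.mk l) =
      Path.Homotopic.Quotient.mk ((a.prod l).map (act y0 φ).continuous) := rfl

theorem actQ_refl (e : Path y0 y0) (b : W y0 φ) :
    actQ (Path.Homotopic.Quotient.refl e) (Path.Homotopic.Quotient.refl b) =
      Path.Homotopic.Quotient.refl _ := by
  rw [← Path.Homotopic.Quotient.mk_refl, ← Path.Homotopic.Quotient.mk_refl, actQ_mk,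
    ← Path.Homotopic.Quotient.mk_refl]
  congr 1

/-- Reversal. -/
noncomputable def rev (a : C(I, Y)) : C(I, Y) := a.comp ⟨σ, continuous_symm⟩

@[simp] theorem rev_apply (a : C(I, Y)) (u : I) : rev a u = a (σ u) := rfl

theorem continuous_rev : Continuous (rev : C(I, Y) → C(I, Y)) :=
  ContinuousMap.continuous_precomp _

/-- The final part of a path. -/
noncomputable def cut (s : I) (a : C(I, Y)) : C(I, Y) := a.comp (combI.cb (s, 1))

theorem continuous_cut : Continuous fun z : I × C(I, Y) => cut z.1 z.2 :=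
  Continuous.compCM continuous_snd (by fun_prop)

@[simp] theorem cut_apply_one (s : I) (a : C(I, Y)) : cut s a 1 = a 1 := by
  simp [cut, combI.one]

theorem cut_zero (a : C(I, Y)) : cut 0 a = a := by
  ext u; simp [cut, combI_apply]

theorem cut_one (a : C(I, Y)) : cut 1 a = ContinuousMap.const I (a 1) := by
  ext u; simp [cut, combI.self]

/-- Homotopic paths are joined in the path space. -/
theorem joined_of_homotopic {x y : Y} {p q : Path x y} (h : p.Homotopic q) : Joined p q := by
  obtain ⟨F⟩ := h
  refine ⟨⟨⟨fun t => F.eval t, ?_⟩, F.eval_zero, F.eval_one⟩⟩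
  rw [← Path.continuous_uncurry_iff]
  exact F.continuous

/-- Every loop in `W` is killed by the action of a suitable loop of loops. -/
theorem exists_kill [SimplyConnectedSpace M] (C : Comb M) (b : W y0 φ)
    (l : Path.Homotopic.Quotient b b) :
    ∃ ζ : Path.Homotopic.Quotient (Path.refl y0) (Path.refl y0),
      actQ ζ l = Path.Homotopic.Quotient.refl _ := by
  induction l using Path.Homotopic.Quotient.ind with | _ l => ?_
  -- the section `β`
  have hβ : ∀ p : M, b.1.1 1 = (φ.comp (C.cb (b.1.2, p))) 0 := fun p => by simp [C.zero, b.2.2]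
  let β : M → C(I, Y) := fun p => cat b.1.1 (φ.comp (C.cb (b.1.2, p))) (hβ p)
  have βc : Continuous β :=
    continuous_cat continuous_const ((ContinuousMap.continuous_postcomp φ).comp (by fun_prop)) _
  have β0 : ∀ p, β p 0 = y0 := fun p => by simp [β, b.2.1]
  have β1 : ∀ p, β p 1 = φ p := fun p => by simp [β, C.one]
  -- the division map
  have hD : ∀ (s : I) (z : W y0 φ), β z.1.2 1 = rev (cut s z.1.1) 0 := fun s z => by
    simp [β1, z.2.2]
  have hK : ∀ (s : I) (z : W y0 φ), cat (β z.1.2) (rev (cut s z.1.1)) (hD s z) 1 =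
      cut s z.1.1 0 := fun s z => by simp
  let K : C(I × W y0 φ, W y0 φ) := ⟨fun z => ⟨(cat (cat (β z.2.1.2) (rev (cut z.1 z.2.1.1))
      (hD z.1 z.2)) (cut z.1 z.2.1.1) (hK z.1 z.2), z.2.1.2), by simp [β0], by simp [z.2.2.2]⟩, by
    have hc : Continuous fun z : I × W y0 φ => cut z.1 z.2.1.1 :=
      continuous_cut.comp (continuous_fst.prodMk (by fun_prop))
    refine Continuous.subtype_mk (Continuous.prodMk ?_ (by fun_prop)) _
    exact continuous_cat (continuous_cat (βc.comp (by fun_prop)) (continuous_rev.comp hc) _) hc _⟩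
  have hD0 : ∀ z : W y0 φ, β z.1.2 1 = rev z.1.1 0 := fun z => by simp [β1, z.2.2]
  let D : C(W y0 φ, Path y0 y0) := ⟨fun z => ⟨cat (β z.1.2) (rev z.1.1) (hD0 z), by simp [β0],
      by simp [z.2.1]⟩, by
    refine continuous_induced_rng.2 ?_
    exact continuous_cat (βc.comp (by fun_prop)) (continuous_rev.comp (by fun_prop)) _⟩
  have K0 : ∀ z, K (0, z) = act y0 φ (D z, z) := by
    intro z
    apply Subtype.ext
    refine Prod.ext ?_ rfl
    exact cat_congr _ _ (cat_congr _ _ rfl (by rw [cut_zero])) (cut_zero _)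
  have hS : ∀ p : M, β p 1 = ContinuousMap.const I (φ p) 0 := fun p => by simp [β1]
  have hS' : ∀ p : M, cat (β p) (ContinuousMap.const I (φ p)) (hS p) 1 =
    ContinuousMap.const I (φ p) 0 := fun p => by simp
  let S : C(M, W y0 φ) := ⟨fun p => ⟨(cat (cat (β p) (ContinuousMap.const I (φ p)) (hS p))
      (ContinuousMap.const I (φ p)) (hS' p), p), by simp [β0], by simp⟩, by
    have hc : Continuous fun p : M => ContinuousMap.const I (φ p) :=
      ContinuousMap.continuous_const'.comp φ.continuous
    refine Continuous.subtype_mk (Continuous.prodMk ?_ continuous_id) _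
    exact continuous_cat (continuous_cat βc hc _) hc _⟩
  have K1 : ∀ z, K (1, z) = S z.1.2 := by
    intro z
    apply Subtype.ext
    refine Prod.ext ?_ rfl
    refine cat_congr _ _ (cat_congr _ _ rfl ?_) ?_
    · rw [cut_one, z.2.2]; rfl
    · rw [cut_one, z.2.2]
  -- the loop `B` is null-homotopic
  let B : Path (act y0 φ (D b, b)) (act y0 φ (D b, b)) :=
    ((l.map D.continuous).prod l).map (act y0 φ).continuous
  let L : Path (act y0 φ (D b, b)) (S b.1.2) :=
    ⟨⟨fun s => K (s, b), by fun_prop⟩, K0 b, K1 b⟩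
  let T : Path (S b.1.2) (S b.1.2) := ⟨⟨fun u => S (l u).1.2, by fun_prop⟩, by simp, by simp⟩
  have h1 : (B.trans L).Homotopic (L.trans T) :=
    sq ⟨fun z : I × I => K (z.2, l z.1), by fun_prop⟩ B L L T
      (fun u => by simp [B, K0]) (fun u => by simp [L]) (fun u => by simp [L])
      (fun u => by simp [T, K1])
  have h2 : T.Homotopic (Path.refl _) :=
    htpy_of_sc S T (Path.refl _) (m := b.1.2) (m' := b.1.2)
      ⟨⟨fun u => (l u).1.2, by fun_prop⟩, by simp, by simp⟩ (Path.refl _) (fun u => rfl)
      (fun u => rfl)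
  have h3 : Path.Homotopic.Quotient.mk B = Path.Homotopic.Quotient.refl _ := by
    have e1 := Path.Homotopic.Quotient.eq.2 h1
    have e2 := Path.Homotopic.Quotient.eq.2 h2
    rw [Path.Homotopic.Quotient.mk_trans, Path.Homotopic.Quotient.mk_trans, e2,
      Path.Homotopic.Quotient.mk_refl, Path.Homotopic.Quotient.trans_refl] at e1
    have := congrArg (fun q => q.trans (Path.Homotopic.Quotient.mk L).symm) e1
    simpa [Path.Homotopic.Quotient.trans_assoc] using this
  -- `D b` is joined to the constant loop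
  let w : Path y0 (φ b.1.2) := ⟨b.1.1, b.2.1, b.2.2⟩
  have hDb : D b = (w.trans (Path.refl _)).trans w.symm := by
    ext u
    refine cat_eq (w.trans (Path.refl _)) w.symm (hD0 b) (fun u => ?_) (fun u => rfl) u
    exact cat_eq w (Path.refl _) (hβ _) (fun u => rfl) (fun u => by simp [C.self]) u
  have hj : Joined (Path.refl y0) (D b) := by
    apply joined_of_homotopic
    rw [hDb]
    exact (((Path.Homotopic.trans_refl w).hcomp (Path.Homotopic.refl _)).trans
      (Path.Homotopic.trans_symm w)).symm
  obtain ⟨η⟩ := hj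
  let η' := Path.Homotopic.Quotient.mk η
  refine ⟨(η'.trans (Path.Homotopic.Quotient.mk (l.map D.continuous))).trans η'.symm, ?_⟩
  have e : Path.Homotopic.Quotient.mk l = ((Path.Homotopic.Quotient.refl b).trans
      (Path.Homotopic.Quotient.mk l)).trans (Path.Homotopic.Quotient.refl b) := by simp
  rw [e, ← actQ_trans, ← actQ_trans, actQ_mk]
  change ((actQ η' _).trans (Path.Homotopic.Quotient.mk B)).trans _ = _
  rw [h3, Path.Homotopic.Quotient.trans_refl, actQ_trans, Path.Homotopic.Quotient.trans_symm,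
    Path.Homotopic.Quotient.trans_refl, actQ_refl]

/-- The obstruction of a triangle. -/
theorem tri_step {φ : C(Tri, Y)} {b0 b1 b2 : W y0 φ} (l0 : Path b0 b1) (l1 : Path b1 b2)
    (l2 : Path b0 b2) :
    ∃ ζ : FundamentalGroup (Path y0 y0) (Path.refl y0),
      ∀ κ0 κ1 κ2 : Path (Path.refl y0) (Path.refl y0),
        (Path.Homotopic.Quotient.mk κ0).trans (Path.Homotopic.Quotient.mk κ1) =
          (FundamentalGroup.toPath ζ).trans (Path.Homotopic.Quotient.mk κ2) →
        ∃ g : C(Tri, W y0 φ), (∀ u, g (seg 0 1 u) = act y0 φ (κ0 u, l0 u)) ∧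
          (∀ u, g (seg 1 2 u) = act y0 φ (κ1 u, l1 u)) ∧
          ∀ u, g (seg 0 2 u) = act y0 φ (κ2 u, l2 u) := by
  obtain ⟨ζ, hζ⟩ := exists_kill combTri b0 (((Path.Homotopic.Quotient.mk l0).trans
    (Path.Homotopic.Quotient.mk l1)).trans (Path.Homotopic.Quotient.mk l2).symm)
  refine ⟨ζ, fun κ0 κ1 κ2 hκ => ?_⟩
  refine tri_fill ((κ0.prod l0).map (act y0 φ).continuous) ((κ1.prod l1).map (act y0 φ).continuous)
    ((κ2.prod l2).map (act y0 φ).continuous) ?_
  rw [← Path.Homotopic.Quotient.eq, Path.Homotopic.Quotient.mk_trans, ← actQ_mk, ← actQ_mk,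
    ← actQ_mk, actQ_trans, hκ]
  have e : (Path.Homotopic.Quotient.mk l0).trans (Path.Homotopic.Quotient.mk l1) =
      (((Path.Homotopic.Quotient.mk l0).trans (Path.Homotopic.Quotient.mk l1)).trans
        (Path.Homotopic.Quotient.mk l2).symm).trans (Path.Homotopic.Quotient.mk l2) := by
    simp [Path.Homotopic.Quotient.trans_assoc]
  rw [e, ← actQ_trans]
  erw [hζ]
  rw [Path.Homotopic.Quotient.refl_trans]

/-- Edge step: a homotopy gives a path in `W`. -/
theorem edge_step {φ : C(I, Y)} {x x' : Y} (p : Path y0 x) (p' : Path y0 x') (e : Path x x')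
    (he : ∀ u, e u = φ u) (h : (p.trans e).Homotopic p') :
    Joined (⟨(p.toContinuousMap, 0), by simp, by simp [← he]⟩ : W y0 φ)
      ⟨(p'.toContinuousMap, 1), by simp, by simp [← he]⟩ := by
  have hB : ∀ {y : Y} (u : I) (hu : y = φ u) (P Q : Path y0 y), P.Homotopic Q →
      Joined (⟨(P.toContinuousMap, u), by simp, by simp [hu]⟩ : W y0 φ)
        ⟨(Q.toContinuousMap, u), by simp, by simp [hu]⟩ := by
    intro y u hu P Q hPQ
    obtain ⟨γ⟩ := joined_of_homotopic hPQ
    let j : Path y0 y → W y0 φ := fun P => ⟨(P.toContinuousMap, u), by simp, by simp [hu]⟩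
    have hj : Continuous j :=
      Continuous.subtype_mk (continuous_toCM.prodMk continuous_const) _
    exact ⟨γ.map hj⟩
  have hx : x = φ 0 := by simp [← he]
  have hx' : x' = φ 1 := by simp [← he]
  refine ((hB 0 hx p _ (Path.Homotopic.trans_refl p).symm).trans ?_).trans (hB 1 hx' _ p' h)
  have hc : ∀ u : I, p.toContinuousMap 1 = (φ.comp (combI.cb (0, u))) 0 := fun u => by
    simp [combI.zero, hx]
  refine ⟨⟨⟨fun u => ⟨(cat p.toContinuousMap (φ.comp (combI.cb (0, u))) (hc u), u), by simp,
    by simp [combI.one]⟩, ?_⟩, ?_, ?_⟩⟩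
  · refine Continuous.subtype_mk (Continuous.prodMk ?_ continuous_id) _
    exact continuous_cat continuous_const (Continuous.compCM continuous_const (by fun_prop)) _
  · apply Subtype.ext
    refine Prod.ext ?_ rfl
    ext u
    exact cat_eq _ _ _ (fun u => rfl) (fun u => by simp [combI.self, hx]) u
  · apply Subtype.ext
    refine Prod.ext ?_ rfl
    ext u
    exact cat_eq _ _ _ (fun u => rfl) (fun u => by simp [combI_apply, he]) u

/-- The final path attached to a point of `W` and a point of the cell. -/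
noncomputable def fin (C : Comb M) : C(W y0 φ × M, C(I, Y)) where
  toFun z := cat z.1.1.1 (φ.comp (C.cb (z.1.1.2, z.2))) (by simp [C.zero, z.1.2.2])
  continuous_toFun := by
    have h1 : Continuous fun z : W y0 φ × M => z.1.1.1 := by fun_prop
    have h2 : Continuous fun z : W y0 φ × M => C.cb (z.1.1.2, z.2) := by fun_prop
    exact continuous_cat h1 ((ContinuousMap.continuous_postcomp φ).comp h2) _

theorem fin_zero (C : Comb M) (z : W y0 φ × M) : fin C z 0 = y0 := by simp [fin, z.1.2.1]

theorem fin_one (C : Comb M) (z : W y0 φ × M) : fin C z 1 = φ z.2 := by simp [fin, C.one]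

end Crest.Agent.R177.Contr
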