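import Mathlib

/-!
Definitions for rows 177, 184, 199 (zero divisors, direct finiteness, non residually finite
hyperbolic group).  The group is given by a triangle presentation with one vertex: generators `Gen`,
triangles `Tr`, each triangle `t` giving the relation `l t 0 * l t 1 = l t 2`.  The Cayley complex has
vertices `G`, edges `G × Gen` (from `x` to `x * gen s`) and triangles `G × Tr`.
-/

set_option autoImplicit false

namespace Crest.Agent.R177

open Finset

/-! ### Triangle data -/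

section Tri

variable {G Gen Tr : Type} [Group G]

/-- The triangle relations hold. -/
def Rel (gen : Gen → G) (l : Tr → Fin 3 → Gen) : Prop :=
  ∀ t, gen (l t 0) * gen (l t 1) = gen (l t 2)

/-- Flat local systems on the Cayley complex are trivial (simple connectivity). -/
def LS (gen : Gen → G) (l : Tr → Fin 3 → Gen) : Prop :=
  ∀ (Q : Type) [Group Q] (ω : G → Gen → Q),
    (∀ x t, ω x (l t 0) * ω (x * gen (l t 0)) (l t 1) = ω x (l t 2)) →
    ∃ π : G → Q, ∀ x s, π (x * gen s) = π x * ω x s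

/-- Every 2-cochain of the Cayley complex is a coboundary, for every abelian coefficient group. -/
def H2 (gen : Gen → G) (l : Tr → Fin 3 → Gen) : Prop :=
  ∀ (A : Type) [AddCommGroup A] (ζ : G → Tr → A), ∃ κ : G → Gen → A,
    ∀ x t, κ x (l t 0) + κ (x * gen (l t 0)) (l t 1) - κ x (l t 2) = ζ x t

/-- Boundary of 1-chains mod 2. -/
noncomputable def bd1 (gen : Gen → G) : (G × Gen →₀ ZMod 2) →ₗ[ZMod 2] (G →₀ ZMod 2) :=
  Finsupp.linearCombination (ZMod 2)
    (fun e : G × Gen => Finsupp.single e.1 (1 : ZMod 2) + Finsupp.single (e.1 * gen e.2) 1)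

/-- Boundary of 2-chains mod 2. -/
noncomputable def bd2 (gen : Gen → G) (l : Tr → Fin 3 → Gen) :
    (G × Tr →₀ ZMod 2) →ₗ[ZMod 2] (G × Gen →₀ ZMod 2) :=
  Finsupp.linearCombination (ZMod 2)
    (fun f : G × Tr => Finsupp.single (f.1, l f.2 0) (1 : ZMod 2) +
      Finsupp.single (f.1 * gen (l f.2 0), l f.2 1) 1 + Finsupp.single (f.1, l f.2 2) 1)

/-- Linear isoperimetric inequality for mod 2 cycles. -/
def Fill (gen : Gen → G) (l : Tr → Fin 3 → Gen) : Prop :=
  ∃ C : ℕ, ∀ z : G × Gen →₀ ZMod 2, bd1 gen z = 0 →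
    ∃ c : G × Tr →₀ ZMod 2, bd2 gen l c = z ∧ c.support.card ≤ C * z.support.card

end Tri

/-! ### The presented group and van Kampen products -/

section Pres

variable {Gen Tr : Type}

/-- The relator of a triangle. -/
def relator (l : Tr → Fin 3 → Gen) (t : Tr) : FreeGroup Gen :=
  FreeGroup.of (l t 0) * FreeGroup.of (l t 1) * (FreeGroup.of (l t 2))⁻¹

/-- The presented group. -/
abbrev PG (l : Tr → Fin 3 → Gen) : Type := PresentedGroup (Set.range (relator l))

/-- Its generators. -/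
def pgen (l : Tr → Fin 3 → Gen) (s : Gen) : PG l := PresentedGroup.of s

/-- A conjugate of a relator or of its inverse. -/
def conjRel (l : Tr → Fin 3 → Gen) (a : FreeGroup Gen × Tr × Bool) : FreeGroup Gen :=
  a.1 * (if a.2.2 then relator l a.2.1 else (relator l a.2.1)⁻¹) * a.1⁻¹

/-- The product of a list of conjugates of relators. -/
def vkProd (l : Tr → Fin 3 → Gen) (L : List (FreeGroup Gen × Tr × Bool)) : FreeGroup Gen :=
  (L.map (conjRel l)).prod

/-- The mod 2 chain of triangles of the Cayley complex used by such a product. -/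
noncomputable def vkChain (l : Tr → Fin 3 → Gen) (L : List (FreeGroup Gen × Tr × Bool)) :
    PG l × Tr →₀ ZMod 2 :=
  (L.map fun a => Finsupp.single (PresentedGroup.mk (Set.range (relator l)) a.1, a.2.1)
    (1 : ZMod 2)).sum

/-- The chain of any van Kampen product has size linear in the reduced length of the product. -/
def Dehn [DecidableEq Gen] (l : Tr → Fin 3 → Gen) (C : ℕ) : Prop :=
  ∀ L, (vkChain l L).support.card ≤ C * (vkProd l L).toWord.length

end Pres

/-! ### Topological realisation of the Cayley complex -/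

section Top

/-- The standard triangle. -/
abbrev Tri : Type := stdSimplex ℝ (Fin 3)

/-- The point `(1-u) e_i + u e_j` of the triangle. -/
noncomputable def seg (i j : Fin 3) (u : unitInterval) : Tri :=
  ⟨(1 - (u : ℝ)) • (Pi.single i (1 : ℝ) : Fin 3 → ℝ) + (u : ℝ) • (Pi.single j (1 : ℝ) : Fin 3 → ℝ),
    convex_stdSimplex ℝ (Fin 3) (single_mem_stdSimplex ℝ i) (single_mem_stdSimplex ℝ j)
      (unitInterval.one_minus_nonneg u) u.2.1 (by ring)⟩

variable {G Gen Tr : Type} [Group G]

/-- A compatible family of continuous maps from the cells of the Cayley complex to `Z`. -/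
structure Cells (gen : Gen → G) (l : Tr → Fin 3 → Gen) (Z : Type) [TopologicalSpace Z] where
  vx : G → Z
  ed : G → Gen → C(unitInterval, Z)
  tr : G → Tr → C(Tri, Z)
  ed0 : ∀ x s, ed x s 0 = vx x
  ed1 : ∀ x s, ed x s 1 = vx (x * gen s)
  tr0 : ∀ x t u, tr x t (seg 0 1 u) = ed x (l t 0) u
  tr1 : ∀ x t u, tr x t (seg 1 2 u) = ed (x * gen (l t 0)) (l t 1) u
  tr2 : ∀ x t u, tr x t (seg 0 2 u) = ed x (l t 2) u

/-- `Y` with the cells `c` is the geometric realisation (colimit of the cells). -/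
structure IsReal {gen : Gen → G} {l : Tr → Fin 3 → Gen} {Y : Type} [TopologicalSpace Y]
    (c : Cells gen l Y) : Prop where
  surj : ∀ y : Y, (∃ x, y = c.vx x) ∨ (∃ x s u, y = c.ed x s u) ∨ (∃ x t p, y = c.tr x t p)
  lift : ∀ (Z : Type) [TopologicalSpace Z] (d : Cells gen l Z), ∃ f : C(Y, Z),
    (∀ x, f (c.vx x) = d.vx x) ∧ (∀ x s u, f (c.ed x s u) = d.ed x s u) ∧
      ∀ x t p, f (c.tr x t p) = d.tr x t p

end Top

/-! ### Gems: triangulated surfaces encoded by three involutions on the set of faces -/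

/-- `σ i x` is the face across the edge of role `i` of the face `x` (`x` itself on the boundary).
Edge `i` is opposite to vertex `i`.  Role 1 edges carry the labels, roles 0 and 2 are radial. -/
structure Gem where
  F : Type
  [fin : Fintype F]
  [dec : DecidableEq F]
  σ : Fin 3 → F → F
  inv : ∀ i x, σ i (σ i x) = x

attribute [instance] Gem.fin Gem.dec

/-- The radial role on side `b`. -/
def rad : Bool → Fin 3
  | false => 0
  | true => 2

namespace Gem

variable (D : Gem)

/-- Number of faces. -/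
def area : ℕ := Fintype.card D.F

/-- Number of boundary edges of role `i`. -/
def bd (i : Fin 3) : ℕ := #{x : D.F | D.σ i x = x}

/-- Boundary edges of role 1. -/
def B : ℕ := D.bd 1

/-- Radial boundary edges. -/
def X : ℕ := D.bd 0 + D.bd 2

/-- A plain corner. -/
def Plain (x : D.F) (b : Bool) : Prop :=
  D.σ (rad b) x ≠ x ∧ D.σ 1 (D.σ (rad b) x) = D.σ (rad b) (D.σ 1 x)

instance (x : D.F) (b : Bool) : Decidable (D.Plain x b) := by unfold Plain; infer_instance

/-- Number of corners that are not plain. -/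
def np : ℕ := #{p : D.F × Bool | ¬ D.Plain p.1 p.2}

/-- First cohomology mod 2 vanishes: `ω x i` is the value on edge `i` of face `x`,
`π x k` the value at vertex `k` of face `x`. -/
def Ac : Prop :=
  ∀ ω : D.F → Fin 3 → ZMod 2, (∀ x i, ω (D.σ i x) i = ω x i) →
    (∀ x, ω x 0 + ω x 1 + ω x 2 = 0) →
    ∃ π : D.F → Fin 3 → ZMod 2, (∀ x i k, k ≠ i → π (D.σ i x) k = π x k) ∧
      ∀ x i, ω x i = π x (i + 1) + π x (i + 2)

/-- No two faces share both the labelled edge and a radial edge. -/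
def Folded : Prop := ∀ x b, D.σ (rad b) x = D.σ 1 x → D.σ 1 x = x

/-- Closed cones have at least `g` faces. -/
def Cone (g : ℕ) : Prop :=
  ∀ S : Finset D.F, S.Nonempty → (∀ x ∈ S, ∀ b, D.σ (rad b) x ∈ S ∧ D.σ (rad b) x ≠ x) →
    g ≤ S.card

/-- The sub-surface made of the faces in `S`. -/
def res (S : Finset D.F) : Gem where
  F := {x // x ∈ S}
  σ i x := if h : D.σ i x.1 ∈ S then ⟨D.σ i x.1, h⟩ else x
  inv i x := by
    by_cases h : D.σ i x.1 ∈ S
    · simp [h, D.inv, x.2]
    · simp [h]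

end Gem

/-! ### Designs and labelled bipartite graphs -/

/-- An edge: its two end points (side `false` and side `true`) and its label. -/
abbrev Edge (V P : Type) : Type := (Bool → V) × P

/-- Vertices with sides, types (sets of labels) and sheets.  `Q * n` is about the number of
vertices of a given side and sheet that see a given label. -/
structure Design (P Sh : Type) [DecidableEq P] [DecidableEq Sh] (R : Finset (P × P))
    (Q d n : ℕ) where
  V : Type
  [fin : Fintype V]
  [dec : DecidableEq V]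
  side : V → Bool
  ty : V → Finset P
  sh : V → Sh
  deg_le : ∀ v, (ty v).card ≤ d
  bal : ∀ a s, #{v | side v = false ∧ sh v = a ∧ s ∈ ty v} =
    #{v | side v = true ∧ sh v = a ∧ s ∈ ty v}
  lower : ∀ a s, Q * n ≤ #{v | side v = false ∧ sh v = a ∧ s ∈ ty v}
  upper : ∀ a s, #{v | side v = false ∧ sh v = a ∧ s ∈ ty v} ≤ Q * (n + 1)
  two : ∀ a s t, s ≠ t → #{v | side v = false ∧ sh v = a ∧ s ∈ ty v ∧ t ∈ ty v} ≤ n + 1
  blk : ∀ v, side v = true → ∀ s ∈ ty v, ∀ t ∈ ty v, s ≠ t → (s, t) ∈ R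

attribute [instance] Design.fin Design.dec

/-- `Γ` is a perfect matching of the half edges that preserves labels and sheets. -/
structure IsGraph {P Sh : Type} [DecidableEq P] [DecidableEq Sh] {R : Finset (P × P)}
    {Q d n : ℕ} (𝒟 : Design P Sh R Q d n) (Γ : Finset (Edge 𝒟.V P)) : Prop where
  side : ∀ e ∈ Γ, ∀ b, 𝒟.side (e.1 b) = b
  mem : ∀ e ∈ Γ, ∀ b, e.2 ∈ 𝒟.ty (e.1 b)
  sh : ∀ e ∈ Γ, 𝒟.sh (e.1 false) = 𝒟.sh (e.1 true)
  ex : ∀ v, ∀ s ∈ 𝒟.ty v, ∃ e ∈ Γ, e.1 (𝒟.side v) = v ∧ e.2 = s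
  uniq : ∀ e ∈ Γ, ∀ e' ∈ Γ, ∀ b, e.1 b = e'.1 b → e.2 = e'.2 → e = e'

/-- The side used at step `t` of an alternating walk whose first step uses side `b`. -/
def alt (b : Bool) (t : ℕ) : Bool := xor b t.bodd

/-- `e 0, …, e k` is a non-backtracking walk in `Γ`; `e t` and `e (t+1)` meet on side `alt b t`. -/
def NB {V P : Type} (Γ : Finset (Edge V P)) (e : ℕ → Edge V P) (b : Bool) (k : ℕ) : Prop :=
  (∀ t ≤ k, e t ∈ Γ) ∧ ∀ t < k, e (t + 1) ≠ e t ∧ (e (t + 1)).1 (alt b t) = (e t).1 (alt b t)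

/-- No closed non-backtracking walk with fewer than `g` edges. -/
def Girth {V P : Type} (Γ : Finset (Edge V P)) (g : ℕ) : Prop :=
  ∀ e b k, k + 1 < g → NB Γ e b k → (e 0).1 (!b) ≠ (e k).1 (alt b k)

/-- A reduced labelling of a gem by edges of `Γ`. -/
structure Lab {V P : Type} (Γ : Finset (Edge V P)) (D : Gem) (ε : D.F → Edge V P) : Prop where
  mem : ∀ x, ε x ∈ Γ
  lab : ∀ x, (ε (D.σ 1 x)).2 = (ε x).2
  vtx : ∀ x b, (ε (D.σ (rad b) x)).1 b = (ε x).1 b
  red : ∀ x i, D.σ i x ≠ x → ε (D.σ i x) ≠ ε x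

/-- Exceptional triples: `y` meets `x` at its vertex on side `b` but carries a third edge. -/
def excN {V P : Type} [DecidableEq V] [DecidableEq P] (D : Gem) (ε : D.F → Edge V P) : ℕ :=
  #{a : D.F × D.F × Bool | (ε a.1).1 a.2.2 = (ε a.2.1).1 a.2.2 ∧ ε a.2.1 ≠ ε a.1 ∧
    ε a.2.1 ≠ ε (D.σ (rad a.2.2) a.1)}

/-- `θ` has the same coincidence pattern as `ε`. -/
structure Copy {V P Sh : Type} (sh : V → Sh) (D : Gem) (ε θ : D.F → Edge V P) : Prop where
  eq : ∀ x y, θ x = θ y ↔ ε x = ε y
  vtx : ∀ x y b, (ε x).1 b = (ε y).1 b → (θ x).1 b = (θ y).1 b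
  lab : ∀ x, (θ (D.σ 1 x)).2 = (θ x).2
  sh : ∀ x, sh ((θ x).1 false) = sh ((ε x).1 false)

open Classical in
/-- All graphs of girth at least `g` on a design. -/
noncomputable def graphs {P Sh : Type} [Fintype P] [DecidableEq P] [DecidableEq Sh]
    {R : Finset (P × P)} {Q d n : ℕ} (𝒟 : Design P Sh R Q d n) (g : ℕ) :
    Finset (Finset (Edge 𝒟.V P)) :=
  {Γ | IsGraph 𝒟 Γ ∧ Girth Γ g}

/-! ### Projective planes with two disjoint Baer subplanes and a block structure -/

/-- Points: three triples and some pairs. -/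
abbrev Pt (Pr : Type) : Type := (Fin 3 × Fin 3) ⊕ (Pr × Bool)

/-- The block of a point. -/
def blk {Pr : Type} : Pt Pr → Fin 3 ⊕ Pr
  | Sum.inl a => Sum.inl a.1
  | Sum.inr a => Sum.inr a.1

/-- The region of a point (regions 0 and 1 are the two subplanes). -/
def region {Pr : Type} (reg : Pr → Fin 3) : Pt Pr → Fin 3
  | Sum.inl a => a.1
  | Sum.inr a => reg a.1

/-- Ordered pairs of distinct points in one block. -/
def blkRel (Pr : Type) [Fintype Pr] [DecidableEq Pr] : Finset (Pt Pr × Pt Pr) :=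
  {a | a.1 ≠ a.2 ∧ blk a.1 = blk a.2}

/-- A projective plane of order `Q - 1` with all intersection numbers `1` mod `p`. -/
structure BPlane (p : ℕ) where
  Pr : Type
  [finP : Fintype Pr]
  [decP : DecidableEq Pr]
  reg : Pr → Fin 3
  Ln : Type
  [finL : Fintype Ln]
  [decL : DecidableEq Ln]
  ln : Ln → Finset (Pt Pr)
  Q : ℕ
  two_le : 2 ≤ Q
  small : Fintype.card (Pt Pr) + 9 < Q ^ 2
  through : ∀ s, #{a | s ∈ ln a} = Q
  join : ∀ s t, s ≠ t → #{a | s ∈ ln a ∧ t ∈ ln a} ≤ 1
  meet : ∀ a a', #(ln a ∩ ln a') ≡ 1 [MOD p]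
  meetU : ∀ a k, k ≠ 2 → #{s ∈ ln a | region reg s = k} ≡ 1 [MOD p]
  cardU : ∀ k, k ≠ 2 → #{s : Pt Pr | region reg s = k} ≡ 1 [MOD p]

attribute [instance] BPlane.finP BPlane.decP BPlane.finL BPlane.decL

/-- The triangle relations of a graph, twisted by central elements: generators are the labels and
the vertices. -/
def GraphRel {V P G : Type} [Group G] (Γ : Finset (Edge V P)) (gen : P ⊕ V → G)
    (tw : Edge V P → G) : Prop :=
  ∀ e ∈ Γ, gen (Sum.inr (e.1 false)) * gen (Sum.inl e.2) = tw e * gen (Sum.inr (e.1 true))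

/-- The triangles of a graph. -/
def graphL {V P : Type} (Γ : Finset (Edge V P)) (e : {e // e ∈ Γ}) : Fin 3 → P ⊕ V :=
  ![Sum.inr (e.1.1 false), Sum.inl e.1.2, Sum.inr (e.1.1 true)]

end Crest.Agent.R177
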