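import Crest.Agent.R177.Design1

set_option autoImplicit false

namespace Crest.Agent.R177

open Finset

theorem card_blkRel (Pr : Type) [Fintype Pr] [DecidableEq Pr] :
    (blkRel Pr).card = Fintype.card (Pt Pr) + 9 := by
  rw [blkRel, Finset.card_filter, Fintype.sum_prod_type, Fintype.sum_sum_type]
  simp_rw [Fintype.sum_sum_type, Fintype.sum_prod_type]
  have h1 : ∀ (x : Pr) (y : Bool), (∑ x' : Pr, ∑ y' : Bool,
      if (Sum.inr (x, y) : Pt Pr) ≠ Sum.inr (x', y') ∧
        blk (Sum.inr (x, y) : Pt Pr) = blk (Sum.inr (x', y') : Pt Pr) then 1 else 0) = 1 := by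
    intro x y
    rw [Finset.sum_eq_single x]
    · cases y <;> simp [blk]
    · intro x' _ h
      simp [blk, h.symm]
    · simp
  have h2 : ∀ (x y : Fin 3), (∑ x' : Fin 3, ∑ y' : Fin 3,
      if (Sum.inl (x, y) : Pt Pr) ≠ Sum.inl (x', y') ∧
        blk (Sum.inl (x, y) : Pt Pr) = blk (Sum.inl (x', y') : Pt Pr) then 1 else 0) = 2 := by
    intro x y
    fin_cases x <;> fin_cases y <;> simp [blk, Fin.sum_univ_three] <;> decide
  simp only [h1, h2]
  simp [blk]
  ring

section Inter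

variable {p : ℕ} (PP : BPlane p) {M : Type} [AddCommMonoid M] (F : Pt PP.Pr → M)

lemma sum_inter_eq (τ τ' : TT PP) :
    ∑ s ∈ ({s | inT PP τ s} : Finset _) ∩ ({s | inT PP τ' s} : Finset _), F s =
      ∑ s, if inT PP τ s ∧ inT PP τ' s then F s else 0 := by
  rw [← Finset.sum_filter]
  congr 1
  ext s; simp

lemma sum_inter_ll (pr pr' : PP.Pr) :
    ∑ s ∈ ({s | inT PP (Sum.inl pr) s} : Finset _) ∩
      ({s | inT PP (Sum.inl pr') s} : Finset _), F s =
      if pr = pr' then F (Sum.inr (pr, true)) + F (Sum.inr (pr, false)) else 0 := by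
  rw [sum_inter_eq, Fintype.sum_sum_type, Fintype.sum_prod_type (α₂ := Bool),
    Finset.sum_eq_single pr]
  · by_cases h : pr = pr' <;> simp [inT, h]
  · intro j _ hj
    simp [inT, hj]
  · simp

lemma sum_inter_lr (pr : PP.Pr) (ko : Fin 3 × Option (Fin 3)) :
    ∑ s ∈ ({s | inT PP (Sum.inl pr) s} : Finset _) ∩
      ({s | inT PP (Sum.inr ko) s} : Finset _), F s = 0 := by
  rw [sum_inter_eq, Fintype.sum_sum_type]
  simp [inT]

lemma sum_inter_rl (pr : PP.Pr) (ko : Fin 3 × Option (Fin 3)) :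
    ∑ s ∈ ({s | inT PP (Sum.inr ko) s} : Finset _) ∩
      ({s | inT PP (Sum.inl pr) s} : Finset _), F s = 0 := by
  rw [Finset.inter_comm, sum_inter_lr]

lemma sum_inter_rr (k k' : Fin 3) (o o' : Option (Fin 3)) :
    ∑ s ∈ ({s | inT PP (Sum.inr (k, o)) s} : Finset _) ∩
      ({s | inT PP (Sum.inr (k', o')) s} : Finset _), F s =
      if k = k' then ∑ i, if o ≠ some i ∧ o' ≠ some i then F (Sum.inl (k, i)) else 0 else 0 := by
  rw [sum_inter_eq, Fintype.sum_sum_type, Fintype.sum_prod_type, Finset.sum_eq_single k]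
  · by_cases h : k = k' <;> simp [inT, h]
  · intro j _ hj
    simp [inT, hj]
  · simp

end Inter

lemma nsmul_char_two {G : Type} [Group G] (x : MonoidAlgebra (ZMod 2) G) {c : ℕ}
    (hc : c ≡ 1 [MOD 2]) : c • x = x := by
  rw [← Nat.cast_smul_eq_nsmul (ZMod 2), (ZMod.natCast_eq_natCast_iff c 1 2).2 hc]
  simp

lemma add_self_char_two {G : Type} [Group G] (x : MonoidAlgebra (ZMod 2) G) : x + x = 0 := by
  rw [← two_smul (ZMod 2) x, show (2 : ZMod 2) = 0 from rfl, zero_smul]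

lemma true_side_I (PP : BPlane 2) (n : ℕ) {Sh : Type} [Fintype Sh] [DecidableEq Sh]
    (xr : Sh → Option (Fin 3)) (mode : Sh → Fin 3 → Bool) (a b : Sh)
    (hab : ∀ k, mode a k ≠ mode b k) {G : Type} [Group G] (v w : VV PP n xr mode)
    (hv : v.isRight = true ∧ shV PP n xr mode v = a)
    (hw : w.isRight = true ∧ shV PP n xr mode w = b) (x : MonoidAlgebra (ZMod 2) G) :
    ∑ _s ∈ tyV PP n xr mode v ∩ tyV PP n xr mode w, x = 0 := by
  rcases v with v | ⟨⟨a', τ⟩, c⟩
  · simp at hv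
  rcases w with w | ⟨⟨b', τ'⟩, c'⟩
  · simp at hw
  obtain rfl : a' = a := hv.2
  obtain rfl : b' = b := hw.2
  have hc := c.pos
  have hc' := c'.pos
  simp only [tyV]
  rcases τ with pr | ⟨k, o⟩ <;> rcases τ' with pr' | ⟨k', o'⟩
  · rw [sum_inter_ll]; simp [add_self_char_two]
  · rw [sum_inter_lr]
  · rw [sum_inter_rl]
  · rw [sum_inter_rr]
    split_ifs with h
    · subst h
      have h1 := hab k
      rcases o with _ | i <;> rcases o' with _ | j <;> simp only [cnt] at hc hc'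
      · exfalso
        by_cases h2 : mode a' k = true <;> simp_all
      · fin_cases j <;> simp [Fin.sum_univ_three, add_self_char_two]
      · fin_cases i <;> simp [Fin.sum_univ_three, add_self_char_two]
      · exfalso
        by_cases h2 : mode a' k = true <;> simp_all
    · rfl

lemma ident_design {p : ℕ} (PP : BPlane p) (n : ℕ) {Sh : Type} [Fintype Sh] [DecidableEq Sh]
    (xr : Sh → Option (Fin 3)) (mode : Sh → Fin 3 → Bool)
    (hm : ∀ a k, mode a k = false → Even n ∧ xr a ≠ some k)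
    {Γ : Finset (Edge (VV PP n xr mode) (Pt PP.Pr))} (hΓ : IsGraph (design PP n xr mode hm) Γ)
    {G : Type} [Group G] {gen : Pt PP.Pr ⊕ VV PP n xr mode → G}
    {t : VV PP n xr mode → Pt PP.Pr → G}
    (hrel : GraphRel Γ gen fun e => t (e.1 true) e.2) {M : Type} [AddCommMonoid M] (a b : Sh)
    (φ : G → M) :
    ∑ x, ∑ y, #(tyF PP n xr a x ∩ tyF PP n xr b y) •
        φ (gen (Sum.inr (Sum.inl (a, x))) * (gen (Sum.inr (Sum.inl (b, y))))⁻¹) =
      ∑ v with v.isRight = true ∧ shV PP n xr mode v = a,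
        ∑ w with w.isRight = true ∧ shV PP n xr mode w = b,
        ∑ s ∈ tyV PP n xr mode v ∩ tyV PP n xr mode w,
          φ (t v s * gen (Sum.inr v) * (t w s * gen (Sum.inr w))⁻¹) := by
  refine Eq.trans ?_ (ident hΓ hrel a b φ)
  refine Eq.trans ?_ (sum_false PP n xr mode a _).symm
  apply Finset.sum_congr rfl
  intro x _
  exact (sum_false PP n xr mode b (fun j => #(tyV PP n xr mode (Sum.inl (a, x)) ∩
    tyV PP n xr mode j) • φ (gen (Sum.inr (Sum.inl (a, x))) * (gen (Sum.inr j))⁻¹))).symm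

lemma meet_F {p : ℕ} (PP : BPlane p) (n : ℕ) {Sh : Type}
    (xr : Sh → Option (Fin 3)) (a b : Sh) (k : Fin 3) (hk : k ≠ 2) (ha : xr a = some k)
    (x : PP.Ln × Fin n ⊕ Unit) (l : PP.Ln × Fin n) :
    #(tyF PP n xr a x ∩ tyF PP n xr b (Sum.inl l)) ≡ 1 [MOD p] := by
  rcases x with l' | u
  · exact PP.meet _ _
  · convert PP.meetU l.1 k hk using 2
    ext s
    simp [tyF, ha, and_comm, eq_comm]

lemma meet_FF {p : ℕ} (PP : BPlane p) (n : ℕ) {Sh : Type}
    (xr : Sh → Option (Fin 3)) (a b : Sh) (k k' : Fin 3) (hk : k ≠ 2) (hk' : k' ≠ 2)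
    (ha : xr a = some k) (hb : xr b = some k') (x y : PP.Ln × Fin n ⊕ Unit) :
    #(tyF PP n xr a x ∩ tyF PP n xr b y) +
      (if x = Sum.inr () ∧ y = Sum.inr () ∧ k ≠ k' then 1 else 0) ≡ 1 [MOD p] := by
  rcases y with l | u
  · simpa using meet_F PP n xr a b k hk ha x l
  rcases x with l | u'
  · rw [Finset.inter_comm]
    simpa using meet_F PP n xr b a k' hk' hb (Sum.inr u) l
  by_cases h : k = k'
  · subst h
    simp only [ne_eq, not_true_eq_false, and_false, if_false, add_zero]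
    convert PP.cardU k hk using 2
    ext s
    simp [tyF, ha, hb, eq_comm]
  · have : tyF PP n xr a (Sum.inr u') ∩ tyF PP n xr b (Sum.inr u) = ∅ := by
      ext s
      simp only [tyF, ha, hb, mem_inter, mem_filter, mem_univ, true_and, Option.some.injEq,
        notMem_empty, iff_false, not_and]
      intro h1 h2
      exact h (h1.trans h2.symm)
    rw [this]
    simp [h, Nat.ModEq.refl]

/-- The untwisted design in characteristic two. -/
theorem designI (PP : BPlane 2) (n : ℕ) (hn : 0 < n) (he : Even n) :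
    ∃ (𝒟 : Design (Pt PP.Pr) (Fin 3) (blkRel PP.Pr) PP.Q (Fintype.card (Pt PP.Pr)) n)
      (pin : 𝒟.V), 𝒟.side pin = false ∧
      ∀ Γ, IsGraph 𝒟 Γ → ∀ (G : Type) [Group G] (gen : Pt PP.Pr ⊕ 𝒟.V → G),
        GraphRel Γ gen (fun _ => 1) →
        (∀ v, 𝒟.side v = false → v ≠ pin → gen (Sum.inr v) ≠ gen (Sum.inr pin)) →
        ∃ a b c : MonoidAlgebra (ZMod 2) G, a * b = 1 ∧ a * c = 0 ∧ c ≠ 0 := by
  classical
  let xr : Fin 3 → Option (Fin 3) := ![some 0, some 1, none]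
  let mode : Fin 3 → Fin 3 → Bool := fun a k => if a = 0 then k = 0 else k ≠ 0
  have hm : ∀ a k, mode a k = false → Even n ∧ xr a ≠ some k := by
    intro a k h
    refine ⟨he, ?_⟩
    revert a k
    decide
  obtain ⟨l₀, -⟩ : (({a | (Sum.inl (0, 0) : Pt PP.Pr) ∈ PP.ln a} : Finset PP.Ln)).Nonempty := by
    rw [← Finset.card_pos, PP.through]
    have := PP.two_le
    omega
  refine ⟨design PP n xr mode hm, Sum.inl (2, Sum.inl (l₀, ⟨0, hn⟩)), rfl, ?_⟩
  intro Γ hΓ G _ gen hrel hpin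
  let g : Fin 3 → PP.Ln × Fin n ⊕ Unit → G := fun a x => gen (Sum.inr (Sum.inl (a, x)))
  let φ := MonoidAlgebra.of (ZMod 2) G
  have key : ∀ b, b ≠ 0 → ∑ x, ∑ y, #(tyF PP n xr 0 x ∩ tyF PP n xr b y) •
      φ (g 0 x * (g b y)⁻¹) = 0 := by
    intro b hb
    refine (ident_design PP n xr mode hm hΓ (t := fun _ _ => 1) hrel 0 b φ).trans ?_
    refine Finset.sum_eq_zero fun v hv => Finset.sum_eq_zero fun w hw => ?_
    refine true_side_I PP n xr mode 0 b ?_ v w (mem_filter.1 hv).2 (mem_filter.1 hw).2 _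
    intro k
    simp [mode, hb]
  have h1 : (∑ x, φ (g 0 x)) * (∑ y, φ (g 1 y)⁻¹) =
      φ (g 0 (Sum.inr ()) * (g 1 (Sum.inr ()))⁻¹) := by
    rw [Finset.sum_mul_sum, ← zero_add (φ (_ * _)), ← key 1 (by decide)]
    have h2 : φ (g 0 (Sum.inr ()) * (g 1 (Sum.inr ()))⁻¹) = ∑ x, ∑ y,
        (if x = Sum.inr () ∧ y = Sum.inr () ∧ (0 : Fin 3) ≠ 1 then 1 else 0) •
          φ (g 0 x * (g 1 y)⁻¹) := by
      simp [ite_and]
    rw [h2, ← Finset.sum_add_distrib]
    apply Finset.sum_congr rfl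
    intro x _
    rw [← Finset.sum_add_distrib]
    apply Finset.sum_congr rfl
    intro y _
    rw [← add_smul, nsmul_char_two _ (meet_FF PP n xr 0 1 0 1 (by decide) (by decide) rfl rfl x y),
      map_mul]
  have h3 : (∑ x, φ (g 0 x)) * (∑ l, φ (g 2 (Sum.inl l))⁻¹) = 0 := by
    rw [Finset.sum_mul_sum, ← key 2 (by decide)]
    apply Finset.sum_congr rfl
    intro x _
    rw [Fintype.sum_sum_type]
    have h4 : tyF PP n xr 2 (Sum.inr ()) = ∅ := by
      ext s; simp [tyF, xr]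
    simp only [Finset.univ_unique, PUnit.default_eq_unit, Finset.sum_singleton, h4,
      Finset.inter_empty, Finset.card_empty, zero_smul, add_zero]
    apply Finset.sum_congr rfl
    intro l _
    rw [nsmul_char_two _ (meet_F PP n xr 0 2 0 (by decide) rfl x l), map_mul]
  refine ⟨∑ x, φ (g 0 x), (∑ y, φ (g 1 y)⁻¹) * φ (g 0 (Sum.inr ()) * (g 1 (Sum.inr ()))⁻¹)⁻¹,
    ∑ l, φ (g 2 (Sum.inl l))⁻¹, ?_, h3, ?_⟩
  · rw [← mul_assoc, h1, ← map_mul, mul_inv_cancel, map_one]
  · intro h0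
    have h5 := congrArg (fun z : MonoidAlgebra (ZMod 2) G =>
      z.coeff (g 2 (Sum.inl (l₀, ⟨0, hn⟩)))⁻¹) h0
    simp only [φ, MonoidAlgebra.of_apply, MonoidAlgebra.coeff_sum, Finsupp.coe_finsetSum,
      Finset.sum_apply, MonoidAlgebra.coeff_single] at h5
    rw [Finset.sum_eq_single (l₀, ⟨0, hn⟩)] at h5
    · simp at h5
    · intro l _ hl
      rw [Finsupp.single_eq_of_ne]
      intro h6
      refine hpin (Sum.inl (2, Sum.inl l)) rfl ?_ (inv_injective h6).symm
      intro h7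
      apply hl
      exact Sum.inl_injective (Prod.mk.inj (Sum.inl_injective h7)).2
    · simp

lemma exists_of_modEq {A : Type} [AddCommGroup A] (x : A) {c p : ℕ} (hc : c ≡ 1 [MOD p]) :
    ∃ W : A, x = c • x + p • W := by
  obtain ⟨z, hz⟩ := hc.dvd
  refine ⟨z • x, ?_⟩
  rw [← natCast_zsmul, ← natCast_zsmul, ← mul_smul, ← hz, ← add_smul]
  simp

/-- the twist -/
def twist {Pr Z : Type} [Monoid Z] (m w : Z) : Pt Pr → Z
  | Sum.inl a => w ^ (a.2 : ℕ)
  | Sum.inr a => if a.2 then m else 1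

lemma true_side_II {p : ℕ} (PP : BPlane p) (n : ℕ) {Sh : Type} [Fintype Sh] [DecidableEq Sh]
    (xr : Sh → Option (Fin 3)) {A : Type} [Ring A] (m w : A) (v v' : VV PP n xr fun _ _ => true)
    (hv : v.isRight = true) (hv' : v'.isRight = true) (x : A) :
    ∃ W₂ W₃ : A, ∑ s ∈ tyV PP n xr _ v ∩ tyV PP n xr _ v', twist m w s * x =
      (1 + m) * W₂ + (1 + w + w ^ 2) * W₃ := by
  rcases v with v | ⟨⟨a', τ⟩, c⟩
  · simp at hv
  rcases v' with v' | ⟨⟨b', τ'⟩, c'⟩
  · simp at hv'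
  have hc := c.pos
  have hc' := c'.pos
  simp only [tyV]
  rcases τ with pr | ⟨k, o⟩ <;> rcases τ' with pr' | ⟨k', o'⟩
  · rw [sum_inter_ll]
    split_ifs
    · exact ⟨x, 0, by simp [twist, add_mul, add_comm]⟩
    · exact ⟨0, 0, by simp⟩
  · rw [sum_inter_lr]; exact ⟨0, 0, by simp⟩
  · rw [sum_inter_rl]; exact ⟨0, 0, by simp⟩
  · rw [sum_inter_rr]
    split_ifs with h
    · rcases o with _ | i
      · rcases o' with _ | j
        · exact ⟨0, x, by simp [twist, Fin.sum_univ_three, add_mul]⟩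
        · simp [cnt] at hc'
      · simp [cnt] at hc
    · exact ⟨0, 0, by simp⟩

/-- The twisted design: a Leavitt relation modulo `p`, `1 + m` and `1 + w + w ^ 2`. -/
theorem designII {p : ℕ} (PP : BPlane p) (n : ℕ) :
    ∃ (𝒟 : Design (Pt PP.Pr) (Fin 2 × Bool) (blkRel PP.Pr) PP.Q (Fintype.card (Pt PP.Pr)) n),
      Nonempty 𝒟.V ∧
      ∀ (Z : Type) [CommGroup Z] (m w : Z), ∃ tw : Edge 𝒟.V (Pt PP.Pr) → Z,
      ∀ Γ, IsGraph 𝒟 Γ → ∀ (G : Type) [Group G] (gen : Pt PP.Pr ⊕ 𝒟.V → G) (ι : Z →* G),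
        (∀ z g, ι z * g = g * ι z) → GraphRel Γ gen (fun e => ι (tw e)) →
        ∀ (k : Type) [CommRing k], ∃ a b : Fin 2 → MonoidAlgebra k G, ∀ i j,
          ∃ W₁ W₂ W₃ : MonoidAlgebra k G, a i * b j = (if i = j then 1 else 0) + p • W₁ +
            (1 + MonoidAlgebra.of k G (ι m)) * W₂ +
            (1 + MonoidAlgebra.of k G (ι w) + MonoidAlgebra.of k G (ι w) ^ 2) * W₃ := by
  classical
  let xr : Fin 2 × Bool → Option (Fin 3) := fun a =>
    some (if a.2 then a.1.rev.castSucc else a.1.castSucc)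
  have hm : ∀ a k, (fun (_ : Fin 2 × Bool) (_ : Fin 3) => true) a k = false →
      Even n ∧ xr a ≠ some k := by
    intro a k h
    simp at h
  refine ⟨design PP n xr _ hm, ⟨Sum.inl ((0, false), Sum.inr ())⟩, fun Z _ m w => ?_⟩
  let t : VV PP n xr (fun _ _ => true) → Pt PP.Pr → Z := fun v s =>
    if (shV PP n xr _ v).2 then 1 else twist m w s
  refine ⟨fun e => t (e.1 true) e.2, ?_⟩
  intro Γ hΓ G _ gen ι _ hrel k _
  let g : Fin 2 × Bool → PP.Ln × Fin n ⊕ Unit → G := fun a x => gen (Sum.inr (Sum.inl (a, x)))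
  let φ := MonoidAlgebra.of k G
  let u : Fin 2 → Fin 2 → G := fun i j =>
    g (i, false) (Sum.inr ()) * (g (j, true) (Sum.inr ()))⁻¹
  have key : ∀ i j : Fin 2, ∃ W₂ W₃ : MonoidAlgebra k G,
      ∑ x, ∑ y, #(tyF PP n xr (i, false) x ∩ tyF PP n xr (j, true) y) •
        φ (g (i, false) x * (g (j, true) y)⁻¹) =
      (1 + φ (ι m)) * W₂ + (1 + φ (ι w) + φ (ι w) ^ 2) * W₃ := by
    intro i j
    have h0 := ident_design PP n xr _ hm hΓ (t := fun v s => ι (t v s)) hrel (i, false) (j, true) φ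
    have h1 : ∀ v v' : VV PP n xr (fun _ _ => true), ∃ W₂ W₃ : MonoidAlgebra k G,
        (v.isRight = true ∧ shV PP n xr _ v = (i, false)) →
        (v'.isRight = true ∧ shV PP n xr _ v' = (j, true)) →
        ∑ s ∈ tyV PP n xr _ v ∩ tyV PP n xr _ v',
          φ (ι (t v s) * gen (Sum.inr v) * (ι (t v' s) * gen (Sum.inr v'))⁻¹) =
        (1 + φ (ι m)) * W₂ + (1 + φ (ι w) + φ (ι w) ^ 2) * W₃ := by
      intro v v'
      by_cases hv : v.isRight = true ∧ shV PP n xr _ v = (i, false)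
      swap
      · exact ⟨0, 0, fun h => absurd h hv⟩
      by_cases hv' : v'.isRight = true ∧ shV PP n xr _ v' = (j, true)
      swap
      · exact ⟨0, 0, fun _ h => absurd h hv'⟩
      obtain ⟨W₂, W₃, hW⟩ := true_side_II PP n xr (φ (ι m)) (φ (ι w)) v v' hv.1 hv'.1
        (φ (gen (Sum.inr v) * (gen (Sum.inr v'))⁻¹))
      refine ⟨W₂, W₃, fun _ _ => Eq.trans ?_ hW⟩
      apply Finset.sum_congr rfl
      intro s _
      have h2 : φ (ι (twist m w s)) = twist (φ (ι m)) (φ (ι w)) s := by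
        rcases s with s | ⟨s, _ | _⟩ <;> simp only [twist, map_pow, map_one, if_true,
          Bool.false_eq_true, if_false]
      simp only [t, hv.2, hv'.2, if_true, Bool.false_eq_true, if_false, map_one, one_mul,
        mul_assoc]
      rw [map_mul, h2]
    choose W₂ W₃ hW using h1
    refine ⟨∑ v with v.isRight = true ∧ shV PP n xr _ v = (i, false),
      ∑ v' with v'.isRight = true ∧ shV PP n xr _ v' = (j, true), W₂ v v',
      ∑ v with v.isRight = true ∧ shV PP n xr _ v = (i, false),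
      ∑ v' with v'.isRight = true ∧ shV PP n xr _ v' = (j, true), W₃ v v', h0.trans ?_⟩
    simp only [Finset.mul_sum, ← Finset.sum_add_distrib]
    exact Finset.sum_congr rfl fun v hv => Finset.sum_congr rfl fun v' hv' =>
      hW v v' (mem_filter.1 hv).2 (mem_filter.1 hv').2
  refine ⟨fun i => ∑ x, φ (g (i, false) x),
    fun j => (∑ y, φ (g (j, true) y)⁻¹) * φ (u j j)⁻¹, fun i j => ?_⟩
  obtain ⟨W₂, W₃, hW⟩ := key i j
  have h1 := fun x y => exists_of_modEq (φ (g (i, false) x * (g (j, true) y)⁻¹))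
    (meet_FF PP n xr (i, false) (j, true) i.castSucc j.rev.castSucc
      (Fin.castSucc_ne_last i) (Fin.castSucc_ne_last j.rev) rfl rfl x y)
  choose W₁ hW₁ using h1
  have h2 : (∑ x, φ (g (i, false) x)) * (∑ y, φ (g (j, true) y)⁻¹) =
      (if i = j then φ (u j j) else 0) + p • (∑ x, ∑ y, W₁ x y) +
        ((1 + φ (ι m)) * W₂ + (1 + φ (ι w) + φ (ι w) ^ 2) * W₃) := by
    have h3 : (if i = j then φ (u j j) else 0) = ∑ x, ∑ y,
        (if x = Sum.inr () ∧ y = Sum.inr () ∧ i.castSucc ≠ j.rev.castSucc then 1 else 0) •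
          φ (g (i, false) x * (g (j, true) y)⁻¹) := by
      have h4 : i.castSucc ≠ j.rev.castSucc ↔ i = j := by
        fin_cases i <;> fin_cases j <;> decide
      simp only [h4]
      by_cases h : i = j
      · subst h; simp [ite_and, u]
      · simp [h]
    rw [Finset.sum_mul_sum, ← hW, h3]
    simp only [Finset.smul_sum, ← Finset.sum_add_distrib]
    refine Finset.sum_congr rfl fun x _ => Finset.sum_congr rfl fun y _ => ?_
    rw [← map_mul]
    refine (hW₁ x y).trans ?_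
    rw [add_smul]
    abel
  refine ⟨(∑ x, ∑ y, W₁ x y) * φ (u j j)⁻¹, W₂ * φ (u j j)⁻¹, W₃ * φ (u j j)⁻¹, ?_⟩
  simp only
  rw [← mul_assoc, h2]
  simp only [add_mul, mul_assoc, smul_mul_assoc, add_assoc]
  congr 1
  split_ifs
  · rw [← map_mul, mul_inv_cancel, map_one]
  · simp

end Crest.Agent.R177
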