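import Crest.Agent.R177.Defs

set_option autoImplicit false

namespace Crest.Agent.R177

open Finset

section Ident

variable {P Sh : Type} [Fintype P] [DecidableEq P] [DecidableEq Sh] {R : Finset (P × P)}
  {Q d n : ℕ} {𝒟 : Design P Sh R Q d n} {Γ : Finset (Edge 𝒟.V P)}

omit [Fintype P] in
lemma sum_side (hΓ : IsGraph 𝒟 Γ) {M : Type} [AddCommMonoid M] (a : Sh) (s : P) (b : Bool)
    (F : 𝒟.V → M) :
    ∑ v with 𝒟.side v = b ∧ 𝒟.sh v = a ∧ s ∈ 𝒟.ty v, F v =
      ∑ e ∈ Γ with 𝒟.sh (e.1 false) = a ∧ e.2 = s, F (e.1 b) := by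
  symm
  refine Finset.sum_bij (fun e _ => e.1 b) ?_ ?_ ?_ (fun _ _ => rfl)
  · intro e he
    simp only [mem_filter, mem_univ, true_and] at he ⊢
    refine ⟨hΓ.side e he.1 b, ?_, he.2.2 ▸ hΓ.mem e he.1 b⟩
    cases b
    · exact he.2.1
    · rw [← hΓ.sh e he.1]; exact he.2.1
  · intro e he e' he' h
    simp only [mem_filter] at he he'
    exact hΓ.uniq e he.1 e' he'.1 b h (he.2.2.trans he'.2.2.symm)
  · intro v hv
    simp only [mem_filter, mem_univ, true_and] at hv
    obtain ⟨e, he, h1, h2⟩ := hΓ.ex v s hv.2.2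
    rw [hv.1] at h1
    refine ⟨e, mem_filter.2 ⟨he, ?_, h2⟩, h1⟩
    cases b
    · rw [h1]; exact hv.2.1
    · rw [hΓ.sh e he, h1]; exact hv.2.1

omit [Fintype P] in
lemma sum_rel (hΓ : IsGraph 𝒟 Γ) {G : Type} [Group G] {gen : P ⊕ 𝒟.V → G} {t : 𝒟.V → P → G}
    (hrel : GraphRel Γ gen fun e => t (e.1 true) e.2) {M : Type} [AddCommMonoid M] (a : Sh)
    (s : P) (φ : G → M) :
    ∑ v with 𝒟.side v = false ∧ 𝒟.sh v = a ∧ s ∈ 𝒟.ty v, φ (gen (Sum.inr v) * gen (Sum.inl s)) =
      ∑ v with 𝒟.side v = true ∧ 𝒟.sh v = a ∧ s ∈ 𝒟.ty v, φ (t v s * gen (Sum.inr v)) := by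
  rw [sum_side hΓ, sum_side hΓ]
  apply Finset.sum_congr rfl
  intro e he
  simp only [mem_filter] at he
  rw [← he.2.2, hrel e he.1]

lemma sum_swap_inter {V M : Type} [Fintype V] [AddCommMonoid M] (ty : V → Finset P)
    (p q : V → Prop) [DecidablePred p] [DecidablePred q] (F : V → V → P → M) :
    ∑ v with p v, ∑ w with q w, ∑ s ∈ ty v ∩ ty w, F v w s =
      ∑ s, ∑ v with p v ∧ s ∈ ty v, ∑ w with q w ∧ s ∈ ty w, F v w s := by
  have h1 : ∀ v w, ∑ s ∈ ty v ∩ ty w, F v w s =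
      ∑ s, if s ∈ ty v ∧ s ∈ ty w then F v w s else 0 := by
    intro v w
    rw [← Finset.sum_filter]
    congr 1
    ext s; simp
  simp_rw [h1]
  rw [Finset.sum_congr rfl fun v _ => Finset.sum_comm, Finset.sum_comm]
  apply Finset.sum_congr rfl
  intro s _
  simp_rw [Finset.sum_filter]
  apply Finset.sum_congr rfl
  intro v _
  by_cases h1 : p v <;> by_cases h2 : s ∈ ty v <;> simp [h1, h2, ite_and]

lemma ident (hΓ : IsGraph 𝒟 Γ) {G : Type} [Group G] {gen : P ⊕ 𝒟.V → G} {t : 𝒟.V → P → G}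
    (hrel : GraphRel Γ gen fun e => t (e.1 true) e.2) {M : Type} [AddCommMonoid M] (a b : Sh)
    (φ : G → M) :
    ∑ i with 𝒟.side i = false ∧ 𝒟.sh i = a, ∑ j with 𝒟.side j = false ∧ 𝒟.sh j = b,
        #(𝒟.ty i ∩ 𝒟.ty j) • φ (gen (Sum.inr i) * (gen (Sum.inr j))⁻¹) =
      ∑ v with 𝒟.side v = true ∧ 𝒟.sh v = a, ∑ w with 𝒟.side w = true ∧ 𝒟.sh w = b,
        ∑ s ∈ 𝒟.ty v ∩ 𝒟.ty w, φ (t v s * gen (Sum.inr v) * (t w s * gen (Sum.inr w))⁻¹) := by
  simp_rw [← Finset.sum_const]
  rw [sum_swap_inter, sum_swap_inter]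
  apply Finset.sum_congr rfl
  intro s _
  simp_rw [and_assoc]
  rw [← sum_rel hΓ hrel a s (fun g => ∑ w with 𝒟.side w = true ∧ 𝒟.sh w = b ∧ s ∈ 𝒟.ty w,
    φ (g * (t w s * gen (Sum.inr w))⁻¹))]
  apply Finset.sum_congr rfl
  intro i _
  rw [← sum_rel hΓ hrel b s (fun g => φ (gen (Sum.inr i) * gen (Sum.inl s) * g⁻¹))]
  apply Finset.sum_congr rfl
  intro j _
  congr 1
  group

end Ident

section Constr

variable {p : ℕ} (PP : BPlane p) {Sh : Type} [Fintype Sh] [DecidableEq Sh]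

/-- types of the vertices of side `true` -/
abbrev TT : Type := PP.Pr ⊕ (Fin 3 × Option (Fin 3))

/-- membership in a type -/
def inT : TT PP → Pt PP.Pr → Prop
  | Sum.inl pr, Sum.inr a => a.1 = pr
  | Sum.inr ko, Sum.inl a => a.1 = ko.1 ∧ ko.2 ≠ some a.2
  | Sum.inl _, Sum.inl _ => False
  | Sum.inr _, Sum.inr _ => False

instance (τ : TT PP) (s : Pt PP.Pr) : Decidable (inT PP τ s) := by
  rcases τ with _ | _ <;> rcases s with _ | _ <;> unfold inT <;> infer_instance

/-- multiplicities -/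
def cnt (n : ℕ) (xr : Sh → Option (Fin 3)) (mode : Sh → Fin 3 → Bool) (a : Sh) : TT PP → ℕ
  | Sum.inl pr => PP.Q * n + if xr a = some (PP.reg pr) then 1 else 0
  | Sum.inr (k, none) => if mode a k then PP.Q * n + (if xr a = some k then 1 else 0) else 0
  | Sum.inr (k, some _) => if mode a k then 0 else PP.Q * n / 2

/-- vertices -/
abbrev VV (n : ℕ) (xr : Sh → Option (Fin 3)) (mode : Sh → Fin 3 → Bool) : Type :=
  (Sh × (PP.Ln × Fin n ⊕ Unit)) ⊕ (Σ x : Sh × TT PP, Fin (cnt PP n xr mode x.1 x.2))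

variable (n : ℕ) (xr : Sh → Option (Fin 3)) (mode : Sh → Fin 3 → Bool)

/-- types of the vertices of side `false` -/
def tyF (a : Sh) : PP.Ln × Fin n ⊕ Unit → Finset (Pt PP.Pr)
  | Sum.inl l => PP.ln l.1
  | Sum.inr _ => {s | xr a = some (region PP.reg s)}

/-- types -/
def tyV : VV PP n xr mode → Finset (Pt PP.Pr)
  | Sum.inl x => tyF PP n xr x.1 x.2
  | Sum.inr x => {s | inT PP x.1.2 s}

/-- sheets -/
def shV : VV PP n xr mode → Sh
  | Sum.inl x => x.1
  | Sum.inr x => x.1.1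

lemma sum_false {M : Type} [AddCommMonoid M] (a : Sh) (F : VV PP n xr mode → M) :
    ∑ v with v.isRight = false ∧ shV PP n xr mode v = a, F v = ∑ x, F (Sum.inl (a, x)) := by
  rw [Finset.sum_filter, Fintype.sum_sum_type, Fintype.sum_prod_type]
  simp [shV]

lemma card_false (a : Sh) (q : Finset (Pt PP.Pr) → Prop) [DecidablePred q] :
    #{v : VV PP n xr mode | v.isRight = false ∧ shV PP n xr mode v = a ∧ q (tyV PP n xr mode v)} =
      #{l | q (PP.ln l)} * n + if q {s | xr a = some (region PP.reg s)} then 1 else 0 := by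
  simp_rw [← and_assoc]
  rw [← Finset.filter_filter, Finset.card_filter, sum_false, Fintype.sum_sum_type,
    Fintype.sum_prod_type, Finset.card_filter, Finset.sum_mul]
  congr 1
  apply Finset.sum_congr rfl
  intro l _
  by_cases h : q (PP.ln l) <;> simp [tyV, tyF, h]

lemma card_true (a : Sh) (s : Pt PP.Pr) :
    #{v : VV PP n xr mode | v.isRight = true ∧ shV PP n xr mode v = a ∧ s ∈ tyV PP n xr mode v} =
      ∑ τ, if inT PP τ s then cnt PP n xr mode a τ else 0 := by
  rw [Finset.card_filter, Fintype.sum_sum_type, Fintype.sum_sigma,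
    Fintype.sum_prod_type (α₂ := TT PP), Finset.sum_comm]
  simp only [Sum.isRight_inl, Bool.false_eq_true, false_and, if_false, Finset.sum_const_zero,
    zero_add]
  apply Finset.sum_congr rfl
  intro τ _
  by_cases h : inT PP τ s <;> simp [shV, tyV, h]

omit [Fintype Sh] [DecidableEq Sh] in
lemma card_true' (hm : ∀ a k, mode a k = false → Even n ∧ xr a ≠ some k) (a : Sh)
    (s : Pt PP.Pr) :
    (∑ τ, if inT PP τ s then cnt PP n xr mode a τ else 0) =
      PP.Q * n + if xr a = some (region PP.reg s) then 1 else 0 := by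
  rw [Fintype.sum_sum_type, Fintype.sum_prod_type]
  rcases s with ⟨k, i⟩ | ⟨pr, b⟩
  · simp only [inT, if_false, Finset.sum_const_zero, zero_add, region, ite_and]
    rw [Finset.sum_comm]
    simp only [Finset.sum_ite_eq, mem_univ, if_true, Fintype.sum_option, cnt]
    by_cases h : mode a k = true
    · simp [h]
    · obtain ⟨⟨c, hc⟩, h2⟩ := hm a k (by simpa using h)
      have h3 : PP.Q * n / 2 = PP.Q * c := by
        rw [hc, ← two_mul, mul_left_comm]; simp
      have h4 : PP.Q * n = PP.Q * c + PP.Q * c := by rw [hc]; ring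
      rw [h3, h4]
      fin_cases i <;> simp [h, h2, Fin.sum_univ_three]
  · simp [inT, region, cnt]

/-- the design -/
noncomputable def design (hm : ∀ a k, mode a k = false → Even n ∧ xr a ≠ some k) :
    Design (Pt PP.Pr) Sh (blkRel PP.Pr) PP.Q (Fintype.card (Pt PP.Pr)) n where
  V := VV PP n xr mode
  dec := Classical.decEq _
  side := Sum.isRight
  ty := tyV PP n xr mode
  sh := shV PP n xr mode
  deg_le v := Finset.card_le_univ _
  bal a s := by
    rw [card_true, card_true' PP n xr mode hm, card_false PP n xr mode a (fun T => s ∈ T),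
      PP.through]
    simp
  lower a s := by
    rw [card_false PP n xr mode a (fun T => s ∈ T), PP.through]
    omega
  upper a s := by
    rw [card_false PP n xr mode a (fun T => s ∈ T), PP.through]
    have := PP.two_le
    split_ifs <;> nlinarith
  two a s t hst := by
    rw [card_false PP n xr mode a (fun T => s ∈ T ∧ t ∈ T)]
    have := PP.join s t hst
    split_ifs <;> nlinarith
  blk v hv s hs t ht hst := by
    rcases v with v | ⟨⟨a, τ⟩, c⟩
    · simp at hv
    · simp only [tyV, mem_filter, mem_univ, true_and] at hs ht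
      simp only [blkRel, mem_filter, mem_univ, true_and]
      refine ⟨hst, ?_⟩
      rcases τ with _ | _ <;> rcases s with _ | _ <;> rcases t with _ | _ <;>
        simp_all [inT, blk]

end Constr

end Crest.Agent.R177
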