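import Crest.Agent.R177.Defs

set_option autoImplicit false

namespace Crest.Agent.R177

open Finset

section General

variable {F : Type} [Fintype F] [DecidableEq F]

theorem sum_classes (s : Setoid F) (a b : F → ℕ) (c d : ℕ)
    (h : ∀ O : Finset F, (∃ x₀, ∀ x, x ∈ O ↔ s x x₀) →
      c + ∑ x ∈ O, a x ≤ d + ∑ x ∈ O, b x) :
    c * Nat.card (Quotient s) + ∑ x, a x ≤ d * Nat.card (Quotient s) + ∑ x, b x := by
  classical
  have key : ∀ (e : ℕ) (f : F → ℕ), e * Nat.card (Quotient s) + ∑ x, f x =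
      ∑ q : Quotient s, (e + ∑ x ∈ univ.filter (fun x => Quotient.mk s x = q), f x) := by
    intro e f
    rw [sum_add_distrib, sum_fiberwise, sum_const, card_univ, Nat.card_eq_fintype_card,
      smul_eq_mul, mul_comm]
  rw [key, key]
  refine sum_le_sum fun q _ => ?_
  induction q using Quotient.ind with
  | _ x₀ => exact h _ ⟨x₀, fun x => by simp [Quotient.eq]⟩

omit [Fintype F] in
theorem four_le_card {μ ν : F → F} (hν : ∀ x, ν (ν x) = x)
    (hf : ∀ x, ν x = μ x → μ x = x) {O : Finset F} (hOμ : ∀ x ∈ O, μ x ∈ O)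
    (hOν : ∀ x ∈ O, ν x ∈ O) (hn : ∀ x ∈ O, ν x ≠ x) {x : F} (hx : x ∈ O) (hm : μ x ≠ x) :
    ({x, ν x, μ x, ν (μ x)} : Finset F) ⊆ O ∧ #({x, ν x, μ x, ν (μ x)} : Finset F) = 4 := by
  have h1 : x ≠ ν x := (hn x hx).symm
  have h2 : ν x ≠ μ x := fun e => hm (hf x e)
  have h3 : μ x ≠ ν (μ x) := (hn _ (hOμ x hx)).symm
  have h4 : x ≠ ν (μ x) := fun e => h2 (by rw [e, hν, ← e])
  have h5 : ν x ≠ ν (μ x) := fun e => hm (by rw [← hν (μ x), ← e, hν])
  constructor
  · intro y hy
    simp only [mem_insert, mem_singleton] at hy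
    rcases hy with rfl | rfl | rfl | rfl
    · exact hx
    · exact hOν _ hx
    · exact hOμ _ hx
    · exact hOν _ (hOμ _ hx)
  · rw [card_insert_of_notMem (by simp [h1, hm.symm, h4]),
      card_insert_of_notMem (by simp [h2, h5]), card_pair h3]

omit [Fintype F] in
theorem four_le {μ ν : F → F} (hν : ∀ x, ν (ν x) = x)
    (hf : ∀ x, ν x = μ x → μ x = x) {O : Finset F} (hOμ : ∀ x ∈ O, μ x ∈ O)
    (hOν : ∀ x ∈ O, ν x ∈ O) (hn : ∀ x ∈ O, ν x ≠ x) (hne : O.Nonempty) :
    4 ≤ #O + #{x ∈ O | μ x = x} := by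
  by_cases h : ∀ x ∈ O, μ x = x
  · obtain ⟨x, hx⟩ := hne
    rw [filter_true_of_mem h]
    have : 1 < #O := one_lt_card.2 ⟨x, hx, ν x, hOν x hx, (hn x hx).symm⟩
    omega
  · push Not at h
    obtain ⟨x, hx, hm⟩ := h
    obtain ⟨h1, h2⟩ := four_le_card hν hf hOμ hOν hn hx hm
    have := card_le_card h1
    omega

omit [Fintype F] in
theorem twenty_le {μ ν : F → F} (hμ : ∀ x, μ (μ x) = x) (hν : ∀ x, ν (ν x) = x)
    (hf : ∀ x, ν x = μ x → μ x = x) {O : Finset F} (hOμ : ∀ x ∈ O, μ x ∈ O)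
    (hOν : ∀ x ∈ O, ν x ∈ O) (hn : ∀ x ∈ O, ν x ≠ x) {x : F} (hx : x ∈ O)
    (hp : μ (ν x) ≠ ν (μ x)) : 20 ≤ 4 * #O + 5 * #{x ∈ O | μ x = x} := by
  by_cases h1 : μ x = x
  · rw [h1] at hp
    obtain ⟨h1', h2⟩ := four_le_card hν hf hOμ hOν hn (hOν x hx) hp
    have := card_le_card h1'
    have : 0 < #{x ∈ O | μ x = x} := card_pos.2 ⟨x, mem_filter.2 ⟨hx, h1⟩⟩
    omega
  obtain ⟨h1', h2⟩ := four_le_card hν hf hOμ hOν hn hx h1
  by_cases h3 : μ (ν x) = ν x
  · have := card_le_card h1'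
    have : 0 < #{x ∈ O | μ x = x} := card_pos.2 ⟨ν x, mem_filter.2 ⟨hOν x hx, h3⟩⟩
    omega
  · have h4 : μ (ν x) ≠ x := fun e => h1 (hf x (by rw [← hμ (ν x), e]))
    have h5 : μ (ν x) ≠ μ x := fun e => hn x hx (by rw [← hμ (ν x), e, hμ])
    have h6 : μ (ν x) ∉ ({x, ν x, μ x, ν (μ x)} : Finset F) := by simp [h3, h4, h5, hp]
    have h7 := card_le_card (insert_subset (hOμ _ (hOν x hx)) h1')
    rw [card_insert_of_notMem h6] at h7
    omega

omit [Fintype F] in
theorem card_parity {ν : F → F} (hν : ∀ x, ν (ν x) = x) {O : Finset F}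
    (hOν : ∀ x ∈ O, ν x ∈ O) : #O % 2 = #{x ∈ O | ν x = x} % 2 := by
  have h1 : ∑ _x ∈ O.filter (fun x => ¬ ν x = x), (1 : ZMod 2) = 0 := by
    refine sum_involution (fun x _ => ν x) (fun _ _ => by decide) (fun x hx _ => (mem_filter.1 hx).2)
      (fun x hx => mem_filter.2 ⟨hOν x (mem_filter.1 hx).1, ?_⟩) fun x _ => hν x
    rw [hν]
    exact fun e => (mem_filter.1 hx).2 e.symm
  rw [sum_const, nsmul_eq_mul, mul_one, ZMod.natCast_eq_zero_iff] at h1
  have h2 := card_filter_add_card_filter_not (s := O) (fun x => ν x = x)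
  omega

end General

namespace Gem

variable (D : Gem)

/-- Faces with the same vertex of role `k`. -/
def vS (k : Fin 3) : Setoid D.F :=
  Relation.EqvGen.setoid fun x y => ∃ i, i ≠ k ∧ y = D.σ i x

/-- Faces with the same edge of role `i`. -/
def eS (i : Fin 3) : Setoid D.F where
  r x y := x = y ∨ x = D.σ i y
  iseqv := by
    refine ⟨fun _ => Or.inl rfl, ?_, ?_⟩
    · rintro x y (rfl | rfl)
      · exact Or.inl rfl
      · exact Or.inr (D.inv i y).symm
    · rintro x y z (rfl | rfl) (rfl | rfl)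
      · exact Or.inl rfl
      · exact Or.inr rfl
      · exact Or.inr rfl
      · exact Or.inl (D.inv i z)

/-- Number of vertices of role `k`. -/
noncomputable def nV (k : Fin 3) : ℕ := Nat.card (Quotient (D.vS k))

theorem vS_closed {k : Fin 3} {O : Finset D.F} (h : ∃ x₀, ∀ x, x ∈ O ↔ D.vS k x x₀) :
    O.Nonempty ∧ ∀ i, i ≠ k → ∀ x ∈ O, D.σ i x ∈ O := by
  obtain ⟨x₀, h⟩ := h
  refine ⟨⟨x₀, (h _).2 ((D.vS k).refl _)⟩, fun i hi x hx => (h _).2 ?_⟩
  exact (D.vS k).trans ((D.vS k).symm (Relation.EqvGen.rel _ _ ⟨i, hi, rfl⟩)) ((h _).1 hx)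

theorem edge_count (i : Fin 3) : D.area + D.bd i ≤ 2 * Nat.card (Quotient (D.eS i)) := by
  have := sum_classes (D.eS i) (fun x => 1 + if D.σ i x = x then 1 else 0) (fun _ => 0) 0 2 (by
    rintro O ⟨x₀, h⟩
    have hO : O = {x₀, D.σ i x₀} := by
      ext x
      rw [h, mem_insert, mem_singleton]
      rfl
    subst hO
    by_cases h0 : D.σ i x₀ = x₀
    · simp [h0]
    · have h1 : x₀ ≠ D.σ i x₀ := fun e => h0 e.symm
      rw [sum_pair h1]
      simp [h0, D.inv, h1])
  simpa [sum_add_distrib, area, bd] using this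

theorem euler (hac : D.Ac) :
    D.area + D.B + D.X + (if 0 < D.area then 2 else 0) ≤ 2 * (D.nV 0 + D.nV 1 + D.nV 2) := by
  classical
  let j1 : ((Σ i, Quotient (D.eS i)) → ZMod 2) →ₗ[ZMod 2] (D.F × Fin 3 → ZMod 2) :=
    LinearMap.funLeft (ZMod 2) (ZMod 2) fun p => ⟨p.2, Quotient.mk _ p.1⟩
  have hj1 : Function.Injective j1 := by
    apply LinearMap.funLeft_injective_of_surjective
    rintro ⟨i, q⟩
    induction q using Quotient.ind with
    | _ x => exact ⟨(x, i), rfl⟩
  let A : ((Σ i, Quotient (D.eS i)) → ZMod 2) →ₗ[ZMod 2] (D.F → ZMod 2) :=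
    LinearMap.funLeft (ZMod 2) (ZMod 2) (fun x => ⟨0, Quotient.mk _ x⟩) +
    LinearMap.funLeft (ZMod 2) (ZMod 2) (fun x => ⟨1, Quotient.mk _ x⟩) +
    LinearMap.funLeft (ZMod 2) (ZMod 2) (fun x => ⟨2, Quotient.mk _ x⟩)
  let B : ((Σ k, Quotient (D.vS k)) → ZMod 2) →ₗ[ZMod 2] (D.F × Fin 3 → ZMod 2) :=
    LinearMap.funLeft (ZMod 2) (ZMod 2) (fun p => ⟨p.2 + 1, Quotient.mk _ p.1⟩) +
    LinearMap.funLeft (ZMod 2) (ZMod 2) (fun p => ⟨p.2 + 2, Quotient.mk _ p.1⟩)
  have hle : (LinearMap.ker A).map j1 ≤ LinearMap.range B := by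
    rintro _ ⟨f, hf, rfl⟩
    obtain ⟨π, hπ, hω⟩ := hac (fun x i => f ⟨i, Quotient.mk _ x⟩)
      (fun x i => by
        have : Quotient.mk (D.eS i) (D.σ i x) = Quotient.mk (D.eS i) x :=
          Quotient.sound (Or.inr rfl)
        simp only [this])
      (fun x => congrFun hf x)
    refine ⟨fun q => Quotient.lift (fun x => π x q.1) ?_ q.2, ?_⟩
    · intro a b hab
      induction hab with
      | rel x y h =>
        obtain ⟨i, hi, rfl⟩ := h
        exact (hπ x i _ hi.symm).symm
      | refl => rfl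
      | symm _ _ _ ih => exact ih.symm
      | trans _ _ _ _ _ ih ih' => exact ih.trans ih'
    · funext p
      exact (hω p.1 p.2).symm
  have h1 := LinearMap.finrank_range_add_finrank_ker A
  have h2 := LinearMap.finrank_range_add_finrank_ker B
  have h3 := Submodule.finrank_mono hle
  rw [← (Submodule.equivMapOfInjective j1 hj1 _).finrank_eq] at h3
  have h4 := Submodule.finrank_le (LinearMap.range A)
  rw [Module.finrank_fintype_fun_eq_card] at h1 h2 h4
  rw [Fintype.card_sigma, Fin.sum_univ_three] at h1 h2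
  simp only [← Nat.card_eq_fintype_card] at h1 h2
  have e0 := D.edge_count 0
  have e1 := D.edge_count 1
  have e2 := D.edge_count 2
  have h5 : (if 0 < D.area then 2 else 0) ≤ 2 * Module.finrank (ZMod 2) (LinearMap.ker B) := by
    split_ifs with hp
    · obtain ⟨x⟩ := Fintype.card_pos_iff.1 hp
      have : 0 < Module.finrank (ZMod 2) (LinearMap.ker B) := by
        rw [Module.finrank_pos_iff_exists_ne_zero]
        refine ⟨⟨fun _ => 1, ?_⟩, fun h => ?_⟩
        · funext p
          exact CharTwo.add_self_eq_zero (1 : ZMod 2)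
        · exact one_ne_zero (congrFun (congrArg Subtype.val h) ⟨0, Quotient.mk _ x⟩)
      omega
    · exact Nat.zero_le _
  change _ ≤ D.area at h4
  unfold Gem.B Gem.X nV
  omega

/-- The role of the vertex between the labelled edge and the radial edge on side `b`. -/
def vr : Bool → Fin 3
  | false => 2
  | true => 0

theorem rad_ne_vr (b : Bool) : rad b ≠ vr b := by cases b <;> decide

theorem one_ne_vr (b : Bool) : 1 ≠ vr b := by cases b <;> decide

theorem vertex_count (hfold : D.Folded) (b : Bool) :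
    20 * D.nV (vr b) + #{x | ¬ D.Plain x b} ≤ 5 * (D.area + D.B) + 16 * D.bd (rad b) := by
  have := sum_classes (D.vS (vr b)) (fun x => if ¬ D.Plain x b then 1 else 0)
    (fun x => 5 * (1 + if D.σ 1 x = x then 1 else 0) + 16 * if D.σ (rad b) x = x then 1 else 0)
    20 0 (by
      intro O hO
      obtain ⟨hne, hcl⟩ := D.vS_closed hO
      rw [sum_add_distrib, ← mul_sum, ← mul_sum, sum_add_distrib, ← card_eq_sum_ones,
        ← card_filter, ← card_filter, ← card_filter]
      have h1 := card_filter_le O fun x => ¬ D.Plain x b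
      have h2 := card_pos.2 hne
      by_cases h3 : ∀ x ∈ O, D.σ (rad b) x ≠ x
      · by_cases h4 : ∀ x ∈ O, D.Plain x b
        · have h5 := four_le (D.inv (rad b)) (fun x => hfold x b) (hcl 1 (one_ne_vr b))
            (hcl _ (rad_ne_vr b)) h3 hne
          rw [filter_false_of_mem (fun x hx => not_not.2 (h4 x hx)), card_empty]
          omega
        · push Not at h4
          obtain ⟨x, hx, hp⟩ := h4
          have h5 := twenty_le (D.inv 1) (D.inv (rad b)) (fun x => hfold x b)
            (hcl 1 (one_ne_vr b)) (hcl _ (rad_ne_vr b)) h3 hx fun e => hp ⟨h3 x hx, e⟩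
          omega
      · push Not at h3
        obtain ⟨x, hx, hp⟩ := h3
        have : 0 < #{x ∈ O | D.σ (rad b) x = x} := card_pos.2 ⟨x, mem_filter.2 ⟨hx, hp⟩⟩
        omega)
  rw [sum_add_distrib, ← mul_sum, ← mul_sum, sum_add_distrib, ← card_eq_sum_ones,
    ← card_filter, ← card_filter, ← card_filter, zero_mul, zero_add] at this
  exact this

theorem cone_cases {g : ℕ} (hcone : D.Cone g) {O : Finset D.F}
    (hO : ∃ x₀, ∀ x, x ∈ O ↔ D.vS 1 x x₀) :
    g ≤ #O ∨ 1 ≤ #{x ∈ O | D.σ 0 x = x} + #{x ∈ O | D.σ 2 x = x} := by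
  obtain ⟨hne, hcl⟩ := D.vS_closed hO
  by_cases h : ∀ x ∈ O, ∀ b, D.σ (rad b) x ≠ x
  · exact Or.inl (hcone O hne fun x hx b => ⟨hcl _ (by cases b <;> decide) x hx, h x hx b⟩)
  · right
    push Not at h
    obtain ⟨x, hx, b, hb⟩ := h
    cases b
    · have : 0 < #{x ∈ O | D.σ 0 x = x} := card_pos.2 ⟨x, mem_filter.2 ⟨hx, hb⟩⟩
      omega
    · have : 0 < #{x ∈ O | D.σ 2 x = x} := card_pos.2 ⟨x, mem_filter.2 ⟨hx, hb⟩⟩
      omega

theorem cone_count {g : ℕ} (hcone : D.Cone g) : g * D.nV 1 ≤ D.area + g * D.X := by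
  have := sum_classes (D.vS 1) (fun _ => 0)
    (fun x => 1 + g * ((if D.σ 0 x = x then 1 else 0) + if D.σ 2 x = x then 1 else 0)) g 0 (by
      intro O hO
      rw [sum_add_distrib, ← mul_sum, sum_add_distrib, ← card_eq_sum_ones,
        ← card_filter, ← card_filter, sum_const_zero]
      rcases D.cone_cases hcone hO with h | h
      · omega
      · have := Nat.mul_le_mul_left g h
        omega)
  rw [sum_add_distrib, ← mul_sum, sum_add_distrib, ← card_eq_sum_ones,
    ← card_filter, ← card_filter, sum_const_zero, zero_mul, zero_add, add_zero] at this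
  exact this

theorem np_eq : D.np = #{x | ¬ D.Plain x false} + #{x | ¬ D.Plain x true} := by
  rw [np, card_filter, Fintype.sum_prod_type, card_filter, card_filter, ← sum_add_distrib]
  refine sum_congr rfl fun x _ => ?_
  rw [Fintype.sum_bool, add_comm]

end Gem

/-- Euler characteristic bound for the number of corners that are not plain. -/
theorem np_le (D : Gem) (g : ℕ) (hfold : D.Folded) (hcone : D.Cone g) (hac : D.Ac) :
    g * D.np ≤ 20 * D.area + 26 * (g * D.X) := by
  have h1 := D.euler hac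
  have h2 := D.vertex_count hfold false
  have h3 := D.vertex_count hfold true
  have h4 := D.cone_count hcone
  have h5 : D.np ≤ 20 * D.nV 1 + 6 * D.X := by
    rw [D.np_eq]
    simp only [Gem.vr, rad] at h2 h3
    unfold Gem.X at h1 ⊢
    omega
  have h6 := Nat.mul_le_mul_left g h5
  nlinarith

/-- A small nonempty acyclic gem cannot have only two boundary edges, both radial. -/
theorem pin_false (D : Gem) (g : ℕ) (hfold : D.Folded) (hcone : D.Cone g) (hac : D.Ac)
    (hB : D.B = 0) (hX : D.X ≤ 2) (hne : 0 < D.area) (hsmall : D.area < g) : False := by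
  have h1 := D.euler hac
  rw [if_pos hne] at h1
  have hμ : ∀ x, D.σ 1 x ≠ x := fun x hx => by
    have : 0 < D.B := card_pos.2 ⟨x, mem_filter.2 ⟨mem_univ _, hx⟩⟩
    omega
  have h2 : ∀ b, 4 * D.nV (Gem.vr b) ≤ D.area + D.bd (rad b) := fun b => by
    have := sum_classes (D.vS (Gem.vr b)) (fun _ => 0)
      (fun x => 1 + if D.σ (rad b) x = x then 1 else 0) 4 0 (by
        intro O hO
        obtain ⟨hne, hcl⟩ := D.vS_closed hO
        rw [sum_add_distrib, ← card_eq_sum_ones, ← card_filter, sum_const_zero]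
        have := four_le (μ := D.σ (rad b)) (D.inv 1)
          (fun x e => absurd (hfold x b e.symm) (hμ x)) (hcl _ (Gem.rad_ne_vr b))
          (hcl 1 (Gem.one_ne_vr b)) (fun x _ => hμ x) hne
        omega)
    rw [sum_add_distrib, ← card_eq_sum_ones, ← card_filter, sum_const_zero, zero_mul, zero_add,
      add_zero] at this
    exact this
  have h3 : 2 * D.nV 1 ≤ D.X := by
    have := sum_classes (D.vS 1) (fun _ => 0)
      (fun x => (if D.σ 0 x = x then 1 else 0) + if D.σ 2 x = x then 1 else 0) 2 0 (by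
        intro O hO
        obtain ⟨hne, hcl⟩ := D.vS_closed hO
        rw [sum_add_distrib, ← card_filter, ← card_filter, sum_const_zero]
        have p0 := card_parity (D.inv 0) (hcl 0 (by decide))
        have p2 := card_parity (D.inv 2) (hcl 2 (by decide))
        have : #O ≤ D.area := card_le_univ O
        rcases D.cone_cases hcone hO with h | h <;> omega)
    rw [sum_add_distrib, ← card_filter, ← card_filter, sum_const_zero, zero_mul, zero_add,
      add_zero] at this
    exact this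
  have h4 := h2 false
  have h5 := h2 true
  simp only [Gem.vr, rad] at h4 h5
  unfold Gem.X at h1 h3 hX
  omega

end Crest.Agent.R177
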