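import Crest.Agent.R177.Near

/-! Index sets of rays, multiplicities and the number of exceptional triples. -/

set_option autoImplicit false

namespace Crest.Agent.R177

open Finset

variable {V P κ : Type}

/-- Positions on rays. -/
abbrev Ix (κ : Type) : Type := (κ × Bool) × ℕ

/-- The neighbouring position across side `c`. -/
def nbr (i : Ix κ) (c : Bool) : Ix κ :=
  if alt i.1.2 i.2 = c then (i.1, i.2 + 1)
  else if i.2 = 0 then ((i.1.1, !i.1.2), 1) else (i.1, i.2 - 1)

namespace Gem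

variable (D : Gem) (z : κ → D.F)

/-- The face at a position. -/
def psi (i : Ix κ) : D.F := D.ray (z i.1.1) i.1.2 i.2

/-- Live positions. -/
def LI (r : ℕ) (i : Ix κ) : Prop := i.2 ≤ r ∧ D.Live (z i.1.1) i.1.2 i.2

/-- Live positions cover the gem. -/
def Covers (r : ℕ) : Prop := ∀ x, ∃ i, D.LI z r i ∧ D.psi z i = x

theorem psi_nbr (i : Ix κ) (c : Bool) : D.psi z (nbr i c) = D.ν c (D.psi z i) := by
  obtain ⟨⟨k, b⟩, t⟩ := i
  unfold nbr
  dsimp only
  split_ifs with h1 h2
  · subst h1; rfl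
  · subst h2
    have : c = !b := by revert h1; cases b <;> cases c <;> simp
    subst this
    simp [psi, ray_succ]
  · obtain ⟨t, rfl⟩ : ∃ s, t = s + 1 := ⟨t - 1, by omega⟩
    have : c = alt b t := by
      rw [alt_succ] at h1
      revert h1; cases c <;> cases alt b t <;> simp
    subst this
    simp only [psi, Nat.add_sub_cancel]
    rw [ray_pred]

variable {D z}

theorem LI.nbr {r : ℕ} {i : Ix κ} (h : D.LI z r i) {c : Bool} (hr : i.2 < r)
    (hc : D.ν c (D.psi z i) ≠ D.psi z i) : D.LI z r (nbr i c) := by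
  obtain ⟨⟨k, b⟩, t⟩ := i
  unfold R177.nbr
  dsimp only at hr ⊢
  split_ifs with h1 h2
  · subst h1
    exact ⟨hr, live_succ.2 ⟨h.2, hc⟩⟩
  · subst h2
    have : c = !b := by revert h1; cases b <;> cases c <;> simp
    subst this
    exact ⟨hr, live_succ.2 ⟨live_zero _ _, by simpa [psi] using hc⟩⟩
  · exact ⟨by dsimp only; omega, h.2.mono (by dsimp only; omega)⟩

/-- If the neighbour is live then the position or its predecessor is. -/
theorem LI.of_nbr {r : ℕ} {i : Ix κ} {c : Bool} (h : D.LI z r (R177.nbr i c)) :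
    D.LI z r i ∨ i = ((R177.nbr i c).1, (R177.nbr i c).2 + 1) := by
  obtain ⟨⟨k, b⟩, t⟩ := i
  unfold R177.nbr at h ⊢
  dsimp only at h ⊢
  split_ifs at h ⊢ with h1 h2
  · exact Or.inl ⟨by have := h.1; dsimp only at this ⊢; omega, h.2.mono (by dsimp only; omega)⟩
  · subst h2
    exact Or.inl ⟨by dsimp only; omega, live_zero _ _⟩
  · right
    simp only [Prod.mk.injEq, true_and]
    omega

theorem LI.near {r : ℕ} {i i' : Ix κ} (h : D.LI z r i) (h' : D.LI z r i') (e : i.1 = i'.1) :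
    D.Near (D.psi z i) (D.psi z i') (2 * r) := by
  have h1 : D.Near (z i.1.1) (D.psi z i) r := ⟨_, _, h.1, h.2, rfl⟩
  have h2 : D.Near (z i.1.1) (D.psi z i') r := by
    rw [e]; exact ⟨_, _, h'.1, h'.2, rfl⟩
  exact (h1.symm.trans h2).mono (by omega)

end Gem

section

variable {Γ : Finset (Edge V P)} {D : Gem} {ε : D.F → Edge V P} {g r : ℕ} {z : κ → D.F}

theorem Lab.li_inj (hL : Lab Γ D ε) (hg : Girth Γ g) (hr : r < g) {i i' : Ix κ}
    (h : D.LI z r i) (h' : D.LI z r i') (e : i.1 = i'.1)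
    (he : ε (D.psi z i) = ε (D.psi z i')) : i = i' := by
  obtain ⟨ω, t⟩ := i
  obtain ⟨ω', t'⟩ := i'
  dsimp only at e
  subst e
  have h1 := h.1
  have h2 := h'.1
  dsimp only at h1 h2
  have : t = t' := by
    rcases le_total t t' with htt | htt
    · exact hg.inj_of_nb (hL.nb_ray h'.2) (by dsimp only; omega) htt le_rfl he
    · exact hg.inj_of_nb (hL.nb_ray h.2) (by dsimp only; omega) le_rfl htt he
  rw [this]

theorem Lab.mult_le [Fintype κ] [DecidableEq V] [DecidableEq P] (hL : Lab Γ D ε) (hg : Girth Γ g)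
    (hr : r < g) (hz : D.Covers z r) (e : Edge V P) :
    #{x | ε x = e} ≤ 2 * Fintype.card κ := by
  choose s hs1 hs2 using hz
  calc #{x | ε x = e} ≤ (univ : Finset (κ × Bool)).card := by
        apply card_le_card_of_injOn (fun x => (s x).1) (fun _ _ => by simp)
        intro x hx y hy hxy
        simp only [coe_filter, mem_univ, true_and, Set.mem_ofPred_eq] at hx hy
        have := hL.li_inj hg hr (hs1 x) (hs1 y) hxy (by rw [hs2, hs2, hx, hy])
        rw [← hs2 x, this, hs2]
    _ = _ := by simp [mul_comm]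

theorem Lab.same_vertex (hL : Lab Γ D ε) (hg : Girth Γ g) {x : D.F} {b c : Bool} {s t : ℕ}
    (hl : D.Live x b t) (hst : s < t) (ht : t < g)
    (hv : (ε (D.ray x b s)).1 c = (ε (D.ray x b t)).1 c)
    (hd : c = alt b s ↔ c = alt b t) : False := by
  obtain ⟨k, rfl⟩ : ∃ k, t = s + 1 + k := ⟨t - (s + 1), by omega⟩
  by_cases hc : c = alt b s
  · have hc' := hd.1 hc
    apply hg _ _ k (by omega) ((hL.nb_ray hl).shift (s + 1) k le_rfl)
    simp only [Nat.add_zero]
    rw [← alt_add, ← hc', alt_succ, Bool.not_not, Gem.ray_succ, hL.vtx, ← hc, hv]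
  · have hc' : ¬ c = alt b (s + 1 + k) := fun h => hc (hd.2 h)
    have e1 : c = !(alt b s) := by revert hc; cases c <;> cases alt b s <;> simp
    have e2 : c = alt b (s + k) := by
      rw [show s + 1 + k = s + k + 1 by omega, alt_succ] at hc'
      revert hc'; cases c <;> cases alt b (s + k) <;> simp
    apply hg _ _ k (by omega) ((hL.nb_ray hl).shift s k (by omega))
    simp only [Nat.add_zero]
    rw [← alt_add, ← e1, ← e2, hv, show s + 1 + k = s + k + 1 by omega, Gem.ray_succ, ← e2, hL.vtx]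

theorem Lab.exc_unique (hL : Lab Γ D ε) (hg : Girth Γ g) (hr : 3 * r + 2 < g) {w : D.F}
    {b : Bool} {u₁ u₂ : ℕ} (hu : u₁ < u₂) (hu₂ : u₂ ≤ r) (hl : D.Live w b u₂)
    {x₁ x₂ : D.F} (hx : D.Near x₁ x₂ (2 * r)) {c₁ c₂ : Bool}
    (h₁ : Exc D ε x₁ (D.ray w b u₁) c₁) (h₂ : Exc D ε x₂ (D.ray w b u₂) c₂)
    (hd : c₁ = alt b u₁ ↔ c₂ = alt b u₂) : False := by
  obtain ⟨k, rfl⟩ : ∃ k, u₂ = u₁ + 1 + k := ⟨u₂ - (u₁ + 1), by omega⟩
  by_cases hc : c₁ = alt b u₁
  · have hc' := hd.1 hc
    have hl' : D.Live (D.ray w b (u₁ + 1 + k)) (!c₂) k := by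
      rw [hc']; exact hl.rev (by omega)
    apply hL.away hg h₂ hx.symm hl' (by omega) c₁
    have e : alt (!(alt b (u₁ + 1 + k))) k = c₁ := by
      rw [hc, alt_add, alt_succ]; simp [alt]
    rw [hc', Gem.ray_rev, e, Gem.ray_succ, ← hc, hL.vtx]
    exact h₁.1
  · have hc' : ¬ c₂ = alt b (u₁ + 1 + k) := fun h => hc (hd.2 h)
    have e1 : (!c₁) = alt b u₁ := by revert hc; cases c₁ <;> cases alt b u₁ <;> simp
    have e2 : c₂ = alt b (u₁ + k) := by
      rw [show u₁ + 1 + k = u₁ + k + 1 by omega, alt_succ] at hc'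
      revert hc'; cases c₂ <;> cases alt b (u₁ + k) <;> simp
    have hl' : D.Live (D.ray w b u₁) (!c₁) k := by
      rw [e1]; exact Gem.Live.add (hl.mono (by omega))
    apply hL.away hg h₁ hx hl' (by omega) c₂
    rw [e1, ← Gem.ray_add, ← alt_add, ← e2, h₂.1, show u₁ + 1 + k = u₁ + k + 1 by omega,
      Gem.ray_succ, ← e2, hL.vtx]

theorem Lab.excN_le [Fintype κ] [DecidableEq V] [DecidableEq P] (hL : Lab Γ D ε) (hg : Girth Γ g)
    (hr : 3 * r + 2 < g) (hz : D.Covers z r) :
    excN D ε ≤ 4 * (2 * Fintype.card κ) ^ 2 := by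
  choose s hs1 hs2 using hz
  calc excN D ε ≤ (univ : Finset ((κ × Bool) × (κ × Bool) × Bool × Bool)).card := by
        apply card_le_card_of_injOn (fun a => ((s a.1).1, (s a.2.1).1,
          decide (a.2.2 = alt (s a.2.1).1.2 (s a.2.1).2), decide (a.2.2 = alt (s a.1).1.2 (s a.1).2)))
          (fun _ _ => by simp)
        rintro ⟨x₁, y₁, c₁⟩ h₁ ⟨x₂, y₂, c₂⟩ h₂ h
        simp only [coe_filter, mem_univ, true_and, Set.mem_ofPred_eq] at h₁ h₂
        simp only [Prod.mk.injEq, decide_eq_decide] at h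
        obtain ⟨hx, hy, hdy, hdx⟩ := h
        have h₁' : Exc D ε x₁ (D.psi z (s y₁)) c₁ := by rw [hs2]; exact h₁
        have h₂' : Exc D ε x₂ (D.psi z (s y₂)) c₂ := by rw [hs2]; exact h₂
        have hnear : D.Near x₁ x₂ (2 * r) := by
          have := (hs1 x₁).near (hs1 x₂) hx
          rwa [hs2, hs2] at this
        have hyy : (s y₁).2 = (s y₂).2 := by
          unfold Gem.psi at h₁' h₂'
          rcases lt_trichotomy (s y₁).2 (s y₂).2 with h | h | h
          · rw [hy] at h₁' hdy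
            exact (hL.exc_unique hg hr h (hs1 y₂).1 (hs1 y₂).2 hnear h₁' h₂' hdy).elim
          · exact h
          · rw [← hy] at h₂' hdy
            exact (hL.exc_unique hg hr h (hs1 y₁).1 (hs1 y₁).2 hnear.symm h₂' h₁' hdy.symm).elim
        have hsy : s y₁ = s y₂ := Prod.ext hy hyy
        have hy' : y₁ = y₂ := by rw [← hs2 y₁, hsy, hs2]
        subst hy'
        have hc : c₁ = c₂ := by
          revert hdy; cases c₁ <;> cases c₂ <;> cases alt (s y₁).1.2 (s y₁).2 <;> simp
        subst hc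
        have hv : (ε (D.psi z (s x₁))).1 c₁ = (ε (D.psi z (s x₂))).1 c₁ := by
          rw [hs2, hs2, h₁.1, h₂.1]
        have hxx : (s x₁).2 = (s x₂).2 := by
          unfold Gem.psi at hv
          rcases lt_trichotomy (s x₁).2 (s x₂).2 with h | h | h
          · rw [hx] at hv hdx
            exact (hL.same_vertex hg (hs1 x₂).2 h (by have := (hs1 x₂).1; omega) hv hdx).elim
          · exact h
          · rw [← hx] at hv hdx
            exact (hL.same_vertex hg (hs1 x₁).2 h (by have := (hs1 x₁).1; omega) hv.symm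
              hdx.symm).elim
        have hsx : s x₁ = s x₂ := Prod.ext hx hxx
        have hx' : x₁ = x₂ := by rw [← hs2 x₁, hsx, hs2]
        rw [hx']
    _ = _ := by simp; ring

end

end Crest.Agent.R177
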