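import Crest.Agent.R177.Global2

/-!
Depth of vertices and the combinatorial core of the local-to-global principle.
-/

set_option autoImplicit false

namespace Crest.Agent.R177
namespace Glob

open Finset

variable (D : Gem)

/-- Every vertex is joined to the boundary by a short chain. -/
lemma depth {Q : Type} [AddCommGroup Q] (del : (D.F × Fin 3 → ZMod 2) →+ Q)
    (v : D.F → Fin 3 → Q) (h2 : ∀ q : Q, q + q = 0)
    (hV1 : ∀ x i, del (eg D x i) = v x (i + 1) + v x (i + 2))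
    (hV2 : ∀ x i k, k ≠ i → v (D.σ i x) k = v x k)
    (hV3 : ∀ x i k, k ≠ i → D.σ i x = x → v x k = 0)
    {g : ℕ} (hg : 0 < g) (C : ℝ) (hC : 1 ≤ C) (hcone : D.Cone g) (hbd : ∃ x i, D.σ i x = x)
    (hfill : ∀ T : Finset D.F, (∃ x ∉ T, ∃ i, D.σ i x = x) → (#T : ℝ) ≤ C * Lb D g T)
    (r : ℕ) (hr : (1 - 1 / C) ^ r * D.area < g) (x : D.F) (k : Fin 3) :
    ∃ c, del c = v x k ∧ W D g c ≤ 4 * g * (r + 1) + 2 * g := by
  classical
  let T : ℕ → Finset D.F := fun n => univ.filter fun x => ¬ ∃ c, del c = v x 1 ∧ W D g c ≤ 4 * g * n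
  have hT : ∀ n x, x ∉ T n ↔ ∃ c, del c = v x 1 ∧ W D g c ≤ 4 * g * n := by
    intro n x; simp only [T, mem_filter, mem_univ, true_and, not_not]
  have ha : ∀ x, del (eg D x 2) = v x 0 + v x 1 := fun x => hV1 x 2
  have ha' : ∀ x, del (eg D x 0) = v x 1 + v x 2 := fun x => hV1 x 0
  have hcan : ∀ a b : Q, a + b + a = b := fun a b => by
    rw [add_right_comm, h2, zero_add]
  have hrad : ∀ n, ∀ x ∈ T n, ∀ i : Fin 3, i ≠ 1 → D.σ i x ∈ T n ∧ D.σ i x ≠ x := by
    intro n x hx i hi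
    constructor
    · by_contra h
      rw [hT, hV2 x i 1 hi.symm, ← hT] at h
      exact h hx
    · intro h
      have : x ∉ T n := by
        rw [hT]
        exact ⟨0, by rw [map_zero, hV3 x i 1 hi.symm h], by simp [W, nrm_zero]⟩
      exact this hx
  have hone : ∀ n x, (D.σ 1 x ∉ T n ∨ D.σ 1 x = x) → x ∉ T (n + 1) := by
    intro n x h
    rw [hT]
    rcases h with h | h
    · obtain ⟨c, hc1, hc2⟩ := (hT _ _).1 h
      refine ⟨eg D x 2 + eg D (D.σ 1 x) 2 + c, ?_, ?_⟩
      · rw [map_add, map_add, ha, ha, hc1, hV2 x 1 0 (by decide), add_assoc (v x 0 + v x 1),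
          add_assoc (v x 0) (v (D.σ 1 x) 1), h2, add_zero, hcan]
      · have a1 := W_add_le D g (eg D x 2 + eg D (D.σ 1 x) 2) c
        have a2 := W_add_le D g (eg D x 2) (eg D (D.σ 1 x) 2)
        have a3 := W_eg D hg x 2
        have a4 := W_eg D hg (D.σ 1 x) 2
        nlinarith
    · refine ⟨eg D x 2, ?_, ?_⟩
      · rw [ha, hV3 x 1 0 (by decide) h, zero_add]
      · have a3 := W_eg D hg x 2
        nlinarith
  have hanti : ∀ n, T (n + 1) ⊆ T n := by
    intro n x hx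
    by_contra h
    obtain ⟨c, hc1, hc2⟩ := (hT _ _).1 h
    exact (hT (n + 1) x).2 ⟨c, hc1, by nlinarith⟩ hx
  have hmiss : ∀ n, ∃ x ∉ T (n + 1), ∃ i, D.σ i x = x := by
    intro n
    obtain ⟨x, i, hx⟩ := hbd
    refine ⟨x, ?_, i, hx⟩
    by_cases hi : i = 1
    · subst hi; exact hone n x (Or.inr hx)
    · intro h; exact (hrad _ x h i hi).2 hx
  have hLb : ∀ n, Lb D g (T n) + #(T (n + 1)) ≤ #(T n) := by
    intro n
    have e1 : #(T (n + 1)) = ∑ x ∈ T n, if x ∈ T (n + 1) then 1 else 0 := by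
      rw [← Finset.card_filter, Finset.filter_mem_eq_inter, Finset.inter_eq_right.2 (hanti n)]
    rw [e1, Finset.card_eq_sum_ones (T n)]
    unfold Lb
    rw [← Finset.sum_add_distrib]
    refine Finset.sum_le_sum fun x hx => ?_
    rw [Fin.sum_univ_three]
    have b0 := hrad n x hx 0 (by decide)
    have b2 := hrad n x hx 2 (by decide)
    rw [if_neg (by tauto), if_neg (show ¬ (D.σ 2 x ∉ T n ∨ D.σ 2 x = x) by tauto)]
    by_cases h1 : D.σ 1 x ∉ T n ∨ D.σ 1 x = x
    · rw [if_pos h1, if_neg (hone n x h1)]; simp [wt]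
    · rw [if_neg h1]; split_ifs <;> simp
  have hC0 : 0 < C := by linarith
  have hq : 0 ≤ 1 - 1 / C := by
    rw [sub_nonneg, div_le_one hC0]; exact hC
  have hdec : ∀ n, (#(T (n + 1)) : ℝ) ≤ (1 - 1 / C) ^ n * D.area := by
    intro n
    induction n with
    | zero =>
      rw [pow_zero, one_mul]
      exact_mod_cast card_le_univ _
    | succ n ih =>
      have a1 := hfill _ (hmiss n)
      have a2 : (Lb D g (T (n + 1)) : ℝ) + #(T (n + 1 + 1)) ≤ #(T (n + 1)) := by
        exact_mod_cast hLb (n + 1)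
      have a3 : (#(T (n + 1)) : ℝ) / C ≤ Lb D g (T (n + 1)) := by
        rw [div_le_iff₀ hC0]; linarith
      calc (#(T (n + 1 + 1)) : ℝ) ≤ (1 - 1 / C) * #(T (n + 1)) := by
            rw [sub_mul, one_mul, one_div, inv_mul_eq_div]; linarith
        _ ≤ (1 - 1 / C) * ((1 - 1 / C) ^ n * D.area) := mul_le_mul_of_nonneg_left ih hq
        _ = _ := by ring
  have hempty : ∀ x, x ∉ T (r + 1) := by
    intro x hx
    have a1 := hcone (T (r + 1)) ⟨x, hx⟩ (fun y hy b => hrad _ y hy (rad b) (by cases b <;> decide))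
    have a2 : (g : ℝ) ≤ #(T (r + 1)) := by exact_mod_cast a1
    have a3 := hdec r
    linarith
  obtain ⟨c, hc1, hc2⟩ := (hT _ _).1 (hempty x)
  have hk : k = 0 ∨ k = 1 ∨ k = 2 := by revert k; decide
  rcases hk with rfl | rfl | rfl
  · refine ⟨eg D x 2 + c, ?_, ?_⟩
    · rw [map_add, ha, hc1, add_assoc, h2, add_zero]
    · have a1 := W_add_le D g (eg D x 2) c
      have a3 := W_eg D hg x 2
      omega
  · exact ⟨c, hc1, by omega⟩
  · refine ⟨eg D x 0 + c, ?_, ?_⟩
    · rw [map_add, ha', hc1, hcan]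
    · have a1 := W_add_le D g (eg D x 0) c
      have a3 := W_eg D hg x 0
      omega

/-- Weight of the boundary edges on a face. -/
def wF (g : ℕ) (x : D.F) : ℕ := ∑ i : Fin 3, if D.σ i x = x then wt g i else 0

lemma sum_wF (g : ℕ) : ∑ x, wF D g x = Lb D g univ := by
  simp [wF, Lb]

lemma wF_le (g : ℕ) (x : D.F) : wF D g x ≤ 2 * g + 1 := by
  rw [← sum_wt]
  refine Finset.sum_le_sum fun i _ => ?_
  split_ifs <;> simp

lemma Lb_supp (g : ℕ) (τ : D.F → ZMod 2) :
    Lb D g (univ.filter fun x => τ x ≠ 0) ≤ nrm (wF D g) τ + W D g (dl D τ) := by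
  unfold Lb W nrm
  rw [Finset.sum_filter, Fintype.sum_prod_type, ← Finset.sum_add_distrib]
  refine Finset.sum_le_sum fun x _ => ?_
  by_cases hx : τ x = 0
  · simp [hx]
  · rw [if_pos hx, if_neg hx]
    unfold wF
    rw [← Finset.sum_add_distrib]
    refine Finset.sum_le_sum fun i _ => ?_
    by_cases h1 : D.σ i x = x
    · simp [h1]
    · by_cases h2 : τ (D.σ i x) = 0
      · have : dl D τ (x, i) ≠ 0 := by simp [dl, h2, hx]
        rw [if_neg this]
        split_ifs <;> simp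
      · simp [h1, h2]

lemma exists_bd_of_pos (g : ℕ) (τ : D.F → ZMod 2) (h : 0 < nrm (wF D g) τ) :
    ∃ x, τ x ≠ 0 ∧ ∃ i, D.σ i x = x := by
  by_contra hc
  push Not at hc
  refine absurd h (not_lt.2 (le_of_eq ?_))
  refine Finset.sum_eq_zero fun x _ => ?_
  split_ifs with hx
  · rfl
  · exact Finset.sum_eq_zero fun i _ => if_neg (hc x hx i)

lemma nrm_single_le (g : ℕ) (x : D.F) : nrm (wF D g) (Pi.single x 1) ≤ 2 * g + 1 := by
  unfold nrm
  rw [Finset.sum_eq_single x]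
  · split_ifs
    · omega
    · exact wF_le D g x
  · intro y _ hy; simp [hy]
  · simp

/-- The combinatorial core. -/
lemma core {Q : Type} [AddCommGroup Q] (del : (D.F × Fin 3 → ZMod 2) →+ Q)
    (v : D.F → Fin 3 → Q) (h2 : ∀ q : Q, q + q = 0)
    (hV1 : ∀ x i, del (eg D x i) = v x (i + 1) + v x (i + 2))
    (hV2 : ∀ x i k, k ≠ i → v (D.σ i x) k = v x k)
    (hV3 : ∀ x i k, k ≠ i → D.σ i x = x → v x k = 0)
    (hV4 : ∀ z, del z = 0 → ∃ τ, z = dl D τ)
    {g : ℕ} (hg : 0 < g) (Φ : ℕ → ℝ) (hmono : Monotone Φ) (hΦ0 : Φ 0 = 0)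
    (hsup : ∀ a b, Φ a + Φ b ≤ Φ (a + b))
    (hfill : ∀ T : Finset D.F, (∃ x ∉ T, ∃ i, D.σ i x = x) → (#T : ℝ) ≤ Φ (Lb D g T))
    (l : ℕ) (hdepth : ∀ x k, ∃ c, del c = v x k ∧ W D g c ≤ l)
    (hL : 4 * (2 * g + 1) < Lb D g univ)
    (hgain : ∀ a b, a + b = Lb D g univ → Lb D g univ ≤ 4 * a → Lb D g univ ≤ 4 * b →
      Φ (a + (2 * g + 2 * l)) + Φ (b + (2 * g + 2 * l)) ≤ Φ (Lb D g univ)) :
    (D.area : ℝ) ≤ Φ (Lb D g univ) := by
  classical
  by_contra hcon
  set L := Lb D g univ with hLdef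
  set A : (D.F → ZMod 2) → ℕ := nrm (wF D g) with hA
  have hAc : ∀ τ, A τ + A (τ + 1) = L := fun τ => by rw [hA, nrm_compl, sum_wF]
  have hz : ∀ a : ZMod 2, a + 1 ≠ 0 ↔ a = 0 := by decide
  have hdl1 : ∀ τ, dl D (τ + 1) = dl D τ := fun τ => by rw [dl_add, dl_one, add_zero]
  have hside : ∀ τ, 0 < A (τ + 1) →
      (#(univ.filter fun x => τ x ≠ 0) : ℝ) ≤ Φ (A τ + W D g (dl D τ)) := by
    intro τ h
    obtain ⟨x, hx, i, hi⟩ := exists_bd_of_pos D g _ h
    refine (hfill _ ⟨x, ?_, i, hi⟩).trans (hmono (Lb_supp D g τ))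
    rw [Pi.add_apply, Pi.one_apply, hz] at hx
    simp [hx]
  have hsplit : ∀ τ, 0 < A τ → 0 < A (τ + 1) →
      (D.area : ℝ) ≤ Φ (A τ + W D g (dl D τ)) + Φ (A (τ + 1) + W D g (dl D τ)) := by
    intro τ h1 h1'
    have a1 := hside τ h1'
    have e : τ + 1 + 1 = τ := by
      funext x; simp only [Pi.add_apply, Pi.one_apply]; rw [add_assoc, z2_add_self, add_zero]
    have a2 := hside (τ + 1) (by rw [e]; exact h1)
    rw [hdl1] at a2
    have a3 : #(univ.filter fun x => τ x ≠ 0) + #(univ.filter fun x => (τ + 1) x ≠ 0) = D.area := by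
      have : (univ.filter fun x => (τ + 1) x ≠ 0) = univ.filter fun x => ¬ (τ x ≠ 0) := by
        refine Finset.filter_congr fun x _ => ?_
        rw [Pi.add_apply, Pi.one_apply, hz, not_not]
      rw [this, Finset.card_filter_add_card_filter_not]; rfl
    rw [← a3]; push_cast; linarith
  have claim1 : ∀ z, del z = 0 → W D g z ≤ 2 * g + 2 * l → ∃ τ, dl D τ = z ∧ 4 * A τ ≤ L := by
    intro z hz0 hW
    obtain ⟨τ, rfl⟩ := hV4 z hz0
    by_cases h1 : 4 * A τ ≤ L
    · exact ⟨τ, rfl, h1⟩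
    by_cases h1' : 4 * A (τ + 1) ≤ L
    · exact ⟨τ + 1, hdl1 τ, h1'⟩
    exfalso
    apply hcon
    have a1 := hsplit τ (by omega) (by omega)
    have a2 := hgain _ _ (hAc τ) (by omega) (by omega)
    have a3 := hmono (show A τ + W D g (dl D τ) ≤ A τ + (2 * g + 2 * l) by omega)
    have a4 := hmono (show A (τ + 1) + W D g (dl D τ) ≤ A (τ + 1) + (2 * g + 2 * l) by omega)
    linarith
  have claim2 : ∀ τ, dl D τ = 0 → A τ < L → τ = 0 := by
    intro τ h0 hlt
    have hc := hAc τ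
    have hW : W D g (dl D τ) = 0 := by rw [h0]; exact nrm_zero _
    by_cases h1 : A τ = 0
    · have a1 := hside τ (by omega)
      rw [h1, hW, hΦ0] at a1
      have a2 : #(univ.filter fun x => τ x ≠ 0) = 0 := by exact_mod_cast le_antisymm a1 (by positivity)
      funext x
      by_contra hx
      have := Finset.card_eq_zero.1 a2
      have h3 : x ∈ univ.filter fun x => τ x ≠ 0 := mem_filter.2 ⟨mem_univ _, hx⟩
      rw [this] at h3
      simp at h3
    · exfalso
      apply hcon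
      have a1 := hsplit τ (by omega) (by omega)
      rw [hW, add_zero, add_zero] at a1
      have a2 := hsup (A τ) (A (τ + 1))
      rw [hc] at a2
      linarith
  obtain ⟨c, hc0, hc⟩ : ∃ c : Q → (D.F × Fin 3 → ZMod 2), c 0 = 0 ∧
      ∀ x k, del (c (v x k)) = v x k ∧ W D g (c (v x k)) ≤ l := by
    refine ⟨fun q => if q = 0 then 0 else
      if h : ∃ z, del z = q ∧ W D g z ≤ l then h.choose else 0, by simp, ?_⟩
    intro x k
    by_cases h0 : v x k = 0
    · simp only [h0, if_true, map_zero, true_and]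
      simp [W, nrm_zero]
    · simp only [h0, if_false, dif_pos (hdepth x k)]
      exact (hdepth x k).choose_spec
  obtain ⟨T, hT0, hT⟩ : ∃ T : (D.F × Fin 3 → ZMod 2) → D.F → ZMod 2, T 0 = 0 ∧
      ∀ z, del z = 0 → W D g z ≤ 2 * g + 2 * l → dl D (T z) = z ∧ 4 * A (T z) ≤ L := by
    refine ⟨fun z => if z = 0 then 0 else
      if h : ∃ τ, dl D τ = z ∧ 4 * A τ ≤ L then h.choose else 0, by simp, ?_⟩
    intro z hz0 hW
    by_cases h0 : z = 0
    · simp only [h0, if_true]
      refine ⟨by funext p; simp [dl], ?_⟩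
      simp [hA, nrm_zero]
    · simp only [h0, if_false, dif_pos (claim1 z hz0 hW)]
      exact (claim1 z hz0 hW).choose_spec
  let z : D.F → Fin 3 → (D.F × Fin 3 → ZMod 2) :=
    fun x i => eg D x i + c (v x (i + 1)) + c (v x (i + 2))
  have hzT : ∀ x i, dl D (T (z x i)) = z x i ∧ 4 * A (T (z x i)) ≤ L := by
    intro x i
    refine hT _ ?_ ?_
    · simp only [z]
      rw [map_add, map_add, hV1, (hc _ _).1, (hc _ _).1, add_assoc, h2]
    · have a1 := W_add_le D g (eg D x i + c (v x (i + 1))) (c (v x (i + 2)))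
      have a2 := W_add_le D g (eg D x i) (c (v x (i + 1)))
      have a3 := W_eg D hg x i
      have a4 := (hc x (i + 1)).2
      have a5 := (hc x (i + 2)).2
      simp only [z]
      omega
  have hS : ∀ x, T (z x 0) + T (z x 1) + T (z x 2) + Pi.single x 1 = 0 := by
    intro x
    refine claim2 _ ?_ ?_
    · rw [dl_add, dl_add, dl_add, (hzT x 0).1, (hzT x 1).1, (hzT x 2).1, ← eg_sum]
      have e1 : (0 : Fin 3) + 1 = 1 := rfl
      have e2 : (0 : Fin 3) + 2 = 2 := rfl
      have e3 : (1 : Fin 3) + 1 = 2 := rfl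
      have e4 : (1 : Fin 3) + 2 = 0 := rfl
      have e5 : (2 : Fin 3) + 1 = 0 := rfl
      have e6 : (2 : Fin 3) + 2 = 1 := rfl
      simp only [z, e1, e2, e3, e4, e5, e6]
      funext p
      simp only [Pi.add_apply, Pi.zero_apply]
      have := z2_add_self
      grind
    · have a1 := nrm_add_le (wF D g) (T (z x 0) + T (z x 1) + T (z x 2)) (Pi.single x 1)
      have a2 := nrm_add_le (wF D g) (T (z x 0) + T (z x 1)) (T (z x 2))
      have a3 := nrm_add_le (wF D g) (T (z x 0)) (T (z x 1))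
      have a4 := nrm_single_le D g x
      have a5 := (hzT x 0).2
      have a6 := (hzT x 1).2
      have a7 := (hzT x 2).2
      rw [hA] at a5 a6 a7 ⊢
      omega
  have n1 : ∀ i : Fin 3, i + 1 ≠ i := by decide
  have n2 : ∀ i : Fin 3, i + 2 ≠ i := by decide
  obtain ⟨y, -⟩ := exists_bd_of_pos D g (0 + 1) (by
    have := hAc 0
    rw [hA, nrm_zero] at this
    omega)
  have hsum : ∀ i, ∑ x, T (z x i) y = 0 := by
    intro i
    refine sum_invol_zero D (D.σ i) (D.inv i) (fun x => T (z x i) y) ?_ ?_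
    · intro x
      simp only [z]
      rw [eg_σ, hV2 x i _ (n1 i), hV2 x i _ (n2 i)]
    · intro x hx
      simp only [z]
      rw [eg_bd D hx, hV3 x i _ (n1 i) hx, hV3 x i _ (n2 i) hx, hc0, add_zero, add_zero, hT0]
      rfl
  have hfin : ∑ x, (T (z x 0) + T (z x 1) + T (z x 2) + Pi.single x 1 : D.F → ZMod 2) y = 0 :=
    Finset.sum_eq_zero fun x _ => by rw [hS x]; rfl
  simp only [Pi.add_apply] at hfin
  rw [Finset.sum_add_distrib, Finset.sum_add_distrib, Finset.sum_add_distrib, hsum, hsum,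
    hsum] at hfin
  simp [Pi.single_apply] at hfin

end Glob
end Crest.Agent.R177
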