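import Crest.Agent.R177.Defs
import Crest.Agent.R177.Euler
import Crest.Agent.R177.Global3

set_option autoImplicit false

namespace Crest.Agent.R177

open Finset

namespace Glob

/-- The concave correction. -/
noncomputable def psi (g t : ℝ) : ℝ := √(g * (t + g)) - g

lemma le_sqrt_psi {g t : ℝ} (hg : 0 < g) (ht : 0 ≤ t) : g ≤ √(g * (t + g)) :=
  Real.le_sqrt_of_sq_le (by nlinarith)

lemma psi_nonneg {g t : ℝ} (hg : 0 < g) (ht : 0 ≤ t) : 0 ≤ psi g t :=
  sub_nonneg.2 (le_sqrt_psi hg ht)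

lemma psi_le {g t : ℝ} (hg : 0 < g) (ht : 0 ≤ t) : psi g t ≤ t / 2 := by
  unfold psi
  have : √(g * (t + g)) ≤ g + t / 2 := Real.sqrt_le_iff.2 ⟨by positivity, by nlinarith⟩
  linarith

lemma psi_zero {g : ℝ} (hg : 0 < g) : psi g 0 = 0 :=
  le_antisymm (by simpa using psi_le hg le_rfl) (psi_nonneg hg le_rfl)

lemma psi_mono {g s t : ℝ} (hg : 0 < g) (h : s ≤ t) : psi g s ≤ psi g t := by
  unfold psi
  have : √(g * (s + g)) ≤ √(g * (t + g)) := Real.sqrt_le_sqrt (by nlinarith)
  linarith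

lemma psi_add_le {g s t : ℝ} (hg : 0 < g) (hs : 0 ≤ s) (ht : 0 ≤ t) :
    psi g (s + t) ≤ psi g s + psi g t := by
  unfold psi
  have a1 := le_sqrt_psi hg hs
  have a2 := le_sqrt_psi hg ht
  have b1 : √(g * (s + g)) ^ 2 = g * (s + g) := Real.sq_sqrt (by positivity)
  have b2 : √(g * (t + g)) ^ 2 = g * (t + g) := Real.sq_sqrt (by positivity)
  set A := √(g * (s + g))
  set B := √(g * (t + g))
  have : √(g * (s + t + g)) ≤ A + B - g :=
    Real.sqrt_le_iff.2 ⟨by linarith, by nlinarith [mul_nonneg (sub_nonneg.2 a1) (sub_nonneg.2 a2)]⟩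
  linarith

lemma psi_gain {g a b l : ℝ} (hg : 0 < g) (ha : a + b ≤ 4 * a) (hb : a + b ≤ 4 * b)
    (hl : 5 * (2 * l + g) ≤ √(g * (a + b + g))) :
    2 * l + psi g (a + b) ≤ psi g a + psi g b := by
  have ha0 : 0 ≤ a := by linarith
  have hb0 : 0 ≤ b := by linarith
  unfold psi
  have b1 : √(g * (a + g)) ^ 2 = g * (a + g) := Real.sq_sqrt (by positivity)
  have b2 : √(g * (b + g)) ^ 2 = g * (b + g) := Real.sq_sqrt (by positivity)
  have b3 : √(g * (a + b + g)) ^ 2 = g * (a + b + g) := Real.sq_sqrt (by positivity)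
  have b4 : g * (a + b) / 4 ≤ √(g * (a + g)) * √(g * (b + g)) := by
    rw [← Real.sqrt_mul (by positivity)]
    refine Real.le_sqrt_of_sq_le ?_
    have c1 : g * (a + b) / 4 ≤ g * (a + g) := by nlinarith
    have c2 : g * (a + b) / 4 ≤ g * (b + g) := by nlinarith
    rw [sq]
    exact mul_le_mul c1 c2 (by positivity) (by positivity)
  have c0 : 0 ≤ √(g * (a + g)) + √(g * (b + g)) := by positivity
  set A := √(g * (a + g))
  set B := √(g * (b + g))
  set S := √(g * (a + b + g))
  have : 6 / 5 * S ≤ A + B := by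
    refine abs_le_of_sq_le_sq' ?_ c0 |>.2
    nlinarith [mul_nonneg hg.le (add_nonneg ha0 hb0), mul_pos hg hg]
  linarith

/-- The superadditive profile. -/
noncomputable def Phi (C : ℝ) (g : ℕ) (t : ℕ) : ℝ := C * (t - psi g t)

section
variable {C : ℝ} {g : ℕ} (hC : 0 ≤ C) (hg : 0 < g)
include hC hg

lemma Phi_le (t : ℕ) : Phi C g t ≤ C * t := by
  have := psi_nonneg (g := g) (t := t) (by exact_mod_cast hg) (by positivity)
  unfold Phi
  nlinarith

lemma le_Phi (t : ℕ) : C * t / 2 ≤ Phi C g t := by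
  have := psi_le (g := g) (t := t) (by exact_mod_cast hg) (by positivity)
  unfold Phi
  nlinarith

lemma Phi_nonneg (t : ℕ) : 0 ≤ Phi C g t := le_trans (by positivity) (le_Phi hC hg t)

lemma Phi_sup (a b : ℕ) : Phi C g a + Phi C g b ≤ Phi C g (a + b) := by
  have := psi_add_le (g := g) (s := a) (t := b) (by exact_mod_cast hg) (by positivity)
    (by positivity)
  unfold Phi
  push_cast
  nlinarith

lemma Phi_mono : Monotone (Phi C g) := by
  intro a b h
  obtain ⟨c, rfl⟩ := Nat.exists_eq_add_of_le h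
  have := Phi_sup hC hg a c
  have := Phi_nonneg hC hg c
  linarith

lemma Phi_gain (a b l : ℕ) (ha : a + b ≤ 4 * a) (hb : a + b ≤ 4 * b)
    (hl : 5 * (2 * l + g : ℝ) ≤ √(g * (((a + b : ℕ) : ℝ) + g))) :
    Phi C g (a + l) + Phi C g (b + l) ≤ Phi C g (a + b) := by
  have hg' : (0 : ℝ) < g := by exact_mod_cast hg
  have h1 := psi_gain (g := g) (a := a) (b := b) (l := l) hg' (by exact_mod_cast ha)
    (by exact_mod_cast hb) (by push_cast at hl; exact hl)
  have h2 := psi_mono (g := g) (s := a) (t := a + l) hg' (by simp)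
  have h3 := psi_mono (g := g) (s := b) (t := b + l) hg' (by simp)
  unfold Phi
  push_cast
  nlinarith

end

lemma Phi_zero {C : ℝ} {g : ℕ} (hg : 0 < g) : Phi C g 0 = 0 := by
  unfold Phi
  rw [Nat.cast_zero, psi_zero (by exact_mod_cast hg)]; simp

lemma exists_r0 (C K : ℝ) (hC : 1 < C) :
    ∃ r0 : ℕ, ∀ r ≥ r0, (1 - 1 / C) ^ r * (K * (r + 2) ^ 2) < 1 := by
  have hq0 : 0 < 1 - 1 / C := by
    rw [sub_pos, div_lt_one (by linarith)]; exact hC
  have hq1 : 1 - 1 / C < 1 := by
    have : 0 < 1 / C := by positivity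
    linarith
  have h1 := tendsto_pow_const_mul_const_pow_of_abs_lt_one 2 (r := 1 - 1 / C)
    (by rw [abs_of_pos hq0]; exact hq1)
  have h2 := ((Filter.tendsto_add_atTop_iff_nat 2).2 h1).const_mul (K / (1 - 1 / C) ^ 2)
  rw [mul_zero] at h2
  obtain ⟨r0, hr0⟩ := Filter.eventually_atTop.1 (h2.eventually (gt_mem_nhds one_pos))
  refine ⟨r0, fun r hr => ?_⟩
  have := hr0 r hr
  push_cast at this
  refine lt_of_eq_of_lt ?_ this
  generalize 1 - 1 / C = q at hq0
  field_simp
  ring

end Glob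

open Glob in
/-- Local-to-global principle for the isoperimetric inequality of acyclic gems. -/
theorem global_iso (C₀ : ℕ) : ∃ M C : ℕ, ∀ (g : ℕ), 0 < g → ∀ (𝒞 : Gem → Prop),
    (∀ D S, 𝒞 D → 𝒞 (D.res S)) → (∀ D, 𝒞 D → D.Folded) → (∀ D, 𝒞 D → D.Cone g) →
    (∀ D, 𝒞 D → D.area ≤ M * g → D.np ≤ M →
      2 * D.area ≤ 2 * C₀ * (D.B + g * D.X) + g) →
    ∀ D, 𝒞 D → D.Ac → D.area ≤ C * (D.B + g * D.X) := by
  obtain ⟨C, hCdef⟩ : ∃ C : ℕ, C = 2 * (2 * C₀ + 1) := ⟨_, rfl⟩
  have hC2 : 2 ≤ C := by omega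
  have hC1 : (1 : ℝ) < C := by exact_mod_cast (by omega : 1 < C)
  have hC0 : (0 : ℝ) ≤ C := by positivity
  obtain ⟨r0, hr0⟩ := exists_r0 C (4 * C * 145 ^ 2) hC1
  obtain ⟨x0, hx0⟩ : ∃ x0 : ℕ, x0 = 145 ^ 2 * (r0 + 1) ^ 2 := ⟨_, rfl⟩
  refine ⟨20 * (C * (x0 + 4)) + 26 * x0, C, fun g hg 𝒞 hres hfold hcone hloc => ?_⟩
  have hg' : (0 : ℝ) < g := by exact_mod_cast hg
  have main : ∀ n, ∀ D, 𝒞 D → D.Ac → D.area = n → (D.area : ℝ) ≤ Phi C g (Lb D g univ) := by
    intro n
    induction n using Nat.strong_induction_on with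
    | _ n ihn =>
    intro D hD hac hn
    have ih : ∀ U : Finset D.F, #U < D.area → AcOn D U → (#U : ℝ) ≤ Phi C g (Lb D g U) := by
      intro U hU hUac
      have := ihn (#U) (hn ▸ hU) (D.res U) (hres D U hD) (ac_res D hUac) (res_area D U)
      rwa [← univ_L, res_L, res_area] at this
    have hL := univ_L D g
    set L := Lb D g univ with hLdef
    have hap : D.area ≤ C * (L + 4 * g) := by
      have a1 := apriori D g (Phi C g) (Phi_mono hC0 hg) (Phi_nonneg hC0 hg) hac ih
      have a2 := Phi_le hC0 hg (L + (2 * g + 1))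
      have a3 : (D.area : ℝ) ≤ ((1 + C * (L + (2 * g + 1)) : ℕ) : ℝ) := by
        push_cast at a2 ⊢; linarith
      have a4 : D.area ≤ 1 + C * (L + (2 * g + 1)) := by exact_mod_cast a3
      nlinarith
    by_cases hsmall : L ≤ x0 * g
    · have a1 : D.area ≤ C * (x0 + 4) * g := by nlinarith
      have a2 := np_le D g (hfold D hD) (hcone D hD) hac
      have a3 : g * D.np ≤ g * (20 * (C * (x0 + 4)) + 26 * x0) := by nlinarith
      have a4 := hloc D hD (by nlinarith) (Nat.le_of_mul_le_mul_left a3 hg)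
      rw [hL] at a4
      have a5 : 2 * D.area ≤ C * L := by
        rcases Nat.eq_zero_or_pos D.X with hX | hX
        · rcases Nat.eq_zero_or_pos D.area with h0 | h0
          · rw [h0]; exact Nat.zero_le _
          · have hb : ∀ x b, D.σ (rad b) x ≠ x := by
              intro x b hx
              have h1 : D.bd (rad b) = 0 := by
                unfold Gem.X at hX
                cases b
                · exact Nat.eq_zero_of_add_eq_zero_right hX
                · exact Nat.eq_zero_of_add_eq_zero_left hX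
              have h2 : x ∈ ({x : D.F | D.σ (rad b) x = x} : Finset D.F) := by simp [hx]
              rw [Finset.card_eq_zero.1 h1] at h2
              simp at h2
            have h3 := hcone D hD univ (Finset.card_pos.1 h0)
              (fun x _ b => ⟨mem_univ _, hb x b⟩)
            have h4 : g ≤ D.area := h3
            rw [hCdef]; nlinarith
        · have : g ≤ L := by rw [← hL]; nlinarith
          rw [hCdef]; nlinarith
      have a6 : (2 * D.area : ℝ) ≤ C * L := by exact_mod_cast a5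
      have a7 := le_Phi hC0 hg L
      linarith
    · push Not at hsmall
      have hx1 : 13 ≤ x0 := by
        have : 1 ≤ (r0 + 1) ^ 2 := Nat.one_le_pow _ _ (Nat.succ_pos _)
        omega
      have hL13 : 4 * (2 * g + 1) < L := by nlinarith
      obtain ⟨Q, _, del, v, h2, hV1, hV2, hV3, hV4⟩ := exists_del D hac
      have hfill := fill D g (Phi C g) (Phi_mono hC0 hg) hac ih
      set S := √((g : ℝ) * (L + g)) with hS
      have hS2 : S ^ 2 = g * (L + g) := Real.sq_sqrt (by positivity)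
      have hS0 : 0 ≤ S := Real.sqrt_nonneg _
      have hR1 : r0 + 1 ≤ ⌊S / (145 * g)⌋₊ := by
        refine Nat.le_floor ?_
        rw [le_div_iff₀ (by positivity)]
        refine Real.le_sqrt_of_sq_le ?_
        have : ((x0 * g : ℕ) : ℝ) ≤ L := by exact_mod_cast hsmall.le
        rw [hx0] at this
        push_cast at this ⊢
        nlinarith
      obtain ⟨r, hr⟩ : ∃ r, ⌊S / (145 * g)⌋₊ = r + 1 := ⟨⌊S / (145 * g)⌋₊ - 1, by omega⟩
      have hlo : ((r : ℝ) + 1) * (145 * g) ≤ S := by
        have := Nat.floor_le (show 0 ≤ S / (145 * g) by positivity)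
        rw [hr, le_div_iff₀ (by positivity)] at this
        push_cast at this
        exact this
      have hhi : S ≤ ((r : ℝ) + 2) * (145 * g) := by
        have := Nat.lt_floor_add_one (S / (145 * g))
        rw [hr, div_lt_iff₀ (by positivity)] at this
        push_cast at this
        linarith
      have harea : (D.area : ℝ) ≤ 4 * C * 145 ^ 2 * (r + 2) ^ 2 * g := by
        have b1 : (D.area : ℝ) ≤ C * (L + 4 * g) := by exact_mod_cast hap
        have b2 : S ^ 2 ≤ (((r : ℝ) + 2) * (145 * g)) ^ 2 := pow_le_pow_left₀ hS0 hhi 2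
        have b3 : (L + g : ℝ) ≤ 145 ^ 2 * (r + 2) ^ 2 * g := by
          refine le_of_mul_le_mul_left ?_ hg'
          nlinarith
        have b4 : (0 : ℝ) ≤ L := by positivity
        nlinarith
      have hq : (0 : ℝ) ≤ (1 - 1 / C) ^ r := by
        refine pow_nonneg ?_ r
        rw [sub_nonneg, div_le_one (by linarith)]; exact hC1.le
      have hdec : (1 - 1 / (C : ℝ)) ^ r * D.area < g := by
        have b1 := hr0 r (by omega)
        calc (1 - 1 / (C : ℝ)) ^ r * D.area
            ≤ (1 - 1 / (C : ℝ)) ^ r * (4 * C * 145 ^ 2 * (r + 2) ^ 2 * g) :=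
              mul_le_mul_of_nonneg_left harea hq
          _ = (1 - 1 / (C : ℝ)) ^ r * (4 * C * 145 ^ 2 * (r + 2) ^ 2) * g := by ring
          _ < 1 * g := mul_lt_mul_of_pos_right b1 hg'
          _ = g := one_mul _
      have hbd : ∃ x i, D.σ i x = x := by
        obtain ⟨x, -, i, hi⟩ := exists_bd_of_pos D g (0 + 1) (by
          have := nrm_compl (wF D g) 0
          rw [nrm_zero, sum_wF] at this
          omega)
        exact ⟨x, i, hi⟩
      have hdepth := depth D del v h2 hV1 hV2 hV3 hg C hC1.le (hcone D hD) hbd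
        (fun T hT => (hfill T hT).trans (Phi_le hC0 hg _)) r hdec
      refine core D del v h2 hV1 hV2 hV3 hV4 hg (Phi C g) (Phi_mono hC0 hg) (Phi_zero hg)
        (Phi_sup hC0 hg) hfill _ hdepth hL13 ?_
      intro a b hab ha hb
      rw [← hab] at ha hb ⊢
      refine Phi_gain hC0 hg a b _ ha hb ?_
      rw [hab]
      refine le_trans ?_ hlo
      push_cast
      have : (0 : ℝ) ≤ r := by positivity
      nlinarith
  intro D hD hac
  have h1 := main _ D hD hac rfl
  have h2 := Phi_le hC0 hg (Lb D g univ)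
  rw [univ_L]
  exact_mod_cast h1.trans h2

end Crest.Agent.R177
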