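import Crest.Agent.R177.Defs

/-!
Sub-surfaces of a gem: weighted boundary length, acyclicity of sub-surfaces, removal of faces and
the filling lemma (part 1 of the local-to-global principle).
-/

set_option autoImplicit false

namespace Crest.Agent.R177
namespace Glob

open Finset

/-- Weight of an edge of role `i`. -/
def wt (g : ℕ) (i : Fin 3) : ℕ := if i = 1 then 1 else g

lemma wt_le {g : ℕ} (hg : 0 < g) (i : Fin 3) : wt g i ≤ g := by
  unfold wt; split_ifs <;> omega

lemma wt_pos {g : ℕ} (hg : 0 < g) (i : Fin 3) : 0 < wt g i := by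
  unfold wt; split_ifs <;> omega

lemma sum_wt (g : ℕ) : ∑ i : Fin 3, wt g i = 2 * g + 1 := by
  simp [Fin.sum_univ_three, wt]; ring

variable (D : Gem)

/-- Weighted boundary length of the sub-surface `U`. -/
def Lb (g : ℕ) (U : Finset D.F) : ℕ :=
  ∑ x ∈ U, ∑ i : Fin 3, if D.σ i x ∉ U ∨ D.σ i x = x then wt g i else 0

lemma res_σ_eq (U : Finset D.F) (i : Fin 3) (x : (D.res U).F) :
    (D.res U).σ i x = x ↔ (D.σ i x.1 ∉ U ∨ D.σ i x.1 = x.1) := by
  by_cases h : D.σ i x.1 ∈ U
  · have : (D.res U).σ i x = ⟨D.σ i x.1, h⟩ := by simp [Gem.res, h]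
    rw [this]
    constructor
    · intro h1; right; exact congrArg Subtype.val h1
    · rintro (h1 | h1)
      · exact absurd h h1
      · exact Subtype.ext h1
  · have : (D.res U).σ i x = x := by simp [Gem.res, h]
    simp [this, h]

lemma res_bd (U : Finset D.F) (i : Fin 3) :
    (D.res U).bd i = ∑ x ∈ U, if D.σ i x ∉ U ∨ D.σ i x = x then 1 else 0 := by
  unfold Gem.bd
  rw [Finset.card_filter]
  rw [← Finset.sum_coe_sort U]
  refine Finset.sum_congr rfl fun x _ => ?_
  exact if_congr (res_σ_eq D U i x) rfl rfl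

lemma res_area (U : Finset D.F) : (D.res U).area = #U := by
  unfold Gem.area
  exact Fintype.card_coe U

lemma res_L (g : ℕ) (U : Finset D.F) : (D.res U).B + g * (D.res U).X = Lb D g U := by
  unfold Gem.B Gem.X Lb
  rw [res_bd, res_bd, res_bd, mul_add, Finset.mul_sum, Finset.mul_sum, ← Finset.sum_add_distrib,
    ← Finset.sum_add_distrib]
  refine Finset.sum_congr rfl fun x _ => ?_
  rw [Fin.sum_univ_three]
  simp only [wt]
  split_ifs <;> simp_all <;> ring

lemma univ_L (g : ℕ) : D.B + g * D.X = Lb D g univ := by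
  unfold Gem.B Gem.X Lb Gem.bd
  rw [Finset.card_filter, Finset.card_filter, Finset.card_filter, mul_add, Finset.mul_sum,
    Finset.mul_sum, ← Finset.sum_add_distrib, ← Finset.sum_add_distrib]
  refine Finset.sum_congr rfl fun x _ => ?_
  rw [Fin.sum_univ_three]
  simp only [wt]
  split_ifs <;> simp_all <;> ring

/-- Acyclicity of the sub-surface `U`. -/
def AcOn (U : Finset D.F) : Prop :=
  ∀ ω : D.F → Fin 3 → ZMod 2, (∀ x ∈ U, ∀ i, D.σ i x ∈ U → ω (D.σ i x) i = ω x i) →
    (∀ x ∈ U, ω x 0 + ω x 1 + ω x 2 = 0) →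
    ∃ π : D.F → Fin 3 → ZMod 2,
      (∀ x ∈ U, ∀ i k, k ≠ i → D.σ i x ∈ U → π (D.σ i x) k = π x k) ∧
      ∀ x ∈ U, ∀ i, ω x i = π x (i + 1) + π x (i + 2)

lemma acOn_univ (h : D.Ac) : AcOn D univ := by
  intro ω h1 h2
  obtain ⟨π, h3, h4⟩ := h ω (fun x i => h1 x (mem_univ _) i (mem_univ _))
    (fun x => h2 x (mem_univ _))
  exact ⟨π, fun x _ i k hk _ => h3 x i k hk, fun x _ i => h4 x i⟩

lemma ac_res {U : Finset D.F} (h : AcOn D U) : (D.res U).Ac := by
  intro ω h1 h2
  obtain ⟨π, h3, h4⟩ := h (fun x i => if hx : x ∈ U then ω ⟨x, hx⟩ i else 0)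
    (by
      intro x hx i hi
      have := h1 ⟨x, hx⟩ i
      have e : (D.res U).σ i ⟨x, hx⟩ = ⟨D.σ i x, hi⟩ := by simp [Gem.res, hi]
      rw [e] at this
      simp only [hx, hi, dif_pos]
      exact this)
    (by
      intro x hx
      simp only [hx, dif_pos]
      exact h2 ⟨x, hx⟩)
  refine ⟨fun x k => π x.1 k, ?_, ?_⟩
  · intro x i k hk
    by_cases hi : D.σ i x.1 ∈ U
    · have e : (D.res U).σ i x = ⟨D.σ i x.1, hi⟩ := by simp [Gem.res, hi]
      rw [e]
      exact h3 x.1 x.2 i k hk hi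
    · have e : (D.res U).σ i x = x := by simp [Gem.res, hi]
      rw [e]
  · intro x i
    have := h4 x.1 x.2 i
    simp only [x.2, dif_pos] at this
    exact this

/-- Removal of a face, given an extension of cocycles. -/
lemma acOn_erase_of {U : Finset D.F} (h : AcOn D U) (x : D.F)
    (hext : ∀ ω : D.F → Fin 3 → ZMod 2,
      (∀ y ∈ U.erase x, ∀ i, D.σ i y ∈ U.erase x → ω (D.σ i y) i = ω y i) →
      (∀ y ∈ U.erase x, ω y 0 + ω y 1 + ω y 2 = 0) →
      ∃ a : Fin 3 → ZMod 2, (∀ i, D.σ i x ∈ U.erase x → a i = ω (D.σ i x) i) ∧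
        a 0 + a 1 + a 2 = 0) :
    AcOn D (U.erase x) := by
  intro ω h1 h2
  obtain ⟨a, ha1, ha2⟩ := hext ω h1 h2
  obtain ⟨π, h3, h4⟩ := h (Function.update ω x a)
    (by
      intro y hy i hi
      by_cases hyx : y = x
      · subst hyx
        by_cases hs : D.σ i y = y
        · rw [hs]
        · rw [Function.update_of_ne hs, Function.update_self]
          exact (ha1 i (mem_erase.2 ⟨hs, hi⟩)).symm
      · by_cases hs : D.σ i y = x
        · have h5 : D.σ i x = y := by rw [← hs, D.inv]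
          rw [hs, Function.update_self, Function.update_of_ne hyx, ha1 i, h5]
          rw [h5]; exact mem_erase.2 ⟨hyx, hy⟩
        · rw [Function.update_of_ne hs, Function.update_of_ne hyx]
          exact h1 y (mem_erase.2 ⟨hyx, hy⟩) i (mem_erase.2 ⟨hs, hi⟩))
    (by
      intro y hy
      by_cases hyx : y = x
      · subst hyx
        rw [Function.update_self]; exact ha2
      · rw [Function.update_of_ne hyx]
        exact h2 y (mem_erase.2 ⟨hyx, hy⟩))
  refine ⟨π, fun y hy i k hk hi => h3 y (mem_of_mem_erase hy) i k hk (mem_of_mem_erase hi), ?_⟩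
  intro y hy i
  have := h4 y (mem_of_mem_erase hy) i
  rwa [Function.update_of_ne (ne_of_mem_erase hy)] at this

lemma acOn_erase {U : Finset D.F} (h : AcOn D U) (x : D.F) (i : Fin 3)
    (hi : D.σ i x ∉ U ∨ D.σ i x = x) : AcOn D (U.erase x) := by
  refine acOn_erase_of D h x fun ω _ _ => ?_
  have hi' : D.σ i x ∉ U.erase x := by
    intro hm
    rcases hi with hi | hi
    · exact hi (mem_of_mem_erase hm)
    · exact (ne_of_mem_erase hm) hi
  refine ⟨Function.update (fun j => ω (D.σ j x) j) i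
    (ω (D.σ (i + 1) x) (i + 1) + ω (D.σ (i + 2) x) (i + 2)), ?_, ?_⟩
  · intro j hj
    have : j ≠ i := by rintro rfl; exact hi' hj
    rw [Function.update_of_ne this]
  · have h2 : ∀ a : ZMod 2, a + a = 0 := by decide
    fin_cases i <;> simp [Function.update] <;> grind

lemma sum_invol_zero (s : D.F → D.F) (hs : ∀ x, s (s x) = x) (f : D.F → ZMod 2)
    (hf : ∀ x, f (s x) = f x) (h0 : ∀ x, s x = x → f x = 0) : ∑ x, f x = 0 := by
  refine Finset.sum_involution (fun x _ => s x) ?_ ?_ (fun _ _ => mem_univ _) (fun x _ => hs x)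
  · intro x _
    rw [hf]
    generalize f x = a
    revert a; decide
  · intro x _ h1 h2
    exact h1 (h0 x h2)

lemma acOn_erase_closed (h : D.Ac) (hc : ∀ i y, D.σ i y ≠ y) (x : D.F) :
    AcOn D (univ.erase x) := by
  refine acOn_erase_of D (acOn_univ D h) x fun ω h1 h2 => ?_
  refine ⟨fun j => ω (D.σ j x) j, fun _ _ => rfl, ?_⟩
  set ω' := Function.update ω x (fun j => ω (D.σ j x) j) with hω'
  have hsym : ∀ i y, ω' (D.σ i y) i = ω' y i := by
    intro i y
    by_cases hyx : y = x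
    · subst hyx
      rw [hω', Function.update_of_ne (hc i y), Function.update_self]
    · by_cases hs : D.σ i y = x
      · have h5 : D.σ i x = y := by rw [← hs, D.inv]
        rw [hω', hs, Function.update_self, Function.update_of_ne hyx, h5]
      · rw [hω', Function.update_of_ne hs, Function.update_of_ne hyx]
        exact h1 y (by simp [hyx]) i (by simp [hs])
  have hz : ∀ i, ∑ y, ω' y i = 0 := fun i =>
    sum_invol_zero D (D.σ i) (D.inv i) (fun y => ω' y i) (hsym i) (fun y hy => absurd hy (hc i y))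
  have hs : ∑ y, (ω' y 0 + ω' y 1 + ω' y 2) = 0 := by
    rw [Finset.sum_add_distrib, Finset.sum_add_distrib, hz, hz, hz]; simp
  rw [← Finset.add_sum_erase _ _ (mem_univ x), Finset.sum_eq_zero, add_zero] at hs
  · simpa [hω'] using hs
  · intro y hy
    rw [hω', Function.update_of_ne (ne_of_mem_erase hy)]
    exact h2 y hy

lemma Lb_erase (g : ℕ) (x : D.F) : Lb D g (univ.erase x) ≤ Lb D g univ + (2 * g + 1) := by
  unfold Lb
  have h1 : ∀ y ∈ univ.erase x, (∑ i : Fin 3,
      if D.σ i y ∉ univ.erase x ∨ D.σ i y = y then wt g i else 0) ≤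
      (∑ i : Fin 3, if D.σ i y ∉ (univ : Finset D.F) ∨ D.σ i y = y then wt g i else 0) +
      ∑ i : Fin 3, if y = D.σ i x then wt g i else 0 := by
    intro y _
    rw [← Finset.sum_add_distrib]
    refine Finset.sum_le_sum fun i _ => ?_
    by_cases h1 : D.σ i y = y
    · simp [h1]
    · by_cases h2 : D.σ i y = x
      · have : y = D.σ i x := by rw [← h2, D.inv]
        rw [if_pos this]
        split_ifs <;> omega
      · simp [h1, h2]
  refine (Finset.sum_le_sum h1).trans ?_
  rw [Finset.sum_add_distrib]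
  refine add_le_add (Finset.sum_le_sum_of_subset (erase_subset _ _)) ?_
  refine (Finset.sum_le_sum_of_subset (erase_subset x univ)).trans ?_
  rw [Finset.sum_comm, ← sum_wt]
  refine Finset.sum_le_sum fun i _ => ?_
  simp

/-- The filling lemma. -/
lemma fill (g : ℕ) (Φ : ℕ → ℝ) (hΦ : Monotone Φ) (hac : D.Ac)
    (ih : ∀ U : Finset D.F, #U < D.area → AcOn D U → (#U : ℝ) ≤ Φ (Lb D g U))
    (T : Finset D.F) (hT : ∃ x ∉ T, ∃ i, D.σ i x = x) : (#T : ℝ) ≤ Φ (Lb D g T) := by
  classical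
  obtain ⟨U, hU, hmin⟩ := Finset.exists_min_image
    ((univ : Finset (Finset D.F)).filter fun U => T ⊆ U ∧ AcOn D U) card
    ⟨univ, by simp [acOn_univ D hac]⟩
  obtain ⟨hTU, hUac⟩ := (mem_filter.1 hU).2
  have key : ∀ x ∈ U, x ∉ T → ∀ i, ¬ (D.σ i x ∉ U ∨ D.σ i x = x) := by
    intro x hx hxT i hi
    have h1 := hmin (U.erase x) (mem_filter.2 ⟨mem_univ _,
      fun y hy => mem_erase.2 ⟨fun h => hxT (h ▸ hy), hTU hy⟩, acOn_erase D hUac x i hi⟩)
    have h2 := card_erase_lt_of_mem hx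
    omega
  have hlt : #U < D.area := by
    obtain ⟨x, hx, i, hi⟩ := hT
    refine (card_lt_iff_ne_univ U).2 ?_
    rintro rfl
    exact key x (mem_univ _) hx i (Or.inr hi)
  have hL : Lb D g U ≤ Lb D g T := by
    unfold Lb
    rw [← Finset.sum_subset hTU]
    · refine Finset.sum_le_sum fun x _ => Finset.sum_le_sum fun i _ => ?_
      by_cases h1 : D.σ i x ∉ U ∨ D.σ i x = x
      · have h2 : D.σ i x ∉ T ∨ D.σ i x = x := h1.imp (fun h h' => h (hTU h')) id
        rw [if_pos h1, if_pos h2]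
      · rw [if_neg h1]; exact Nat.zero_le _
    · intro x hx hxT
      exact Finset.sum_eq_zero fun i _ => if_neg (key x hx hxT i)
  calc (#T : ℝ) ≤ #U := by exact_mod_cast card_le_card hTU
    _ ≤ Φ (Lb D g U) := ih U hlt hUac
    _ ≤ Φ (Lb D g T) := hΦ hL

/-- The a priori bound. -/
lemma apriori (g : ℕ) (Φ : ℕ → ℝ) (hΦ : Monotone Φ) (hΦ0 : ∀ t, 0 ≤ Φ t) (hac : D.Ac)
    (ih : ∀ U : Finset D.F, #U < D.area → AcOn D U → (#U : ℝ) ≤ Φ (Lb D g U)) :
    (D.area : ℝ) ≤ 1 + Φ (Lb D g univ + (2 * g + 1)) := by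
  have key : ∀ x : D.F, AcOn D (univ.erase x) →
      (D.area : ℝ) ≤ 1 + Φ (Lb D g univ + (2 * g + 1)) := by
    intro x hx
    have h1 : #(univ.erase x) + 1 = D.area := by
      rw [card_erase_add_one (mem_univ x)]; rfl
    have h2 := ih _ (by omega) hx
    have h3 := hΦ (Lb_erase D g x)
    rw [← h1]; push_cast; linarith
  by_cases hc : ∀ i y, D.σ i y ≠ y
  · rcases isEmpty_or_nonempty D.F with he | ⟨⟨x⟩⟩
    · have : D.area = 0 := Fintype.card_eq_zero
      rw [this]
      have := hΦ0 (Lb D g univ + (2 * g + 1))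
      push_cast; linarith
    · exact key x (acOn_erase_closed D hac hc x)
  · push Not at hc
    obtain ⟨i, y, hy⟩ := hc
    exact key y (acOn_erase D (acOn_univ D hac) y i (Or.inr hy))

end Glob
end Crest.Agent.R177
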