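import Crest.Agent.R177.Global1

/-!
Relative chains of an acyclic gem: the dual form of acyclicity, depth of vertices and the
combinatorial core of the local-to-global principle.
-/

set_option autoImplicit false

namespace Crest.Agent.R177
namespace Glob

open Finset

lemma z2_add_self (a : ZMod 2) : a + a = 0 := by revert a; decide

/-- Weighted size of the support. -/
def nrm {ι : Type} [Fintype ι] (w : ι → ℕ) (f : ι → ZMod 2) : ℕ :=
  ∑ j, if f j = 0 then 0 else w j

lemma nrm_zero {ι : Type} [Fintype ι] (w : ι → ℕ) : nrm w 0 = 0 := by simp [nrm]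

lemma nrm_add_le {ι : Type} [Fintype ι] (w : ι → ℕ) (f f' : ι → ZMod 2) :
    nrm w (f + f') ≤ nrm w f + nrm w f' := by
  unfold nrm
  rw [← Finset.sum_add_distrib]
  refine Finset.sum_le_sum fun j _ => ?_
  by_cases h1 : f j = 0
  · simp [h1]
  · split_ifs <;> omega

lemma nrm_compl {ι : Type} [Fintype ι] (w : ι → ℕ) (f : ι → ZMod 2) :
    nrm w f + nrm w (f + 1) = ∑ j, w j := by
  unfold nrm
  rw [← Finset.sum_add_distrib]
  refine Finset.sum_congr rfl fun j _ => ?_
  simp only [Pi.add_apply, Pi.one_apply]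
  have h : ∀ a : ZMod 2, (a = 0 ∧ a + 1 ≠ 0) ∨ (a ≠ 0 ∧ a + 1 = 0) := by decide
  rcases h (f j) with ⟨h1, h2⟩ | ⟨h1, h2⟩
  · rw [if_pos h1, if_neg h2, zero_add]
  · rw [if_neg h1, if_pos h2, add_zero]

variable (D : Gem)

/-- Coboundary of a function on faces. -/
def dl (τ : D.F → ZMod 2) : D.F × Fin 3 → ZMod 2 := fun p => τ p.1 + τ (D.σ p.2 p.1)

/-- Indicator of an interior edge. -/
def eg (x : D.F) (i : Fin 3) : D.F × Fin 3 → ZMod 2 :=
  fun p => if p.2 = i then dl D (Pi.single x 1) p else 0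

lemma dl_add (τ τ' : D.F → ZMod 2) : dl D (τ + τ') = dl D τ + dl D τ' := by
  funext p; simp only [dl, Pi.add_apply]; ring

lemma dl_one : dl D 1 = 0 := by
  funext p; simp only [dl, Pi.one_apply, Pi.zero_apply]; decide

lemma eg_σ (x : D.F) (i : Fin 3) : eg D (D.σ i x) i = eg D x i := by
  funext p
  obtain ⟨y, j⟩ := p
  unfold eg dl
  by_cases hj : j = i
  · subst hj
    simp only [if_true, Pi.single_apply]
    have h1 : D.σ j y = D.σ j x ↔ y = x :=
      ⟨fun h => by rw [← D.inv j y, h, D.inv], fun h => by rw [h]⟩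
    have h2 : D.σ j y = x ↔ y = D.σ j x :=
      ⟨fun h => by rw [← h, D.inv], fun h => by rw [h, D.inv]⟩
    simp only [h1, h2]
    ring
  · simp [hj]

lemma eg_bd {x : D.F} {i : Fin 3} (h : D.σ i x = x) : eg D x i = 0 := by
  funext p
  obtain ⟨y, j⟩ := p
  unfold eg dl
  by_cases hj : j = i
  · subst hj
    simp only [if_true, Pi.single_apply, Pi.zero_apply]
    have h2 : D.σ j y = x ↔ y = x :=
      ⟨fun h' => by rw [← D.inv j y, h', h], fun h' => by rw [h', h]⟩
    simp only [h2]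
    exact z2_add_self _
  · simp [hj]

lemma eg_sum (x : D.F) : eg D x 0 + eg D x 1 + eg D x 2 = dl D (Pi.single x 1) := by
  funext p
  obtain ⟨y, j⟩ := p
  simp only [eg, Pi.add_apply]
  fin_cases j <;> simp

/-- Weight of a chain. -/
def W (g : ℕ) (z : D.F × Fin 3 → ZMod 2) : ℕ := nrm (fun p => wt g p.2) z

lemma W_add_le (g : ℕ) (z z' : D.F × Fin 3 → ZMod 2) : W D g (z + z') ≤ W D g z + W D g z' :=
  nrm_add_le _ _ _

lemma W_eg {g : ℕ} (hg : 0 < g) (x : D.F) (i : Fin 3) : W D g (eg D x i) ≤ 2 * g := by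
  unfold W nrm
  have h1 : ∀ p : D.F × Fin 3, (if eg D x i p = 0 then 0 else wt g p.2) ≤
      (if p = (x, i) then g else 0) + (if p = (D.σ i x, i) then g else 0) := by
    rintro ⟨y, j⟩
    have hw := wt_le hg j
    by_cases h0 : eg D x i (y, j) = 0
    · rw [if_pos h0]; exact Nat.zero_le _
    · rw [if_neg h0]
      by_cases hj : j = i
      · subst hj
        by_cases h1 : y = x
        · subst h1; simp only [if_true]; omega
        · by_cases h2 : y = D.σ j x
          · subst h2; simp only [if_true]; omega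
          · exfalso
            apply h0
            have h3 : D.σ j y ≠ x := fun h => h2 (by rw [← h, D.inv])
            simp [eg, dl, h1, h3]
      · exfalso; apply h0; simp [eg, hj]
  refine (Finset.sum_le_sum fun p _ => h1 p).trans ?_
  rw [Finset.sum_add_distrib]
  simp
  omega

/-- Chains that are closed at all vertices of type `k`. -/
def Closed (k : Fin 3) : AddSubgroup (D.F × Fin 3 → ZMod 2) where
  carrier := {z | ∃ τ : D.F → ZMod 2, ∀ x i, i ≠ k → z (x, i) = dl D τ (x, i)}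
  zero_mem' := ⟨0, fun x i _ => by simp [dl]⟩
  add_mem' := by
    rintro a b ⟨τ, h⟩ ⟨τ', h'⟩
    exact ⟨τ + τ', fun x i hi => by rw [dl_add, Pi.add_apply, Pi.add_apply, h x i hi, h' x i hi]⟩
  neg_mem' := by
    rintro a ⟨τ, h⟩
    exact ⟨τ, fun x i hi => by rw [Pi.neg_apply, ZMod.neg_eq_self_mod_two, h x i hi]⟩

/-- The dual form of acyclicity. -/
lemma dual_ac (hac : D.Ac) (z : D.F × Fin 3 → ZMod 2) (hz : ∀ k, z ∈ Closed D k) :
    ∃ τ, z = dl D τ := by
  choose τ hτ using hz
  have hne1 : ∀ i : Fin 3, i ≠ i + 1 := by decide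
  have hne2 : ∀ i : Fin 3, i ≠ i + 2 := by decide
  obtain ⟨π, h1, h2⟩ := hac (fun x i => τ (i + 1) x + τ (i + 2) x)
    (by
      intro x i
      have a1 := hτ (i + 1) x i (hne1 i)
      have a2 := hτ (i + 2) x i (hne2 i)
      simp only [dl] at a1 a2
      have := z2_add_self
      grind)
    (by
      intro x
      have e1 : (0 : Fin 3) + 1 = 1 := rfl
      have e2 : (0 : Fin 3) + 2 = 2 := rfl
      have e3 : (1 : Fin 3) + 1 = 2 := rfl
      have e4 : (1 : Fin 3) + 2 = 0 := rfl
      have e5 : (2 : Fin 3) + 1 = 0 := rfl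
      have e6 : (2 : Fin 3) + 2 = 1 := rfl
      simp only [e1, e2, e3, e4, e5, e6]
      have := z2_add_self
      grind)
  have h3 : ∀ x k, τ k x + π x k = τ 0 x + π x 0 := by
    intro x k
    have b1 := h2 x 1
    have b2 := h2 x 2
    have e3 : (1 : Fin 3) + 1 = 2 := rfl
    have e4 : (1 : Fin 3) + 2 = 0 := rfl
    have e5 : (2 : Fin 3) + 1 = 0 := rfl
    have e6 : (2 : Fin 3) + 2 = 1 := rfl
    simp only [e3, e4, e5, e6] at b1 b2
    have := z2_add_self
    have hk : k = 0 ∨ k = 1 ∨ k = 2 := by revert k; decide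
    rcases hk with rfl | rfl | rfl
    · rfl
    · grind
    · grind
  refine ⟨fun x => τ 0 x + π x 0, ?_⟩
  funext p
  obtain ⟨x, i⟩ := p
  have a1 := hτ (i + 1) x i (hne1 i)
  have a2 := h1 x i (i + 1) (hne1 i).symm
  have a3 := h3 x (i + 1)
  have a4 := h3 (D.σ i x) (i + 1)
  simp only [dl] at a1 ⊢
  rw [← a3, ← a4, a1, a2]
  have := z2_add_self
  grind

/-- Vertex classes and the relative boundary operator. -/
lemma exists_del (hac : D.Ac) : ∃ (Q : Type) (_ : AddCommGroup Q)
    (del : (D.F × Fin 3 → ZMod 2) →+ Q) (v : D.F → Fin 3 → Q),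
    (∀ q : Q, q + q = 0) ∧ (∀ x i, del (eg D x i) = v x (i + 1) + v x (i + 2)) ∧
    (∀ x i k, k ≠ i → v (D.σ i x) k = v x k) ∧ (∀ x i k, k ≠ i → D.σ i x = x → v x k = 0) ∧
    ∀ z, del z = 0 → ∃ τ, z = dl D τ := by
  let Q : Type := (k : Fin 3) → ((D.F × Fin 3 → ZMod 2) ⧸ Closed D k)
  let del : (D.F × Fin 3 → ZMod 2) →+ Q :=
    AddMonoidHom.pi fun k => QuotientAddGroup.mk' (Closed D k)
  have hdel : ∀ z k, del z k = (QuotientAddGroup.mk z : _ ⧸ Closed D k) := fun z k => rfl
  have h0 : ∀ x i, (QuotientAddGroup.mk (eg D x i) : _ ⧸ Closed D i) = 0 := by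
    intro x i
    rw [QuotientAddGroup.eq_zero_iff]
    exact ⟨0, fun y j hj => by simp [eg, hj, dl]⟩
  have h12 : ∀ x k, (QuotientAddGroup.mk (eg D x (k + 2)) : _ ⧸ Closed D k) =
      QuotientAddGroup.mk (eg D x (k + 1)) := by
    intro x k
    rw [QuotientAddGroup.eq]
    refine ⟨Pi.single x 1, fun y j hj => ?_⟩
    simp only [Pi.add_apply, Pi.neg_apply, ZMod.neg_eq_self_mod_two, eg]
    have : (j = k + 1 ∧ j ≠ k + 2) ∨ (j ≠ k + 1 ∧ j = k + 2) := by
      revert j k; decide
    rcases this with ⟨h1, h2⟩ | ⟨h1, h2⟩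
    · rw [if_pos h1, if_neg h2, zero_add]
    · rw [if_neg h1, if_pos h2, add_zero]
  have hk : ∀ x (i k : Fin 3), k ≠ i → (QuotientAddGroup.mk (eg D x (k + 1)) : _ ⧸ Closed D k) =
      QuotientAddGroup.mk (eg D x i) := by
    intro x i k hki
    have : i = k + 1 ∨ i = k + 2 := by revert i k; decide
    rcases this with rfl | rfl
    · rfl
    · exact (h12 x k).symm
  refine ⟨Q, inferInstance, del,
    fun x k => Pi.single k (QuotientAddGroup.mk (eg D x (k + 1)) : _ ⧸ Closed D k), ?_, ?_, ?_, ?_,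
    ?_⟩
  · intro q
    funext k
    rw [Pi.add_apply, Pi.zero_apply]
    induction q k using QuotientAddGroup.induction_on with
    | H z =>
      rw [← QuotientAddGroup.mk_add]
      have : z + z = 0 := by funext p; exact z2_add_self _
      rw [this]; rfl
  · intro x i
    funext k
    rw [hdel, Pi.add_apply]
    beta_reduce
    have n1 : ∀ i : Fin 3, i ≠ i + 1 := by decide
    have n2 : ∀ i : Fin 3, i ≠ i + 2 := by decide
    have n3 : ∀ i : Fin 3, i + 1 ≠ i + 2 := by decide
    have : k = i ∨ k = i + 1 ∨ k = i + 2 := by revert i k; decide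
    rcases this with rfl | rfl | rfl
    · rw [h0, Pi.single_eq_of_ne (n1 k), Pi.single_eq_of_ne (n2 k), add_zero]
    · rw [Pi.single_eq_same, Pi.single_eq_of_ne (n3 i), add_zero, hk x i (i + 1) (n1 i).symm]
    · rw [Pi.single_eq_same, Pi.single_eq_of_ne (n3 i).symm, zero_add,
        hk x i (i + 2) (n2 i).symm]
  · intro x i k hki
    simp only
    rw [hk _ i k hki, hk _ i k hki, eg_σ]
  · intro x i k hki hx
    simp only
    rw [hk _ i k hki, eg_bd D hx]
    simp
  · intro z hz
    refine dual_ac D hac z fun k => ?_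
    have := congrFun hz k
    rw [hdel] at this
    exact (QuotientAddGroup.eq_zero_iff z).1 this

end Glob
end Crest.Agent.R177
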