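import Mathlib

/-! Metric part of the hyperbolicity proof: logarithmic detours imply thin triangles. -/

set_option autoImplicit false

namespace Crest.Agent.R177.HypAux

variable {X : Type}

/-- An integer valued geodesic pseudo-metric. -/
def Geo (d : X → X → ℕ) (γ : ℕ → X) (n : ℕ) : Prop :=
  ∀ i j, i ≤ j → j ≤ n → d (γ i) (γ j) + i = j

structure IsMet (d : X → X → ℕ) : Prop where
  self : ∀ x, d x x = 0
  comm : ∀ x y, d x y = d y x
  tri : ∀ x y z, d x z ≤ d x y + d y z
  geo : ∀ x y, ∃ γ : ℕ → X, γ 0 = x ∧ γ (d x y) = y ∧ Geo d γ (d x y)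

/-- `u` and `v` are joined by a path with at most `m` steps inside `P`. -/
inductive Conn (d : X → X → ℕ) (P : X → Prop) : ℕ → X → X → Prop
  | refl (u : X) : P u → Conn d P 0 u u
  | step {m : ℕ} {u v w : X} : Conn d P m u v → d v w ≤ 1 → P w → Conn d P (m + 1) u w

variable {d : X → X → ℕ} {P : X → Prop}

theorem Conn.left {m : ℕ} {u v : X} (h : Conn d P m u v) : P u := by
  induction h with
  | refl u hu => exact hu
  | step _ _ _ ih => exact ih

theorem Conn.right {m : ℕ} {u v : X} (h : Conn d P m u v) : P v := by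
  cases h with
  | refl u hu => exact hu
  | step _ _ hw => exact hw

theorem Conn.mono (hd : IsMet d) {m m' : ℕ} {u v : X} (h : Conn d P m u v) (hm : m ≤ m') :
    Conn d P m' u v := by
  induction hm with
  | refl => exact h
  | step _ ih => exact ih.step (by rw [hd.self]; omega) ih.right

theorem Conn.trans {m m' : ℕ} {u v w : X} (h : Conn d P m u v) (h' : Conn d P m' v w) :
    Conn d P (m + m') u w := by
  induction h' with
  | refl _ _ => exact h
  | step _ h1 h2 ih => exact (ih h).step h1 h2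

theorem Conn.symm (hd : IsMet d) {m : ℕ} {u v : X} (h : Conn d P m u v) : Conn d P m v u := by
  induction h with
  | refl u hu => exact Conn.refl u hu
  | @step m u v w h1 h2 h3 ih =>
    have : Conn d P (0 + 1) w v := (Conn.refl w h3).step (by rwa [hd.comm]) h1.right
    have := this.trans ih
    rwa [zero_add, add_comm] at this

theorem Geo.conn {γ : ℕ → X} {n : ℕ} (hγ : Geo d γ n) {i j : ℕ} (hij : i ≤ j) (hj : j ≤ n)
    (hP : ∀ k, i ≤ k → k ≤ j → P (γ k)) : Conn d P (j - i) (γ i) (γ j) := by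
  induction j, hij using Nat.le_induction with
  | base => rw [Nat.sub_self]; exact Conn.refl _ (hP i le_rfl le_rfl)
  | succ j hij ih =>
    have e : j + 1 - i = j - i + 1 := by omega
    rw [e]
    refine (ih (by omega) fun k h1 h2 => hP k h1 (by omega)).step ?_ (hP _ (by omega) le_rfl)
    have := hγ j (j + 1) (by omega) hj
    omega

theorem IsMet.jump (hd : IsMet d) {M : ℕ} {u v : X} (h : d u v ≤ M) (hP : ∀ w, d u w ≤ M → P w) :
    Conn d P M u v := by
  obtain ⟨γ, h0, h1, hγ⟩ := hd.geo u v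
  have := hγ.conn (P := P) (Nat.zero_le (d u v)) le_rfl fun k _ hk => hP _ (by
    have := hγ 0 k (Nat.zero_le _) hk
    rw [h0] at this; omega)
  rw [h0, h1] at this
  exact this.mono hd (by omega)

theorem Geo.rev (hd : IsMet d) {γ : ℕ → X} {n : ℕ} (hγ : Geo d γ n) : Geo d (fun i => γ (n - i)) n := by
  intro i j hij hj
  have := hγ (n - j) (n - i) (by omega) (by omega)
  rw [hd.comm] at this
  beta_reduce
  omega

theorem Geo.shift {γ : ℕ → X} {n : ℕ} (hγ : Geo d γ n) {a b : ℕ} (hb : a + b ≤ n) :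
    Geo d (fun i => γ (a + i)) b := by
  intro i j hij hj
  have := hγ (a + i) (a + j) (by omega) (by omega)
  beta_reduce
  omega

/-- The detour property. -/
def Detour (d : X → X → ℕ) (r : ℕ) : Prop :=
  ∀ (γ : ℕ → X) (n k : ℕ) (P : X → Prop), Geo d γ n → k ≤ n → n ≤ 300 * r →
    Conn d P (300 * r) (γ 0) (γ n) → ∃ w, P w ∧ d (γ k) w ≤ 3 * r + 1

/-- All corners of triangles of perimeter at most `R` are `M`-thin. -/
def Thin (d : X → X → ℕ) (R M : ℕ) : Prop :=
  ∀ (γ α : ℕ → X) (n m i : ℕ), Geo d γ n → Geo d α m → γ 0 = α 0 →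
    n + m + d (γ n) (α m) ≤ R → 2 * i + d (γ n) (α m) ≤ n + m → d (γ i) (α i) ≤ M

theorem core (hd : IsMet d) {R M : ℕ} (hT : Thin d R M) {γ α β : ℕ → X} {n m e i : ℕ}
    (hγ : Geo d γ n) (hα : Geo d α m) (hβ : Geo d β e) (h0 : γ 0 = α 0) (h1 : β 0 = γ n)
    (h2 : β e = α m) (hR : n + m + e ≤ R) (hi : 2 * i + e ≤ n + m) (hM : M ≤ d (γ i) (α i))
    (hav : ∀ j ≤ e, M ≤ 4 * d (γ i) (β j)) :
    ∃ a b, a ≤ i ∧ i ≤ b ∧ b ≤ n ∧ b ≤ a + 4 * M ∧
      Conn d (fun w => M ≤ 4 * d (γ i) w) (11 * M) (γ a) (γ b) := by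
  have de : d (γ n) (α m) = e := by
    have := hβ 0 e (Nat.zero_le _) le_rfl
    rwa [h1, h2] at this
  have dn : ∀ j ≤ n, d (γ 0) (γ j) = j := fun j hj => hγ 0 j (Nat.zero_le _) hj
  have dm : ∀ j ≤ m, d (γ 0) (α j) = j := fun j hj => h0 ▸ hα 0 j (Nat.zero_le _) hj
  have t1 : n ≤ m + e := by
    have := hd.tri (γ 0) (α m) (γ n)
    rw [dn n le_rfl, dm m le_rfl, hd.comm, de] at this; exact this
  have t2 : m ≤ n + e := by
    have := hd.tri (γ 0) (γ n) (α m)
    rw [dn n le_rfl, dm m le_rfl, de] at this; exact this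
  have hin : i ≤ n := by omega
  have him : i ≤ m := by omega
  set Q : X → Prop := fun w => M ≤ 4 * d (γ i) w with hQ
  have T1 : ∀ j, 2 * j + e ≤ n + m → d (γ j) (α j) ≤ M := fun j hj =>
    hT γ α n m j hγ hα h0 (by omega) (by omega)
  have T2 : ∀ j, 2 * j + m ≤ n + e → d (γ (n - j)) (β j) ≤ M := fun j hj => by
    refine hT (fun i => γ (n - i)) β n e j (hγ.rev hd) hβ (by simp [h1]) ?_ ?_ <;>
      simp only [Nat.sub_self, h2, dm m le_rfl] <;> omega
  have T3 : ∀ j, 2 * j + n ≤ m + e → d (α (m - j)) (β (e - j)) ≤ M := fun j hj => by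
    refine hT (fun i => α (m - i)) (fun i => β (e - i)) m e j (hα.rev hd) (hβ.rev hd)
      (by simp [h2]) ?_ ?_ <;> simp only [Nat.sub_self, h1, ← h0, dn n le_rfl] <;> omega
  have avα : ∀ j ≤ m, Q (α j) := by
    intro j hj
    show M ≤ 4 * d (γ i) (α j)
    have a1 := hd.tri (γ i) (α j) (α i)
    have a2 := hd.tri (γ 0) (γ i) (α j)
    have a3 := hd.tri (γ 0) (α j) (γ i)
    rw [dn i hin, dm j hj] at a2 a3
    rw [hd.comm (α j)] at a3
    rcases le_total i j with h | h
    · have := hα i j h hj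
      rw [hd.comm (α j)] at a1
      omega
    · have := hα j i h him
      omega
  have jmp : ∀ u v, 2 * M ≤ d (γ i) u → d u v ≤ M → Conn d Q M u v := by
    intro u v hu huv
    refine hd.jump huv fun w hw => ?_
    show M ≤ 4 * d (γ i) w
    have := hd.tri (γ i) w u
    rw [hd.comm w] at this
    omega
  have c1 : Conn d Q M (γ (i - 2 * M)) (α (i - 2 * M)) := by
    rcases le_total i (2 * M) with h | h
    · rw [Nat.sub_eq_zero_of_le h, h0]
      exact (Conn.refl _ (avα 0 (Nat.zero_le _))).mono hd (Nat.zero_le _)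
    · refine jmp _ _ ?_ (T1 _ (by omega))
      have := hγ (i - 2 * M) i (by omega) hin
      rw [hd.comm]; omega
  by_cases hc : 2 * (i + 2 * M) + e ≤ n + m
  · refine ⟨i - 2 * M, i + 2 * M, by omega, by omega, by omega, by omega, ?_⟩
    have c2 := hα.conn (P := Q) (i := i - 2 * M) (j := i + 2 * M) (by omega) (by omega)
      fun k _ hk => avα k (by omega)
    have c3 : Conn d Q M (γ (i + 2 * M)) (α (i + 2 * M)) := by
      refine jmp _ _ ?_ (T1 _ hc)
      have := hγ i (i + 2 * M) (by omega) (by omega)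
      omega
    exact ((c1.trans c2).trans (c3.symm hd)).mono hd (by omega)
  · set t := m - (i + 2 * M) with ht
    set t' := n - (i + 2 * M) with ht'
    refine ⟨i - 2 * M, n - t', by omega, by omega, by omega, by omega, ?_⟩
    have c2 := hα.conn (P := Q) (i := i - 2 * M) (j := m - t) (by omega) (by omega)
      fun k _ hk => avα k (by omega)
    have c3 : Conn d Q M (α (m - t)) (β (e - t)) := by
      rcases le_total m (i + 2 * M) with h | h
      · have : t = 0 := by omega
        rw [this, Nat.sub_zero, Nat.sub_zero, h2]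
        exact (Conn.refl _ (avα m le_rfl)).mono hd (Nat.zero_le _)
      · refine jmp _ _ ?_ (T3 _ (by omega))
        have a2 := hd.tri (γ 0) (γ i) (α (m - t))
        rw [dn i hin, dm _ (by omega)] at a2
        omega
    have c4 := hβ.conn (P := Q) (i := t') (j := e - t) (by omega) (by omega)
      fun k _ hk => hav k (by omega)
    have c5 : Conn d Q M (γ (n - t')) (β t') := by
      rcases le_total n (i + 2 * M) with h | h
      · have : t' = 0 := by omega
        rw [this, Nat.sub_zero, ← h1]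
        exact (Conn.refl (P := Q) _ (hav 0 (Nat.zero_le _))).mono hd (Nat.zero_le _)
      · refine jmp _ _ ?_ (T2 _ (by omega))
        have := hγ i (n - t') (by omega) (by omega)
        omega
    exact ((((c1.trans c2).trans c3).trans (c4.symm hd)).trans (c5.symm hd)).mono hd (by omega)

theorem core2 (hd : IsMet d) {R M : ℕ} (hT : Thin d R M) (hD : Detour d (M / 13)) (hM52 : 52 < M)
    {γ α β : ℕ → X} {n m e i : ℕ}
    (hγ : Geo d γ n) (hα : Geo d α m) (hβ : Geo d β e) (h0 : γ 0 = α 0) (h1 : β 0 = γ n)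
    (h2 : β e = α m) (hR : n + m + e ≤ R) (hi : 2 * i + e ≤ n + m) (hM : M ≤ d (γ i) (α i)) :
    ∃ j ≤ e, 4 * d (γ i) (β j) < M := by
  by_contra hav
  push Not at hav
  obtain ⟨a, b, ha, hb, hbn, hba, hc⟩ := core hd hT hγ hα hβ h0 h1 h2 hR hi hM hav
  obtain ⟨w, hw, hw'⟩ := hD (fun j => γ (a + j)) (b - a) (i - a) (fun w => M ≤ 4 * d (γ i) w)
    (hγ.shift (by omega)) (by omega) (by omega) (by
      have e1 : a + (b - a) = b := by omega
      simp only [add_zero, e1]
      exact hc.mono hd (by omega))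
  have e2 : a + (i - a) = i := by omega
  simp only [e2] at hw'
  omega

theorem thin_of_detour (hd : IsMet d) {r0 : ℕ} (hD : ∀ r, r0 ≤ r → Detour d r) (R : ℕ) :
    Thin d R (13 * r0 + 52) := by
  classical
  have ex : ∃ M, Thin d R M := ⟨R, fun γ α n m i hγ hα h0 hR hi => by
    have t1 := hd.tri (γ 0) (α m) (γ n)
    have t2 := hd.tri (γ 0) (γ n) (α m)
    have dn : ∀ j ≤ n, d (γ 0) (γ j) = j := fun j hj => hγ 0 j (Nat.zero_le _) hj
    have dm : ∀ j ≤ m, d (γ 0) (α j) = j := fun j hj => h0 ▸ hα 0 j (Nat.zero_le _) hj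
    rw [dn n le_rfl, dm m le_rfl] at t1 t2
    rw [hd.comm (α m)] at t1
    have := hd.tri (γ i) (γ 0) (α i)
    rw [hd.comm (γ i) (γ 0), dn i (by omega), dm i (by omega)] at this
    omega⟩
  have hT := Nat.find_spec ex
  set M := Nat.find ex with hMdef
  by_cases hM : M ≤ 13 * r0 + 52
  · intro γ α n m i hγ hα h0 hR hi
    exact (hT γ α n m i hγ hα h0 hR hi).trans hM
  exfalso
  have hn : ¬ Thin d R (M - 1) := Nat.find_min ex (by omega)
  unfold Thin at hn
  push Not at hn
  obtain ⟨γ, α, n, m, i, hγ, hα, h0, hR, hi, hlt⟩ := hn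
  obtain ⟨β, h1, h2, hβ⟩ := hd.geo (γ n) (α m)
  set e := d (γ n) (α m) with he
  have hD' := hD (M / 13) (by omega)
  obtain ⟨j, hj, s1⟩ := core2 hd hT hD' (by omega) hγ hα hβ h0 h1 h2 hR hi (by omega)
  obtain ⟨j', hj', s2⟩ := core2 hd hT hD' (by omega) hα hγ (hβ.rev hd) h0.symm (i := i)
    (by simp [h2]) (by simp [h1]) (by omega) (by omega) (by rw [hd.comm]; omega)
  set k := e - j' with hk
  have hk' : k ≤ e := by omega
  have dn : ∀ j ≤ n, d (γ 0) (γ j) = j := fun j hj => hγ 0 j (Nat.zero_le _) hj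
  have dm : ∀ j ≤ m, d (γ 0) (α j) = j := fun j hj => h0 ▸ hα 0 j (Nat.zero_le _) hj
  have t1 := hd.tri (γ 0) (α m) (γ n)
  have t2 := hd.tri (γ 0) (γ n) (α m)
  rw [dn n le_rfl, dm m le_rfl] at t1 t2
  rw [hd.comm (α m)] at t1
  have low : ∀ j ≤ e, n ≤ d (γ 0) (β j) + j ∧ m + j ≤ d (γ 0) (β j) + e := by
    intro j hj
    have a1 := hd.tri (γ 0) (β j) (γ n)
    have a2 := hd.tri (γ 0) (β j) (α m)
    have a3 := hβ 0 j (Nat.zero_le _) hj
    have a4 := hβ j e hj le_rfl
    rw [h1, hd.comm] at a3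
    rw [h2] at a4
    rw [dn n le_rfl] at a1
    rw [dm m le_rfl] at a2
    omega
  have l1 := low j hj
  have l2 := low k hk'
  have u1 := hd.tri (γ 0) (γ i) (β j)
  have u2 := hd.tri (γ 0) (α i) (β k)
  rw [dn i (by omega)] at u1
  rw [dm i (by omega)] at u2
  have v1 := hd.tri (γ i) (β j) (α i)
  have v2 := hd.tri (β j) (β k) (α i)
  rw [hd.comm (β k)] at v2
  rcases le_total j k with h | h
  · have := hβ j k h hk'
    omega
  · have := hβ k j h hj
    rw [hd.comm] at this
    omega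

theorem four_point (hd : IsMet d) {r0 : ℕ} (hD : ∀ r, r0 ≤ r → Detour d r) :
    ∃ M : ℕ, ∀ (w x y z : X) (i : ℕ), 2 * i + d x y ≤ d w x + d w y → 2 * i + d y z ≤ d w y + d w z →
      2 * i + d x z ≤ d w x + d w z + 2 * M := by
  refine ⟨13 * r0 + 52, fun w x y z i h1 h2 => ?_⟩
  obtain ⟨γx, x0, x1, hx⟩ := hd.geo w x
  obtain ⟨γy, y0, y1, hy⟩ := hd.geo w y
  obtain ⟨γz, z0, z1, hz⟩ := hd.geo w z
  have a1 := thin_of_detour hd hD _ γx γy _ _ i hx hy (x0.trans y0.symm) le_rfl (by rw [x1, y1]; exact h1)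
  have a2 := thin_of_detour hd hD _ γy γz _ _ i hy hz (y0.trans z0.symm) le_rfl (by rw [y1, z1]; exact h2)
  have t1 := hd.tri w x y
  have t2 := hd.tri w z y
  rw [hd.comm z y] at t2
  have b1 := hx i (d w x) (by omega) le_rfl
  have b2 := hz i (d w z) (by omega) le_rfl
  rw [x1, hd.comm] at b1
  rw [z1] at b2
  have c1 := hd.tri x (γx i) z
  have c2 := hd.tri (γx i) (γy i) z
  have c3 := hd.tri (γy i) (γz i) z
  omega

end Crest.Agent.R177.HypAux
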