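import Crest.Agent.R177.Defs
import Crest.Agent.R177.HypMet
import Crest.Prelude.Def_WordHyperbolic

set_option autoImplicit false

namespace Crest.Agent.R177

open Finset

namespace HypAux

open Crest.GroupTheory

variable {G Gen Tr : Type} [Group G] {gen : Gen → G} {l : Tr → Fin 3 → Gen}

/-! ### The word metric -/

theorem wl_le {S : Set G} {L : List G} (h : ∀ x ∈ L, x ∈ S ∨ x⁻¹ ∈ S) :
    wordLength S L.prod ≤ L.length :=
  Nat.sInf_le ⟨L, rfl, h, rfl⟩

theorem exists_word {S : Set G} (hS : Subgroup.closure S = ⊤) (g : G) :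
    ∃ L : List G, L.length = wordLength S g ∧ (∀ x ∈ L, x ∈ S ∨ x⁻¹ ∈ S) ∧ L.prod = g := by
  have : g ∈ (Subgroup.closure S).toSubmonoid := by rw [hS]; trivial
  rw [Subgroup.closure_toSubmonoid] at this
  obtain ⟨L, h1, h2⟩ := Submonoid.exists_list_of_mem_closure this
  have hne : {n : ℕ | ∃ L : List G, L.length = n ∧ (∀ x ∈ L, x ∈ S ∨ x⁻¹ ∈ S) ∧ L.prod = g}.Nonempty :=
    ⟨L.length, L, rfl, fun x hx => by simpa using h1 x hx, h2⟩
  exact Nat.sInf_mem hne

/-- the word metric -/
noncomputable def wd (gen : Gen → G) (x y : G) : ℕ := wordLength (Set.range gen) (x⁻¹ * y)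

theorem wd_adj (x : G) (s : Gen) : wd gen x (x * gen s) ≤ 1 := by
  have := wl_le (S := Set.range gen) (L := [gen s]) (by simp)
  simpa [wd] using this

theorem adj_of_wd (hgen : Subgroup.closure (Set.range gen) = ⊤) {x y : G} (h : wd gen x y ≤ 1) :
    x = y ∨ ∃ s, y = x * gen s ∨ x = y * gen s := by
  obtain ⟨L, h1, h2, h3⟩ := exists_word hgen (x⁻¹ * y)
  unfold wd at h
  rw [← h1] at h
  match L, h, h2, h3 with
  | [], _, _, h3 => left; simpa [eq_inv_mul_iff_mul_eq] using h3
  | [g], _, h2, h3 =>
    right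
    simp only [List.prod_cons, List.prod_nil, mul_one] at h3
    rcases h2 g (by simp) with ⟨s, hs⟩ | ⟨s, hs⟩
    · exact ⟨s, Or.inl (by rw [hs, h3]; group)⟩
    · exact ⟨s, Or.inr (by rw [hs, h3]; group)⟩
  | _ :: _ :: _, h, _, _ => simp at h

theorem isMet_wd (hgen : Subgroup.closure (Set.range gen) = ⊤) : IsMet (wd gen) := by
  have self : ∀ x, wd gen x x = 0 := fun x => by
    have := wl_le (S := Set.range gen) (L := []) (by simp)
    simpa [wd] using this
  have comm' : ∀ x y, wd gen x y ≤ wd gen y x := fun x y => by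
    obtain ⟨L, h1, h2, h3⟩ := exists_word hgen (y⁻¹ * x)
    have := wl_le (S := Set.range gen) (L := (L.map fun x => x⁻¹).reverse) (by
      intro x hx
      simp only [List.mem_reverse, List.mem_map] at hx
      obtain ⟨a, ha, rfl⟩ := hx
      simpa [or_comm] using h2 a ha)
    rw [← List.prod_inv_reverse, h3] at this
    simpa [wd, h1] using this
  have tri : ∀ x y z, wd gen x z ≤ wd gen x y + wd gen y z := fun x y z => by
    obtain ⟨L, h1, h2, h3⟩ := exists_word hgen (x⁻¹ * y)
    obtain ⟨L', h1', h2', h3'⟩ := exists_word hgen (y⁻¹ * z)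
    have := wl_le (S := Set.range gen) (L := L ++ L') (by
      intro x hx
      rcases List.mem_append.1 hx with h | h
      exacts [h2 x h, h2' x h])
    rw [List.prod_append, h3, h3', List.length_append, h1, h1'] at this
    simpa [wd, mul_assoc] using this
  refine ⟨self, fun x y => le_antisymm (comm' x y) (comm' y x), tri, fun x y => ?_⟩
  obtain ⟨L, h1, h2, h3⟩ := exists_word hgen (x⁻¹ * y)
  have hn : L.length = wd gen x y := h1
  have up : ∀ i j, i ≤ j → wd gen (x * (L.take i).prod) (x * (L.take j).prod) + i ≤ j := by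
    intro i j hij
    have e : (L.take j).prod = (L.take i).prod * ((L.take j).drop i).prod := by
      conv_lhs => rw [← List.take_append_drop i (L.take j)]
      rw [List.prod_append, List.take_take, min_eq_left hij]
    have := wl_le (S := Set.range gen) (L := (L.take j).drop i)
      fun a ha => h2 a (List.mem_of_mem_take (List.mem_of_mem_drop ha))
    have e2 : (x * (L.take i).prod)⁻¹ * (x * (L.take j).prod) = ((L.take j).drop i).prod := by
      rw [e]; group
    unfold wd
    rw [e2]
    simp only [List.length_drop, List.length_take] at this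
    omega
  have hend : x * (L.take (wd gen x y)).prod = y := by
    rw [← hn, List.take_length, h3]; group
  refine ⟨fun i => x * (L.take i).prod, by simp, hend, fun i j hij hj => ?_⟩
  have a1 := up 0 i (Nat.zero_le _)
  have a2 := up i j hij
  have a3 := up j _ hj
  rw [hend] at a3
  simp only [List.take_zero, List.prod_nil, mul_one] at a1
  have b1 := tri x (x * (L.take i).prod) y
  have b2 := tri (x * (L.take i).prod) (x * (L.take j).prod) y
  beta_reduce
  omega

/-! ### Chains -/

theorem add_self' {α : Type} (x : α →₀ ZMod 2) : x + x = 0 := by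
  ext a; simp [CharTwo.add_self_eq_zero]

theorem bd1_single (e : G × Gen) :
    bd1 gen (Finsupp.single e 1) = Finsupp.single e.1 1 + Finsupp.single (e.1 * gen e.2) 1 := by
  simp [bd1]

theorem bd2_single (f : G × Tr) :
    bd2 gen l (Finsupp.single f 1) = Finsupp.single (f.1, l f.2 0) 1 +
      Finsupp.single (f.1 * gen (l f.2 0), l f.2 1) 1 + Finsupp.single (f.1, l f.2 2) 1 := by
  simp [bd2]

theorem bd1_bd2 (hrel : Rel gen l) (c : G × Tr →₀ ZMod 2) : bd1 gen (bd2 gen l c) = 0 := by
  have : (bd1 gen).comp (bd2 gen l) = 0 := by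
    apply Finsupp.lhom_ext'
    intro f
    apply LinearMap.ext_ring
    simp only [LinearMap.comp_apply, Finsupp.lsingle_apply, LinearMap.zero_apply, bd2_single, map_add,
      bd1_single, mul_assoc, hrel f.2]
    have h1 := add_self' (Finsupp.single f.1 (1 : ZMod 2))
    have h2 := add_self' (Finsupp.single (f.1 * gen (l f.2 0)) (1 : ZMod 2))
    have h3 := add_self' (Finsupp.single (f.1 * gen (l f.2 2)) (1 : ZMod 2))
    linear_combination (norm := abel_nf) h1 + h2 + h3
  exact LinearMap.congr_fun this c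

theorem exists_chain (hgen : Subgroup.closure (Set.range gen) = ⊤) {P : G → Prop} {m : ℕ} {u v : G}
    (h : Conn (wd gen) P m u v) :
    ∃ ch : G × Gen →₀ ZMod 2, bd1 gen ch = Finsupp.single u 1 + Finsupp.single v 1 ∧
      ch.support.card ≤ m ∧ ∀ e ∈ ch.support, P e.1 ∧ P (e.1 * gen e.2) := by
  classical
  induction h with
  | refl u hu => exact ⟨0, by rw [add_self', map_zero], by simp, by simp⟩
  | @step m u v w h1 h2 h3 ih =>
    obtain ⟨ch, c1, c2, c3⟩ := ih
    have key : ∀ e : G × Gen, P e.1 → P (e.1 * gen e.2) →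
        Finsupp.single e.1 (1 : ZMod 2) + Finsupp.single (e.1 * gen e.2) 1 =
          Finsupp.single v 1 + Finsupp.single w 1 →
        ∃ ch : G × Gen →₀ ZMod 2, bd1 gen ch = Finsupp.single u 1 + Finsupp.single w 1 ∧
          ch.support.card ≤ m + 1 ∧ ∀ e ∈ ch.support, P e.1 ∧ P (e.1 * gen e.2) := by
      intro e p1 p2 he
      have hs : (ch + Finsupp.single e 1).support ⊆ insert e ch.support := by
        refine Finsupp.support_add.trans ?_
        intro a ha
        rcases mem_union.1 ha with ha | ha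
        · exact mem_insert_of_mem ha
        · rw [mem_singleton.1 (Finsupp.support_single_subset ha)]; exact mem_insert_self _ _
      refine ⟨ch + Finsupp.single e 1, ?_, (card_le_card hs).trans ((card_insert_le _ _).trans (by omega)),
        fun a ha => ?_⟩
      · rw [map_add, c1, bd1_single, he]
        have h1 := add_self' (Finsupp.single v (1 : ZMod 2))
        linear_combination (norm := abel_nf) h1
      · rcases mem_insert.1 (hs ha) with rfl | ha
        exacts [⟨p1, p2⟩, c3 a ha]
    rcases adj_of_wd hgen h2 with rfl | ⟨s, rfl | rfl⟩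
    · exact ⟨ch, c1, by omega, c3⟩
    · exact key (v, s) h1.right h3 rfl
    · exact key (w, s) h3 h1.right (add_comm _ _)

/-- vertices of a triangle -/
def Vt (gen : Gen → G) (l : Tr → Fin 3 → Gen) (f : G × Tr) (v : G) : Prop :=
  v = f.1 ∨ v = f.1 * gen (l f.2 0) ∨ v = f.1 * gen (l f.2 2)

theorem Vt.wd_le (hd : IsMet (wd gen)) (hrel : Rel gen l) {f : G × Tr} {u v : G}
    (hu : Vt gen l f u) (hv : Vt gen l f v) : wd gen u v ≤ 1 := by
  have a1 := wd_adj (gen := gen) f.1 (l f.2 0)
  have a2 := wd_adj (gen := gen) f.1 (l f.2 2)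
  have a3 := wd_adj (gen := gen) (f.1 * gen (l f.2 0)) (l f.2 1)
  rw [mul_assoc, hrel f.2] at a3
  rcases hu with rfl | rfl | rfl <;> rcases hv with rfl | rfl | rfl <;>
    first | assumption | (rw [hd.self]; omega) | (rw [hd.comm]; assumption)

open Classical in
/-- edges of a triangle -/
noncomputable def edges (gen : Gen → G) (l : Tr → Fin 3 → Gen) (f : G × Tr) : Finset (G × Gen) :=
  {(f.1, l f.2 0), (f.1 * gen (l f.2 0), l f.2 1), (f.1, l f.2 2)}

theorem card_edges (f : G × Tr) : (edges gen l f).card ≤ 3 := by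
  classical
  unfold edges
  convert card_le_three

theorem vt_of_edge {f : G × Tr} {e : G × Gen} (he : e ∈ edges gen l f) : Vt gen l f e.1 := by
  simp only [edges, mem_insert, mem_singleton] at he
  rcases he with rfl | rfl | rfl
  · exact Or.inl rfl
  · exact Or.inr (Or.inl rfl)
  · exact Or.inl rfl

theorem mem_bd2 {c : G × Tr →₀ ZMod 2} {e : G × Gen} (he : e ∈ (bd2 gen l c).support) :
    ∃ f ∈ c.support, e ∈ edges gen l f := by
  classical
  rw [bd2, Finsupp.linearCombination_apply] at he
  obtain ⟨f, hf, h⟩ := mem_biUnion.1 (Finsupp.support_sum he)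
  refine ⟨f, hf, ?_⟩
  have h' := Finsupp.support_smul h
  simp only [edges, mem_insert, mem_singleton]
  rcases mem_union.1 (Finsupp.support_add h') with h' | h'
  · rcases mem_union.1 (Finsupp.support_add h') with h' | h'
    · exact Or.inl (mem_singleton.1 (Finsupp.support_single_subset h'))
    · exact Or.inr (Or.inl (mem_singleton.1 (Finsupp.support_single_subset h')))
  · exact Or.inr (Or.inr (mem_singleton.1 (Finsupp.support_single_subset h')))

theorem decay (hd : IsMet (wd gen)) (hrel : Rel gen l) {C : ℕ}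
    (hC : ∀ z : G × Gen →₀ ZMod 2, bd1 gen z = 0 →
      ∃ c : G × Tr →₀ ZMod 2, bd2 gen l c = z ∧ c.support.card ≤ C * z.support.card)
    (V : G → Prop) (z : G × Gen →₀ ZMod 2) (hz : bd1 gen z = 0) (hV : ∀ e ∈ z.support, V e.1)
    {L r : ℕ} (hL : z.support.card ≤ L) (hr : C * L * (3 * C) ^ r < (3 * C + 1) ^ r) :
    ∃ c : G × Tr →₀ ZMod 2, bd2 gen l c = z ∧
      ∀ f ∈ c.support, ∀ v, Vt gen l f v → ∃ w, V w ∧ wd gen v w ≤ r := by
  classical
  obtain ⟨c0, h0, h0'⟩ := hC z hz
  have ex : ∃ n, ∃ c : G × Tr →₀ ZMod 2, bd2 gen l c = z ∧ c.support.card = n := ⟨_, c0, h0, rfl⟩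
  obtain ⟨c, hc, hcn⟩ := Nat.find_spec ex
  have hmin : ∀ c' : G × Tr →₀ ZMod 2, bd2 gen l c' = z → c.support.card ≤ c'.support.card :=
    fun c' h => hcn ▸ Nat.find_min' ex ⟨c', h, rfl⟩
  let Far : ℕ → G × Tr → Prop := fun k f => ∀ v, Vt gen l f v → ∀ w, V w → k ≤ wd gen v w
  let a : ℕ → ℕ := fun k => (c.support.filter (Far k)).card
  have step : ∀ k, (3 * C + 1) * a (k + 1) ≤ 3 * C * a k := by
    intro k
    set c1 := c.filter (Far (k + 1)) with hc1
    set c2 := c.filter (fun f => ¬ Far (k + 1) f) with hc2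
    have hsum : c1 + c2 = c := Finsupp.filter_add_filter_not c _
    obtain ⟨c', h1, h2⟩ := hC (bd2 gen l c1) (bd1_bd2 hrel c1)
    have m1 := hmin (c' + c2) (by rw [map_add, h1, ← map_add, hsum, hc])
    have m2 : (c' + c2).support.card ≤ c'.support.card + c2.support.card :=
      (card_le_card Finsupp.support_add).trans (card_union_le _ _)
    have m3 : a (k + 1) + c2.support.card = c.support.card := by
      rw [hc2, Finsupp.support_filter]
      exact card_filter_add_card_filter_not _
    set T := (c.support.filter (Far k)).filter (fun f => ¬ Far (k + 1) f) with hT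
    have m4 : a (k + 1) + T.card = a k := by
      have : c.support.filter (Far (k + 1)) = (c.support.filter (Far k)).filter (Far (k + 1)) := by
        rw [filter_filter]
        refine filter_congr fun f _ => ⟨fun h => ⟨fun v hv w hw => ?_, h⟩, fun h => h.2⟩
        exact (Nat.le_succ k).trans (h v hv w hw)
      simp only [a]
      rw [this]
      exact card_filter_add_card_filter_not _
    have m5 : (bd2 gen l c1).support ⊆ T.biUnion (edges gen l) := by
      intro e he
      obtain ⟨f, hf, hef⟩ := mem_bd2 he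
      rw [hc1, Finsupp.support_filter, mem_filter] at hf
      have far := hf.2 e.1 (vt_of_edge hef)
      have ez : z e = 0 := by
        by_contra hne
        have := far e.1 (hV e (Finsupp.mem_support_iff.2 hne))
        rw [hd.self] at this
        omega
      have e2 : e ∈ (bd2 gen l c2).support := by
        rw [Finsupp.mem_support_iff] at he ⊢
        intro h0
        apply he
        rw [← hc, ← hsum, map_add, Finsupp.add_apply, h0, add_zero] at ez
        exact ez
      obtain ⟨f', hf', hef'⟩ := mem_bd2 e2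
      rw [hc2, Finsupp.support_filter, mem_filter] at hf'
      refine mem_biUnion.2 ⟨f', mem_filter.2 ⟨mem_filter.2 ⟨hf'.1, fun v hv w hw => ?_⟩, hf'.2⟩, hef'⟩
      have b1 := far w hw
      have b2 := (vt_of_edge hef').wd_le hd hrel hv
      have b3 := hd.tri e.1 v w
      omega
    have m6 : (bd2 gen l c1).support.card ≤ T.card * 3 :=
      (card_le_card m5).trans (card_biUnion_le_card_mul _ _ _ fun f _ => card_edges f)
    have m7 : a (k + 1) ≤ C * (T.card * 3) :=
      le_trans (by omega) (h2.trans (Nat.mul_le_mul_left C m6))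
    rw [← m4]
    nlinarith
  have bound : ∀ k, (3 * C + 1) ^ k * a k ≤ C * L * (3 * C) ^ k := by
    intro k
    induction k with
    | zero =>
      simp only [pow_zero, one_mul, mul_one]
      exact (card_filter_le _ _).trans ((hmin c0 h0).trans (h0'.trans (Nat.mul_le_mul_left C hL)))
    | succ k ih =>
      calc (3 * C + 1) ^ (k + 1) * a (k + 1) = (3 * C + 1) ^ k * ((3 * C + 1) * a (k + 1)) := by ring
        _ ≤ (3 * C + 1) ^ k * (3 * C * a k) := Nat.mul_le_mul_left _ (step k)
        _ = 3 * C * ((3 * C + 1) ^ k * a k) := by ring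
        _ ≤ 3 * C * (C * L * (3 * C) ^ k) := Nat.mul_le_mul_left _ ih
        _ = C * L * (3 * C) ^ (k + 1) := by ring
  have a0 : a r = 0 := by
    by_contra h
    have := bound r
    have h2 : (3 * C + 1) ^ r * 1 ≤ (3 * C + 1) ^ r * a r := Nat.mul_le_mul_left _ (by omega)
    omega
  refine ⟨c, hc, fun f hf v hv => ?_⟩
  have nf : ¬ Far r f := fun h => by
    have : f ∈ c.support.filter (Far r) := mem_filter.2 ⟨hf, h⟩
    rw [card_eq_zero.1 a0] at this
    simp at this
  simp only [Far] at nf
  push Not at nf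
  obtain ⟨v0, h1, w, h2, h3⟩ := nf
  refine ⟨w, h2, ?_⟩
  have b2 := hv.wd_le hd hrel h1
  have b3 := hd.tri v v0 w
  omega

/-- pairing of a function on pairs of vertices with a 1-chain -/
noncomputable def pair (gen : Gen → G) (φ : G → G → ZMod 2) : (G × Gen →₀ ZMod 2) →ₗ[ZMod 2] ZMod 2 :=
  Finsupp.linearCombination (ZMod 2) fun e : G × Gen => φ e.1 (e.1 * gen e.2)

theorem pair_congr {φ ψ : G → G → ZMod 2} {ch : G × Gen →₀ ZMod 2}
    (h : ∀ e ∈ ch.support, φ e.1 (e.1 * gen e.2) = ψ e.1 (e.1 * gen e.2)) :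
    pair gen φ ch = pair gen ψ ch := by
  simp only [pair, Finsupp.linearCombination_apply]
  exact Finsupp.sum_congr fun e he => by rw [h e he]

theorem pair_cob (a : G → ZMod 2) (ch : G × Gen →₀ ZMod 2) :
    pair gen (fun u v => a u + a v) ch = Finsupp.linearCombination (ZMod 2) a (bd1 gen ch) := by
  have : pair gen (fun u v => a u + a v) = (Finsupp.linearCombination (ZMod 2) a).comp (bd1 gen) := by
    apply Finsupp.lhom_ext'
    intro e
    apply LinearMap.ext_ring
    simp [pair, bd1_single]
  exact LinearMap.congr_fun this ch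

theorem pair_bd2 (hrel : Rel gen l) {φ : G → G → ZMod 2} {c : G × Tr →₀ ZMod 2}
    (h : ∀ f ∈ c.support, φ f.1 (f.1 * gen (l f.2 0)) +
      φ (f.1 * gen (l f.2 0)) (f.1 * gen (l f.2 2)) + φ f.1 (f.1 * gen (l f.2 2)) = 0) :
    pair gen φ (bd2 gen l c) = 0 := by
  have : (pair gen φ).comp (bd2 gen l) = Finsupp.linearCombination (ZMod 2)
      fun f : G × Tr => φ f.1 (f.1 * gen (l f.2 0)) +
        φ (f.1 * gen (l f.2 0)) (f.1 * gen (l f.2 2)) + φ f.1 (f.1 * gen (l f.2 2)) := by
    apply Finsupp.lhom_ext'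
    intro f
    apply LinearMap.ext_ring
    simp [pair, bd2_single, mul_assoc, hrel f.2]
  have e := LinearMap.congr_fun this c
  rw [LinearMap.comp_apply] at e
  rw [e, Finsupp.linearCombination_apply]
  exact Finset.sum_eq_zero fun f hf => by beta_reduce; rw [h f hf, smul_zero]

theorem detour (hgen : Subgroup.closure (Set.range gen) = ⊤) (hrel : Rel gen l) {C : ℕ}
    (hC : ∀ z : G × Gen →₀ ZMod 2, bd1 gen z = 0 →
      ∃ c : G × Tr →₀ ZMod 2, bd2 gen l c = z ∧ c.support.card ≤ C * z.support.card)
    {r : ℕ} (hr : C * (600 * r) * (3 * C) ^ r < (3 * C + 1) ^ r) : Detour (wd gen) r := by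
  classical
  have hd := isMet_wd hgen
  intro γ n k P hγ hk hn hconn
  by_contra hne
  push Not at hne
  have hkn : k < n := by
    rcases hk.lt_or_eq with h | rfl
    · exact h
    · have := hne _ hconn.right
      rw [hd.self] at this
      omega
  let Q : G → Prop := fun v => ∃ j ≤ n, v = γ j
  obtain ⟨ch1, a1, a2, a3⟩ := exists_chain hgen hconn
  obtain ⟨ch2, b1, b2, b3⟩ := exists_chain hgen
    (hγ.conn (P := Q) (Nat.zero_le n) le_rfl fun j _ hj => ⟨j, hj, rfl⟩)
  obtain ⟨c, hc, near⟩ := decay hd hrel hC (fun v => P v ∨ Q v) (ch1 + ch2)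
    (by rw [map_add, a1, b1, add_self'])
    (fun e he => by
      rcases mem_union.1 (Finsupp.support_add he) with h | h
      exacts [Or.inl (a3 e h).1, Or.inr (b3 e h).1])
    (L := 600 * r) ((card_le_card Finsupp.support_add).trans ((card_union_le _ _).trans (by omega))) hr
  have dn : ∀ j ≤ n, wd gen (γ 0) (γ j) = j := fun j hj => hγ 0 j (Nat.zero_le _) hj
  have dk : ∀ j ≤ n, wd gen (γ k) (γ j) + k = j ∨ wd gen (γ k) (γ j) + j = k := by
    intro j hj
    rcases le_total k j with h | h
    · exact Or.inl (hγ k j h hj)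
    · exact Or.inr (by rw [hd.comm]; exact hγ j k h hk)
  let a : G → ZMod 2 := fun v => if k < wd gen (γ 0) v then 1 else 0
  let N : G → Prop := fun v => ∃ w, P w ∧ wd gen v w ≤ r
  let φ : G → G → ZMod 2 := fun u v => if N u ∨ N v then 0 else a u + a v
  have adj : ∀ u v, wd gen u v ≤ 1 → a u + a v ≠ 0 →
      wd gen (γ 0) u ≤ k + 1 ∧ k ≤ wd gen (γ 0) u := by
    intro u v huv h
    have t1 := hd.tri (γ 0) u v
    have t2 := hd.tri (γ 0) v u
    rw [hd.comm v u] at t2
    simp only [a] at h
    split_ifs at h with h1 h2 h2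
    · exact absurd (by decide) h
    · omega
    · omega
    · exact absurd (by decide) h
  have p1 : pair gen φ ch1 = 0 := by
    rw [pair_congr (ψ := fun _ _ => 0)]
    · simp [pair, Finsupp.linearCombination_apply]
    · intro e he
      have : N e.1 := ⟨e.1, (a3 e he).1, by rw [hd.self]; omega⟩
      simp [φ, this]
  have p2 : pair gen φ ch2 = 1 := by
    rw [pair_congr (ψ := fun u v => a u + a v), pair_cob, b1]
    · simp [a, dn n le_rfl, hkn, hd.self]
    · intro e he
      simp only [φ]
      split_ifs with h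
      · by_contra h0
        have h0' : a e.1 + a (e.1 * gen e.2) ≠ 0 := fun h => h0 h.symm
        have notN : ∀ u, Q u → wd gen (γ 0) u ≤ k + 1 ∧ k ≤ wd gen (γ 0) u → ¬ N u := by
          rintro u ⟨j, hj, rfl⟩ hu ⟨w, hw, hw'⟩
          rw [dn j hj] at hu
          have := hne w hw
          have := hd.tri (γ k) (γ j) w
          have := dk j hj
          omega
        rcases h with h | h
        · exact notN _ (b3 e he).1 (adj _ _ (wd_adj _ _) h0') h
        · exact notN _ (b3 e he).2 (adj _ _ (by rw [hd.comm]; exact wd_adj _ _)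
            (by rwa [add_comm])) h
      · rfl
  have p3 : pair gen φ (bd2 gen l c) = 0 := by
    apply pair_bd2 hrel
    intro f hf
    have key : ∀ u v w, Vt gen l f u → Vt gen l f v → Vt gen l f w → N w → ¬ N u → ¬ N v →
        a u + a v = 0 := by
      intro u v w hu hv hw Nw Nu Nv
      by_contra h
      -- one of `u`, `v` is at height exactly `k`
      have fin : ∀ u, Vt gen l f u → ¬ N u → wd gen (γ 0) u ≠ k := by
        intro u hu Nu hk'
        obtain ⟨q, hq, hq'⟩ := near f hf u hu
        rcases hq with hq | ⟨j, hj, rfl⟩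
        · exact Nu ⟨q, hq, hq'⟩
        · obtain ⟨w', hw1, hw2⟩ := Nw
          have s1 := hne w' hw1
          have s2 := hd.tri (γ k) (γ j) w'
          have s3 := hd.tri (γ j) u w'
          have s4 := hd.tri u w w'
          have s5 := hu.wd_le hd hrel hw
          have s6 := dk j hj
          have s7 := hd.tri (γ 0) u (γ j)
          have s8 := hd.tri (γ 0) (γ j) u
          rw [dn j hj] at s7 s8
          rw [hd.comm (γ j) u] at s3 s8
          omega
      have f1 := fin u hu Nu
      have f2 := fin v hv Nv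
      have g1 := adj u v (hu.wd_le hd hrel hv) h
      have g2 := adj v u (hv.wd_le hd hrel hu) (by rwa [add_comm])
      apply h
      have e1 : k < wd gen (γ 0) u := by omega
      have e2 : k < wd gen (γ 0) v := by omega
      simp only [a, e1, e2, if_true]
      decide
    have v0 : Vt gen l f f.1 := Or.inl rfl
    have v1 : Vt gen l f (f.1 * gen (l f.2 0)) := Or.inr (Or.inl rfl)
    have v2 : Vt gen l f (f.1 * gen (l f.2 2)) := Or.inr (Or.inr rfl)
    by_cases n0 : N f.1 <;> by_cases n1 : N (f.1 * gen (l f.2 0)) <;>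
      by_cases n2 : N (f.1 * gen (l f.2 2)) <;>
      simp only [φ, n0, n1, n2, true_or, or_true, or_self, if_true, if_false, add_zero, zero_add]
    · exact key _ _ _ v1 v2 v0 n0 n1 n2
    · exact key _ _ _ v0 v2 v1 n1 n0 n2
    · exact key _ _ _ v0 v1 v2 n2 n0 n1
    · generalize a f.1 = x
      generalize a (f.1 * gen (l f.2 0)) = y
      generalize a (f.1 * gen (l f.2 2)) = z
      revert x y z
      decide
  rw [hc, map_add, p1, p2] at p3
  exact absurd p3 (by decide)

theorem exists_r0 (C : ℕ) : ∃ r0, ∀ r, r0 ≤ r → C * (600 * r) * (3 * C) ^ r < (3 * C + 1) ^ r := by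
  have hq : (3 * C : ℝ) / (3 * C + 1) < 1 := by
    rw [div_lt_one (by positivity)]; linarith
  have h := (tendsto_self_mul_const_pow_of_lt_one (by positivity) hq).const_mul (600 * C : ℝ)
  rw [mul_zero] at h
  obtain ⟨r0, hr0⟩ := Filter.eventually_atTop.1 (h.eventually (gt_mem_nhds zero_lt_one))
  refine ⟨r0, fun r hr => ?_⟩
  have := hr0 r hr
  rw [div_pow, ← mul_div_assoc, ← mul_div_assoc, div_lt_one (by positivity)] at this
  have h2 : ((C * (600 * r) * (3 * C) ^ r : ℕ) : ℝ) < ((3 * C + 1) ^ r : ℕ) := by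
    push_cast
    linarith
  exact_mod_cast h2

end HypAux

open HypAux in
/-- A linear isoperimetric inequality for mod 2 cycles implies hyperbolicity. -/
theorem hyperbolic {G Gen Tr : Type} [Group G] [Finite Gen] {gen : Gen → G}
    {l : Tr → Fin 3 → Gen} (hrel : Rel gen l)
    (hgen : Subgroup.closure (Set.range gen) = ⊤) (hfill : Fill gen l) :
    Crest.GroupTheory.IsHyperbolicGroup G := by
  obtain ⟨C, hC⟩ := hfill
  obtain ⟨r0, hr0⟩ := exists_r0 C
  have hd := isMet_wd hgen
  obtain ⟨M, hM⟩ := four_point hd fun r hr => detour hgen hrel hC (hr0 r hr)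
  refine ⟨(Set.finite_range gen).toFinset, by simpa using hgen, M + 1, by positivity, ?_⟩
  intro w x y z
  simp only [Set.Finite.coe_toFinset, Crest.GroupTheory.gromovProduct, Crest.GroupTheory.wordDist]
  change min (((wd gen x w : ℝ) + wd gen y w - wd gen x y) / 2)
    (((wd gen y w : ℝ) + wd gen z w - wd gen y z) / 2) - (M + 1) ≤
      ((wd gen x w : ℝ) + wd gen z w - wd gen x z) / 2
  rw [hd.comm x w, hd.comm y w, hd.comm z w]
  have t1 := hd.tri x w y
  have t2 := hd.tri y w z
  rw [hd.comm x w] at t1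
  rw [hd.comm y w] at t2
  set i := min ((wd gen w x + wd gen w y - wd gen x y) / 2) ((wd gen w y + wd gen w z - wd gen y z) / 2)
    with hi
  have key := hM w x y z i (by omega) (by omega)
  have k' : (2 * i + wd gen x z : ℝ) ≤ wd gen w x + wd gen w z + 2 * M := by exact_mod_cast key
  have : wd gen w x + wd gen w y ≤ 2 * i + 1 + wd gen x y ∨
      wd gen w y + wd gen w z ≤ 2 * i + 1 + wd gen y z := by omega
  rcases this with h | h
  · have h' : (wd gen w x + wd gen w y : ℝ) ≤ 2 * i + 1 + wd gen x y := by exact_mod_cast h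
    have := min_le_left (((wd gen w x : ℝ) + wd gen w y - wd gen x y) / 2)
      (((wd gen w y : ℝ) + wd gen w z - wd gen y z) / 2)
    linarith
  · have h' : (wd gen w y + wd gen w z : ℝ) ≤ 2 * i + 1 + wd gen y z := by exact_mod_cast h
    have := min_le_right (((wd gen w x : ℝ) + wd gen w y - wd gen x y) / 2)
      (((wd gen w y : ℝ) + wd gen w z - wd gen y z) / 2)
    linarith

end Crest.Agent.R177
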