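import Crest.Agent.R177.ExcN

/-! Encoding the coincidence pattern of a configuration by a key with few values. -/

set_option autoImplicit false

namespace Crest.Agent.R177

open Finset

variable {V P κ Sh : Type}

/-- Positions at most `r`. -/
def box (κ : Type) [Fintype κ] (r : ℕ) : Finset (Ix κ) := univ ×ˢ range (r + 1)

theorem mem_box [Fintype κ] {r : ℕ} {i : Ix κ} : i ∈ box κ r ↔ i.2 ≤ r := by
  simp [box]

theorem card_box [Fintype κ] (r : ℕ) : (box κ r).card = 2 * Fintype.card κ * (r + 1) := by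
  simp [box, mul_comm]

/-- The side crossed when going back. -/
def bk (i : Ix κ) : Bool := !(alt i.1.2 i.2)

theorem nbr_bk {i : Ix κ} (h : i.2 ≠ 0) : nbr i (bk i) = (i.1, i.2 - 1) := by
  unfold nbr bk
  rw [if_neg (by cases alt i.1.2 i.2 <;> simp), if_neg h]

open Classical in
/-- Places where a relation on positions differs from its diagonal propagation. -/
noncomputable def Dif [Fintype κ] (r : ℕ) (H : Ix κ → Ix κ → Prop) : Finset (Ix κ × Ix κ) :=
  {a ∈ box κ r ×ˢ box κ r | (a.1.2 = 0 ∧ H a.1 a.2) ∨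
    (a.1.2 ≠ 0 ∧ ¬ (H a.1 a.2 ↔ H (nbr a.1 (bk a.1)) (nbr a.2 (bk a.1))))}

theorem dif_det [Fintype κ] {r : ℕ} {H₁ H₂ : Ix κ → Ix κ → Prop}
    (h₁ : ∀ i i', H₁ i i' → i.2 ≤ r ∧ i'.2 ≤ r) (h₂ : ∀ i i', H₂ i i' → i.2 ≤ r ∧ i'.2 ≤ r)
    (h : Dif r H₁ = Dif r H₂) (i i' : Ix κ) : H₁ i i' ↔ H₂ i i' := by
  obtain ⟨ω, t⟩ := i
  induction t generalizing i' with
  | zero =>
    by_cases hb : i'.2 ≤ r
    · have := Finset.ext_iff.1 h ((ω, 0), i')
      simpa [Dif, mem_box, hb] using this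
    · exact ⟨fun h => absurd (h₁ _ _ h).2 hb, fun h => absurd (h₂ _ _ h).2 hb⟩
  | succ t ih =>
    by_cases hb : t + 1 ≤ r ∧ i'.2 ≤ r
    · have := Finset.ext_iff.1 h ((ω, t + 1), i')
      simp only [Dif, mem_filter, mem_product, mem_box, hb.1, hb.2, true_and, ne_eq,
        Nat.add_eq_zero_iff, one_ne_zero, and_false, false_and, not_false_eq_true, false_or]
        at this
      rw [nbr_bk (by simp)] at this
      have ih' := ih (nbr i' (bk (ω, t + 1)))
      simp only [Nat.add_sub_cancel] at this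
      tauto
    · exact ⟨fun h => absurd (h₁ _ _ h) hb, fun h => absurd (h₂ _ _ h) hb⟩

section

variable (D : Gem) (ε : D.F → Edge V P) (z : κ → D.F) (r : ℕ)

/-- A relation on faces read on live positions. -/
def Hat (ρ : D.F → D.F → Prop) (i i' : Ix κ) : Prop :=
  D.LI z r i ∧ D.LI z r i' ∧ ρ (D.psi z i) (D.psi z i')

/-- Bounded degree adjacency. -/
def Adj (x y : D.F) : Prop := ε y = ε x ∨ y = D.σ 1 x ∨ ∃ c, y = D.ν c x

open Classical in
/-- One step closure. -/
noncomputable def Cl (S : Finset D.F) : Finset D.F := {y | ∃ x ∈ S, Adj D ε x y}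

open Classical in
/-- Live positions of faces in `S`. -/
noncomputable def posn [Fintype κ] (S : Finset D.F) : Finset (Ix κ) :=
  {i ∈ box κ r | D.LI z r i ∧ D.psi z i ∈ S}

open Classical in
/-- Live positions of faces in `S` and their successors. -/
noncomputable def posn' [Fintype κ] (S : Finset D.F) : Finset (Ix κ) :=
  posn D z r S ∪ (posn D z r S).image (fun i => (i.1, i.2 + 1))

/-- Vertex coincidences that follow from edge coincidences. -/
def GenV (c : Bool) (i i' : Ix κ) : Prop :=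
  Hat D z r (fun x y => ε x = ε y) i i' ∨
    (Hat D z r (fun x y => ε x = ε y) i i ∧ Hat D z r (fun x y => ε x = ε y) (nbr i c) i')

open Classical in
/-- The other vertex coincidences. -/
noncomputable def XV [Fintype κ] (c : Bool) : Finset (Ix κ × Ix κ) :=
  {a ∈ box κ r ×ˢ box κ r | Hat D z r (fun x y => (ε x).1 c = (ε y).1 c) a.1 a.2 ∧
    ¬ GenV D ε z r c a.1 a.2}

/-- The key of a configuration. -/
noncomputable def keyOf [Fintype κ] (sh : V → Sh) :
    Finset (Ix κ × Ix κ) × Finset (Ix κ × Ix κ) × (Bool → Finset (Ix κ × Ix κ)) × (κ → Sh) :=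
  (Dif r (Hat D z r (fun x y => ε x = ε y)), Dif r (Hat D z r (fun x y => y = D.σ 1 x)),
    fun c => XV D ε z r c, fun k => sh ((ε (z k)).1 false))

variable {D ε z r}

theorem mem_Cl {S : Finset D.F} {y : D.F} : y ∈ Cl D ε S ↔ ∃ x ∈ S, Adj D ε x y := by
  simp [Cl]

theorem subset_Cl (S : Finset D.F) : S ⊆ Cl D ε S := fun x hx =>
  mem_Cl.2 ⟨x, hx, Or.inl rfl⟩

theorem nu_mem_Cl {S : Finset D.F} {x : D.F} (hx : x ∈ S) (c : Bool) : D.ν c x ∈ Cl D ε S :=
  mem_Cl.2 ⟨x, hx, Or.inr (Or.inr ⟨c, rfl⟩)⟩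

theorem card_Cl [DecidableEq V] [DecidableEq P] {J : ℕ} (hJ : ∀ e, #{x | ε x = e} ≤ J)
    (S : Finset D.F) : (Cl D ε S).card ≤ S.card * (J + 3) := by
  have : Cl D ε S ⊆ S.biUnion (fun x => ({y | ε y = ε x} : Finset D.F) ∪
      {D.σ 1 x, D.ν false x, D.ν true x}) := by
    intro y hy
    obtain ⟨x, hx, h⟩ := mem_Cl.1 hy
    refine mem_biUnion.2 ⟨x, hx, ?_⟩
    rcases h with h | h | ⟨c, h⟩
    · simp [h]
    · simp [h]
    · cases c <;> simp [h]
  refine (card_le_card this).trans (card_biUnion_le_card_mul _ _ _ fun x _ => ?_)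
  exact (card_union_le _ _).trans (add_le_add (hJ _) card_le_three)

theorem mem_posn [Fintype κ] {S : Finset D.F} {i : Ix κ} :
    i ∈ posn D z r S ↔ D.LI z r i ∧ D.psi z i ∈ S := by
  simp only [posn, mem_filter, mem_box]
  exact ⟨fun h => h.2, fun h => ⟨h.1.1, h⟩⟩

theorem mem_posn'_of [Fintype κ] {S : Finset D.F} {i : Ix κ} (h : D.LI z r i)
    (hS : D.psi z i ∈ S) : i ∈ posn' D z r S := by
  classical
  exact mem_union_left _ (mem_posn.2 ⟨h, hS⟩)

theorem succ_mem_posn' [Fintype κ] {S : Finset D.F} {i : Ix κ} (h : D.LI z r i)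
    (hS : D.psi z i ∈ S) : (i.1, i.2 + 1) ∈ posn' D z r S := by
  classical
  exact mem_union_right _ (mem_image.2 ⟨i, mem_posn.2 ⟨h, hS⟩, rfl⟩)

theorem card_posn' [Fintype κ] {Γ : Finset (Edge V P)} {g : ℕ} (hL : Lab Γ D ε)
    (hg : Girth Γ g) (hr : r < g) (S : Finset D.F) :
    (posn' D z r S).card ≤ 2 * (S.card * (2 * Fintype.card κ)) := by
  classical
  have h1 : (posn D z r S).card ≤ S.card * (2 * Fintype.card κ) := by
    calc (posn D z r S).card ≤ (S ×ˢ (univ : Finset (κ × Bool))).card := by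
          apply card_le_card_of_injOn (fun i => (D.psi z i, i.1))
          · intro i hi
            simpa using (mem_posn.1 hi).2
          · intro i hi i' hi' h
            simp only [Prod.mk.injEq] at h
            exact hL.li_inj hg hr (mem_posn.1 hi).1 (mem_posn.1 hi').1 h.2 (by rw [h.1])
      _ = _ := by simp [mul_comm]
  unfold posn'
  refine (card_union_le _ _).trans ?_
  have h2 := card_image_le (s := posn D z r S) (f := fun i : Ix κ => (i.1, i.2 + 1))
  omega

theorem dif_subset [Fintype κ] {ρ : D.F → D.F → Prop} (hsym : ∀ x y, ρ x y → ρ y x)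
    (hadj : ∀ x y, ρ x y → Adj D ε x y) {S : Finset D.F}
    (h0 : ∀ ω, D.psi z (ω, 0) ∈ S) (hr : ∀ ω, D.psi z (ω, r) ∈ S)
    (hfix : ∀ x c, D.ν c x = x → x ∈ S)
    (hdef : ∀ x y c, ρ x y → ¬ ρ (D.ν c x) (D.ν c y) → x ∈ S ∨ y ∈ S) :
    Dif r (Hat D z r ρ) ⊆
      posn' D z r (Cl D ε (Cl D ε S)) ×ˢ posn' D z r (Cl D ε (Cl D ε S)) := by
  have both : ∀ x y, ρ x y → x ∈ S ∨ y ∈ S → x ∈ Cl D ε S ∧ y ∈ Cl D ε S := by
    rintro x y h (hx | hy)
    · exact ⟨subset_Cl _ hx, mem_Cl.2 ⟨x, hx, hadj _ _ h⟩⟩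
    · exact ⟨mem_Cl.2 ⟨y, hy, hadj _ _ (hsym _ _ h)⟩, subset_Cl _ hy⟩
  have fin : ∀ i i', Hat D z r ρ i i' → D.psi z i ∈ S ∨ D.psi z i' ∈ S →
      (i, i') ∈ posn' D z r (Cl D ε (Cl D ε S)) ×ˢ posn' D z r (Cl D ε (Cl D ε S)) := by
    intro i i' h hS
    obtain ⟨h1, h2⟩ := both _ _ h.2.2 hS
    exact mem_product.2 ⟨mem_posn'_of h.1 (subset_Cl _ h1), mem_posn'_of h.2.1 (subset_Cl _ h2)⟩
  rintro ⟨i, i'⟩ ha
  simp only [Dif, mem_filter, mem_product, mem_box] at ha
  obtain ⟨⟨hi, hi'⟩, ⟨ht, h⟩ | ⟨ht, h⟩⟩ := ha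
  · refine fin _ _ h (Or.inl ?_)
    obtain ⟨ω, t⟩ := i
    dsimp only at ht
    subst ht
    exact h0 ω
  · by_cases hH : Hat D z r ρ i i'
    · have hH' : ¬ Hat D z r ρ (nbr i (bk i)) (nbr i' (bk i)) := fun h' => h (by simp [hH, h'])
      refine fin _ _ hH ?_
      have hl : D.LI z r (nbr i (bk i)) := by
        rw [nbr_bk ht]
        exact ⟨by dsimp only; omega, hH.1.2.mono (by dsimp only; omega)⟩
      by_cases hl' : D.LI z r (nbr i' (bk i))
      · apply hdef _ _ (bk i) hH.2.2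
        intro h'
        exact hH' ⟨hl, hl', by rwa [Gem.psi_nbr, Gem.psi_nbr]⟩
      · right
        by_cases hlt : i'.2 < r
        · apply hfix _ (bk i)
          by_contra hne
          exact hl' (hH.2.1.nbr hlt hne)
        · obtain ⟨ω, t⟩ := i'
          dsimp only at hlt hi'
          rw [show t = r by omega]
          exact hr ω
    · have hH' : Hat D z r ρ (nbr i (bk i)) (nbr i' (bk i)) := by
        by_contra h'
        exact h (by simp [hH, h'])
      have e1 : D.psi z i = D.ν (bk i) (D.psi z (nbr i (bk i))) := by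
        rw [Gem.psi_nbr]; exact (D.inv _ _).symm
      have e2 : D.psi z i' = D.ν (bk i) (D.psi z (nbr i' (bk i))) := by
        rw [Gem.psi_nbr]; exact (D.inv _ _).symm
      have notli : ∀ j : Ix κ, j.2 ≤ r → ¬ D.LI z r j → D.LI z r (nbr j (bk i)) →
          D.psi z (nbr j (bk i)) ∈ S := by
        intro j hj hn hl
        rcases hl.of_nbr with h' | h'
        · exact absurd h' hn
        · generalize nbr j (bk i) = j' at h' hl
          subst h'
          apply hfix _ (alt j'.1.2 j'.2)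
          by_contra hne
          exact hn ⟨hj, Gem.live_succ.2 ⟨hl.2, hne⟩⟩
      have hS : D.psi z (nbr i (bk i)) ∈ S ∨ D.psi z (nbr i' (bk i)) ∈ S := by
        by_cases hl : D.LI z r i
        · by_cases hl' : D.LI z r i'
          · apply hdef _ _ (bk i) hH'.2.2
            intro h'
            exact hH ⟨hl, hl', by rwa [e1, e2]⟩
          · exact Or.inr (notli _ hi' hl' hH'.2.1)
        · exact Or.inl (notli _ hi hl hH'.1)
      obtain ⟨h1, h2⟩ := both _ _ hH'.2.2 hS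
      refine mem_product.2 ⟨?_, ?_⟩
      · rcases hH'.1.of_nbr with h' | h'
        · exact mem_posn'_of h' (by rw [e1]; exact nu_mem_Cl h1 _)
        · dsimp only; rw [h']; exact succ_mem_posn' hH'.1 (subset_Cl _ h1)
      · rcases hH'.2.1.of_nbr with h' | h'
        · exact mem_posn'_of h' (by rw [e2]; exact nu_mem_Cl h2 _)
        · dsimp only; rw [h']; exact succ_mem_posn' hH'.2.1 (subset_Cl _ h2)

theorem xv_subset [Fintype κ] {S : Finset D.F} (hr : ∀ ω, D.psi z (ω, r) ∈ S)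
    (hexc : ∀ x y c, Exc D ε x y c → x ∈ S ∧ y ∈ S) (c : Bool) :
    XV D ε z r c ⊆ posn' D z r (Cl D ε (Cl D ε S)) ×ˢ posn' D z r (Cl D ε (Cl D ε S)) := by
  rintro ⟨i, i'⟩ ha
  simp only [XV, mem_filter, mem_product, mem_box, GenV, not_or, not_and] at ha
  obtain ⟨⟨hi, hi'⟩, hH, h1, h2⟩ := ha
  have hne : ε (D.psi z i') ≠ ε (D.psi z i) := fun h => h1 ⟨hH.1, hH.2.1, h.symm⟩
  by_cases he : ε (D.psi z i') = ε (D.ν c (D.psi z i))
  · have hl : ¬ D.LI z r (nbr i c) := fun hl =>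
      h2 ⟨hH.1, hH.1, rfl⟩ ⟨hl, hH.2.1, by rw [Gem.psi_nbr]; exact he.symm⟩
    have hx : D.psi z i ∈ S := by
      by_cases hlt : i.2 < r
      · exfalso
        apply hl (hH.1.nbr hlt _)
        intro h
        rw [h] at he
        exact hne he
      · obtain ⟨ω, t⟩ := i
        dsimp only at hlt hi
        rw [show t = r by omega]
        exact hr ω
    exact mem_product.2 ⟨mem_posn'_of hH.1 (subset_Cl _ (subset_Cl _ hx)),
      mem_posn'_of hH.2.1 (mem_Cl.2 ⟨_, nu_mem_Cl hx c, Or.inl he⟩)⟩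
  · obtain ⟨hx, hy⟩ := hexc _ _ c ⟨hH.2.2, hne, he⟩
    exact mem_product.2 ⟨mem_posn'_of hH.1 (subset_Cl _ (subset_Cl _ hx)),
      mem_posn'_of hH.2.1 (subset_Cl _ (subset_Cl _ hy))⟩

end

theorem Lab.sh_ray {Γ : Finset (Edge V P)} {D : Gem} {ε : D.F → Edge V P} (hL : Lab Γ D ε)
    {sh : V → Sh} (hsh : ∀ e ∈ Γ, sh (e.1 false) = sh (e.1 true)) (x : D.F) (b : Bool) (t : ℕ) :
    sh ((ε (D.ray x b t)).1 false) = sh ((ε x).1 false) := by
  induction t with
  | zero => rfl
  | succ t ih =>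
    rw [← ih, Gem.ray_succ]
    cases alt b t
    · rw [hL.vtx]
    · rw [hsh _ (hL.mem _), hL.vtx, hsh _ (hL.mem _)]

/-- Configurations with the same key are copies of each other. -/
theorem copy_of_key [Fintype κ] {Γ Γ' : Finset (Edge V P)} {D D' : Gem} {ε : D.F → Edge V P}
    {ε' : D'.F → Edge V P} {z : κ → D.F} {z' : κ → D'.F} {r : ℕ} {sh : V → Sh}
    (hL : Lab Γ D ε) (hL' : Lab Γ' D' ε') (hsh : ∀ e ∈ Γ, sh (e.1 false) = sh (e.1 true))
    (hsh' : ∀ e ∈ Γ', sh (e.1 false) = sh (e.1 true)) (hz : D.Covers z r)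
    (h : keyOf D ε z r sh = keyOf D' ε' z' r sh) :
    ∃ θ : D.F → Edge V P, (∀ x, θ x ∈ Γ') ∧ Copy sh D ε θ ∧ ∀ k, θ (z k) = ε' (z' k) := by
  choose s hs1 hs2 using hz
  simp only [keyOf, Prod.mk.injEq] at h
  obtain ⟨hE, hM, hX, hS⟩ := h
  have hE' := dif_det (fun _ _ h => ⟨h.1.1, h.2.1.1⟩) (fun _ _ h => ⟨h.1.1, h.2.1.1⟩) hE
  have hM' := dif_det (fun _ _ h => ⟨h.1.1, h.2.1.1⟩) (fun _ _ h => ⟨h.1.1, h.2.1.1⟩) hM
  have hli : ∀ x, D'.LI z' r (s x) := fun x => ((hE' _ _).1 ⟨hs1 x, hs1 x, rfl⟩).1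
  refine ⟨fun x => ε' (D'.psi z' (s x)), fun x => hL'.mem _, ⟨fun x y => ?_, fun x y c hv => ?_,
    fun x => ?_, fun x => ?_⟩, fun k => ?_⟩
  · constructor
    · intro h
      have := ((hE' _ _).2 ⟨hli x, hli y, h⟩).2.2
      rwa [hs2, hs2] at this
    · intro h
      exact ((hE' _ _).1 ⟨hs1 x, hs1 y, by rw [hs2, hs2]; exact h⟩).2.2
  · by_cases hG : GenV D ε z r c (s x) (s y)
    · rcases hG with h | ⟨-, h⟩
      · exact congrArg (fun e : Edge V P => e.1 c) ((hE' _ _).1 h).2.2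
      · have := ((hE' _ _).1 h).2.2
        rw [Gem.psi_nbr] at this
        rw [← this, hL'.vtx]
    · have h1 : (s x, s y) ∈ XV D ε z r c := by
        simp only [XV, mem_filter, mem_product, mem_box]
        exact ⟨⟨(hs1 x).1, (hs1 y).1⟩, ⟨hs1 x, hs1 y, by rw [hs2, hs2]; exact hv⟩, hG⟩
      rw [congrFun hX c] at h1
      simp only [XV, mem_filter] at h1
      exact h1.2.1.2.2
  · have := ((hM' (s x) (s (D.σ 1 x))).1 ⟨hs1 _, hs1 _, by rw [hs2, hs2]⟩).2.2
    rw [this, hL'.lab]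
  · conv_rhs => rw [← hs2 x]
    unfold Gem.psi
    rw [hL.sh_ray hsh, hL'.sh_ray hsh']
    exact (congrFun hS _).symm
  · exact ((hE' (s (z k)) ((k, false), 0)).1
      ⟨hs1 _, ⟨Nat.zero_le _, Gem.live_zero _ _⟩, by rw [hs2]; rfl⟩).2.2

open Classical in
/-- Small sets of pairs of positions. -/
noncomputable def smallSets (κ : Type) [Fintype κ] (r N : ℕ) : Finset (Finset (Ix κ × Ix κ)) :=
  {s ∈ (box κ r ×ˢ box κ r).powerset | s.card ≤ N}

theorem card_small_le {α : Type} [DecidableEq α] (A : Finset α) (N : ℕ) :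
    #{s ∈ A.powerset | s.card ≤ N} ≤ (A.card + 1) ^ N := by
  induction N with
  | zero =>
    rw [pow_zero, card_le_one]
    intro a ha b hb
    simp only [mem_filter, Nat.le_zero, card_eq_zero] at ha hb
    rw [ha.2, hb.2]
  | succ N ih =>
    have : {s ∈ A.powerset | s.card ≤ N + 1} ⊆ {s ∈ A.powerset | s.card ≤ N} ∪
        (A ×ˢ {s ∈ A.powerset | s.card ≤ N}).image (fun a => insert a.1 a.2) := by
      intro s hs
      simp only [mem_filter, mem_powerset] at hs
      rcases s.eq_empty_or_nonempty with rfl | ⟨a, ha⟩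
      · simp
      · refine mem_union_right _ (mem_image.2 ⟨(a, s.erase a), ?_, insert_erase ha⟩)
        simp only [mem_product, mem_filter, mem_powerset]
        refine ⟨hs.1 ha, (erase_subset _ _).trans hs.1, ?_⟩
        rw [card_erase_of_mem ha]; omega
    refine (card_le_card this).trans ((card_union_le _ _).trans ?_)
    have h2 := card_image_le (s := A ×ˢ {s ∈ A.powerset | s.card ≤ N})
      (f := fun a : α × Finset α => insert a.1 a.2)
    rw [card_product] at h2
    have h3 := Nat.mul_le_mul_left A.card ih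
    rw [pow_succ]
    nlinarith

open Classical in
/-- The set of possible keys. -/
noncomputable def keySet (κ Sh : Type) [Fintype κ] [Fintype Sh] (r N : ℕ) :
    Finset (Finset (Ix κ × Ix κ) × Finset (Ix κ × Ix κ) × (Bool → Finset (Ix κ × Ix κ)) ×
      (κ → Sh)) :=
  smallSets κ r N ×ˢ smallSets κ r N ×ˢ Fintype.piFinset (fun _ => smallSets κ r N) ×ˢ univ

theorem card_keySet (κ Sh : Type) [Fintype κ] [Fintype Sh] (r N : ℕ) :
    (keySet κ Sh r N).card ≤ (((2 * Fintype.card κ * (r + 1)) ^ 2 + 1) ^ N) ^ 4 *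
      Fintype.card Sh ^ Fintype.card κ := by
  classical
  have h : (smallSets κ r N).card ≤ ((2 * Fintype.card κ * (r + 1)) ^ 2 + 1) ^ N := by
    have := card_small_le (box κ r ×ˢ box κ r) N
    rw [card_product, card_box, ← sq] at this
    unfold smallSets
    convert this
  unfold keySet
  simp only [card_product, Fintype.card_piFinset, prod_const, card_univ, Fintype.card_bool,
    Fintype.card_fun]
  calc _ = (smallSets κ r N).card ^ 4 * Fintype.card Sh ^ Fintype.card κ := by ring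
    _ ≤ _ := by gcongr

/-- The bound on the size of the parts of a key. -/
def keyN (m M : ℕ) : ℕ :=
  (2 * ((4 * m + M + 8 * (2 * m) ^ 2) * (2 * m + 3) * (2 * m + 3) * (2 * m))) ^ 2

theorem keyOf_mem [Fintype κ] [Fintype Sh] [DecidableEq V] [DecidableEq P]
    {Γ : Finset (Edge V P)} {D : Gem} {ε : D.F → Edge V P} {z : κ → D.F} {r g M : ℕ}
    (hL : Lab Γ D ε) (hg : Girth Γ g) (hr : 3 * r + 2 < g) (hz : D.Covers z r) (hM : D.np ≤ M)
    (sh : V → Sh) : keyOf D ε z r sh ∈ keySet κ Sh r (keyN (Fintype.card κ) M) := by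
  classical
  set m := Fintype.card κ with hm
  let EX : Finset (D.F × D.F × Bool) := {a | (ε a.1).1 a.2.2 = (ε a.2.1).1 a.2.2 ∧
    ε a.2.1 ≠ ε a.1 ∧ ε a.2.1 ≠ ε (D.σ (rad a.2.2) a.1)}
  let NP : Finset (D.F × Bool) := {p | ¬ D.Plain p.1 p.2}
  let S : Finset D.F := (univ.image fun ω : κ × Bool => D.psi z (ω, 0)) ∪
    (univ.image fun ω : κ × Bool => D.psi z (ω, r)) ∪ NP.image Prod.fst ∪
    EX.image (fun a => a.1) ∪ EX.image (fun a => a.2.1)
  have hEX : EX.card ≤ 4 * (2 * m) ^ 2 := hL.excN_le hg hr hz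
  have hS : S.card ≤ 4 * m + M + 8 * (2 * m) ^ 2 := by
    have h1 : (univ.image fun ω : κ × Bool => D.psi z (ω, 0)).card ≤ 2 * m :=
      card_image_le.trans (by simp [hm, mul_comm])
    have h2 : (univ.image fun ω : κ × Bool => D.psi z (ω, r)).card ≤ 2 * m :=
      card_image_le.trans (by simp [hm, mul_comm])
    have h3 : (NP.image Prod.fst).card ≤ M := card_image_le.trans hM
    have h4 : (EX.image (fun a => a.1)).card ≤ 4 * (2 * m) ^ 2 := card_image_le.trans hEX
    have h5 : (EX.image (fun a => a.2.1)).card ≤ 4 * (2 * m) ^ 2 := card_image_le.trans hEX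
    refine (card_union_le _ _).trans ?_
    refine (Nat.add_le_add_right (card_union_le _ _) _).trans ?_
    refine (Nat.add_le_add_right (Nat.add_le_add_right (card_union_le _ _) _) _).trans ?_
    refine (Nat.add_le_add_right (Nat.add_le_add_right (Nat.add_le_add_right
      (card_union_le _ _) _) _) _).trans ?_
    omega
  have h0 : ∀ ω, D.psi z (ω, 0) ∈ S := fun ω => by simp [S]
  have hr' : ∀ ω, D.psi z (ω, r) ∈ S := fun ω => by simp [S]
  have hnp : ∀ x c, ¬ D.Plain x c → x ∈ S := fun x c h =>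
    mem_union_left _ (mem_union_left _ (mem_union_right _
      (mem_image.2 ⟨(x, c), by simpa [NP] using h, rfl⟩)))
  have hfix : ∀ x c, D.ν c x = x → x ∈ S := fun x c h => hnp x c (fun h' => h'.1 h)
  have hexc : ∀ x y c, Exc D ε x y c → x ∈ S ∧ y ∈ S := fun x y c h =>
    ⟨mem_union_left _ (mem_union_right _ (mem_image.2 ⟨(x, y, c), by simpa [EX, Exc] using h, rfl⟩)),
      mem_union_right _ (mem_image.2 ⟨(x, y, c), by simpa [EX, Exc] using h, rfl⟩)⟩
  have hJ := hL.mult_le hg (by omega : r < g) hz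
  have hA : (posn' D z r (Cl D ε (Cl D ε S)) ×ˢ posn' D z r (Cl D ε (Cl D ε S))).card ≤
      keyN m M := by
    rw [card_product, ← sq, keyN]
    apply Nat.pow_le_pow_left
    refine (card_posn' hL hg (by omega) _).trans ?_
    have h1 := card_Cl hJ S
    have h2 := card_Cl hJ (Cl D ε S)
    rw [← hm] at h1 h2 ⊢
    gcongr
    calc _ ≤ _ := h2
      _ ≤ _ := by gcongr; exact h1.trans (by gcongr)
  have small : ∀ T : Finset (Ix κ × Ix κ), T ⊆ box κ r ×ˢ box κ r →
      T ⊆ posn' D z r (Cl D ε (Cl D ε S)) ×ˢ posn' D z r (Cl D ε (Cl D ε S)) →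
      T ∈ smallSets κ r (keyN m M) := by
    intro T h1 h2
    simp only [smallSets, mem_filter, mem_powerset]
    exact ⟨h1, (card_le_card h2).trans hA⟩
  simp only [keySet, keyOf, mem_product, Fintype.mem_piFinset, mem_univ, and_true]
  refine ⟨small _ (filter_subset _ _) (dif_subset (fun _ _ h => h.symm)
    (fun _ _ h => Or.inl h.symm) h0 hr' hfix ?_), small _ (filter_subset _ _)
    (dif_subset (fun x y h => by rw [h, D.inv]) (fun _ _ h => Or.inr (Or.inl h)) h0 hr' hfix ?_),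
    fun c => small _ (filter_subset _ _) (xv_subset hr' hexc c)⟩
  · intro x y c h1 h2
    by_cases hy : D.ν c y = y
    · exact Or.inr (hfix y c hy)
    · refine Or.inl (hexc x (D.ν c y) c ⟨?_, ?_, fun h => h2 h.symm⟩).1
      · rw [hL.vtx, h1]
      · rw [h1]; exact hL.red _ _ hy
  · intro x y c h1 h2
    subst h1
    exact Or.inl (hnp x c fun h => h2 h.2.symm)

end Crest.Agent.R177
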