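import Crest.Agent.R177.Defs

/-! Row 177, `levels`: the combinatorics of the reference configuration `(D, ε)`. -/

set_option autoImplicit false
set_option linter.unusedSectionVars false

namespace Crest.Agent.R177.Lev

open Finset

/-! ### Counting lemmas -/

lemma card_image_le_of_det {A β γ : Type} [DecidableEq γ] (s : Finset A)
    (f : A → β) (t : Finset β) (hf : ∀ a ∈ s, f a ∈ t)
    (g : A → γ) (h : ∀ a ∈ s, ∀ a' ∈ s, f a = f a' → g a = g a') :
    #(s.image g) ≤ #t := by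
  refine card_le_card_of_forall_subsingleton (fun c b => ∃ a ∈ s, g a = c ∧ f a = b) ?_ ?_
  · intro c hc
    obtain ⟨a, ha, rfl⟩ := mem_image.1 hc
    exact ⟨f a, hf a ha, a, ha, rfl, rfl⟩
  · rintro b - c ⟨-, a, ha, rfl, rfl⟩ c' ⟨-, a', ha', rfl, h'⟩
    exact h a ha a' ha' h'.symm

lemma card_image_le_prod {A ι β γ : Type} [DecidableEq γ] (s : Finset A) (g : A → γ)
    (I : Finset ι) (c : A → ι → β) (T : ι → Finset β) (hc : ∀ a ∈ s, ∀ i ∈ I, c a i ∈ T i)
    (hdet : ∀ a ∈ s, ∀ a' ∈ s, (∀ i ∈ I, c a i = c a' i) → g a = g a') :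
    #(s.image g) ≤ ∏ i ∈ I, #(T i) := by
  classical
  rw [← card_pi]
  refine card_image_le_of_det s (fun a => fun i (_ : i ∈ I) => c a i) _ ?_ g ?_
  · intro a ha
    exact mem_pi.2 fun i hi => hc a ha i hi
  · intro a ha a' ha' h
    exact hdet a ha a' ha' fun i hi => congrFun (congrFun h i) hi

lemma card_image_mul_le {A β γ : Type} [DecidableEq β] [DecidableEq γ] (s : Finset A)
    (f : A → β) (g : A → γ) (u w : ℕ)
    (h : ∀ a ∈ s, #(({a' ∈ s | f a' = f a} : Finset A).image g) * u ≤ w) :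
    #(s.image g) * u ≤ #(s.image f) * w := by
  have h1 : s.image g ⊆ (s.image f).biUnion fun b => ({a' ∈ s | f a' = b} : Finset A).image g := by
    intro c hc
    obtain ⟨a, ha, rfl⟩ := mem_image.1 hc
    exact mem_biUnion.2 ⟨f a, mem_image_of_mem _ ha,
      mem_image_of_mem _ (mem_filter.2 ⟨ha, rfl⟩)⟩
  have h2 := (card_le_card h1).trans card_biUnion_le
  calc #(s.image g) * u ≤ (∑ b ∈ s.image f, #(({a' ∈ s | f a' = b} : Finset A).image g)) * u := by
        gcongr
    _ = ∑ b ∈ s.image f, #(({a' ∈ s | f a' = b} : Finset A).image g) * u := sum_mul _ _ _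
    _ ≤ ∑ _b ∈ s.image f, w := by
        refine sum_le_sum fun b hb => ?_
        obtain ⟨a, ha, rfl⟩ := mem_image.1 hb
        exact h a ha
    _ = _ := by simp

lemma sum_levels {ι : Type} (s : Finset ι) (M : ι → ℕ) (J : ℕ) (hM : ∀ i ∈ s, M i ≤ J) :
    ∑ j ∈ Icc 1 J, #{i ∈ s | j ≤ M i} = ∑ i ∈ s, M i := by
  simp only [card_filter]
  rw [sum_comm]
  refine sum_congr rfl fun i hi => ?_
  rw [← card_filter]
  have : ({j ∈ Icc 1 J | j ≤ M i} : Finset ℕ) = Icc 1 (M i) := by
    ext j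
    have := hM i hi
    simp only [mem_filter, mem_Icc]
    omega
  rw [this]
  simp

/-! ### Multiplicities, good vertices, leaders -/

variable {V P : Type} [DecidableEq V] [DecidableEq P] (D : Gem) (ε : D.F → Edge V P)

/-- Number of faces with the same edge as `x`. -/
def mult (x : D.F) : ℕ := #{y | ε y = ε x}

/-- The vertex of `x` on side `b` is good. -/
def Good (b : Bool) (x : D.F) : Prop :=
  ∀ y, (ε y).1 b = (ε x).1 b → D.Plain y b ∧
    ∀ z, (ε z).1 b = (ε x).1 b → ε z = ε y ∨ ε z = ε (D.σ (rad b) y)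

/-- A face of maximal multiplicity at the vertex of `x` on side `b`. -/
noncomputable def ld (b : Bool) (x : D.F) : D.F :=
  @Classical.epsilon D.F ⟨x⟩ fun y => (ε y).1 b = (ε x).1 b ∧
    ∀ z, (ε z).1 b = (ε x).1 b → mult D ε z ≤ mult D ε y

variable {D ε}

lemma ld_spec (b : Bool) (x : D.F) : (ε (ld D ε b x)).1 b = (ε x).1 b ∧
    ∀ z, (ε z).1 b = (ε x).1 b → mult D ε z ≤ mult D ε (ld D ε b x) := by
  refine Classical.epsilon_spec (p := fun y => (ε y).1 b = (ε x).1 b ∧
    ∀ z, (ε z).1 b = (ε x).1 b → mult D ε z ≤ mult D ε y) ?_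
  obtain ⟨y, hy, h⟩ := exists_max_image ({z | (ε z).1 b = (ε x).1 b} : Finset D.F) (mult D ε)
    ⟨x, by simp⟩
  exact ⟨y, by simpa using hy, fun z hz => h z (by simpa using hz)⟩

lemma ld_vtx (b : Bool) (x : D.F) : (ε (ld D ε b x)).1 b = (ε x).1 b := (ld_spec b x).1

lemma le_ld (b : Bool) (x : D.F) : mult D ε x ≤ mult D ε (ld D ε b x) := (ld_spec b x).2 x rfl

lemma ld_congr {b : Bool} {x y : D.F} (h : (ε x).1 b = (ε y).1 b) : ld D ε b x = ld D ε b y := by
  unfold ld
  rw [h]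

lemma ld_ld (b : Bool) (x : D.F) : ld D ε b (ld D ε b x) = ld D ε b x := ld_congr (ld_vtx b x)

lemma vtx_eq_of_ld {b : Bool} {x y : D.F} (h : ld D ε b x = ld D ε b y) :
    (ε x).1 b = (ε y).1 b := by
  rw [← ld_vtx b x, h, ld_vtx]

lemma good_congr {b : Bool} {x y : D.F} (h : (ε x).1 b = (ε y).1 b) :
    Good D ε b x ↔ Good D ε b y := by
  unfold Good
  rw [h]

lemma mult_congr {x y : D.F} (h : ε x = ε y) : mult D ε x = mult D ε y := by
  unfold mult
  rw [h]

lemma mult_pos (x : D.F) : 1 ≤ mult D ε x := card_pos.2 ⟨x, by simp⟩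

lemma σ_inj (i : Fin 3) : Function.Injective (D.σ i) :=
  (show Function.Involutive (D.σ i) from D.inv i).injective

variable {Γ₀ : Finset (Edge V P)}

lemma good_mult_le (hL : Lab Γ₀ D ε) {b : Bool} {x : D.F} (h : Good D ε b x) :
    mult D ε x ≤ mult D ε (D.σ (rad b) x) := by
  refine card_le_card_of_injOn (D.σ (rad b)) ?_ (σ_inj _).injOn
  intro y hy
  simp only [coe_filter, mem_univ, true_and, Set.mem_ofPred_eq] at hy ⊢
  have hy' : (ε y).1 b = (ε x).1 b := by rw [hy]
  rcases (h x rfl).2 (D.σ (rad b) y) ((hL.vtx y b).trans hy') with h1 | h1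
  · exact absurd (h1.trans hy.symm) (hL.red y _ (h y hy').1.1)
  · exact h1

lemma good_mult_σ (hL : Lab Γ₀ D ε) {b : Bool} {x : D.F} (h : Good D ε b x) :
    mult D ε (D.σ (rad b) x) = mult D ε x := by
  refine le_antisymm ?_ (good_mult_le hL h)
  have := good_mult_le hL ((good_congr (hL.vtx x b)).2 h)
  rwa [D.inv] at this

lemma good_mult (hL : Lab Γ₀ D ε) {b : Bool} {x y : D.F} (h : Good D ε b x)
    (hy : (ε y).1 b = (ε x).1 b) : mult D ε y = mult D ε x := by
  rcases (h x rfl).2 y hy with h1 | h1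
  · exact mult_congr h1
  · rw [mult_congr h1, good_mult_σ hL h]

lemma good_fib (hL : Lab Γ₀ D ε) {b : Bool} {x : D.F} (h : Good D ε b x) :
    #{y | (ε y).1 b = (ε x).1 b} = 2 * mult D ε x := by
  have h1 : ({y | (ε y).1 b = (ε x).1 b} : Finset D.F) =
      ({y | ε y = ε x} : Finset D.F) ∪ ({y | ε y = ε (D.σ (rad b) x)} : Finset D.F) := by
    ext y
    simp only [mem_filter, mem_univ, true_and, mem_union]
    refine ⟨(h x rfl).2 y, ?_⟩
    rintro (h1 | h1)
    · rw [h1]
    · rw [h1, hL.vtx]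
  rw [h1, card_union_of_disjoint]
  · have := good_mult_σ hL h
    unfold mult at this ⊢
    omega
  · rw [disjoint_filter]
    intro y _ h1 h2
    exact hL.red x _ (h x rfl).1.1 (h2.symm.trans h1)

lemma fib_ge (hL : Lab Γ₀ D ε) (b : Bool) (x : D.F) :
    2 * mult D ε x ≤ #{y | (ε y).1 b = (ε x).1 b} +
      #{y | D.σ (rad b) y = y ∧ (ε y).1 b = (ε x).1 b} := by
  have h1 : #{y | ε y = ε x ∧ D.σ (rad b) y ≠ y} ≤ #{y | (ε y).1 b = (ε x).1 b ∧ ¬ ε y = ε x} := by
    refine card_le_card_of_injOn (D.σ (rad b)) ?_ (σ_inj _).injOn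
    intro y hy
    simp only [coe_filter, mem_univ, true_and, Set.mem_ofPred_eq] at hy ⊢
    exact ⟨by rw [hL.vtx, hy.1], fun h => hL.red y _ hy.2 (h.trans hy.1.symm)⟩
  have h2 := card_filter_add_card_filter_not (s := ({y | (ε y).1 b = (ε x).1 b} : Finset D.F))
    (fun y => ε y = ε x)
  have h3 := card_filter_add_card_filter_not (s := ({y | ε y = ε x} : Finset D.F))
    (fun y => D.σ (rad b) y = y)
  simp only [filter_filter] at h2 h3
  have h4 : ({y | (ε y).1 b = (ε x).1 b ∧ ε y = ε x} : Finset D.F) =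
      ({y | ε y = ε x} : Finset D.F) := by
    ext y
    simp only [mem_filter, mem_univ, true_and, and_iff_right_iff_imp]
    intro h; rw [h]
  have h5 : #{y | ε y = ε x ∧ D.σ (rad b) y = y} ≤
      #{y | D.σ (rad b) y = y ∧ (ε y).1 b = (ε x).1 b} := by
    refine card_le_card fun y hy => ?_
    simp only [mem_filter, mem_univ, true_and] at hy ⊢
    exact ⟨hy.2, by rw [hy.1]⟩
  rw [h4] at h2
  unfold mult
  simp only [ne_eq] at h1
  omega

open Classical in
/-- Counting faces vertex by vertex. -/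
lemma card_eq_sum_ld (b : Bool) (p q : D.F → Prop)
    (hp : ∀ x y, (ε x).1 b = (ε y).1 b → (p x ↔ p y)) :
    #{x | p x ∧ q x} = ∑ l with ld D ε b l = l ∧ p l, #{y | q y ∧ (ε y).1 b = (ε l).1 b} := by
  rw [card_eq_sum_card_fiberwise (f := ld D ε b) (t := {l | ld D ε b l = l ∧ p l})]
  · refine sum_congr rfl fun l hl => ?_
    simp only [mem_filter, mem_univ, true_and] at hl
    congr 1
    ext y
    simp only [mem_filter, mem_univ, true_and]
    constructor
    · rintro ⟨⟨-, h1⟩, h2⟩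
      exact ⟨h1, by rw [← h2, ld_vtx]⟩
    · rintro ⟨h1, h2⟩
      exact ⟨⟨(hp _ _ h2).2 hl.2, h1⟩, by rw [ld_congr h2, hl.1]⟩
  · intro x hx
    simp only [coe_filter, mem_univ, true_and, Set.mem_ofPred_eq] at hx ⊢
    exact ⟨ld_ld b x, (hp _ _ (ld_vtx b x)).2 hx.1⟩

open Classical in
lemma sum_ld_le (hL : Lab Γ₀ D ε) (b : Bool) :
    2 * ∑ l with ld D ε b l = l, mult D ε l ≤ D.area + D.bd (rad b) := by
  have h1 := card_eq_sum_ld (ε := ε) b (fun _ => True) (fun _ => True) (fun _ _ _ => Iff.rfl)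
  have h2 := card_eq_sum_ld (ε := ε) b (fun _ => True) (fun y => D.σ (rad b) y = y)
    (fun _ _ _ => Iff.rfl)
  simp only [and_true, true_and, filter_true, card_univ] at h1 h2
  unfold Gem.area Gem.bd
  rw [mul_sum]
  calc ∑ l with ld D ε b l = l, 2 * mult D ε l
      ≤ ∑ l with ld D ε b l = l, (#{y | (ε y).1 b = (ε l).1 b} +
        #{y | D.σ (rad b) y = y ∧ (ε y).1 b = (ε l).1 b}) := sum_le_sum fun l _ => fib_ge hL b l
    _ = _ := by
      rw [sum_add_distrib, h1]
      congr 1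
      convert h2.symm

open Classical in
lemma sum_ld_good (hL : Lab Γ₀ D ε) (b : Bool) (p : D.F → Prop)
    (hp : ∀ x y, (ε x).1 b = (ε y).1 b → (p x ↔ p y)) (hg : ∀ x, p x → Good D ε b x) :
    2 * ∑ l with ld D ε b l = l ∧ p l, mult D ε l = #{x | p x} := by
  have h1 := card_eq_sum_ld (ε := ε) b p (fun _ => True) hp
  simp only [and_true, true_and] at h1
  rw [h1, mul_sum]
  refine sum_congr rfl fun l hl => ?_
  rw [← good_fib hL (hg l (mem_filter.1 hl).2.2)]

open Classical in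
lemma bad_card {Sh : Type} [DecidableEq Sh] {R : Finset (P × P)} {Q d n : ℕ}
    (𝒟 : Design P Sh R Q d n) {Γ₀ : Finset (Edge 𝒟.V P)} (hΓ₀ : IsGraph 𝒟 Γ₀) {D : Gem}
    {ε : D.F → Edge 𝒟.V P} (hL : Lab Γ₀ D ε) {J E₀ : ℕ} (hJ : ∀ e, #{x | ε x = e} ≤ J)
    (hE : excN D ε + D.np ≤ E₀) (b : Bool) : #{x | ¬ Good D ε b x} ≤ E₀ * d * J := by
  have h1 : #(({x | ¬ Good D ε b x} : Finset D.F).image fun x => (ε x).1 b) ≤ E₀ := by
    refine le_trans ?_ hE
    unfold excN Gem.np
    refine le_trans (card_le_card ?_) ((card_union_le _ _).trans (add_le_add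
      (card_image_le (f := fun a : D.F × D.F × Bool => (ε a.1).1 a.2.2))
      (card_image_le (f := fun a : D.F × Bool => (ε a.1).1 a.2))))
    intro v hv
    obtain ⟨x, hx, rfl⟩ := mem_image.1 hv
    simp only [mem_filter, mem_univ, true_and, Good, not_forall] at hx
    obtain ⟨y, hy, h⟩ := hx
    by_cases hp : D.Plain y b
    · simp only [hp, true_and, not_forall, not_or] at h
      obtain ⟨z, hz, h1, h2⟩ := h
      refine mem_union_left _ (mem_image.2 ⟨(y, z, b), ?_, hy⟩)
      simp only [mem_filter, mem_univ, true_and]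
      exact ⟨hy.trans hz.symm, h1, h2⟩
    · exact mem_union_right _ (mem_image.2 ⟨(y, b), by simpa using hp, hy⟩)
  have h2 := card_le_mul_card_image (f := fun x => (ε x).1 b)
    ({x | ¬ Good D ε b x} : Finset D.F) (J * d) (by
      intro v _
      refine (card_le_mul_card_image_of_maps_to (f := fun x => (ε x).2) (t := 𝒟.ty v) ?_ J
        ?_).trans (Nat.mul_le_mul_left _ (𝒟.deg_le v))
      · intro x hx
        rw [← (mem_filter.1 hx).2]
        exact hΓ₀.mem _ (hL.mem x) b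
      · intro s _
        rcases ({x ∈ ({x ∈ ({x | ¬ Good D ε b x} : Finset D.F) | (ε x).1 b = v} : Finset D.F) |
          (ε x).2 = s} : Finset D.F).eq_empty_or_nonempty with h | ⟨x0, hx0⟩
        · rw [h]; simp
        · refine le_trans (card_le_card fun x hx => ?_) (hJ (ε x0))
          simp only [mem_filter, mem_univ, true_and] at hx hx0 ⊢
          exact hΓ₀.uniq _ (hL.mem x) _ (hL.mem x0) b (hx.1.2.trans hx0.1.2.symm)
            (hx.2.trans hx0.2.symm))
  calc _ ≤ J * d * E₀ := h2.trans (Nat.mul_le_mul_left _ h1)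
    _ = _ := by ring

/-! ### The order on true-side vertices -/

variable (D ε) in
/-- Decreasing multiplicity, then an index. -/
noncomputable def key (J : ℕ) (x : D.F) : ℕ ×ₗ ℕ :=
  toLex (J - mult D ε (ld D ε true x), (Fintype.equivFin D.F (ld D ε true x) : ℕ))

variable (D ε) in
/-- The true-side vertex of `x` is good and not determined by earlier vertices. -/
def Free (J : ℕ) (x : D.F) : Prop :=
  Good D ε true x ∧ ∀ y, (ε y).1 true = (ε x).1 true → D.σ 1 y ≠ y → Good D ε true (D.σ 1 y) →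
    ¬ key D ε J (D.σ 1 y) < key D ε J x

lemma key_congr (J : ℕ) {x y : D.F} (h : (ε x).1 true = (ε y).1 true) :
    key D ε J x = key D ε J y := by
  unfold key
  rw [ld_congr h]

lemma free_congr (J : ℕ) {x y : D.F} (h : (ε x).1 true = (ε y).1 true) :
    Free D ε J x ↔ Free D ε J y := by
  unfold Free
  rw [good_congr h, key_congr J h, h]

lemma vtx_eq_of_key {J : ℕ} {x y : D.F} (h : key D ε J x = key D ε J y) :
    (ε x).1 true = (ε y).1 true := by
  unfold key at h
  have h1 := congrArg (fun p => (ofLex p).2) h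
  simp only [ofLex_toLex] at h1
  exact vtx_eq_of_ld ((Fintype.equivFin D.F).injective (Fin.ext h1))

lemma mult_le_of_key_lt {J : ℕ} (hJ : ∀ x, mult D ε x ≤ J) {x y : D.F}
    (h : key D ε J x < key D ε J y) :
    mult D ε (ld D ε true y) ≤ mult D ε (ld D ε true x) := by
  unfold key at h
  rw [Prod.Lex.toLex_lt_toLex] at h
  have h1 := hJ (ld D ε true x)
  have h2 := hJ (ld D ε true y)
  simp only at h
  omega

open Classical in
lemma free_card (hL : Lab Γ₀ D ε)
    (huniq : ∀ e ∈ Γ₀, ∀ e' ∈ Γ₀, ∀ b, e.1 b = e'.1 b → e.2 = e'.2 → e = e') (J : ℕ) :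
    2 * #{x | Free D ε J x} ≤ D.area + D.B := by
  have h1 : #{x | Free D ε J x ∧ ¬ D.σ 1 x = x} ≤ #{x | ¬ Free D ε J x} := by
    refine card_le_card_of_injOn (D.σ 1) ?_ (σ_inj _).injOn
    intro x hx
    simp only [coe_filter, mem_univ, true_and, Set.mem_ofPred_eq] at hx ⊢
    intro hf
    have h1 := hx.1.2 x rfl hx.2 hf.1
    have h2 := hf.2 (D.σ 1 x) rfl (by rw [D.inv]; exact fun h => hx.2 h.symm)
      (by rw [D.inv]; exact hx.1.1)
    rw [D.inv] at h2
    have h3 := vtx_eq_of_key (le_antisymm (not_lt.1 h2) (not_lt.1 h1))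
    exact hL.red x 1 hx.2 (huniq _ (hL.mem _) _ (hL.mem _) true h3 (hL.lab x))
  have h2 := card_filter_add_card_filter_not (s := (univ : Finset D.F)) (fun x => Free D ε J x)
  have h3 := card_filter_add_card_filter_not (s := ({x | Free D ε J x} : Finset D.F))
    (fun x => D.σ 1 x = x)
  simp only [filter_filter] at h3
  have h4 : #{x | Free D ε J x ∧ D.σ 1 x = x} ≤ D.B := by
    unfold Gem.B Gem.bd
    refine card_le_card fun x hx => ?_
    simp only [mem_filter, mem_univ, true_and] at hx ⊢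
    exact hx.2
  rw [card_univ] at h2
  unfold Gem.area
  omega

/-- The labels on level `j` are determined by those at bad and at free vertices. -/
lemma labels_det (hL : Lab Γ₀ D ε) {J : ℕ} (hJ : ∀ x, mult D ε x ≤ J) (j : ℕ) (a a' : D.F → P)
    (ha : ∀ x y, ε x = ε y → a x = a y) (ha' : ∀ x y, ε x = ε y → a' x = a' y)
    (hb : ∀ x, a (D.σ 1 x) = a x) (hb' : ∀ x, a' (D.σ 1 x) = a' x)
    (h1 : ∀ x, ¬ Good D ε true x → a x = a' x)
    (h2 : ∀ l, ld D ε true l = l → Free D ε J l → j ≤ mult D ε l →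
      a l = a' l ∧ a (D.σ (rad true) l) = a' (D.σ (rad true) l)) (x : D.F) :
    j ≤ mult D ε x → a x = a' x := by
  induction hk : key D ε J x using WellFoundedLT.induction generalizing x with
  | ind k ih =>
  intro hj
  by_cases hg : Good D ε true x
  swap
  · exact h1 x hg
  suffices h : ∃ y, (ε y).1 true = (ε x).1 true ∧ a y = a' y ∧
      a (D.σ (rad true) y) = a' (D.σ (rad true) y) by
    obtain ⟨y, hy, h3, h4⟩ := h
    rcases (hg y hy).2 x rfl with h5 | h5
    · rw [ha _ _ h5, ha' _ _ h5, h3]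
    · rw [ha _ _ h5, ha' _ _ h5, h4]
  by_cases hf : Free D ε J x
  · exact ⟨ld D ε true x, ld_vtx _ _, h2 _ (ld_ld _ _) ((free_congr J (ld_vtx _ _)).2 hf)
      (hj.trans (le_ld _ _))⟩
  · simp only [Free, hg, true_and, not_forall, not_not] at hf
    obtain ⟨y, hy, -, hgy, hlt⟩ := hf
    have hm : j ≤ mult D ε (D.σ 1 y) := by
      rw [← good_mult hL hgy (ld_vtx true _)]
      exact (hj.trans (le_ld true x)).trans (mult_le_of_key_lt hJ hlt)
    refine ⟨y, hy, ?_, ?_⟩
    · rw [← hb, ← hb' y]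
      exact ih _ (hk ▸ hlt) _ rfl hm
    · rw [← hb, ← hb' (D.σ _ y), (hg y hy).1.2]
      refine ih _ (hk ▸ hlt) _ (key_congr J (hL.vtx _ true)) ?_
      rwa [good_mult_σ hL hgy]

end Crest.Agent.R177.Lev
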