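import Crest.Agent.R177.Defs

set_option autoImplicit false

namespace Crest.Agent.R177

open Finset

namespace Sw

theorem alt_zero (b : Bool) : alt b 0 = b := by simp [alt]

theorem alt_succ (b : Bool) (t : ℕ) : alt b (t + 1) = !alt b t := by
  simp [alt, Nat.bodd_succ]

theorem alt_add (b : Bool) (a t : ℕ) : alt (alt b a) t = alt b (a + t) := by
  simp [alt, Nat.bodd_add]

section Walk

variable {V P : Type}

/-- The vertices of a walk. -/
def vx (w : ℕ → Edge V P) (b : Bool) : ℕ → V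
  | 0 => (w 0).1 (!b)
  | t + 1 => (w t).1 (alt b t)

theorem vx_st {Γ : Finset (Edge V P)} {w : ℕ → Edge V P} {b : Bool} {k : ℕ} (h : NB Γ w b k)
    {t : ℕ} (ht : t ≤ k) : (w t).1 (!alt b t) = vx w b t := by
  cases t with
  | zero => simp [vx, alt_zero]
  | succ t =>
    have := (h.2 t (by omega)).2
    simp [vx, alt_succ, this]

/-- A piece of a walk between two ends of an edge `y` that it avoids is long. -/
theorem closing {Γ Γ' : Finset (Edge V P)} {w : ℕ → Edge V P} {b : Bool} {k m : ℕ}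
    (hg : Girth Γ m) (h : NB Γ' w b k) {t1 t2 : ℕ} (h12 : t1 + 1 < t2) (h2 : t2 ≤ k)
    (hm : k < m) {y : Edge V P} (hy : y ∈ Γ)
    (hp : ∀ t, t1 < t → t < t2 → w t ∈ Γ ∧ w t ≠ y)
    (ha : vx w b (t1 + 1) = y.1 (alt b t1)) (hb : vx w b t2 = y.1 (!alt b t2)) : False := by
  obtain ⟨L, rfl⟩ : ∃ L, t2 = t1 + 1 + L + 1 := ⟨t2 - (t1 + 2), by omega⟩
  have hst := vx_st h (t := t1 + 1) (by omega)
  by_cases hc : alt b t1 = alt b (t1 + 1 + L + 1)
  · refine hg (fun t => if t = L + 1 then y else w (t1 + 1 + t)) (alt b (t1 + 1)) (L + 1)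
      (by omega) ⟨fun t ht => ?_, fun t ht => ?_⟩ ?_
    · by_cases h' : t = L + 1
      · simp [h', hy]
      · simp only [h', if_false]
        exact (hp _ (by omega) (by omega)).1
    · have h' : t ≠ L + 1 := by omega
      simp only [h', if_false, alt_add]
      by_cases h'' : t = L
      · subst h''
        simp only [if_true]
        refine ⟨(hp _ (by omega) (by omega)).2.symm, ?_⟩
        rw [alt_succ, Bool.not_not] at hb
        exact hb.symm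
      · have h3 : t + 1 ≠ L + 1 := by omega
        simp only [h3, if_false]
        exact h.2 (t1 + 1 + t) (by omega)
    · have h' : (0 : ℕ) ≠ L + 1 := by omega
      simp only [h', if_false, if_true, alt_add, add_zero]
      rw [hst, ha, hc]
      rfl
  · refine hg (fun t => w (t1 + 1 + t)) (alt b (t1 + 1)) L
      (by omega) ⟨fun t ht => (hp _ (by omega) (by omega)).1, fun t ht => ?_⟩ ?_
    · simp only [alt_add]
      exact h.2 (t1 + 1 + t) (by omega)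
    · simp only [alt_add, add_zero]
      rw [hst, ha]
      have : alt b t1 = !alt b (t1 + 1 + L + 1) := by
        revert hc
        cases alt b t1 <;> cases alt b (t1 + 1 + L + 1) <;> simp
      rw [this, ← hb]
      rfl

end Walk

variable {P Sh : Type} [DecidableEq P] [DecidableEq Sh] {R : Finset (P × P)}
  {Q d n : ℕ} (𝒟 : Design P Sh R Q d n)

/-- A vertex with its neighbours. -/
def nbr (Γ : Finset (Edge 𝒟.V P)) (v : 𝒟.V) : Finset 𝒟.V :=
  insert v ((Γ.filter fun y => y.1 (𝒟.side v) = v).image fun y => y.1 (!𝒟.side v))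

/-- Balls around an edge. -/
def ball (Γ : Finset (Edge 𝒟.V P)) (e : Edge 𝒟.V P) : ℕ → Finset 𝒟.V
  | 0 => {e.1 false, e.1 true}
  | r + 1 => (ball Γ e r).biUnion (nbr 𝒟 Γ)

variable {𝒟}

theorem card_nbr {Γ : Finset (Edge 𝒟.V P)} (hΓ : IsGraph 𝒟 Γ) (v : 𝒟.V) :
    #(nbr 𝒟 Γ v) ≤ d + 1 := by
  refine (card_insert_le _ _).trans (Nat.succ_le_succ (card_image_le.trans ?_))
  refine le_trans ?_ (𝒟.deg_le v)
  refine card_le_card_of_injOn (fun y => y.2) ?_ ?_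
  · intro y hy
    simp only [coe_filter, Set.mem_ofPred_eq] at hy
    have := hΓ.mem y hy.1 (𝒟.side v)
    rw [hy.2] at this
    exact this
  · intro y hy y' hy' hl
    simp only [coe_filter, Set.mem_ofPred_eq] at hy hy'
    exact hΓ.uniq y hy.1 y' hy'.1 (𝒟.side v) (hy.2.trans hy'.2.symm) hl

theorem card_ball {Γ : Finset (Edge 𝒟.V P)} (hΓ : IsGraph 𝒟 Γ) (e : Edge 𝒟.V P) (r : ℕ) :
    #(ball 𝒟 Γ e r) ≤ 2 * (d + 1) ^ r := by
  induction r with
  | zero => simpa [ball] using card_le_two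
  | succ r ih =>
    calc #(ball 𝒟 Γ e (r + 1)) ≤ #(ball 𝒟 Γ e r) * (d + 1) :=
          card_biUnion_le_card_mul _ _ _ fun v _ => card_nbr hΓ v
      _ ≤ 2 * (d + 1) ^ r * (d + 1) := Nat.mul_le_mul_right _ ih
      _ = _ := by ring

theorem ball_zero (Γ : Finset (Edge 𝒟.V P)) (e : Edge 𝒟.V P) (c : Bool) :
    e.1 c ∈ ball 𝒟 Γ e 0 := by
  cases c <;> simp [ball]

theorem ball_mono (Γ : Finset (Edge 𝒟.V P)) (e : Edge 𝒟.V P) {r r' : ℕ} (h : r ≤ r') :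
    ball 𝒟 Γ e r ⊆ ball 𝒟 Γ e r' := by
  induction h with
  | refl => exact Subset.refl _
  | step _ ih =>
    refine ih.trans fun v hv => ?_
    exact mem_biUnion.2 ⟨v, hv, mem_insert_self _ _⟩

theorem ball_step {Γ : Finset (Edge 𝒟.V P)} (hΓ : IsGraph 𝒟 Γ) (e : Edge 𝒟.V P) {r : ℕ}
    {y : Edge 𝒟.V P} (hy : y ∈ Γ) {c : Bool} (h : y.1 c ∈ ball 𝒟 Γ e r) :
    y.1 (!c) ∈ ball 𝒟 Γ e (r + 1) := by
  refine mem_biUnion.2 ⟨_, h, mem_insert_of_mem (mem_image.2 ⟨y, ?_, ?_⟩)⟩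
  · simp [hy, hΓ.side y hy c]
  · rw [hΓ.side y hy c]

theorem ball_piece {Γ Γ' : Finset (Edge 𝒟.V P)} (hΓ : IsGraph 𝒟 Γ) (e : Edge 𝒟.V P)
    {w : ℕ → Edge 𝒟.V P} {b : Bool} {k : ℕ} (h : NB Γ' w b k) (a L : ℕ) (hL : a + L ≤ k + 1)
    (hp : ∀ t, a ≤ t → t < a + L → w t ∈ Γ) (j : ℕ) :
    (vx w b a ∈ ball 𝒟 Γ e j → vx w b (a + L) ∈ ball 𝒟 Γ e (j + L)) ∧
      (vx w b (a + L) ∈ ball 𝒟 Γ e j → vx w b a ∈ ball 𝒟 Γ e (j + L)) := by
  induction L generalizing j with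
  | zero => simp
  | succ L ih =>
    have ih' := ih (by omega) (fun t h1 h2 => hp t h1 (by omega))
    have hw := hp (a + L) (by omega) (by omega)
    have hst := vx_st h (t := a + L) (by omega)
    constructor
    · intro h0
      have h1 := (ih' j).1 h0
      rw [← hst] at h1
      have := ball_step hΓ e hw h1
      rw [Bool.not_not] at this
      exact this
    · intro h0
      have h1 := ball_step hΓ e hw (c := alt b (a + L)) h0
      rw [hst] at h1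
      have := (ih' (j + 1)).2 h1
      rwa [show j + 1 + L = j + (L + 1) by ring] at this

/-- Swap two true ends on the edges with label `s`. -/
def sw (v v' : 𝒟.V) (s : P) (y : Edge 𝒟.V P) : Edge 𝒟.V P :=
  if y.2 = s then (fun b => if b then Equiv.swap v v' (y.1 true) else y.1 false, y.2) else y

theorem sw_snd (v v' : 𝒟.V) (s : P) (y : Edge 𝒟.V P) : (sw v v' s y).2 = y.2 := by
  unfold sw; split_ifs <;> rfl

theorem sw_false (v v' : 𝒟.V) (s : P) (y : Edge 𝒟.V P) : (sw v v' s y).1 false = y.1 false := by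
  unfold sw; split_ifs <;> rfl

theorem sw_true (v v' : 𝒟.V) (s : P) (y : Edge 𝒟.V P) :
    (sw v v' s y).1 true = if y.2 = s then Equiv.swap v v' (y.1 true) else y.1 true := by
  unfold sw; split_ifs <;> rfl

omit [DecidableEq P] in
theorem edge_ext {V : Type} {y z : Edge V P} (h0 : y.1 false = z.1 false)
    (h1 : y.1 true = z.1 true) (h2 : y.2 = z.2) : y = z := by
  refine Prod.ext (funext fun b => ?_) h2
  cases b
  · exact h0
  · exact h1

theorem sw_sw (v v' : 𝒟.V) (s : P) (y : Edge 𝒟.V P) : sw v v' s (sw v v' s y) = y := by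
  refine edge_ext (by simp [sw_false]) ?_ (by simp [sw_snd])
  rw [sw_true, sw_true, sw_snd]
  split_ifs <;> simp

/-- The switched graph. -/
def swG (Γ : Finset (Edge 𝒟.V P)) (e e' : Edge 𝒟.V P) : Finset (Edge 𝒟.V P) :=
  Γ.image (sw (e.1 true) (e'.1 true) e.2)

theorem swap_prop {V : Type} [DecidableEq V] {v v' : V} (p : V → Prop) (hv : p v) (hv' : p v')
    {x : V} (hx : p x) : p (Equiv.swap v v' x) := by
  rw [Equiv.swap_apply_def]
  split_ifs <;> assumption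

theorem isGraph_swG {Γ : Finset (Edge 𝒟.V P)} (hΓ : IsGraph 𝒟 Γ) {e e' : Edge 𝒟.V P}
    (he : e ∈ Γ) (he' : e' ∈ Γ) (hl : e'.2 = e.2) (hs : 𝒟.sh (e'.1 false) = 𝒟.sh (e.1 false)) :
    IsGraph 𝒟 (swG Γ e e') := by
  have hside : ∀ x, 𝒟.side x = true → 𝒟.side (Equiv.swap (e.1 true) (e'.1 true) x) = true :=
    fun x hx => swap_prop (fun x => 𝒟.side x = true) (hΓ.side e he true) (hΓ.side e' he' true) hx
  have hty : ∀ x, e.2 ∈ 𝒟.ty x → e.2 ∈ 𝒟.ty (Equiv.swap (e.1 true) (e'.1 true) x) :=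
    fun x hx => swap_prop (fun x => e.2 ∈ 𝒟.ty x) (hΓ.mem e he true)
      (hl ▸ hΓ.mem e' he' true) hx
  have hsh : ∀ x, 𝒟.sh (Equiv.swap (e.1 true) (e'.1 true) x) = 𝒟.sh x := by
    intro x
    have h1 : 𝒟.sh (e'.1 true) = 𝒟.sh (e.1 true) := by
      rw [← hΓ.sh e he, ← hΓ.sh e' he', hs]
    rw [Equiv.swap_apply_def]
    split_ifs with h h'
    · rw [h, h1]
    · rw [h', h1]
    · rfl
  refine ⟨?_, ?_, ?_, ?_, ?_⟩
  · intro z hz b
    obtain ⟨y, hy, rfl⟩ := mem_image.1 hz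
    cases b
    · rw [sw_false]; exact hΓ.side y hy false
    · rw [sw_true]
      split_ifs
      · exact hside _ (hΓ.side y hy true)
      · exact hΓ.side y hy true
  · intro z hz b
    obtain ⟨y, hy, rfl⟩ := mem_image.1 hz
    rw [sw_snd]
    cases b
    · rw [sw_false]; exact hΓ.mem y hy false
    · rw [sw_true]
      split_ifs with h
      · rw [h]; exact hty _ (h ▸ hΓ.mem y hy true)
      · exact hΓ.mem y hy true
  · intro z hz
    obtain ⟨y, hy, rfl⟩ := mem_image.1 hz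
    rw [sw_false, sw_true]
    split_ifs
    · rw [hsh]; exact hΓ.sh y hy
    · exact hΓ.sh y hy
  · intro v s hs
    cases hv : 𝒟.side v
    · obtain ⟨y, hy, h1, h2⟩ := hΓ.ex v s hs
      rw [hv] at h1
      exact ⟨_, mem_image_of_mem _ hy, by rw [sw_false, h1], by rw [sw_snd, h2]⟩
    · by_cases h : s = e.2
      · subst h
        obtain ⟨y, hy, h1, h2⟩ := hΓ.ex _ _ (hty v hs)
        rw [hside v hv] at h1
        refine ⟨_, mem_image_of_mem _ hy, ?_, by rw [sw_snd, h2]⟩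
        rw [sw_true, if_pos h2, h1]
        simp
      · obtain ⟨y, hy, h1, h2⟩ := hΓ.ex v s hs
        rw [hv] at h1
        refine ⟨_, mem_image_of_mem _ hy, ?_, by rw [sw_snd, h2]⟩
        rw [sw_true, if_neg (h2 ▸ h), h1]
  · intro z hz z' hz' b h1 h2
    obtain ⟨y, hy, rfl⟩ := mem_image.1 hz
    obtain ⟨y', hy', rfl⟩ := mem_image.1 hz'
    rw [sw_snd, sw_snd] at h2
    congr 1
    refine hΓ.uniq y hy y' hy' b ?_ h2
    cases b
    · simpa [sw_false] using h1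
    · rw [sw_true, sw_true, h2] at h1
      split_ifs at h1
      · exact (Equiv.swap _ _).injective h1
      · exact h1

theorem sw_eq {Γ : Finset (Edge 𝒟.V P)} (hΓ : IsGraph 𝒟 Γ) {e e' y : Edge 𝒟.V P}
    (he : e ∈ Γ) (he' : e' ∈ Γ) (hl : e'.2 = e.2) (hy : y ∈ Γ) (h1 : y ≠ e) (h2 : y ≠ e') :
    sw (e.1 true) (e'.1 true) e.2 y = y := by
  refine edge_ext (sw_false _ _ _ _) ?_ (sw_snd _ _ _ _)
  rw [sw_true]
  split_ifs with h
  · exact Equiv.swap_apply_of_ne_of_ne (fun h' => h1 (hΓ.uniq y hy e he true h' h))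
      (fun h' => h2 (hΓ.uniq y hy e' he' true h' (h.trans hl.symm)))
  · rfl

/-- The edges of the switched graph are old edges or join the two switched edges. -/
theorem mem_swG {Γ : Finset (Edge 𝒟.V P)} (hΓ : IsGraph 𝒟 Γ) {e e' z : Edge 𝒟.V P}
    (he : e ∈ Γ) (he' : e' ∈ Γ) (hl : e'.2 = e.2) (hz : z ∈ swG Γ e e')
    (hn : ¬ (z ∈ Γ ∧ z ≠ e ∧ z ≠ e')) :
    z.2 = e.2 ∧ ∀ c, (z.1 c = e.1 c ∧ z.1 (!c) = e'.1 (!c)) ∨
      (z.1 c = e'.1 c ∧ z.1 (!c) = e.1 (!c)) := by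
  obtain ⟨y, hy, rfl⟩ := mem_image.1 hz
  by_cases h1 : y = e
  · subst h1
    refine ⟨sw_snd _ _ _ _, fun c => ?_⟩
    cases c <;> simp [sw_false, sw_true]
  · by_cases h2 : y = e'
    · subst h2
      refine ⟨by rw [sw_snd, hl], fun c => ?_⟩
      cases c <;> simp [sw_false, sw_true, hl]
    · rw [sw_eq hΓ he he' hl hy h1 h2] at hn
      exact absurd ⟨hy, h1, h2⟩ hn

/-- Short closed walks of the switched graph use only old edges. -/
theorem key {Γ : Finset (Edge 𝒟.V P)} (hΓ : IsGraph 𝒟 Γ) {e e' : Edge 𝒟.V P}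
    (he : e ∈ Γ) (he' : e' ∈ Γ) (hl : e'.2 = e.2) (hs : 𝒟.sh (e'.1 false) = 𝒟.sh (e.1 false))
    {m r : ℕ} (hg : Girth Γ m) (hfar : ∀ c, e'.1 c ∉ ball 𝒟 Γ e r)
    {w : ℕ → Edge 𝒟.V P} {b : Bool} {k : ℕ} (hk : k < m) (hr : k ≤ r)
    (h : NB (swG Γ e e') w b k) (hc : (w 0).1 (!b) = (w k).1 (alt b k)) :
    ∀ t ≤ k, w t ∈ Γ ∧ w t ≠ e ∧ w t ≠ e' := by
  classical
  have hΓ' := isGraph_swG hΓ he he' hl hs
  have hcl : vx w b 0 = vx w b (k + 1) := hc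
  have far : ∀ c j, j ≤ r → e'.1 c ∉ ball 𝒟 Γ e j := fun c j hj hm =>
    hfar c (ball_mono Γ e hj hm)
  by_contra hcon
  have hex : ∃ t, t ≤ k ∧ ¬ (w t ∈ Γ ∧ w t ≠ e ∧ w t ≠ e') := by
    by_contra h'
    exact hcon fun t ht => by_contra fun h'' => h' ⟨t, ht, h''⟩
  obtain ⟨h1k, h1⟩ := Nat.find_spec hex
  have h1min : ∀ t, t < Nat.find hex → w t ∈ Γ ∧ w t ≠ e ∧ w t ≠ e' := fun t ht =>
    by_contra fun h'' => Nat.find_min hex ht ⟨by omega, h''⟩
  generalize Nat.find hex = t1 at h1k h1 h1min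
  obtain ⟨l1, f1⟩ := mem_swG hΓ he he' hl (h.1 t1 h1k) h1
  have f1 := f1 (alt b t1)
  rw [vx_st h h1k] at f1
  change (vx w b (t1 + 1) = _ ∧ _) ∨ (vx w b (t1 + 1) = _ ∧ _) at f1
  by_cases hex2 : ∃ t, t1 < t ∧ t ≤ k ∧ ¬ (w t ∈ Γ ∧ w t ≠ e ∧ w t ≠ e')
  · obtain ⟨h12, h2k, h2⟩ := Nat.find_spec hex2
    have h2min : ∀ t, t1 < t → t < Nat.find hex2 → w t ∈ Γ ∧ w t ≠ e ∧ w t ≠ e' :=
      fun t ht ht' => by_contra fun h'' => Nat.find_min hex2 ht' ⟨ht, by omega, h''⟩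
    generalize Nat.find hex2 = t2 at h12 h2k h2 h2min
    obtain ⟨l2, f2⟩ := mem_swG hΓ he he' hl (h.1 t2 h2k) h2
    have f2 := f2 (alt b t2)
    rw [vx_st h h2k] at f2
    by_cases h3 : t2 = t1 + 1
    · subst h3
      have := h.2 t1 (by omega)
      exact this.1 (hΓ'.uniq _ (h.1 _ h2k) _ (h.1 _ h1k) _ this.2 (l2.trans l1.symm))
    · obtain ⟨L, rfl⟩ : ∃ L, t2 = t1 + 1 + L := ⟨t2 - (t1 + 1), by omega⟩
      have hp := ball_piece hΓ e h (t1 + 1) L (by omega)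
        (fun t h4 h5 => (h2min t (by omega) h5).1) 0
      rcases f1 with ⟨f1, -⟩ | ⟨f1, -⟩ <;> rcases f2 with ⟨-, f2⟩ | ⟨-, f2⟩
      · rw [f1, f2] at hp
        exact far _ _ (by omega) (hp.1 (ball_zero Γ e _))
      · exact closing hg h (by omega) h2k hk he
          (fun t h4 h5 => ⟨(h2min t h4 h5).1, (h2min t h4 h5).2.1⟩) f1 f2
      · exact closing hg h (by omega) h2k hk he'
          (fun t h4 h5 => ⟨(h2min t h4 h5).1, (h2min t h4 h5).2.2⟩) f1 f2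
      · rw [f1, f2] at hp
        exact far _ _ (by omega) (hp.2 (ball_zero Γ e _))
  · have h2 : ∀ t, t1 < t → t ≤ k → w t ∈ Γ := fun t ht ht' =>
      (by_contra fun h'' => hex2 ⟨t, ht, ht', h''⟩ : w t ∈ Γ ∧ w t ≠ e ∧ w t ≠ e').1
    obtain ⟨L, rfl⟩ : ∃ L, k = t1 + L := ⟨k - t1, by omega⟩
    have hp1 := ball_piece hΓ e h 0 t1 (by omega) (fun t _ h5 => (h1min t (by omega)).1)
    have hp2 := ball_piece hΓ e h (t1 + 1) L (by omega)
      (fun t h4 h5 => h2 t (by omega) (by omega))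
    rw [zero_add, hcl] at hp1
    rw [show t1 + 1 + L = t1 + L + 1 by ring] at hp2
    rcases f1 with ⟨f1, f2⟩ | ⟨f1, f2⟩
    · rw [f1] at hp2
      rw [f2] at hp1
      exact far _ _ (by omega) ((hp1 _).1 ((hp2 0).1 (ball_zero Γ e _)))
    · rw [f1] at hp2
      rw [f2] at hp1
      exact far _ _ (by omega) ((hp2 _).2 ((hp1 0).2 (ball_zero Γ e _)))

theorem girth_swG {Γ : Finset (Edge 𝒟.V P)} (hΓ : IsGraph 𝒟 Γ) {e e' : Edge 𝒟.V P}
    (he : e ∈ Γ) (he' : e' ∈ Γ) (hl : e'.2 = e.2) (hs : 𝒟.sh (e'.1 false) = 𝒟.sh (e.1 false))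
    {m r : ℕ} (hg : Girth Γ m) (hfar : ∀ c, e'.1 c ∉ ball 𝒟 Γ e r) (hr : m ≤ r) :
    Girth (swG Γ e e') m := by
  intro w b k hk h hc
  have := key hΓ he he' hl hs hg hfar (by omega) (by omega) h hc
  exact hg w b k hk ⟨fun t ht => (this t ht).1, h.2⟩ hc

/-- Edges that can be switched with `e`. -/
def cand (Γ : Finset (Edge 𝒟.V P)) (e : Edge 𝒟.V P) (r : ℕ) : Finset (Edge 𝒟.V P) :=
  {e' ∈ Γ | e'.2 = e.2 ∧ 𝒟.sh (e'.1 false) = 𝒟.sh (e.1 false) ∧ ∀ c, e'.1 c ∉ ball 𝒟 Γ e r}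

theorem card_cand {Γ : Finset (Edge 𝒟.V P)} (hΓ : IsGraph 𝒟 Γ) (e : Edge 𝒟.V P) (r : ℕ) :
    Q * n ≤ #(cand Γ e r) + 2 * (d + 1) ^ r := by
  have h1 : Q * n ≤ #{e' ∈ Γ | e'.2 = e.2 ∧ 𝒟.sh (e'.1 false) = 𝒟.sh (e.1 false)} := by
    refine (𝒟.lower (𝒟.sh (e.1 false)) e.2).trans ?_
    refine card_le_card_of_surjOn (fun y => y.1 false) ?_
    intro v hv
    simp only [coe_filter, mem_univ, true_and, Set.mem_ofPred_eq] at hv
    obtain ⟨y, hy, h1, h2⟩ := hΓ.ex v _ hv.2.2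
    rw [hv.1] at h1
    refine ⟨y, ?_, h1⟩
    simp only [coe_filter, Set.mem_ofPred_eq]
    exact ⟨hy, h2, by rw [h1, hv.2.1]⟩
  have h2 : #((ball 𝒟 Γ e r).biUnion fun v => {y ∈ Γ | y.2 = e.2 ∧ y.1 (𝒟.side v) = v}) ≤
      #(ball 𝒟 Γ e r) * 1 := by
    refine card_biUnion_le_card_mul _ _ _ fun v _ => card_le_one.2 fun y hy y' hy' => ?_
    simp only [mem_filter] at hy hy'
    exact hΓ.uniq y hy.1 y' hy'.1 _ (hy.2.2.trans hy'.2.2.symm) (hy.2.1.trans hy'.2.1.symm)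
  have h3 := card_ball hΓ e r
  refine h1.trans ((card_le_card (t := cand Γ e r ∪ (ball 𝒟 Γ e r).biUnion
    fun v => {y ∈ Γ | y.2 = e.2 ∧ y.1 (𝒟.side v) = v}) ?_).trans
      ((card_union_le _ _).trans (by omega)))
  intro y hy
  simp only [mem_filter] at hy
  by_cases h : ∀ c, y.1 c ∉ ball 𝒟 Γ e r
  · exact mem_union_left _ (mem_filter.2 ⟨hy.1, hy.2.1, hy.2.2, h⟩)
  · push Not at h
    obtain ⟨c, hc⟩ := h
    refine mem_union_right _ (mem_biUnion.2 ⟨_, hc, mem_filter.2 ⟨hy.1, hy.2.1, ?_⟩⟩)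
    rw [hΓ.side y hy.1 c]

theorem exists_isGraph [Fintype P] (𝒟 : Design P Sh R Q d n) : ∃ Γ, IsGraph 𝒟 Γ := by
  classical
  have hβ : ∀ a s, ∃ β : Equiv.Perm 𝒟.V, ∀ v,
      (𝒟.side v = false ∧ 𝒟.sh v = a ∧ s ∈ 𝒟.ty v) ↔
        (𝒟.side (β v) = true ∧ 𝒟.sh (β v) = a ∧ s ∈ 𝒟.ty (β v)) := by
    intro a s
    have hc : Fintype.card {v // 𝒟.side v = false ∧ 𝒟.sh v = a ∧ s ∈ 𝒟.ty v} =
        Fintype.card {v // 𝒟.side v = true ∧ 𝒟.sh v = a ∧ s ∈ 𝒟.ty v} := by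
      rw [Fintype.card_subtype, Fintype.card_subtype]
      exact 𝒟.bal a s
    let E := Fintype.equivOfCardEq hc
    refine ⟨E.extendSubtype, fun v => ⟨fun h => E.extendSubtype_mem v h, fun h => ?_⟩⟩
    by_contra h'
    exact E.extendSubtype_not_mem v h' h
  choose β hβ using hβ
  refine ⟨univ.filter fun y : Edge 𝒟.V P => 𝒟.side (y.1 false) = false ∧
    y.2 ∈ 𝒟.ty (y.1 false) ∧ y.1 true = β (𝒟.sh (y.1 false)) y.2 (y.1 false), ?_, ?_, ?_, ?_, ?_⟩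
  · intro y hy b
    simp only [mem_filter, mem_univ, true_and] at hy
    cases b
    · exact hy.1
    · rw [hy.2.2]; exact ((hβ _ _ _).1 ⟨hy.1, rfl, hy.2.1⟩).1
  · intro y hy b
    simp only [mem_filter, mem_univ, true_and] at hy
    cases b
    · exact hy.2.1
    · rw [hy.2.2]; exact ((hβ _ _ _).1 ⟨hy.1, rfl, hy.2.1⟩).2.2
  · intro y hy
    simp only [mem_filter, mem_univ, true_and] at hy
    rw [hy.2.2]; exact ((hβ _ _ _).1 ⟨hy.1, rfl, hy.2.1⟩).2.1.symm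
  · intro v s hs
    cases hv : 𝒟.side v
    · refine ⟨(fun b => if b then β (𝒟.sh v) s v else v, s), ?_, rfl, rfl⟩
      simp [hv, hs]
    · have := (hβ (𝒟.sh v) s ((β (𝒟.sh v) s).symm v)).2 (by simp [hv, hs])
      refine ⟨(fun b => if b then v else (β (𝒟.sh v) s).symm v, s), ?_, rfl, rfl⟩
      simp [this.1, this.2.1, this.2.2]
  · intro y hy y' hy' b h1 h2
    simp only [mem_filter, mem_univ, true_and] at hy hy'
    have h0 : y.1 false = y'.1 false := by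
      cases b
      · exact h1
      · have a1 := ((hβ _ _ _).1 ⟨hy.1, rfl, hy.2.1⟩).2.1
        have a2 := ((hβ _ _ _).1 ⟨hy'.1, rfl, hy'.2.1⟩).2.1
        rw [← hy.2.2] at a1
        rw [← hy'.2.2, ← h1, a1] at a2
        have a3 := hy.2.2.symm.trans (h1.trans hy'.2.2)
        rw [a2, h2] at a3
        exact (β _ _).injective a3
    exact edge_ext h0 (by rw [hy.2.2, hy'.2.2, h0, h2]) h2

theorem girth_succ {m r : ℕ} (hm : m ≤ r) (h : 2 * (d + 1) ^ r < Q * n)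
    {Γ : Finset (Edge 𝒟.V P)} (hΓ : IsGraph 𝒟 Γ) (hg : Girth Γ m) :
    ∃ Γ', IsGraph 𝒟 Γ' ∧ Girth Γ' (m + 1) := by
  classical
  let bad : Finset (Edge 𝒟.V P) → Finset (Edge 𝒟.V P) := fun Γ =>
    {y ∈ Γ | ∃ w b k t, k < m ∧ NB Γ w b k ∧ (w 0).1 (!b) = (w k).1 (alt b k) ∧ t ≤ k ∧ w t = y}
  induction hN : #(bad Γ) using Nat.strong_induction_on generalizing Γ with
  | _ N ih =>
    by_cases hb : (bad Γ).Nonempty
    · obtain ⟨e, he⟩ := hb
      have heΓ : e ∈ Γ := (mem_filter.1 he).1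
      obtain ⟨e', he'⟩ : (cand Γ e r).Nonempty := by
        rw [← card_pos]
        have := card_cand hΓ e r
        omega
      obtain ⟨he'Γ, hl, hs, hfar⟩ := mem_filter.1 he'
      refine ih _ ?_ (isGraph_swG hΓ heΓ he'Γ hl hs) (girth_swG hΓ heΓ he'Γ hl hs hg hfar hm) rfl
      rw [← hN]
      refine card_lt_card ⟨fun y hy => ?_, fun hsub => ?_⟩
      · obtain ⟨-, w, b, k, t, hk, hw, hc, ht, rfl⟩ := mem_filter.1 hy
        have := key hΓ heΓ he'Γ hl hs hg hfar hk (by omega) hw hc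
        exact mem_filter.2 ⟨(this t ht).1, w, b, k, t, hk, ⟨fun t ht => (this t ht).1, hw.2⟩,
          hc, ht, rfl⟩
      · obtain ⟨-, w, b, k, t, hk, hw, hc, ht, hy⟩ := mem_filter.1 (hsub he)
        exact (key hΓ heΓ he'Γ hl hs hg hfar hk (by omega) hw hc t ht).2.1 hy
    · refine ⟨Γ, hΓ, fun w b k hk hw hc => hb ⟨w 0, mem_filter.2 ⟨hw.1 0 (Nat.zero_le _),
        w, b, k, 0, by omega, hw, hc, Nat.zero_le _, rfl⟩⟩⟩

theorem swG_inj {Γ₁ Γ₂ : Finset (Edge 𝒟.V P)} (h₁ : IsGraph 𝒟 Γ₁) (h₂ : IsGraph 𝒟 Γ₂)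
    {e e₁ e₂ : Edge 𝒟.V P} (he₁ : e ∈ Γ₁) (he₂ : e ∈ Γ₂) {r : ℕ} (c₁ : e₁ ∈ cand Γ₁ e r)
    (c₂ : e₂ ∈ cand Γ₂ e r) (h : swG Γ₁ e e₁ = swG Γ₂ e e₂) : Γ₁ = Γ₂ ∧ e₁ = e₂ := by
  obtain ⟨m₁, l₁, s₁, -⟩ := mem_filter.1 c₁
  obtain ⟨m₂, l₂, s₂, -⟩ := mem_filter.1 c₂
  have hG := isGraph_swG h₂ he₂ m₂ l₂ s₂
  have a₁ : sw (e.1 true) (e₁.1 true) e.2 e ∈ swG Γ₂ e e₂ := h ▸ mem_image_of_mem _ he₁
  have a₂ : sw (e.1 true) (e₂.1 true) e.2 e ∈ swG Γ₂ e e₂ := mem_image_of_mem _ he₂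
  have a₃ := hG.uniq _ a₁ _ a₂ false (by simp [sw_false]) (by simp [sw_snd])
  have a₄ : e₁.1 true = e₂.1 true := by
    have := congrArg (fun y => y.1 true) a₃
    simpa [sw_true] using this
  have a₅ : Γ₁ = Γ₂ := by
    unfold swG at h
    rw [a₄] at h
    exact image_injective (Function.LeftInverse.injective (sw_sw _ _ _)) h
  subst a₅
  exact ⟨rfl, h₁.uniq _ m₁ _ m₂ true a₄ (l₁.trans l₂.symm)⟩

end Sw

open Sw

variable {P Sh : Type} [Fintype P] [DecidableEq P] [DecidableEq Sh] {R : Finset (P × P)}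
  {Q d n : ℕ}

theorem mem_graphs {𝒟 : Design P Sh R Q d n} {g : ℕ} {Γ : Finset (Edge 𝒟.V P)} :
    Γ ∈ graphs 𝒟 g ↔ IsGraph 𝒟 Γ ∧ Girth Γ g := by
  simp [graphs]

/-- Graphs of large girth exist (Erdős–Sachs by switching). -/
theorem graphs_nonempty (𝒟 : Design P Sh R Q d n) (g : ℕ)
    (h : 2 * (d + 1) ^ (g + 1) < Q * n) : (graphs 𝒟 g).Nonempty := by
  have : ∀ m ≤ g, ∃ Γ, IsGraph 𝒟 Γ ∧ Girth Γ m := by
    intro m hm
    induction m with
    | zero =>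
      obtain ⟨Γ, hΓ⟩ := exists_isGraph 𝒟
      exact ⟨Γ, hΓ, fun _ _ _ hk => by omega⟩
    | succ m ih =>
      obtain ⟨Γ, hΓ, hg⟩ := ih (by omega)
      exact girth_succ (r := g + 1) (by omega) h hΓ hg
  obtain ⟨Γ, hΓ⟩ := this g le_rfl
  exact ⟨Γ, mem_graphs.2 hΓ⟩

open Classical in
/-- Probability that a graph of large girth contains prescribed edges. -/
theorem switch_bound (𝒟 : Design P Sh R Q d n) (g k : ℕ) (Δ : Finset (Edge 𝒟.V P))
    (hΔ : Δ.card ≤ k) :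
    #{Γ ∈ graphs 𝒟 g | Δ ⊆ Γ} * (Q * n - (k + 2 * (d + 1) ^ (g + 1))) ^ Δ.card ≤
      #(graphs 𝒟 g) := by
  induction Δ using Finset.induction_on with
  | empty => simp
  | insert e Δ he ih =>
    rw [card_insert_of_notMem he] at hΔ ⊢
    refine le_trans ?_ (ih (by omega))
    rw [pow_succ', ← mul_assoc]
    refine Nat.mul_le_mul_right _ ?_
    calc _ ≤ ∑ Γ ∈ {Γ ∈ graphs 𝒟 g | insert e Δ ⊆ Γ}, #(cand Γ e (g + 1) \ Δ) := by
          rw [← smul_eq_mul]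
          refine card_nsmul_le_sum _ _ _ fun Γ hΓ => ?_
          have h1 := card_cand (mem_graphs.1 (mem_filter.1 hΓ).1).1 e (g + 1)
          have h2 := le_card_sdiff Δ (cand Γ e (g + 1))
          omega
      _ = #(({Γ ∈ graphs 𝒟 g | insert e Δ ⊆ Γ}).sigma fun Γ => cand Γ e (g + 1) \ Δ) :=
          (card_sigma _ _).symm
      _ ≤ _ := by
          refine card_le_card_of_injOn (fun a => swG a.1 e a.2) ?_ ?_
          · rintro ⟨Γ, e'⟩ ha
            simp only [coe_sigma, Set.mem_sigma_iff, coe_filter, Set.mem_ofPred_eq, coe_sdiff,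
              Set.mem_sdiff, mem_coe, mem_graphs] at ha ⊢
            obtain ⟨⟨⟨hΓ, hg⟩, hsub⟩, hc, hn⟩ := ha
            obtain ⟨he', hl, hs, hfar⟩ := mem_filter.1 hc
            have heΓ := hsub (mem_insert_self _ _)
            refine ⟨⟨isGraph_swG hΓ heΓ he' hl hs,
              girth_swG hΓ heΓ he' hl hs hg hfar (by omega)⟩, fun y hy => ?_⟩
            have hyΓ := hsub (mem_insert_of_mem hy)
            exact mem_image.2 ⟨y, hyΓ, sw_eq hΓ heΓ he' hl hyΓ (fun h => he (h ▸ hy))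
              (fun h => hn (h ▸ hy))⟩
          · rintro ⟨Γ₁, e₁⟩ h₁ ⟨Γ₂, e₂⟩ h₂ h
            simp only [coe_sigma, Set.mem_sigma_iff, coe_filter, Set.mem_ofPred_eq, coe_sdiff,
              Set.mem_sdiff, mem_coe, mem_graphs] at h₁ h₂
            obtain ⟨rfl, rfl⟩ := swG_inj h₁.1.1.1 h₂.1.1.1 (h₁.1.2 (mem_insert_self _ _))
              (h₂.1.2 (mem_insert_self _ _)) h₁.2.1 h₂.2.1 h
            rfl

end Crest.Agent.R177
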