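import Crest.Agent.R177.Defs
import Crest.Agent.R177.Switch
import Crest.Agent.R177.Levels1

set_option autoImplicit false
set_option linter.unusedSectionVars false

namespace Crest.Agent.R177

open Finset

namespace Lev

section

variable {P Sh : Type} [Fintype P] [DecidableEq P] [DecidableEq Sh] {R : Finset (P × P)}
  {Q d n : ℕ} (𝒟 : Design P Sh R Q d n) {Γ₀ : Finset (Edge 𝒟.V P)} {D : Gem}
  {ε : D.F → Edge 𝒟.V P}

lemma lab_ne {Γ : Finset (Edge 𝒟.V P)} (hL : Lab Γ₀ D ε) (hΓ : IsGraph 𝒟 Γ)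
    {θ : D.F → Edge 𝒟.V P} (hθ : ∀ x, θ x ∈ Γ) (hc : Copy 𝒟.sh D ε θ) {b : Bool} {x : D.F}
    (hg : Good D ε b x) : (θ (D.σ (rad b) x)).1 b = (θ x).1 b ∧ (θ x).2 ≠ (θ (D.σ (rad b) x)).2 := by
  have h1 : (θ (D.σ (rad b) x)).1 b = (θ x).1 b := hc.vtx _ _ b (hL.vtx x b)
  refine ⟨h1, fun h => hL.red x _ (hg x rfl).1.1 ((hc.eq _ _).1 ?_)⟩
  exact hΓ.uniq _ (hθ _) _ (hθ _) b h1 h.symm

open Classical in
/-- Number of label patterns on level `j`. -/
lemma count_labels (hL : Lab Γ₀ D ε) {J K : ℕ} (hJ : ∀ x, mult D ε x ≤ J) (hRK : R.card ≤ K)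
    (j : ℕ) (Ω' : Finset (Finset (Edge 𝒟.V P))) (hΩ : ∀ Γ ∈ Ω', IsGraph 𝒟 Γ)
    (th : Finset (Edge 𝒟.V P) → D.F → Edge 𝒟.V P) (hth : ∀ Γ ∈ Ω', ∀ x, th Γ x ∈ Γ)
    (hc : ∀ Γ ∈ Ω', Copy 𝒟.sh D ε (th Γ)) :
    #(Ω'.image fun Γ x => if j ≤ mult D ε x then some (th Γ x).2 else none) ≤
      Fintype.card P ^ #{x | ¬ Good D ε true x} *
        K ^ #{l ∈ ({l | ld D ε true l = l ∧ Free D ε J l} : Finset D.F) | j ≤ mult D ε l} := by
  set Bad : Finset D.F := {x | ¬ Good D ε true x} with hBad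
  set Fr : Finset D.F :=
    {l ∈ ({l | ld D ε true l = l ∧ Free D ε J l} : Finset D.F) | j ≤ mult D ε l} with hFr
  have hdisj : Disjoint Bad Fr := by
    rw [disjoint_left]
    intro x hx hx'
    simp only [hBad, hFr, mem_filter, mem_univ, true_and] at hx hx'
    exact hx hx'.1.2.1
  refine (card_image_le_prod Ω' _ (Bad ∪ Fr)
    (fun Γ x => if Good D ε true x then ((th Γ x).2, (th Γ (D.σ (rad true) x)).2)
      else ((th Γ x).2, (th Γ x).2))
    (fun x => if Good D ε true x then R else (univ : Finset P).diag) ?_ ?_).trans ?_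
  · intro Γ hΓ x _
    split_ifs with hg
    · obtain ⟨h1, h2⟩ := lab_ne 𝒟 hL (hΩ Γ hΓ) (hth Γ hΓ) (hc Γ hΓ) hg
      refine 𝒟.blk ((th Γ x).1 true) ((hΩ Γ hΓ).side _ (hth Γ hΓ x) true) _
        ((hΩ Γ hΓ).mem _ (hth Γ hΓ x) true) _ ?_ h2
      rw [← h1]
      exact (hΩ Γ hΓ).mem _ (hth Γ hΓ _) true
    · simp
  · intro Γ hΓ Γ' hΓ' h
    funext x
    split_ifs with hx
    · congr 1
      refine labels_det hL hJ j (fun x => (th Γ x).2) (fun x => (th Γ' x).2)
        (fun x y hxy => by rw [((hc Γ hΓ).eq x y).2 hxy])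
        (fun x y hxy => by rw [((hc Γ' hΓ').eq x y).2 hxy]) (hc Γ hΓ).lab (hc Γ' hΓ').lab
        ?_ ?_ x hx
      · intro y hy
        have := h y (mem_union_left _ (by simpa [hBad] using hy))
        simp only [if_neg hy, Prod.mk.injEq, and_self] at this
        exact this
      · intro l h1 h2 h3
        have := h l (mem_union_right _ (by simp [hFr, h1, h2, h3]))
        simp only [if_pos h2.1, Prod.mk.injEq] at this
        exact this
    · rfl
  · rw [prod_union hdisj]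
    refine Nat.mul_le_mul ?_ ?_
    · refine prod_le_pow_card _ _ _ fun x hx => ?_
      rw [if_neg (by simpa [hBad] using hx)]
      simp
    · refine prod_le_pow_card _ _ _ fun x hx => ?_
      simp only [hFr, mem_filter, mem_univ, true_and] at hx
      rw [if_pos hx.1.2.1]
      exact hRK

open Classical in
/-- Number of vertex patterns on level `j` once the labels are fixed. -/
lemma count_vertices (hL : Lab Γ₀ D ε) (hQ : 1 ≤ Q) (j : ℕ) (pin : Option (D.F × 𝒟.V))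
    (hpin : ∀ a ∈ pin, j ≤ mult D ε a.1)
    (Ω' : Finset (Finset (Edge 𝒟.V P))) (hΩ : ∀ Γ ∈ Ω', IsGraph 𝒟 Γ)
    (th : Finset (Edge 𝒟.V P) → D.F → Edge 𝒟.V P) (hth : ∀ Γ ∈ Ω', ∀ x, th Γ x ∈ Γ)
    (hc : ∀ Γ ∈ Ω', Copy 𝒟.sh D ε (th Γ)) (hp : ∀ Γ ∈ Ω', ∀ a ∈ pin, (th Γ a.1).1 false = a.2)
    (Γ₁ : Finset (Edge 𝒟.V P)) (hΓ₁ : Γ₁ ∈ Ω')
    (hlab : ∀ Γ ∈ Ω', ∀ x, j ≤ mult D ε x → (th Γ x).2 = (th Γ₁ x).2) :
    #(Ω'.image fun Γ => ({x | j ≤ mult D ε x} : Finset D.F).image (th Γ)) *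
      (Q ^ #{l ∈ ({l | ld D ε false l = l ∧ Good D ε false l} : Finset D.F) | j ≤ mult D ε l} *
        (Q * (n + 1)) ^ (if pin.isSome then 1 else 0)) ≤
      (Q * (n + 1)) ^ (#{l ∈ ({l | ld D ε false l = l} : Finset D.F) | j ≤ mult D ε l} +
        #{l ∈ ({l | ld D ε true l = l} : Finset D.F) | j ≤ mult D ε l}) *
        Q ^ (if pin.isSome then 1 else 0) := by
  set I : Bool → Finset D.F :=
    fun b => {l ∈ ({l | ld D ε b l = l} : Finset D.F) | j ≤ mult D ε l} with hI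
  let isPin : D.F → Prop := fun l => ∃ a ∈ pin, ld D ε false a.1 = l
  let T : (Σ _ : Bool, D.F) → Finset 𝒟.V := fun i =>
    if i.1 = false ∧ isPin i.2 then (pin.map Prod.snd).toFinset
    else if i.1 = false ∧ Good D ε false i.2 then
      ({v | 𝒟.side v = false ∧ 𝒟.sh v = 𝒟.sh ((ε i.2).1 false) ∧ (th Γ₁ i.2).2 ∈ 𝒟.ty v ∧
        (th Γ₁ (D.σ (rad false) i.2)).2 ∈ 𝒟.ty v} : Finset 𝒟.V)
    else ({v | 𝒟.side v = i.1 ∧ 𝒟.sh v = 𝒟.sh ((ε i.2).1 false) ∧ (th Γ₁ i.2).2 ∈ 𝒟.ty v} :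
      Finset 𝒟.V)
  have h1 := card_image_le_prod Ω'
    (fun Γ => ({x | j ≤ mult D ε x} : Finset D.F).image (th Γ)) ((univ : Finset Bool).sigma I)
    (fun Γ i => (th Γ i.2).1 i.1) T
    (by
      rintro Γ hΓ ⟨b, l⟩ hi
      simp only [hI, mem_sigma, mem_univ, true_and, mem_filter] at hi
      have hG := hΩ Γ hΓ
      have hs : 𝒟.sh ((th Γ l).1 b) = 𝒟.sh ((ε l).1 false) := by
        rw [← (hc Γ hΓ).sh l]
        cases b
        · rfl
        · exact (hG.sh _ (hth Γ hΓ l)).symm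
      have hm : (th Γ₁ l).2 ∈ 𝒟.ty ((th Γ l).1 b) := by
        rw [← hlab Γ hΓ l hi.2]
        exact hG.mem _ (hth Γ hΓ l) b
      simp only [T]
      split_ifs with h2 h3
      · obtain ⟨rfl, a, ha, rfl⟩ := h2
        rw [(hc Γ hΓ).vtx _ _ false (ld_vtx false a.1), hp Γ hΓ a ha]
        simp only [Option.mem_toFinset, Option.mem_map]
        exact ⟨a, ha, rfl⟩
      · obtain ⟨rfl, h3⟩ := h3
        simp only [mem_filter, mem_univ, true_and]
        refine ⟨hG.side _ (hth Γ hΓ l) false, hs, hm, ?_⟩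
        rw [← hlab Γ hΓ _ (by rw [good_mult_σ hL h3]; exact hi.2),
          ← (lab_ne 𝒟 hL hG (hth Γ hΓ) (hc Γ hΓ) h3).1]
        exact hG.mem _ (hth Γ hΓ _) false
      · simp only [mem_filter, mem_univ, true_and]
        exact ⟨hG.side _ (hth Γ hΓ l) b, hs, hm⟩)
    (by
      intro Γ hΓ Γ' hΓ' h
      refine image_congr fun x hx => ?_
      simp only [coe_filter, mem_univ, true_and, Set.mem_ofPred_eq] at hx
      refine Prod.ext (funext fun b => ?_) ((hlab Γ hΓ x hx).trans (hlab Γ' hΓ' x hx).symm)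
      have := h ⟨b, ld D ε b x⟩ (by
        simp only [hI, mem_sigma, mem_univ, true_and, mem_filter]
        exact ⟨ld_ld b x, hx.trans (le_ld b x)⟩)
      simp only at this
      rw [← (hc Γ hΓ).vtx _ _ b (ld_vtx b x), this, (hc Γ' hΓ').vtx _ _ b (ld_vtx b x)])
  rw [prod_sigma, Fintype.prod_bool] at h1
  have hq : ∀ (b : Bool) a s, #{v | 𝒟.side v = b ∧ 𝒟.sh v = a ∧ s ∈ 𝒟.ty v} ≤ Q * (n + 1) := by
    intro b a s
    cases b
    · exact 𝒟.upper a s
    · rw [← 𝒟.bal]; exact 𝒟.upper a s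
  have h2 : ∏ l ∈ I true, #(T ⟨true, l⟩) ≤ (Q * (n + 1)) ^ #(I true) := by
    refine prod_le_pow_card _ _ _ fun l _ => ?_
    simp only [T, Bool.true_eq_false, false_and, if_false]
    exact hq _ _ _
  have hcp : #{l ∈ I false | isPin l} = if pin.isSome then 1 else 0 := by
    rcases pin with _ | a
    · simp [isPin]
    · simp only [Option.isSome_some, if_true, card_eq_one]
      refine ⟨ld D ε false a.1, ?_⟩
      ext l
      simp only [hI, isPin, mem_filter, mem_univ, true_and, mem_singleton, Option.mem_def,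
        Option.some.injEq, exists_eq_left']
      constructor
      · exact fun h => h.2.symm
      · rintro rfl
        exact ⟨⟨ld_ld _ _, (hpin a rfl).trans (le_ld _ _)⟩, rfl⟩
  have hcg : #{l ∈ ({l | ld D ε false l = l ∧ Good D ε false l} : Finset D.F) | j ≤ mult D ε l} =
      #{l ∈ I false | Good D ε false l} := by
    congr 1
    ext l
    simp only [hI, mem_filter, mem_univ, true_and]
    tauto
  have h3 : (∏ l ∈ I false, #(T ⟨false, l⟩)) * (Q ^ #{l ∈ I false | Good D ε false l} *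
      (Q * (n + 1)) ^ #{l ∈ I false | isPin l}) ≤
      (Q * (n + 1)) ^ #(I false) * Q ^ #{l ∈ I false | isPin l} := by
    rw [← prod_const, ← prod_const, ← prod_const, ← prod_const, prod_filter (Good D ε false),
      prod_filter isPin, prod_filter isPin, ← prod_mul_distrib, ← prod_mul_distrib, ← prod_mul_distrib]
    refine prod_le_prod' fun l _ => ?_
    simp only [T, true_and]
    split_ifs with h4 h5 h5
    · have : #(pin.map Prod.snd).toFinset ≤ 1 := by
        rcases pin with _ | a <;> simp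
      calc _ ≤ 1 * (Q * (Q * (n + 1))) := by gcongr
        _ = _ := by ring
    · have : #(pin.map Prod.snd).toFinset ≤ 1 := by
        rcases pin with _ | a <;> simp
      calc _ ≤ 1 * (Q * (Q * (n + 1))) := Nat.mul_le_mul this (Nat.mul_le_mul_right _ hQ)
        _ = _ := by ring
    · have := 𝒟.two (𝒟.sh ((ε l).1 false)) _ _
        (lab_ne 𝒟 hL (hΩ Γ₁ hΓ₁) (hth Γ₁ hΓ₁) (hc Γ₁ hΓ₁) h5).2
      calc _ ≤ (n + 1) * (Q * 1) := by gcongr
        _ = _ := by ring
    · simpa using hq _ _ _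
  rw [hcg, ← hcp, pow_add]
  calc _ ≤ ((∏ l ∈ I true, #(T ⟨true, l⟩)) * ∏ l ∈ I false, #(T ⟨false, l⟩)) *
        (Q ^ #{l ∈ I false | Good D ε false l} * (Q * (n + 1)) ^ #{l ∈ I false | isPin l}) := by
        gcongr
    _ ≤ (Q * (n + 1)) ^ #(I true) * ((Q * (n + 1)) ^ #(I false) * Q ^ #{l ∈ I false | isPin l}) := by
        rw [mul_assoc]
        gcongr
    _ = _ := by ring

open Classical in
/-- First moment bound on one level. -/
lemma level (hL : Lab Γ₀ D ε) (hQ : 1 ≤ Q) {g J K N₁ : ℕ} (hJ : ∀ x, mult D ε x ≤ J)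
    (hRK : R.card ≤ K) (hN₁ : N₁ + D.area + 2 * (d + 1) ^ (g + 1) ≤ Q * n) (hpos : 0 < N₁)
    (j : ℕ) (pin : Option (D.F × 𝒟.V)) (hpin : ∀ a ∈ pin, j ≤ mult D ε a.1)
    (Ω' : Finset (Finset (Edge 𝒟.V P))) (hsub : Ω' ⊆ graphs 𝒟 g)
    (th : Finset (Edge 𝒟.V P) → D.F → Edge 𝒟.V P) (hth : ∀ Γ ∈ Ω', ∀ x, th Γ x ∈ Γ)
    (hc : ∀ Γ ∈ Ω', Copy 𝒟.sh D ε (th Γ)) (hp : ∀ Γ ∈ Ω', ∀ a ∈ pin, (th Γ a.1).1 false = a.2) :
    #Ω' * N₁ ^ #{e ∈ univ.image ε | j ≤ #{x | ε x = e}} *
      (Q ^ #{l ∈ ({l | ld D ε false l = l ∧ Good D ε false l} : Finset D.F) | j ≤ mult D ε l} *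
        (Q * (n + 1)) ^ (if pin.isSome then 1 else 0)) ≤
      #(graphs 𝒟 g) * (Fintype.card P ^ #{x | ¬ Good D ε true x} *
        K ^ #{l ∈ ({l | ld D ε true l = l ∧ Free D ε J l} : Finset D.F) | j ≤ mult D ε l} *
      ((Q * (n + 1)) ^ (#{l ∈ ({l | ld D ε false l = l} : Finset D.F) | j ≤ mult D ε l} +
        #{l ∈ ({l | ld D ε true l = l} : Finset D.F) | j ≤ mult D ε l}) *
        Q ^ (if pin.isSome then 1 else 0))) := by
  have hΩ : ∀ Γ ∈ Ω', IsGraph 𝒟 Γ := fun Γ hΓ => by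
    have := hsub hΓ
    simp only [graphs, mem_filter, mem_univ, true_and] at this
    exact this.1
  set Δ : Finset (Edge 𝒟.V P) → Finset (Edge 𝒟.V P) :=
    fun Γ => ({x | j ≤ mult D ε x} : Finset D.F).image (th Γ) with hΔ
  set E := #{e ∈ univ.image ε | j ≤ #{x | ε x = e}} with hE
  have h1 : #Ω' * N₁ ^ E ≤ #(Ω'.image Δ) * #(graphs 𝒟 g) := by
    have := card_image_mul_le Ω' Δ id (N₁ ^ E) #(graphs 𝒟 g) (by
      intro Γ hΓ
      rw [image_id]
      have hs := switch_bound 𝒟 g D.area (Δ Γ) (card_image_le.trans (card_le_univ _))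
      refine le_trans (Nat.mul_le_mul (card_le_card ?_) ?_) hs
      · intro Γ' hΓ'
        obtain ⟨h2, h3⟩ := mem_filter.1 hΓ'
        refine mem_filter.2 ⟨hsub h2, ?_⟩
        rw [← h3]
        intro e he
        obtain ⟨x, -, rfl⟩ := mem_image.1 he
        exact hth Γ' h2 x
      · have h2 : E ≤ #(Δ Γ) := by
          have h3 : ({e ∈ univ.image ε | j ≤ #{x | ε x = e}} : Finset _) =
              ({x | j ≤ mult D ε x} : Finset D.F).image ε := by
            ext e
            simp only [mem_filter, mem_image, mem_univ, true_and, mult]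
            constructor
            · rintro ⟨⟨x, rfl⟩, h⟩
              exact ⟨x, h, rfl⟩
            · rintro ⟨x, h, rfl⟩
              exact ⟨⟨x, rfl⟩, h⟩
          rw [hE, h3]
          exact card_image_le_of_det _ (th Γ) _ (fun x hx => mem_image_of_mem _ hx) ε
            fun x _ y _ h => ((hc Γ hΓ).eq x y).1 h
        exact (Nat.pow_le_pow_right hpos h2).trans (Nat.pow_le_pow_left (by omega) _))
    rwa [image_id] at this
  have h2 := card_image_mul_le Ω'
    (fun Γ x => if j ≤ mult D ε x then some (th Γ x).2 else none) Δ _ _ (by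
      intro Γ₁ hΓ₁
      refine count_vertices 𝒟 hL hQ j pin hpin _ (fun Γ hΓ => hΩ Γ (mem_filter.1 hΓ).1) th
        (fun Γ hΓ => hth Γ (mem_filter.1 hΓ).1) (fun Γ hΓ => hc Γ (mem_filter.1 hΓ).1)
        (fun Γ hΓ => hp Γ (mem_filter.1 hΓ).1) Γ₁ (mem_filter.2 ⟨hΓ₁, rfl⟩) ?_
      intro Γ hΓ x hx
      have := congrFun (mem_filter.1 hΓ).2 x
      simpa [hx] using this)
  have h3 := count_labels 𝒟 hL hJ hRK j Ω' hΩ th hth hc
  refine (Nat.mul_le_mul_right _ h1).trans ?_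
  rw [mul_comm #(Ω'.image Δ), mul_assoc]
  exact Nat.mul_le_mul_left _ (h2.trans (Nat.mul_le_mul_right _ h3))

end

lemma log_step {w G N E Q a q p C b K f W : ℕ} (hw : 0 < w) (hN : 0 < N) (hQ : 0 < Q)
    (hq : 0 < q) (hK : 0 < K)
    (h : w * N ^ E * (Q ^ a * q ^ p) ≤ G * (C ^ b * K ^ f * (q ^ W * Q ^ p))) :
    Real.log ((w : ℝ) / G) ≤ b * Real.log (C + 1) + f * Real.log K + W * Real.log q -
      a * Real.log Q - E * Real.log N - p * (Real.log q - Real.log Q) := by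
  have h' : w * N ^ E * (Q ^ a * q ^ p) ≤ G * ((C + 1) ^ b * K ^ f * (q ^ W * Q ^ p)) :=
    h.trans (by gcongr; omega)
  have hG : 0 < G := by
    rcases Nat.eq_zero_or_pos G with rfl | hG
    · have : 0 < w * N ^ E * (Q ^ a * q ^ p) := by positivity
      omega
    · exact hG
  have h2 : (w : ℝ) * N ^ E * (Q ^ a * q ^ p) ≤ G * ((C + 1) ^ b * K ^ f * (q ^ W * Q ^ p)) := by
    exact_mod_cast h'
  have h3 := Real.log_le_log (by positivity) h2
  have hw' : (0 : ℝ) < w := by exact_mod_cast hw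
  have hN' : (0 : ℝ) < N := by exact_mod_cast hN
  have hQ' : (0 : ℝ) < Q := by exact_mod_cast hQ
  have hq' : (0 : ℝ) < q := by exact_mod_cast hq
  have hK' : (0 : ℝ) < K := by exact_mod_cast hK
  have hG' : (0 : ℝ) < G := by exact_mod_cast hG
  rw [Real.log_mul (by positivity) (by positivity), Real.log_mul (by positivity) (by positivity),
    Real.log_mul (by positivity) (by positivity), Real.log_mul (by positivity) (by positivity),
    Real.log_mul (by positivity) (by positivity), Real.log_mul (by positivity) (by positivity),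
    Real.log_mul (by positivity) (by positivity)] at h3
  simp only [Real.log_pow] at h3
  rw [Real.log_div hw'.ne' hG'.ne']
  linarith

end Lev

open Lev in
/-- First moment bound, multiplied over the multiplicity levels of a reference configuration. -/
theorem levels {P Sh : Type} [Fintype P] [DecidableEq P] [DecidableEq Sh] {R : Finset (P × P)}
    {Q d n : ℕ} (𝒟 : Design P Sh R Q d n) (g J E₀ K N₁ : ℕ) (hQ : 1 ≤ Q) (hK : 1 ≤ K)
    (hRK : R.card ≤ K) (hJ1 : 1 ≤ J)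
    (Γ₀ : Finset (Edge 𝒟.V P)) (hΓ₀ : IsGraph 𝒟 Γ₀) (D : Gem) (ε : D.F → Edge 𝒟.V P)
    (hL : Lab Γ₀ D ε) (hJ : ∀ e, #{x | ε x = e} ≤ J) (hE : excN D ε + D.np ≤ E₀)
    (hN₁ : N₁ + D.area + 2 * (d + 1) ^ (g + 1) ≤ Q * n) (hpos : 0 < N₁)
    (pin : Option (D.F × 𝒟.V))
    (Ω' : Finset (Finset (Edge 𝒟.V P))) (hsub : Ω' ⊆ graphs 𝒟 g) (hne : Ω'.Nonempty)
    (hcopy : ∀ Γ ∈ Ω', ∃ θ : D.F → Edge 𝒟.V P, (∀ x, θ x ∈ Γ) ∧ Copy 𝒟.sh D ε θ ∧
      ∀ a ∈ pin, (θ a.1).1 false = a.2) :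
    (J : ℝ) * Real.log ((#Ω' : ℝ) / #(graphs 𝒟 g)) ≤
      ((D.X : ℝ) / 2 - (if pin.isSome then 1 else 0)) * Real.log (Q * (n + 1)) +
      D.area * Real.log (Q * (n + 1) / N₁) + ((D.area : ℝ) + D.B) / 4 * Real.log K -
      (D.area : ℝ) / 2 * Real.log Q +
      ((J : ℝ) + 1) * (E₀ * d * J + 1) *
        (Real.log (Fintype.card P + 1) + Real.log K + Real.log Q) := by
  classical
  have : Nonempty (D.F → Edge 𝒟.V P) := ⟨ε⟩
  choose! th hth hc hp using hcopy
  have hJ' : ∀ x, mult D ε x ≤ J := fun x => hJ _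
  have hq : 0 < Q * (n + 1) := by positivity
  have hlev := fun j (hj : j ∈ Icc 1 J) => log_step hne.card_pos hpos hQ hq hK
    (level 𝒟 hL hQ hJ' hRK hN₁ hpos j (if j = 1 then pin else none)
      (by
        intro a ha
        split_ifs at ha with h
        · rw [h]; exact mult_pos _
        · simp at ha) Ω' hsub th hth hc
      (by
        intro Γ hΓ a ha
        split_ifs at ha with h
        · exact hp Γ hΓ a ha
        · simp at ha))
  have hsum := sum_le_sum hlev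
  simp only [sum_add_distrib, sum_sub_distrib, ← sum_mul, ← Nat.cast_sum, Nat.cast_add, add_mul]
    at hsum
  rw [sum_levels _ _ J (fun x _ => hJ' x), sum_levels _ _ J (fun x _ => hJ' x),
    sum_levels _ _ J (fun x _ => hJ' x), sum_levels _ _ J (fun x _ => hJ' x),
    sum_levels _ (fun e => #{x | ε x = e}) J (fun e _ => hJ e),
    ← card_eq_sum_card_image] at hsum
  have hpin : ∑ j ∈ Icc 1 J, (if (if j = 1 then pin else none).isSome then 1 else 0) =
      if pin.isSome then 1 else 0 := by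
    rw [sum_eq_single 1]
    · simp
    · intro j _ hj
      simp [hj]
    · intro h
      exact absurd (mem_Icc.2 ⟨le_rfl, hJ1⟩) h
  rw [hpin] at hsum
  simp only [sum_const, Nat.card_Icc, add_tsub_cancel_right, smul_eq_mul, nsmul_eq_mul, card_univ,
    Nat.cast_mul, Nat.cast_add, Nat.cast_one, Nat.cast_ite, Nat.cast_zero] at hsum
  have h1 := sum_ld_le hL false
  have h2 := sum_ld_le hL true
  have h3 := sum_ld_good hL true (Free D ε J) (fun x y h => free_congr J h) (fun x h => h.1)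
  have h4 := sum_ld_good hL false (Good D ε false) (fun x y h => good_congr h) (fun x h => h)
  have h5 := free_card hL hΓ₀.uniq J
  have h6 := bad_card 𝒟 hΓ₀ hL hJ hE true
  have h7 := bad_card 𝒟 hΓ₀ hL hJ hE false
  have h8 := card_filter_add_card_filter_not (s := (univ : Finset D.F)) (fun x => Good D ε false x)
  clear hlev
  rw [card_univ] at h8
  generalize ∑ l with ld D ε false l = l, mult D ε l = Wf at *
  generalize ∑ l with ld D ε true l = l, mult D ε l = Wt at *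
  generalize ∑ l with ld D ε true l = l ∧ Free D ε J l, mult D ε l = Fr at *
  generalize ∑ l with ld D ε false l = l ∧ Good D ε false l, mult D ε l = Gd at *
  generalize #{x | ¬ Good D ε true x} = Bt at *
  have hA : Fintype.card D.F = D.area := rfl
  rw [hA] at hsum h8
  have e1 : 2 * (Wf + Wt) ≤ 2 * D.area + D.X := by
    simp only [rad] at h1 h2
    unfold Gem.X
    omega
  have e2 : 4 * Fr ≤ D.area + D.B := by omega
  have e3 : D.area ≤ 2 * Gd + E₀ * d * J := by omega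
  have e1' : 2 * ((Wf : ℝ) + Wt) ≤ 2 * D.area + D.X := by exact_mod_cast e1
  have e2' : 4 * (Fr : ℝ) ≤ D.area + D.B := by exact_mod_cast e2
  have e3' : (D.area : ℝ) ≤ 2 * Gd + E₀ * d * J := by exact_mod_cast e3
  have e4' : (Bt : ℝ) ≤ E₀ * d * J := by exact_mod_cast h6
  have hQ' : (1 : ℝ) ≤ Q := by exact_mod_cast hQ
  have hN' : (0 : ℝ) < N₁ := by exact_mod_cast hpos
  have hn' : (0 : ℝ) ≤ n := by positivity
  have hJ0 : (0 : ℝ) ≤ J := by positivity
  have lQ : 0 ≤ Real.log Q := Real.log_nonneg hQ'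
  have lK : 0 ≤ Real.log K := Real.log_nonneg (by exact_mod_cast hK)
  have lP : 0 ≤ Real.log (Fintype.card P + 1) :=
    Real.log_nonneg (by have : (0 : ℝ) ≤ Fintype.card P := by positivity
                        linarith)
  have lq : 0 ≤ Real.log (Q * (n + 1)) := Real.log_nonneg (by nlinarith)
  rw [Real.log_div (by positivity) hN'.ne']
  generalize Real.log (Q * (n + 1)) = a at *
  generalize Real.log (Q : ℝ) = b at *
  generalize Real.log (K : ℝ) = c at *
  generalize Real.log ((Fintype.card P : ℝ) + 1) = e at *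
  have hD : (0 : ℝ) ≤ E₀ * d * J := by positivity
  generalize (E₀ * d * J : ℝ) = D2 at *
  have f1 : (Wf + Wt) * a ≤ (D.area + D.X / 2) * a :=
    mul_le_mul_of_nonneg_right (by linarith) lq
  have f2 : Fr * c ≤ (D.area + D.B) / 4 * c := by gcongr; linarith
  have f3 : (D.area - D2) / 2 * b ≤ Gd * b := by gcongr; linarith
  have f4 : J * Bt * e ≤ (J + 1) * (D2 + 1) * e := by gcongr <;> linarith
  have f5 : (D2 / 2 + 1) * b ≤ (J + 1) * (D2 + 1) * b := by gcongr; nlinarith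
  have f6 : 0 ≤ (J + 1) * (D2 + 1) * c := by positivity
  split_ifs at hsum ⊢ <;> linarith

end Crest.Agent.R177
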