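import Crest.Agent.R177.Levels
import Crest.Agent.R177.Keys

set_option autoImplicit false

namespace Crest.Agent.R177

open Finset Filter

theorem Lab.seeds {V P : Type} {Γ : Finset (Edge V P)} {D : Gem} {ε : D.F → Edge V P}
    (hL : Lab Γ D ε) {g M : ℕ} (hg : Girth Γ g) (hg0 : 0 < g) (hA : D.area ≤ M * g)
    (hM : D.np ≤ M) (x₀ : D.F) :
    ∃ z : Option (Fin (17 * M)) → D.F, z none = x₀ ∧ D.Covers z (2 * (g / 16)) := by
  obtain ⟨Z, hZ, hcov⟩ := hL.cover hg (g / 16) (by omega)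
  have hZ' : Z.card ≤ 17 * M := by
    apply Nat.le_of_mul_le_mul_right _ (show 0 < g / 16 + 1 by omega)
    have h1 : g ≤ 16 * (g / 16 + 1) := by omega
    have h2 : M * g ≤ M * (16 * (g / 16 + 1)) := Nat.mul_le_mul_left _ h1
    have h3 : D.np * (g / 16 + 1) ≤ M * (g / 16 + 1) := Nat.mul_le_mul_right _ hM
    nlinarith
  refine ⟨fun o => o.elim x₀ fun k => if h : k.1 < Z.card then (Z.equivFin.symm ⟨k, h⟩).1 else x₀,
    rfl, fun x => ?_⟩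
  obtain ⟨w, hw, b, t, h1, h2, h3⟩ := hcov x
  have hk : (Z.equivFin ⟨w, hw⟩).1 < Z.card := (Z.equivFin ⟨w, hw⟩).2
  refine ⟨((some ⟨(Z.equivFin ⟨w, hw⟩).1, by omega⟩, b), t), ⟨h1, ?_⟩, ?_⟩
  · simpa [hk] using h2
  · simpa [Gem.psi, hk] using h3

theorem eventually_log_le (c₂ c₃ : ℝ) :
    ∀ᶠ g : ℕ in atTop, c₂ + c₃ * Real.log ((g : ℝ) + 1) ≤ g := by
  have h1 : Tendsto (fun g : ℕ => (g : ℝ) + 1) atTop atTop :=
    tendsto_atTop_add_const_right _ _ tendsto_natCast_atTop_atTop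
  have h2 := (Real.isLittleO_log_id_atTop.comp_tendsto h1).bound
    (show 0 < 1 / (4 * (|c₃| + 1)) by positivity)
  filter_upwards [h2, tendsto_natCast_atTop_atTop (R := ℝ).eventually_ge_atTop (2 * |c₂| + 1)]
    with g hg hg'
  simp only [Function.comp, id, Real.norm_eq_abs] at hg
  have h3 : |(g : ℝ) + 1| = g + 1 := abs_of_nonneg (by positivity)
  rw [h3] at hg
  have h4 : c₃ * Real.log ((g : ℝ) + 1) ≤ (|c₃| + 1) * |Real.log ((g : ℝ) + 1)| := by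
    calc _ ≤ |c₃ * Real.log ((g : ℝ) + 1)| := le_abs_self _
      _ = |c₃| * |Real.log ((g : ℝ) + 1)| := abs_mul _ _
      _ ≤ _ := by gcongr; linarith
  have h5 : (|c₃| + 1) * |Real.log ((g : ℝ) + 1)| ≤ (g + 1) / 4 := by
    calc _ ≤ (|c₃| + 1) * (1 / (4 * (|c₃| + 1)) * (g + 1)) := by gcongr
      _ = _ := by field_simp
  have h6 := le_abs_self c₂
  have h7 := abs_nonneg c₂
  linarith

/-- Numerical facts about the size of the graph. -/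
theorem size_facts (Q d M g : ℕ) (hQ : 2 ≤ Q) (η : ℝ) (hη : 0 < η) (hg1 : 1 ≤ g)
    (hg : (Q + (1 + η) * (M + 2 * (d + 2))) / η ≤ g) :
    M * g + 2 * (d + 1) ^ (g + 1) < Q * (2 * (d + 2) ^ (2 * g)) ∧
    Real.log (Q * (((2 * (d + 2) ^ (2 * g) : ℕ) : ℝ) + 1) /
      ((Q * (2 * (d + 2) ^ (2 * g)) - (M * g + 2 * (d + 1) ^ (g + 1)) : ℕ) : ℝ)) ≤ η ∧
    Real.log (Q * (((2 * (d + 2) ^ (2 * g) : ℕ) : ℝ) + 1)) ≤
      (Real.log (3 * Q) + 2 * Real.log (d + 2)) * g := by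
  set B : ℕ := (d + 2) ^ g with hB
  have hB2 : (d + 2) ^ (2 * g) = B * B := by rw [hB, two_mul, pow_add]
  have hgB : g ≤ B := (Nat.lt_pow_self (by omega)).le
  have hT : M * g + 2 * (d + 1) ^ (g + 1) ≤ (M + 2 * (d + 2)) * B := by
    have h1 : (d + 1) ^ (g + 1) ≤ (d + 2) ^ (g + 1) := Nat.pow_le_pow_left (by omega) _
    rw [pow_succ, pow_succ, ← hB] at h1
    have h2 := Nat.mul_le_mul_left M hgB
    rw [pow_succ]
    nlinarith
  rw [hB2]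
  set T : ℕ := M * g + 2 * (d + 1) ^ (g + 1) with hTdef
  have hT' : (T : ℝ) ≤ (M + 2 * (d + 2)) * B := by exact_mod_cast hT
  have hgB' : (g : ℝ) ≤ B := by exact_mod_cast hgB
  have hg1' : (1 : ℝ) ≤ g := by exact_mod_cast hg1
  have hQ' : (2 : ℝ) ≤ Q := by exact_mod_cast hQ
  rw [div_le_iff₀ hη] at hg
  have hc : (0 : ℝ) ≤ M + 2 * (d + 2) := by positivity
  have key : (Q : ℝ) + (1 + η) * T ≤ η * (Q * (2 * (B * B))) := by
    have h1 : (Q : ℝ) + (1 + η) * T ≤ (Q + (1 + η) * (M + 2 * (d + 2))) * B := by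
      have : (1 + η) * (T : ℝ) ≤ (1 + η) * ((M + 2 * (d + 2)) * B) := by gcongr
      nlinarith
    have h2 : (Q + (1 + η) * (M + 2 * (d + 2))) * (B : ℝ) ≤ (B * η) * B := by
      gcongr
      exact hg.trans (by gcongr)
    have h3 : (0 : ℝ) ≤ η * (B * B) := by positivity
    nlinarith
  have hlt : (T : ℝ) < Q * (2 * (B * B)) := by
    have : η * (T : ℝ) < η * (Q * (2 * (B * B))) := by
      have : (0 : ℝ) ≤ T := by positivity
      nlinarith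
    exact lt_of_mul_lt_mul_left this hη.le
  have hlt' : T < Q * (2 * (B * B)) := by exact_mod_cast hlt
  refine ⟨hlt', ?_, ?_⟩
  · rw [Nat.cast_sub hlt'.le]
    push_cast
    have hpos : (0 : ℝ) < Q * (2 * (B * B)) - T := by linarith
    rw [Real.log_le_iff_le_exp (by positivity), div_le_iff₀ hpos]
    have := Real.add_one_le_exp η
    nlinarith
  · push_cast
    have hB1 : (1 : ℝ) ≤ B := hg1'.trans hgB'
    have hBB : (1 : ℝ) ≤ B * B := by nlinarith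
    have h1 : (Q : ℝ) * (2 * (B * B) + 1) ≤ 3 * Q * (B * B) := by nlinarith
    have h2 : Real.log (3 * Q * ((B : ℝ) * B)) = Real.log (3 * Q) + 2 * (g * Real.log (d + 2)) := by
      rw [Real.log_mul (by positivity) (by positivity),
        Real.log_mul (x := (B : ℝ)) (by positivity) (by positivity), hB]
      push_cast
      rw [Real.log_pow]; ring
    have h3 : 0 ≤ Real.log (3 * Q) := Real.log_nonneg (by linarith)
    calc _ ≤ Real.log (3 * Q * ((B : ℝ) * B)) := Real.log_le_log (by positivity) h1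
      _ ≤ _ := by rw [h2]; nlinarith

theorem log_keys_le (m N s g r : ℕ) (hr : r ≤ g) (k : ℕ)
    (hk : k ≤ 2 * ((((2 * m * (r + 1)) ^ 2 + 1) ^ N) ^ 4 * s ^ m)) :
    Real.log k ≤ Real.log 2 + 8 * N * Real.log (2 * m + 1) + m * Real.log (s + 1) +
      8 * N * Real.log (g + 1) := by
  have h1 : (2 * m * (r + 1)) ^ 2 + 1 ≤ ((2 * m + 1) * (g + 1)) ^ 2 := by
    have : 2 * m * (r + 1) + 1 ≤ (2 * m + 1) * (g + 1) := by nlinarith
    calc _ ≤ (2 * m * (r + 1) + 1) ^ 2 := by nlinarith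
      _ ≤ _ := Nat.pow_le_pow_left this 2
  have h2 : k ≤ 2 * (((((2 * m + 1) * (g + 1)) ^ 2) ^ N) ^ 4 * (s + 1) ^ m) :=
    hk.trans (by gcongr; omega)
  have h3 : (k : ℝ) ≤ 2 * (((((2 * m + 1) * (g + 1)) ^ 2) ^ N) ^ 4 * (s + 1) ^ m) := by
    exact_mod_cast h2
  have h4 : Real.log (2 * ((((((2 : ℝ) * m + 1) * (g + 1)) ^ 2) ^ N) ^ 4 * (s + 1) ^ m)) =
      Real.log 2 + 8 * N * Real.log (2 * m + 1) + m * Real.log (s + 1) +
      8 * N * Real.log (g + 1) := by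
    rw [Real.log_mul (by positivity) (by positivity), Real.log_mul (by positivity) (by positivity),
      Real.log_pow, Real.log_pow, Real.log_pow, Real.log_pow,
      Real.log_mul (by positivity) (by positivity)]
    push_cast; ring
  rw [← h4]
  rcases Nat.eq_zero_or_pos k with rfl | hk0
  · simp only [Nat.cast_zero, Real.log_zero]
    rw [h4]
    have := Real.log_nonneg (show (1 : ℝ) ≤ 2 by norm_num)
    have := Real.log_nonneg (show (1 : ℝ) ≤ 2 * m + 1 by have := Nat.cast_nonneg (α := ℝ) m; linarith)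
    have := Real.log_nonneg (show (1 : ℝ) ≤ s + 1 by have := Nat.cast_nonneg (α := ℝ) s; linarith)
    have := Real.log_nonneg (show (1 : ℝ) ≤ g + 1 by have := Nat.cast_nonneg (α := ℝ) g; linarith)
    positivity
  · exact Real.log_le_log (by exact_mod_cast hk0) h3

theorem final_arith {γ lK lQ c₁ C₀ g A B X a δ Err W L p : ℝ} (hγ : γ = 2 * lQ - lK)
    (hγ0 : 0 < γ) (hA : 0 ≤ A) (hδ : δ ≤ γ / 8) (h1 : -W ≤ L) (h3 : 16 * (Err + W) ≤ γ * g)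
    (main : L ≤ (X / 2 - p) * a + A * δ + (A + B) / 4 * lK - A / 2 * lQ + Err)
    (hlK : 0 ≤ lK) (hc₁ : 0 ≤ c₁) (hC₀ : 8 * (c₁ + lK) ≤ γ * C₀) (hB : 0 ≤ B) (hX : 0 ≤ X)
    (hg : 0 ≤ g) (ha0 : 0 ≤ a) (ha : a ≤ c₁ * g) :
    (p = 0 → 2 * A ≤ 2 * C₀ * (B + g * X) + g) ∧ (p = 1 → B = 0 → X ≤ 2 → 2 * A ≤ g) := by
  have h2 : A * δ ≤ A * (γ / 8) := mul_le_mul_of_nonneg_left hδ hA
  have e : lQ = (γ + lK) / 2 := by rw [hγ]; ring
  have h4 : γ * (2 * A) ≤ 16 * ((X / 2 - p) * a) + 4 * B * lK + γ * g := by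
    rw [e] at main
    linarith
  refine ⟨fun hp => ?_, fun hp hB0 hX2 => ?_⟩
  · subst hp
    have h5 : X * a ≤ X * (c₁ * g) := mul_le_mul_of_nonneg_left ha hX
    have h6 : 8 * (c₁ + lK) * (B + g * X) ≤ γ * C₀ * (B + g * X) :=
      mul_le_mul_of_nonneg_right hC₀ (by positivity)
    have h8 : 0 ≤ c₁ * B := by positivity
    have h9 : 0 ≤ lK * (g * X) := by positivity
    have h10 : 0 ≤ lK * B := by positivity
    have h11 : 0 ≤ c₁ * (g * X) := by positivity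
    apply le_of_mul_le_mul_left _ hγ0
    linarith
  · subst hp hB0
    have h8 : (X / 2 - 1) * a ≤ 0 := mul_nonpos_of_nonpos_of_nonneg (by linarith) ha0
    apply le_of_mul_le_mul_left _ hγ0
    linarith

/-- Pigeonhole on keys: some violating configuration is copied in many graphs. -/
theorem exists_popular {P Sh : Type} [Fintype P] [DecidableEq P] [Fintype Sh] [DecidableEq Sh]
    {R : Finset (P × P)} {Q d n : ℕ} (𝒟 : Design P Sh R Q d n) (pin : 𝒟.V) (g M : ℕ)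
    (hg : 16 ≤ g) (hne : (graphs 𝒟 g).Nonempty) (Bad : (D : Gem) → Bool → Prop)
    (hviol : ∀ Γ, IsGraph 𝒟 Γ → Girth Γ g → ∃ (D : Gem) (ε : D.F → Edge 𝒟.V P) (x : D.F)
      (fl : Bool), Lab Γ D ε ∧ D.area ≤ M * g ∧ D.np ≤ M ∧ Bad D fl ∧
      (fl = true → (ε x).1 false = pin)) :
    ∃ (Γ₀ : Finset (Edge 𝒟.V P)) (D : Gem) (ε : D.F → Edge 𝒟.V P) (x : D.F) (fl : Bool)
      (Ω' : Finset (Finset (Edge 𝒟.V P))) (k : ℕ), IsGraph 𝒟 Γ₀ ∧ Lab Γ₀ D ε ∧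
      D.area ≤ M * g ∧ D.np ≤ M ∧ Bad D fl ∧ (∀ e, #{x | ε x = e} ≤ 2 * (17 * M + 1)) ∧
      excN D ε ≤ 4 * (2 * (17 * M + 1)) ^ 2 ∧ Ω' ⊆ graphs 𝒟 g ∧ Ω'.Nonempty ∧
      (∀ Γ ∈ Ω', ∃ θ : D.F → Edge 𝒟.V P, (∀ x, θ x ∈ Γ) ∧ Copy 𝒟.sh D ε θ ∧
        (fl = true → (θ x).1 false = pin)) ∧
      k ≤ 2 * ((((2 * (17 * M + 1) * (2 * (g / 16) + 1)) ^ 2 + 1) ^ keyN (17 * M + 1) M) ^ 4 *
        Fintype.card Sh ^ (17 * M + 1)) ∧
      -Real.log k ≤ Real.log ((#Ω' : ℝ) / #(graphs 𝒟 g)) := by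
  classical
  have hcard : Fintype.card (Option (Fin (17 * M))) = 17 * M + 1 := by simp
  have hG : ∀ Γ : {Γ // Γ ∈ graphs 𝒟 g}, IsGraph 𝒟 Γ.1 ∧ Girth Γ.1 g := by
    rintro ⟨Γ, hΓ⟩
    simpa [graphs] using hΓ
  have hviol' : ∀ Γ : {Γ // Γ ∈ graphs 𝒟 g}, ∃ (D : Gem) (ε : D.F → Edge 𝒟.V P)
      (z : Option (Fin (17 * M)) → D.F) (fl : Bool), Lab Γ.1 D ε ∧ D.area ≤ M * g ∧ D.np ≤ M ∧
      D.Covers z (2 * (g / 16)) ∧ Bad D fl ∧ (fl = true → (ε (z none)).1 false = pin) := by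
    intro Γ
    obtain ⟨D, ε, x, fl, hL, hA, hM, hb, hp⟩ := hviol Γ.1 (hG Γ).1 (hG Γ).2
    obtain ⟨z, hz0, hz⟩ := hL.seeds (hG Γ).2 (by omega) hA hM x
    exact ⟨D, ε, z, fl, hL, hA, hM, hz, hb, by rw [hz0]; exact hp⟩
  choose D ε z fl hL hA hM hz hb hp using hviol'
  have hr : 3 * (2 * (g / 16)) + 2 < g := by omega
  obtain ⟨𝒦, h𝒦⟩ : ∃ 𝒦, 𝒦 = keySet (Option (Fin (17 * M))) Sh (2 * (g / 16))
    (keyN (17 * M + 1) M) ×ˢ (univ : Finset Bool) := ⟨_, rfl⟩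
  obtain ⟨key, hkeyd⟩ : ∃ key : {Γ // Γ ∈ graphs 𝒟 g} → _, key = fun Γ =>
    (keyOf (D Γ) (ε Γ) (z Γ) (2 * (g / 16)) 𝒟.sh, fl Γ) := ⟨_, rfl⟩
  have hkey : ∀ Γ ∈ (univ : Finset {Γ // Γ ∈ graphs 𝒟 g}), key Γ ∈ 𝒦 := by
    intro Γ _
    rw [h𝒦, hkeyd]
    refine mem_product.2 ⟨?_, mem_univ _⟩
    have := keyOf_mem (hL Γ) (hG Γ).2 hr (hz Γ) (hM Γ) 𝒟.sh
    rwa [hcard] at this
  have hGpos : (0 : ℝ) < #(graphs 𝒟 g) := by exact_mod_cast hne.card_pos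
  obtain ⟨Γ₁, hΓ₁⟩ := hne
  have h𝒦ne : 𝒦.Nonempty := ⟨_, hkey ⟨Γ₁, hΓ₁⟩ (mem_univ _)⟩
  have h𝒦pos : (0 : ℝ) < #𝒦 := by exact_mod_cast h𝒦ne.card_pos
  obtain ⟨y, -, hy⟩ := exists_le_card_fiber_of_nsmul_le_card_of_maps_to (M := ℝ) hkey h𝒦ne
    (b := (#(graphs 𝒟 g) : ℝ) / #𝒦) (by
      rw [nsmul_eq_mul, mul_div_cancel₀ _ h𝒦pos.ne', card_univ, Fintype.card_coe])
  obtain ⟨fib, hfibd⟩ : ∃ fib, fib =
    ({Γ ∈ (univ : Finset {Γ // Γ ∈ graphs 𝒟 g}) | key Γ = y}) := ⟨_, rfl⟩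
  rw [← hfibd] at hy
  have hfibm : ∀ Γ ∈ fib, key Γ = y := by
    intro Γ hΓ
    rw [hfibd] at hΓ
    exact (mem_filter.1 hΓ).2
  have hfib : fib.Nonempty := by
    rw [← card_pos]
    have : (0 : ℝ) < #fib := lt_of_lt_of_le (by positivity) hy
    exact_mod_cast this
  obtain ⟨Γ₀, hΓ₀⟩ := hfib
  have hJm := (hL Γ₀).mult_le (hG Γ₀).2 (by omega : 2 * (g / 16) < g) (hz Γ₀)
  have hEx := (hL Γ₀).excN_le (hG Γ₀).2 hr (hz Γ₀)
  rw [hcard] at hJm hEx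
  refine ⟨Γ₀.1, D Γ₀, ε Γ₀, z Γ₀ none, fl Γ₀, fib.map (Function.Embedding.subtype _), #𝒦,
    (hG Γ₀).1, hL Γ₀, hA Γ₀, hM Γ₀, hb Γ₀, hJm, hEx, ?_, ⟨_, mem_map.2 ⟨Γ₀, hΓ₀, rfl⟩⟩, ?_, ?_, ?_⟩
  · intro Γ hΓ
    obtain ⟨Γ', -, rfl⟩ := mem_map.1 hΓ
    exact Γ'.2
  · intro Γ hΓ
    obtain ⟨Γ', hΓ', rfl⟩ := mem_map.1 hΓ
    have he : key Γ₀ = key Γ' := (hfibm _ hΓ₀).trans (hfibm _ hΓ').symm
    rw [hkeyd] at he
    have he1 := congrArg Prod.fst he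
    have he2 : fl Γ₀ = fl Γ' := congrArg Prod.snd he
    obtain ⟨θ, h1, h2, h3⟩ := copy_of_key (hL Γ₀) (hL Γ') (hG Γ₀).1.sh (hG Γ').1.sh (hz Γ₀) he1
    refine ⟨θ, h1, h2, fun hf => ?_⟩
    rw [h3]
    exact hp Γ' (he2 ▸ hf)
  · have := card_keySet (Option (Fin (17 * M))) Sh (2 * (g / 16)) (keyN (17 * M + 1) M)
    rw [hcard] at this
    rw [h𝒦, card_product, card_univ, Fintype.card_bool, mul_comm]
    exact Nat.mul_le_mul_left _ this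
  · rw [← Real.log_inv]
    apply Real.log_le_log (by positivity)
    rw [card_map, le_div_iff₀ hGpos]
    calc _ = (#(graphs 𝒟 g) : ℝ) / #𝒦 := by field_simp
      _ ≤ _ := hy

/-- The local isoperimetric inequality in a suitable random graph of large girth. -/
theorem loc (P Sh : Type) [Fintype P] [DecidableEq P] [Fintype Sh] [DecidableEq Sh]
    (R : Finset (P × P)) (Q d : ℕ) (hQ : 2 ≤ Q) (hK : R.card < Q ^ 2) :
    ∃ C₀ : ℕ, ∀ M : ℕ, ∃ g n : ℕ, 0 < g ∧ 0 < n ∧ Even n ∧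
      ∀ (𝒟 : Design P Sh R Q d n) (pin : 𝒟.V), ∃ Γ, IsGraph 𝒟 Γ ∧ Girth Γ g ∧
        ∀ (D : Gem) (ε : D.F → Edge 𝒟.V P), Lab Γ D ε → D.area ≤ M * g → D.np ≤ M →
          2 * D.area ≤ 2 * C₀ * (D.B + g * D.X) + g ∧
          (D.B = 0 → D.X ≤ 2 → (∃ x, (ε x).1 false = pin) → 2 * D.area ≤ g) := by
  obtain ⟨K, hK1, hRK, hKQ⟩ : ∃ K : ℕ, 1 ≤ K ∧ R.card ≤ K ∧ K < Q ^ 2 :=
    ⟨max 1 R.card, le_max_left _ _, le_max_right _ _, max_lt (by nlinarith) hK⟩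
  have hQ' : (2 : ℝ) ≤ Q := by exact_mod_cast hQ
  have hK1' : (1 : ℝ) ≤ K := by exact_mod_cast hK1
  obtain ⟨γ, hγ⟩ : ∃ γ : ℝ, γ = 2 * Real.log Q - Real.log K := ⟨_, rfl⟩
  have hγ0 : 0 < γ := by
    have : Real.log K < Real.log ((Q : ℝ) ^ 2) :=
      Real.log_lt_log (by linarith) (by exact_mod_cast hKQ)
    rw [Real.log_pow] at this
    push_cast at this
    linarith
  have hlK : 0 ≤ Real.log K := Real.log_nonneg hK1'
  obtain ⟨c₁, hc₁⟩ : ∃ c₁ : ℝ, c₁ = Real.log (3 * Q) + 2 * Real.log (d + 2) := ⟨_, rfl⟩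
  have hc₁0 : 0 ≤ c₁ := by
    have := Real.log_nonneg (show (1 : ℝ) ≤ 3 * Q by linarith)
    have := Real.log_nonneg (show (1 : ℝ) ≤ d + 2 by have := Nat.cast_nonneg (α := ℝ) d; linarith)
    rw [hc₁]; positivity
  obtain ⟨C₀, hC₀⟩ : ∃ C₀ : ℕ, 8 * (c₁ + Real.log K) ≤ γ * C₀ := by
    refine ⟨⌈8 / γ * (c₁ + Real.log K)⌉₊, ?_⟩
    have := Nat.le_ceil (8 / γ * (c₁ + Real.log K))
    generalize ⌈8 / γ * (c₁ + Real.log K)⌉₊ = C at this ⊢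
    rw [div_mul_eq_mul_div, div_le_iff₀ hγ0] at this
    linarith
  refine ⟨C₀, fun M => ?_⟩
  obtain ⟨m, hm⟩ : ∃ m : ℕ, m = 17 * M + 1 := ⟨_, rfl⟩
  obtain ⟨J, hJ⟩ : ∃ J : ℕ, J = 2 * m := ⟨_, rfl⟩
  obtain ⟨E₀, hE₀⟩ : ∃ E₀ : ℕ, E₀ = 4 * (2 * m) ^ 2 + M := ⟨_, rfl⟩
  obtain ⟨N, hN⟩ : ∃ N : ℕ, N = keyN m M := ⟨_, rfl⟩
  obtain ⟨Err, hErr⟩ : ∃ Err : ℝ, Err = ((J : ℝ) + 1) * (E₀ * d * J + 1) *
    (Real.log (Fintype.card P + 1) + Real.log K + Real.log Q) := ⟨_, rfl⟩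
  obtain ⟨c₅, hc₅⟩ : ∃ c₅ : ℝ, c₅ = Real.log 2 + 8 * N * Real.log (2 * m + 1) +
    m * Real.log (Fintype.card Sh + 1) := ⟨_, rfl⟩
  obtain ⟨g, hg1, hg2, hg3⟩ := ((eventually_ge_atTop 16).and
    ((eventually_log_le (16 / γ * (Err + J * c₅)) (16 / γ * (J * (8 * N)))).and
    (tendsto_natCast_atTop_atTop (R := ℝ).eventually_ge_atTop
      ((Q + (1 + γ / 8) * (M + 2 * (d + 2))) / (γ / 8))))).exists
  obtain ⟨hs1, hs2, hs3⟩ := size_facts Q d M g hQ (γ / 8) (by positivity) (by omega) hg3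
  obtain ⟨n, hn⟩ : ∃ n : ℕ, n = 2 * (d + 2) ^ (2 * g) := ⟨_, rfl⟩
  rw [← hn] at hs1 hs2 hs3
  refine ⟨g, n, by omega, by rw [hn]; positivity, by rw [hn]; exact even_two_mul _,
    fun 𝒟 pin => ?_⟩
  by_contra hcon
  obtain ⟨Γ₀, D, ε, x, fl, Ω', k, hΓ₀, hL, hA, hM, hb, hJm, hEx, hsub, hne, hcopy, hk, hratio⟩ :=
    exists_popular 𝒟 pin g M hg1 (graphs_nonempty 𝒟 g (by omega))
    (fun D fl => (fl = false → 2 * C₀ * (D.B + g * D.X) + g < 2 * D.area) ∧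
      (fl = true → D.B = 0 ∧ D.X ≤ 2 ∧ g < 2 * D.area)) (by
      intro Γ h1 h2
      by_contra hno
      apply hcon
      refine ⟨Γ, h1, h2, fun D ε hL hA hM => ⟨?_, fun hB hX ⟨x, hx⟩ => ?_⟩⟩
      · by_contra hlt
        have hpos : 0 < D.area := by omega
        obtain ⟨x⟩ := Fintype.card_pos_iff.1 hpos
        exact hno ⟨D, ε, x, false, hL, hA, hM, ⟨fun _ => by omega, fun h => by simp at h⟩,
          fun h => by simp at h⟩
      · by_contra hlt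
        exact hno ⟨D, ε, x, true, hL, hA, hM, ⟨fun h => by simp at h,
          fun _ => ⟨hB, hX, by omega⟩⟩, fun _ => hx⟩)
  rw [← hm] at hJm hEx hk
  rw [← hN] at hk
  rw [← hJ] at hJm
  have main := levels 𝒟 g J E₀ K (Q * n - (M * g + 2 * (d + 1) ^ (g + 1))) (by omega) hK1
    hRK (by omega) Γ₀ hΓ₀ D ε hL hJm (by omega) (by omega)
    (by omega) (if fl then some (x, pin) else none) Ω' hsub hne
    (by
      intro Γ hΓ
      obtain ⟨θ, h1, h2, h3⟩ := hcopy Γ hΓ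
      refine ⟨θ, h1, h2, fun a ha => ?_⟩
      cases fl
      · simp at ha
      · simp only [if_true, Option.mem_def, Option.some.injEq] at ha
        subst ha
        exact h3 rfl)
  have hlogK := log_keys_le m N (Fintype.card Sh) g (2 * (g / 16)) (by omega) k hk
  rw [← hErr] at main
  rw [← hc₅] at hlogK
  rw [← hc₁] at hs3
  have hJ0 : (0 : ℝ) ≤ J := Nat.cast_nonneg _
  have h1 : -(J * (c₅ + 8 * N * Real.log (g + 1))) ≤
      J * Real.log ((#Ω' : ℝ) / #(graphs 𝒟 g)) := by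
    rw [← mul_neg]
    exact mul_le_mul_of_nonneg_left (by linarith) hJ0
  have h3 : 16 * (Err + J * (c₅ + 8 * N * Real.log (g + 1))) ≤ γ * g := by
    have := mul_le_mul_of_nonneg_left hg2 hγ0.le
    have e : γ * (16 / γ * (Err + J * c₅) + 16 / γ * (J * (8 * N)) * Real.log (g + 1)) =
        16 * (Err + J * (c₅ + 8 * N * Real.log (g + 1))) := by field_simp; ring
    linarith
  have fin := final_arith hγ hγ0 (Nat.cast_nonneg _) hs2 h1 h3 main hlK hc₁0 hC₀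
    (Nat.cast_nonneg _) (Nat.cast_nonneg _) (Nat.cast_nonneg _)
    (Real.log_nonneg (by have := Nat.cast_nonneg (α := ℝ) n; nlinarith)) hs3
  cases fl
  · have h := fin.1 (by simp)
    have h' : 2 * D.area ≤ 2 * C₀ * (D.B + g * D.X) + g := by exact_mod_cast h
    have := hb.1 rfl
    omega
  · obtain ⟨hB, hX, hv⟩ := hb.2 rfl
    have h := fin.2 (by simp) (by exact_mod_cast hB) (by exact_mod_cast hX)
    have h' : 2 * D.area ≤ g := by exact_mod_cast h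
    omega

end Crest.Agent.R177
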