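import Crest.Agent.R177.Ray

/-! Covering a gem by few rays; exceptional triples. -/

set_option autoImplicit false

namespace Crest.Agent.R177

open Finset

variable {V P : Type}

theorem NB.reverse {Γ : Finset (Edge V P)} {e : ℕ → Edge V P} {b : Bool} {k : ℕ}
    (h : NB Γ e b k) : NB Γ (fun t => e (k - t)) (!(alt b k)) k := by
  refine ⟨fun t _ => h.1 _ (by omega), fun t ht => ?_⟩
  have h1 := h.2 (k - (t + 1)) (by omega)
  have e1 : k - (t + 1) + 1 = k - t := by omega
  have e2 : alt (!(alt b k)) t = alt b (k - (t + 1)) := by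
    obtain ⟨s, rfl⟩ : ∃ s, k = s + (t + 1) := ⟨k - (t + 1), by omega⟩
    rw [Nat.add_sub_cancel, alt_add, alt_succ]
    simp [alt]
  rw [e1] at h1
  simp only [e2]
  exact ⟨h1.1.symm, h1.2.symm⟩

theorem NB.append {Γ : Finset (Edge V P)} {e f : ℕ → Edge V P} {b : Bool} {k m : ℕ}
    (he : NB Γ e b k) (hf : NB Γ f (alt b (k + 1)) m) (hne : f 0 ≠ e k)
    (hv : (f 0).1 (alt b k) = (e k).1 (alt b k)) :
    NB Γ (fun t => if t ≤ k then e t else f (t - (k + 1))) b (k + 1 + m) := by
  refine ⟨fun t ht => ?_, fun t ht => ?_⟩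
  · by_cases h : t ≤ k
    · simp only [h, if_true]; exact he.1 t h
    · simp only [h, if_false]; exact hf.1 _ (by omega)
  · rcases lt_trichotomy t k with h | rfl | h
    · simp only [show t + 1 ≤ k by omega, show t ≤ k by omega, if_true]
      exact he.2 t h
    · simp only [show ¬ (t + 1 ≤ t) by omega, le_refl, if_true, if_false, Nat.sub_self]
      exact ⟨hne, hv⟩
    · obtain ⟨s, rfl⟩ : ∃ s, t = k + 1 + s := ⟨t - (k + 1), by omega⟩
      simp only [show ¬ (k + 1 + s + 1 ≤ k) by omega, show ¬ (k + 1 + s ≤ k) by omega, if_false,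
        show k + 1 + s + 1 - (k + 1) = s + 1 by omega, show k + 1 + s - (k + 1) = s by omega]
      rw [alt_add]
      exact hf.2 s (by omega)

/-- Two walks leaving a vertex by different edges end at different vertices. -/
theorem Girth.fork {Γ : Finset (Edge V P)} {g : ℕ} (hg : Girth Γ g) {e f : ℕ → Edge V P}
    {b : Bool} {k m : ℕ} (he : NB Γ e b k) (hf : NB Γ f b m) (hne : f 0 ≠ e 0)
    (hv : (f 0).1 (!b) = (e 0).1 (!b)) (hkm : k + m + 2 < g) :
    (e k).1 (alt b k) ≠ (f m).1 (alt b m) := by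
  have e1 : alt (!(alt b k)) k = !b := by simp [alt]
  have e2 : alt (!(alt b k)) (k + 1) = b := by rw [alt_succ, e1]; simp
  have h := NB.append he.reverse (by rw [e2]; exact hf) (by simpa using hne)
    (by rw [e1]; simpa using hv)
  have := hg _ _ _ (by omega) h
  simp only [Nat.zero_le, if_true, Nat.sub_zero, Bool.not_not,
    show ¬ (k + 1 + m ≤ k) by omega, if_false, show k + 1 + m - (k + 1) = m by omega] at this
  rwa [alt_add, e2] at this

namespace Gem

variable {D : Gem}

theorem ray_add (x : D.F) (b : Bool) (s t : ℕ) :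
    D.ray x b (s + t) = D.ray (D.ray x b s) (alt b s) t := by
  induction t with
  | zero => rfl
  | succ t ih => rw [← Nat.add_assoc, ray_succ, ray_succ, ih, alt_add]

theorem Live.add {x : D.F} {b : Bool} {s t : ℕ} (h : D.Live x b (s + t)) :
    D.Live (D.ray x b s) (alt b s) t := by
  intro u hu
  rw [← ray_add, ← alt_add]
  exact h _ (by omega)

theorem ray_rev (x : D.F) (b : Bool) (s u : ℕ) :
    D.ray (D.ray x b (s + u)) (!(alt b (s + u))) u = D.ray x b s := by
  induction u generalizing s with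
  | zero => rfl
  | succ u ih =>
    rw [ray_succ, show s + (u + 1) = s + 1 + u by omega, ih]
    have : alt (!(alt b (s + 1 + u))) u = alt b s := by
      rw [alt_add, alt_succ]; simp [alt]
    rw [this, ray_pred]

theorem Live.rev {x : D.F} {b : Bool} {t u : ℕ} (h : D.Live x b t) (hu : u ≤ t) :
    D.Live (D.ray x b t) (!(alt b t)) u := by
  intro w hw
  obtain ⟨s, rfl⟩ : ∃ s, t = s + 1 + w := ⟨t - (w + 1), by omega⟩
  rw [ray_rev]
  have : alt (!(alt b (s + 1 + w))) w = alt b s := by
    rw [alt_add, alt_succ]; simp [alt]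
  rw [this, ray_pred]
  exact (h s (by omega)).symm

/-- `y` is on a live ray of length at most `k` from `x`. -/
def Near (D : Gem) (x y : D.F) (k : ℕ) : Prop :=
  ∃ b t, t ≤ k ∧ D.Live x b t ∧ D.ray x b t = y

theorem Near.refl (x : D.F) (k : ℕ) : D.Near x x k := ⟨false, 0, by omega, live_zero _ _, rfl⟩

theorem Near.mono {x y : D.F} {k k' : ℕ} (h : D.Near x y k) (hk : k ≤ k') : D.Near x y k' := by
  obtain ⟨b, t, h1, h2, h3⟩ := h
  exact ⟨b, t, by omega, h2, h3⟩

theorem Near.step {x y : D.F} {k : ℕ} (h : D.Near x y k) (c : Bool) :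
    D.Near x (D.ν c y) (k + 1) := by
  obtain ⟨b, t, h1, h2, rfl⟩ := h
  by_cases hf : D.ν c (D.ray x b t) = D.ray x b t
  · exact ⟨b, t, by omega, h2, hf.symm⟩
  by_cases hc : c = alt b t
  · subst hc
    exact ⟨b, t + 1, by omega, live_succ.2 ⟨h2, hf⟩, rfl⟩
  · rcases t with _ | t
    · refine ⟨c, 1, by omega, live_succ.2 ⟨live_zero _ _, ?_⟩, ?_⟩
      · simpa using hf
      · simp [ray_succ]
    · refine ⟨b, t, by omega, h2.mono (by omega), ?_⟩
      have : c = alt b t := by
        rw [alt_succ] at hc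
        revert hc; cases c <;> cases alt b t <;> simp
      rw [this, ray_pred]

theorem Near.ray {x y : D.F} {k : ℕ} (h : D.Near x y k) (b : Bool) (t : ℕ) :
    D.Near x (D.ray y b t) (k + t) := by
  induction t with
  | zero => exact h
  | succ t ih => exact ih.step _

theorem Near.trans {x y w : D.F} {k k' : ℕ} (h : D.Near x y k) (h' : D.Near y w k') :
    D.Near x w (k + k') := by
  obtain ⟨b, t, h1, -, rfl⟩ := h'
  exact (h.ray b t).mono (by omega)

theorem Near.symm {x y : D.F} {k : ℕ} (h : D.Near x y k) : D.Near y x k := by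
  obtain ⟨b, t, h1, h2, rfl⟩ := h
  refine ⟨!(alt b t), t, h1, h2.rev le_rfl, ?_⟩
  simpa using ray_rev x b 0 t

end Gem

open Classical in
/-- Few seeds whose live rays cover the gem. -/
theorem Lab.cover {Γ : Finset (Edge V P)} {D : Gem} {ε : D.F → Edge V P} (hL : Lab Γ D ε)
    {g : ℕ} (hg : Girth Γ g) (ρ : ℕ) (hρ : ρ < g) :
    ∃ Z : Finset D.F, Z.card * (ρ + 1) ≤ D.area + D.np * (ρ + 1) ∧
      ∀ x, ∃ z ∈ Z, D.Near z x (2 * ρ) := by
  let ball : D.F → Finset D.F := fun x => {y | D.Near x y ρ}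
  let Deep : D.F → Prop := fun x => ∀ y, D.Near x y ρ → ∀ c, D.ν c y ≠ y
  have hball : ∀ x, Deep x → ρ + 1 ≤ (ball x).card := by
    intro x hx
    have hlive : ∀ t ≤ ρ, D.Live x false t := by
      intro t ht
      induction t with
      | zero => exact Gem.live_zero _ _
      | succ t ih =>
        exact Gem.live_succ.2 ⟨ih (by omega), hx _ ⟨false, t, by omega, ih (by omega), rfl⟩ _⟩
    have hnb := hL.nb_ray (hlive ρ le_rfl)
    calc ρ + 1 = (range (ρ + 1)).card := by simp
      _ ≤ _ := by
        apply card_le_card_of_injOn (fun t => D.ray x false t)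
        · intro t ht
          simp only [coe_range, Set.mem_Iio] at ht
          simp only [ball, coe_filter, mem_univ, true_and, Set.mem_ofPred_eq]
          exact ⟨false, t, by omega, hlive t (by omega), rfl⟩
        · intro s hs t ht hst
          simp only [coe_range, Set.mem_Iio] at hs ht
          exact hg.inj_of_nb hnb hρ (by omega) (by omega) (congrArg ε hst)
  let good : Finset (Finset D.F) :=
    {Z | (∀ z ∈ Z, Deep z) ∧ ∀ z ∈ Z, ∀ z' ∈ Z, z ≠ z' → Disjoint (ball z) (ball z')}
  obtain ⟨Z, hZ, hmax⟩ := exists_max_image good card ⟨∅, by simp [good]⟩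
  simp only [good, mem_filter, mem_univ, true_and] at hZ hmax
  let Y : Finset D.F := {y | ∃ c, D.ν c y = y}
  have hY : Y.card ≤ D.np := by
    have : Y ⊆ image Prod.fst ({p : D.F × Bool | ¬ D.Plain p.1 p.2} : Finset _) := by
      intro y hy
      simp only [Y, mem_filter, mem_univ, true_and] at hy
      obtain ⟨c, hc⟩ := hy
      exact mem_image.2 ⟨(y, c), by simp [Gem.Plain, hc], rfl⟩
    exact (card_le_card this).trans card_image_le
  have hZc : Z.card * (ρ + 1) ≤ D.area := by
    calc Z.card * (ρ + 1) = ∑ _z ∈ Z, (ρ + 1) := by simp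
      _ ≤ ∑ z ∈ Z, (ball z).card := sum_le_sum fun z hz => hball z (hZ.1 z hz)
      _ = (Z.biUnion ball).card := (card_biUnion (fun z hz z' hz' h => hZ.2 z hz z' hz' h)).symm
      _ ≤ D.area := card_le_univ _
  refine ⟨Z ∪ Y, ?_, fun x => ?_⟩
  · calc (Z ∪ Y).card * (ρ + 1) ≤ (Z.card + Y.card) * (ρ + 1) :=
          Nat.mul_le_mul_right _ (card_union_le _ _)
      _ ≤ _ := by rw [add_mul]; exact add_le_add hZc (Nat.mul_le_mul_right _ hY)
  · by_cases hx : Deep x
    · by_contra hcon
      push Not at hcon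
      have hxZ : x ∉ Z := fun h => hcon x (mem_union_left _ h) (Gem.Near.refl _ _)
      have hdis : ∀ z ∈ Z, Disjoint (ball x) (ball z) := by
        intro z hz
        rw [disjoint_left]
        intro y hy hy'
        simp only [ball, mem_filter, mem_univ, true_and] at hy hy'
        exact hcon z (mem_union_left _ hz) ((hy'.trans hy.symm).mono (by omega))
      have := hmax (insert x Z) ⟨by
        intro z hz
        rcases mem_insert.1 hz with rfl | hz
        · exact hx
        · exact hZ.1 z hz, by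
        intro z hz z' hz' hne
        rcases mem_insert.1 hz with h1 | h1 <;> rcases mem_insert.1 hz' with h2 | h2
        · exact absurd (h1.trans h2.symm) hne
        · rw [h1]; exact hdis z' h2
        · rw [h2]; exact (hdis z h1).symm
        · exact hZ.2 z h1 z' h2 hne⟩
      rw [card_insert_of_notMem hxZ] at this
      omega
    · simp only [Deep, not_forall, not_not] at hx
      obtain ⟨y, hy, c, hc⟩ := hx
      exact ⟨y, mem_union_right _ (by simp only [Y, mem_filter, mem_univ, true_and]; exact ⟨c, hc⟩),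
        hy.symm.mono (by omega)⟩

/-- An exceptional triple. -/
def Exc (D : Gem) (ε : D.F → Edge V P) (x y : D.F) (c : Bool) : Prop :=
  (ε x).1 c = (ε y).1 c ∧ ε y ≠ ε x ∧ ε y ≠ ε (D.ν c x)

theorem Lab.away_aux {Γ : Finset (Edge V P)} {D : Gem} {ε : D.F → Edge V P} (hL : Lab Γ D ε)
    {g : ℕ} (hg : Girth Γ g) {x y : D.F} {c : Bool} (hv : (ε x).1 c = (ε y).1 c)
    (hne : ε y ≠ ε x) {s u : ℕ} (hs : D.Live x (!c) s) (hu : D.Live y (!c) u)
    (hsu : s + u + 2 < g) (c' : Bool) :
    (ε (D.ray x (!c) s)).1 c' ≠ (ε (D.ray y (!c) u)).1 (alt (!c) u) := by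
  by_cases hc' : c' = alt (!c) s
  · rw [hc']
    exact hg.fork (hL.nb_ray hs) (hL.nb_ray hu) hne (by simpa using hv.symm) hsu
  · rcases s with _ | s
    · have : c' = c := by revert hc'; cases c <;> cases c' <;> simp
      rw [this]
      have := hg _ _ _ (by omega) (hL.nb_ray hu)
      simp only [Gem.ray_zero, Bool.not_not] at this ⊢
      rwa [hv]
    · have h1 : c' = alt (!c) s := by
        rw [alt_succ] at hc'
        revert hc'; cases c' <;> cases alt (!c) s <;> simp
      rw [h1, Gem.ray_succ, hL.vtx]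
      exact hg.fork (hL.nb_ray (hs.mono (by omega))) (hL.nb_ray hu) hne
        (by simpa using hv.symm) (by omega)

/-- Going away from an exceptional vertex one never meets the other ray again. -/
theorem Lab.away {Γ : Finset (Edge V P)} {D : Gem} {ε : D.F → Edge V P} (hL : Lab Γ D ε)
    {g : ℕ} (hg : Girth Γ g) {x y x' : D.F} {c : Bool} (h : Exc D ε x y c) {k u : ℕ}
    (hx : D.Near x x' k) (hu : D.Live y (!c) u) (hku : k + u + 2 < g) (c' : Bool) :
    (ε x').1 c' ≠ (ε (D.ray y (!c) u)).1 (alt (!c) u) := by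
  obtain ⟨β, s, hs, hlive, rfl⟩ := hx
  by_cases hβ : β = !c
  · subst hβ
    exact hL.away_aux hg h.1 h.2.1 hlive hu (by omega) c'
  · have hβ' : β = c := by revert hβ; cases β <;> cases c <;> simp
    subst hβ'
    rcases s with _ | s
    · exact hL.away_aux hg h.1 h.2.1 (Gem.live_zero _ _) hu (by omega) c'
    · have e1 : alt β 1 = !β := by simpa using alt_succ β 0
      have h1 : D.Live (D.ray x β 1) (alt β 1) s := Gem.Live.add (by rwa [Nat.add_comm])
      rw [Nat.add_comm, Gem.ray_add]
      rw [e1] at h1 ⊢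
      have e2 : D.ray x β 1 = D.ν β x := by simp [Gem.ray_succ]
      rw [e2] at h1 ⊢
      exact hL.away_aux hg ((hL.vtx x β).trans h.1) h.2.2 h1 hu (by omega) c'

end Crest.Agent.R177
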