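import Crest.Agent.R177.Defs

set_option autoImplicit false

namespace Crest.Agent.R177

open Finset
open scoped LinearAlgebra.Projectivization

/-- Number of solutions of `x ^ m = x` in a finite field. -/
lemma card_pow_eq_self (X : Type) [Field X] [Fintype X] [DecidableEq X] {m : ℕ} (hm : 2 ≤ m)
    (hd : m - 1 ∣ Fintype.card X - 1) : #{x : X | x ^ m = x} = m := by
  have h1 := IsCyclic.card_powMonoidHom_ker Xˣ (m - 1)
  rw [Nat.card_units, Nat.card_eq_fintype_card (α := X), Nat.gcd_eq_right hd,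
    Nat.card_eq_fintype_card, Fintype.card_subtype] at h1
  obtain ⟨m, rfl⟩ : ∃ j, m = j + 1 := ⟨m - 1, by omega⟩
  have h2 : ({x : X | x ^ (m + 1) = x} : Finset X) = insert 0
      (({x : Xˣ | x ∈ (powMonoidHom (m + 1 - 1) : Xˣ →* Xˣ).ker} : Finset Xˣ).map
        ⟨Units.val, Units.val_injective⟩) := by
    ext x
    simp only [mem_filter, mem_univ, true_and, mem_insert, mem_map, MonoidHom.mem_ker,
      powMonoidHom_apply, Function.Embedding.coeFn_mk, Nat.add_sub_cancel]
    constructor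
    · intro h
      by_cases hx : x = 0
      · exact Or.inl hx
      · refine Or.inr ⟨Units.mk0 x hx, Units.ext ?_, rfl⟩
        rw [pow_succ] at h
        simpa using (mul_eq_right₀ hx).1 h
    · rintro (rfl | ⟨u, hu, rfl⟩)
      · simp
      · rw [pow_succ, ← Units.val_pow_eq_pow_val, hu]; simp
  rw [h2, card_insert_of_notMem (by simp), card_map, h1]
  omega

/-- The points of a projective space meeting a set of vectors. -/
def Meets {E V : Type} [Field E] [AddCommGroup V] [Module E V] (B : Finset V) (x : ℙ E V) : Prop :=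
  ∃ v ∈ B, ∃ h : v ≠ 0, Projectivization.mk E v h = x

open Classical in
lemma card_meets {E V : Type} [Field E] [Fintype E] [AddCommGroup V] [Module E V] [Fintype V]
    [Fintype (ℙ E V)] (B : Finset V) (h0 : (0 : V) ∈ B) (r : ℕ)
    (hB : ∀ v ∈ B, v ≠ 0 → #{c : E | c • v ∈ B} = r) :
    #{x : ℙ E V | Meets B x} * (r - 1) + 1 = B.card := by
  have h1 : #{v : {v : V // v ≠ 0} | v.1 ∈ B} + 1 = B.card := by
    rw [← card_erase_add_one h0]
    congr 1
    refine card_bij (fun v _ => v.1) ?_ ?_ ?_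
    · intro v hv; exact mem_erase.2 ⟨v.2, (mem_filter.1 hv).2⟩
    · intro v _ w _ h; exact Subtype.ext h
    · intro v hv
      exact ⟨⟨v, (mem_erase.1 hv).1⟩, mem_filter.2 ⟨mem_univ _, (mem_erase.1 hv).2⟩, rfl⟩
  rw [← h1, card_eq_sum_card_fiberwise (f := fun v : {v : V // v ≠ 0} =>
    Projectivization.mk E v.1 v.2) (s := {v : {v : V // v ≠ 0} | v.1 ∈ B})
    (t := {x : ℙ E V | Meets B x})
    (fun v hv => mem_coe.2 (mem_filter.2 ⟨mem_univ _, v.1, (mem_filter.1 (mem_coe.1 hv)).2, v.2, rfl⟩))]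
  congr 1
  rw [← smul_eq_mul, ← sum_const]
  refine sum_congr rfl fun x hx => ?_
  obtain ⟨v, hv, hv0, rfl⟩ := (mem_filter.1 hx).2
  have h2 : (0 : E) ∈ ({c : E | c • v ∈ B} : Finset E) := by simpa using h0
  rw [← hB v hv hv0, ← card_erase_of_mem h2]
  refine card_bij (fun c hc => ⟨c • v, smul_ne_zero (mem_erase.1 hc).1 hv0⟩) ?_ ?_ ?_
  · intro c hc
    refine mem_filter.2 ⟨mem_filter.2 ⟨mem_univ _, (mem_filter.1 (mem_erase.1 hc).2).2⟩, ?_⟩
    exact (Projectivization.mk_eq_mk_iff' E _ _ _ _).2 ⟨c, rfl⟩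
  · intro c _ c' _ h
    exact smul_left_injective E hv0 (congrArg Subtype.val h)
  · intro w hw
    obtain ⟨h3, h4⟩ := mem_filter.1 hw
    obtain ⟨c, hc⟩ := (Projectivization.mk_eq_mk_iff' E _ _ _ _).1 h4
    refine ⟨c, mem_erase.2 ⟨?_, mem_filter.2 ⟨mem_univ _, hc ▸ (mem_filter.1 h3).2⟩⟩,
      Subtype.ext hc⟩
    rintro rfl
    exact w.2 (by simpa using hc.symm)

/-- A set with three regions of odd size at least three is a set of triples and pairs. -/
lemma exists_blocks {P : Type} [Fintype P] (ρ : P → Fin 3) (a : Fin 3 → ℕ)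
    (h : ∀ k, #{x | ρ x = k} = 3 + 2 * a k) :
    ∃ e : Pt (Σ k, Fin (a k)) ≃ P, ∀ s, ρ (e s) = region Sigma.fst s := by
  classical
  have hc : ∀ k, Fintype.card {s : Pt (Σ k, Fin (a k)) // region Sigma.fst s = k} =
      Fintype.card {x // ρ x = k} := by
    intro k
    rw [Fintype.card_subtype, Fintype.card_subtype, h k, card_filter, Fintype.sum_sum_type,
      Fintype.sum_prod_type, Fintype.sum_prod_type, Fintype.sum_sigma]
    have e1 : ∀ (n : ℕ) (x : Fin 3), (∑ _y : Fin n, if x = k then 1 else 0) =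
        if x = k then n else 0 := by intro n x; split_ifs <;> simp
    have e2 : ∀ (n : ℕ) (x : Fin 3), (∑ _y : Fin n, ∑ _z : Bool, if x = k then 1 else 0) =
        if x = k then 2 * n else 0 := by intro n x; split_ifs <;> simp [mul_comm]
    change (∑ x : Fin 3, ∑ _y : Fin 3, if x = k then 1 else 0) +
      (∑ x : Fin 3, ∑ _y : Fin (a x), ∑ _z : Bool, if x = k then 1 else 0) = _
    simp only [e1, e2, sum_ite_eq', mem_univ, if_true]
  exact ⟨Equiv.ofFiberEquiv fun k => Fintype.equivOfCardEq (hc k),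
    fun s => Equiv.ofFiberEquiv_map _ s⟩

/-- Two disjoint Baer substructures. -/
lemma exists_baer (p k : ℕ) [Fact p.Prime] (hk : 0 < k) (E : Type) [Field E] [Fintype E]
    [DecidableEq E] [CharP E p] (hE : Fintype.card E = (p ^ k) ^ 2) :
    ∃ A : Fin 2 → AddSubgroup (Fin 3 → E), (∀ i, Nat.card (A i) = (p ^ k) ^ 3) ∧
      (∀ i, ∀ v ∈ A i, v ≠ 0 → ∀ c : E, c • v ∈ A i ↔ c ^ p ^ k = c) ∧
      ∀ v ∈ A 0, ∀ c : E, c • v ∈ A 1 → c • v = 0 := by
  classical
  set r := p ^ k with hr
  have hr2 : 2 ≤ r := Nat.one_lt_pow hk.ne' (Fact.out : p.Prime).one_lt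
  let L := FiniteField.Extension E p 3
  letI : Fintype L := Fintype.ofFinite L
  have hL : Fintype.card L = r ^ 6 := by
    rw [← Nat.card_eq_fintype_card, FiniteField.natCard_extension, Nat.card_eq_fintype_card, hE]
    ring
  have : CharP L p := charP_of_injective_algebraMap (algebraMap E L).injective p
  obtain ⟨e⟩ : Nonempty (L ≃ₗ[E] (Fin 3 → E)) :=
    FiniteDimensional.nonempty_linearEquiv_of_finrank_eq
      (by rw [FiniteField.finrank_extension]; simp)
  obtain ⟨ω, hω⟩ := IsCyclic.exists_ofOrder_eq_natCard (α := Lˣ)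
  rw [Nat.card_units, Nat.card_eq_fintype_card, hL] at hω
  have hr3 : r ^ 3 = p ^ (k * 3) := by rw [hr, pow_mul]
  let K : AddSubgroup L :=
    { carrier := {x | x ^ r ^ 3 = x}
      zero_mem' := by simp; omega
      add_mem' := by
        intro x y hx hy
        simp only [Set.mem_setOf_eq] at hx hy ⊢
        rw [hr3] at hx hy ⊢
        rw [add_pow_char_pow, hx, hy]
      neg_mem' := by
        intro x hx
        simp only [Set.mem_setOf_eq] at hx ⊢
        rw [hr3] at hx ⊢
        rw [neg_pow, neg_one_pow_char_pow, hx]; ring }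
  have hK : ∀ x, x ∈ K ↔ x ^ r ^ 3 = x := fun _ => Iff.rfl
  have hKc : Nat.card K = r ^ 3 := by
    have h3 : 2 ≤ r ^ 3 := hr2.trans (Nat.le_self_pow (by norm_num) r)
    have := card_pow_eq_self L h3 (by
      rw [hL, show r ^ 6 = (r ^ 3) ^ 2 by ring]
      simpa using Nat.sub_dvd_pow_sub_pow (r ^ 3) 1 2)
    rw [← this, Nat.card_eq_fintype_card, Fintype.card_subtype]
    congr 1
  have hEc : ∀ c : E, c ^ r ^ 2 = c := fun c => by rw [← hE]; exact FiniteField.pow_card c
  have hKs : ∀ v ∈ K, v ≠ 0 → ∀ c : E, c • v ∈ K ↔ c ^ r = c := by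
    intro v hv hv0 c
    rw [hK] at hv ⊢
    rw [Algebra.smul_def, mul_pow, hv, mul_left_inj' hv0, ← map_pow,
      (algebraMap E L).injective.eq_iff, pow_succ, pow_mul, hEc]
  let u : Fin 2 → Lˣ := ![1, ω]
  let f : Fin 2 → L ≃ₗ[E] (Fin 3 → E) := fun i =>
    (DistribMulAction.toLinearEquiv E L (u i)).trans e
  have hf : ∀ i x, f i x = e (u i * x) := fun _ _ => rfl
  refine ⟨fun i => K.map (f i).toLinearMap.toAddMonoidHom, fun i => ?_, ?_, ?_⟩
  · rw [← hKc]
    exact (Nat.card_congr (K.equivMapOfInjective _ (f i).injective).toEquiv).symm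
  · rintro i _ ⟨x, hx, rfl⟩ hv0 c
    have hx0 : x ≠ 0 := by rintro rfl; simp at hv0
    rw [← hKs x hx hx0 c]
    constructor
    · rintro ⟨y, hy, h⟩
      have : y = c • x := (f i).injective (by rw [map_smul]; exact h)
      exact this ▸ hy
    · intro h
      exact ⟨c • x, h, map_smul (f i) c x⟩
  · rintro _ ⟨x, hx, rfl⟩ c ⟨y, hy, h⟩
    by_contra hne
    have h' : f 1 y = c • f 0 x := h
    have hc : c ≠ 0 := by rintro rfl; simp at hne
    have hx0 : x ≠ 0 := by rintro rfl; simp at hne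
    rw [hf, hf, ← map_smul, e.injective.eq_iff] at h'
    simp only [u, Matrix.cons_val_one, Matrix.cons_val_zero, Units.val_one, one_mul,
      Algebra.smul_def] at h'
    have hc' : algebraMap E L c ≠ 0 := (map_ne_zero _).2 hc
    have hy0 : y ≠ 0 := by
      rintro rfl
      exact mul_ne_zero hc' hx0 (by simpa using h'.symm)
    have p1 : ∀ z : L, z ≠ 0 → ∀ m, 1 ≤ m → z ^ m = z → z ^ (m - 1) = 1 := by
      intro z hz m hm h
      obtain ⟨m, rfl⟩ : ∃ j, m = j + 1 := ⟨m - 1, by omega⟩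
      rw [pow_succ] at h
      simpa using (mul_eq_right₀ hz).1 h
    have q2 : 1 < r ^ 2 := Nat.one_lt_pow (by norm_num) hr2
    have q3 : 1 < r ^ 3 := Nat.one_lt_pow (by norm_num) hr2
    have a1 := p1 x hx0 _ q3.le hx
    have a2 := p1 y hy0 _ q3.le hy
    have a3 := p1 _ hc' _ q2.le (by rw [← map_pow, hEc])
    have a4 : ω ^ ((r ^ 2 - 1) * (r ^ 3 - 1)) = 1 := by
      have := congrArg (· ^ ((r ^ 2 - 1) * (r ^ 3 - 1))) h'
      simp only [mul_pow] at this
      rw [pow_mul' y, a2, pow_mul' x, a1, pow_mul (algebraMap E L c), a3] at this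
      exact Units.ext (by simpa using this)
    have a5 := Nat.le_of_dvd (Nat.mul_pos (by omega) (by omega)) (orderOf_dvd_of_pow_eq_one a4)
    rw [hω] at a5
    have a6 : (r ^ 2 - 1) * (r ^ 3 - 1) < r ^ 2 * r ^ 3 :=
      Nat.mul_lt_mul'' (by omega) (by omega)
    have a7 : r ^ 6 = r * (r ^ 2 * r ^ 3) := by ring
    have a8 : 1 ≤ r ^ 2 * r ^ 3 := Nat.mul_pos (by omega) (by omega)
    have a9 : 2 * (r ^ 2 * r ^ 3) ≤ r * (r ^ 2 * r ^ 3) := Nat.mul_le_mul_right _ hr2
    omega

/-- The projective plane over the field with `p ^ (2 k)` elements, two disjoint Baer subplanes and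
a partition of the points into three triples and pairs. -/
theorem exists_bplane (p k : ℕ) (hp : p.Prime) (hk : 0 < k) (h4 : 4 ≤ p ^ k) :
    Nonempty (BPlane p) := by
  classical
  have : Fact p.Prime := ⟨hp⟩
  let E := GaloisField p (k * 2)
  letI : Fintype E := Fintype.ofFinite E
  have hE : Fintype.card E = (p ^ k) ^ 2 := by
    rw [← Nat.card_eq_fintype_card, GaloisField.card p (k * 2) (by omega), pow_mul]
  obtain ⟨A, hA1, hA2, hA3⟩ := exists_baer p k hk E hE
  set r := p ^ k with hr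
  have hpr : p ∣ r := dvd_pow_self p hk.ne'
  let P := ℙ E (Fin 3 → E)
  letI : Fintype P := Fintype.ofFinite P
  have hP : Fintype.card P = (r ^ 2) ^ 2 + r ^ 2 + 1 := by
    rw [← Nat.card_eq_fintype_card, Projectivization.card_of_finrank E (Fin 3 → E) (n := 3) (by simp),
      Nat.card_eq_fintype_card, hE]
    simp [sum_range_succ]; ring
  have ho : Configuration.ProjectivePlane.order P P = r ^ 2 := by
    have := Configuration.ProjectivePlane.card_points P P
    rw [hP] at this
    by_contra h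
    rcases Nat.lt_or_gt_of_ne h with h | h <;> nlinarith
  have hF : #{c : E | c ^ r = c} = r := card_pow_eq_self E (by omega) (by
    rw [hE]; simpa using Nat.sub_dvd_pow_sub_pow r 1 2)
  -- counting points of `A i` inside a subspace
  have key : ∀ i (W : Submodule E (Fin 3 → E)),
      #{x : P | Meets (univ.filter fun v => v ∈ A i ∧ v ∈ W) x} * (r - 1) + 1 =
        Nat.card ↥(A i ⊓ W.toAddSubgroup) := by
    intro i W
    rw [card_meets _ (by simp) r, Nat.card_eq_fintype_card, Fintype.card_subtype]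
    · congr 1; ext v; simp
    · intro v hv hv0
      rw [← hF]
      congr 1
      ext c
      simp only [mem_filter, mem_univ, true_and] at hv ⊢
      rw [hA2 i v hv.1 hv0]
      exact and_iff_left (W.smul_mem c hv.2)
  let U : Fin 2 → P → Prop := fun i => Meets (univ.filter fun v => v ∈ A i ∧ v ∈ (⊤ : Submodule E _))
  have hU : ∀ i, #{x : P | U i x} = r ^ 2 + r + 1 := by
    intro i
    have := key i ⊤
    rw [Submodule.top_toAddSubgroup, inf_top_eq, hA1] at this
    obtain ⟨s, hs⟩ : ∃ s, r = s + 1 := ⟨r - 1, by omega⟩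
    rw [hs] at this ⊢
    refine Nat.eq_of_mul_eq_mul_right (m := s) (by omega) ?_
    simp only [Nat.add_sub_cancel] at this
    nlinarith
  have hdisj : ∀ x, U 0 x → ¬ U 1 x := by
    rintro x ⟨v, hv, hv0, rfl⟩ ⟨w, hw, hw0, h⟩
    obtain ⟨c, rfl⟩ := (Projectivization.mk_eq_mk_iff' E _ _ _ _).1 h
    exact hw0 (hA3 v (mem_filter.1 hv).2.1 c (mem_filter.1 hw).2.1)
  have hline : ∀ i (l : P), #{x : P | x ∈ l ∧ U i x} ≡ 1 [MOD p] := by
    intro i l
    obtain ⟨w, hw, rfl⟩ : ∃ w hw, l = Projectivization.mk E w hw :=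
      ⟨_, _, (Projectivization.mk_rep l).symm⟩
    let φ : (Fin 3 → E) →ₗ[E] E := (dotProductBilin E E).flip w
    have hφ : ∀ v, φ v = v ⬝ᵥ w := fun _ => rfl
    have h1 := key i (LinearMap.ker φ)
    have h2 : ({x : P | Meets (univ.filter fun v => v ∈ A i ∧ v ∈ LinearMap.ker φ) x} : Finset P) =
        ({x : P | x ∈ (Projectivization.mk E w hw : P) ∧ U i x} : Finset P) := by
      ext x
      simp only [mem_filter, mem_univ, true_and, U, Meets, LinearMap.mem_ker, hφ,
        Submodule.mem_top, and_true]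
      constructor
      · rintro ⟨v, ⟨hv, hvw⟩, hv0, rfl⟩
        exact ⟨hvw, v, hv, hv0, rfl⟩
      · rintro ⟨hvw, v, hv, hv0, rfl⟩
        exact ⟨v, ⟨hv, hvw⟩, hv0, rfl⟩
    rw [h2] at h1
    have h3 : p ∣ Nat.card ↥(A i ⊓ (LinearMap.ker φ).toAddSubgroup) := by
      have d1 := AddSubgroup.card_dvd_of_le (inf_le_left : A i ⊓ (LinearMap.ker φ).toAddSubgroup ≤ _)
      rw [hA1, hr, ← pow_mul] at d1
      obtain ⟨j, -, hj⟩ := (Nat.dvd_prime_pow hp).1 d1
      rw [hj]
      refine dvd_pow_self p ?_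
      rintro rfl
      rw [pow_zero, AddSubgroup.card_eq_one] at hj
      have inj : Function.Injective fun v : A i => φ v := by
        intro a b hab
        have : (a : Fin 3 → E) - b ∈ A i ⊓ (LinearMap.ker φ).toAddSubgroup :=
          ⟨(A i).sub_mem a.2 b.2, by
            change _ ∈ LinearMap.ker φ
            rw [LinearMap.mem_ker, map_sub]; exact sub_eq_zero.2 hab⟩
        rw [hj, AddSubgroup.mem_bot] at this
        exact Subtype.ext (sub_eq_zero.1 this)
      have := Nat.card_le_card_of_injective _ inj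
      rw [hA1, Nat.card_eq_fintype_card, hE] at this
      have : r ^ 2 < r ^ 3 := Nat.pow_lt_pow_right (by omega) (by norm_num)
      omega
    rw [← h1] at h3
    set n := #{x : P | x ∈ (Projectivization.mk E w hw : P) ∧ U i x}
    obtain ⟨s, hs⟩ : ∃ s, r = s + 1 := ⟨r - 1, by omega⟩
    rw [hs] at hpr h3
    simp only [Nat.add_sub_cancel] at h3
    have h5 : (p : ℤ) ∣ 1 - n := by
      have e : (1 : ℤ) - n = ((n * s + 1 : ℕ) : ℤ) - n * ((s + 1 : ℕ) : ℤ) := by push_cast; ring
      rw [e]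
      exact dvd_sub (Int.natCast_dvd_natCast.2 h3) ((Int.natCast_dvd_natCast.2 hpr).mul_left _)
    exact Nat.modEq_of_dvd (by simpa using h5)
  let ρ : P → Fin 3 := fun x => if U 0 x then 0 else if U 1 x then 1 else 2
  have hρ0 : ∀ x, ρ x = 0 ↔ U 0 x := fun x => by
    simp only [ρ]; split_ifs <;> simp_all
  have hρ1 : ∀ x, ρ x = 1 ↔ U 1 x := fun x => by
    have := hdisj x
    simp only [ρ]; split_ifs <;> simp_all
  have hρ : ∀ j : Fin 3, j ≠ 2 → ∃ i, ∀ x, ρ x = j ↔ U i x := by
    intro j hj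
    fin_cases j
    · exact ⟨0, hρ0⟩
    · exact ⟨1, hρ1⟩
    · exact absurd rfl hj
  have c0 : #{x | ρ x = 0} = r ^ 2 + r + 1 := by simp only [hρ0, hU]
  have c1 : #{x | ρ x = 1} = r ^ 2 + r + 1 := by simp only [hρ1, hU]
  have c2 : #{x | ρ x = 0} + #{x | ρ x = 1} + #{x | ρ x = 2} = (r ^ 2) ^ 2 + r ^ 2 + 1 := by
    rw [← hP, ← card_univ, card_eq_sum_card_fiberwise (f := ρ) (s := univ) (t := univ) (by simp),
      Fin.sum_univ_three]
  obtain ⟨a, ha⟩ : ∃ a : Fin 3 → ℕ, ∀ j, #{x | ρ x = j} = 3 + 2 * a j := by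
    have e1 : Even (r ^ 2 + r) := by
      rw [show r ^ 2 + r = r * (r + 1) by ring]; exact Nat.even_mul_succ_self r
    have e2 : Even ((r ^ 2) ^ 2 + r ^ 2) := by
      rw [show (r ^ 2) ^ 2 + r ^ 2 = r ^ 2 * (r ^ 2 + 1) by ring]; exact Nat.even_mul_succ_self _
    obtain ⟨b, hb⟩ := e1
    obtain ⟨c, hc⟩ := e2
    have g1 : 4 * r ≤ r ^ 2 := by nlinarith
    have g2 : 16 * r ^ 2 ≤ (r ^ 2) ^ 2 := by nlinarith
    refine ⟨fun j => (#{x | ρ x = j} - 3) / 2, fun j => ?_⟩
    fin_cases j <;> simp only [Fin.zero_eta, Fin.mk_one, Fin.reduceFinMk] <;> omega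
  obtain ⟨e, he⟩ := exists_blocks ρ a ha
  have tr : ∀ (Q : P → Prop) [DecidablePred Q], #{s | Q (e s)} = #{x | Q x} := by
    intro Q _
    exact card_equiv e (by simp)
  have hq1 : r ^ 2 + 1 ≡ 1 [MOD p] := by
    have : r ^ 2 ≡ 0 [MOD p] := (Nat.modEq_zero_iff_dvd).2 (dvd_pow hpr (by norm_num))
    simpa using this.add_right 1
  refine ⟨{ Pr := Σ j, Fin (a j)
            reg := Sigma.fst
            Ln := P
            ln := fun l => {s | e s ∈ l}
            Q := r ^ 2 + 1
            two_le := by nlinarith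
            small := ?_
            through := ?_
            join := ?_
            meet := ?_
            meetU := ?_
            cardU := ?_ }⟩
  · rw [Fintype.card_congr e, hP]; nlinarith
  · intro s
    have := Configuration.ProjectivePlane.lineCount_eq P (e s)
    rw [ho, Configuration.lineCount, Nat.card_eq_fintype_card, Fintype.card_subtype] at this
    simpa using this
  · intro s t hst
    refine card_le_one.2 fun l hl l' hl' => ?_
    simp only [mem_filter, mem_univ, true_and] at hl hl'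
    exact (Configuration.Nondegenerate.eq_or_eq hl.1 hl.2 hl'.1 hl'.2).resolve_left
      (e.injective.ne hst)
  · intro l l'
    rw [← filter_and, tr fun x => x ∈ l ∧ x ∈ l']
    by_cases h : l = l'
    · subst h
      have := Configuration.ProjectivePlane.pointCount_eq P l
      rw [ho, Configuration.pointCount, Nat.card_eq_fintype_card, Fintype.card_subtype] at this
      simp only [and_self]
      rw [this]; exact hq1
    · obtain ⟨x, hx, hx'⟩ := Configuration.HasPoints.existsUnique_point P P l l' h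
      rw [card_eq_one.2 ⟨x, by
        ext y; simp only [mem_filter, mem_univ, true_and, mem_singleton]
        exact ⟨hx' y, fun h => h ▸ hx⟩⟩]
  · intro l j hj
    obtain ⟨i, hi⟩ := hρ j hj
    simp only [filter_filter, ← he, hi]
    rw [tr fun x => x ∈ l ∧ U i x]
    exact hline i l
  · intro j hj
    obtain ⟨i, hi⟩ := hρ j hj
    simp only [← he, hi]
    rw [tr fun x => U i x, hU]
    have : r ^ 2 + r ≡ 0 [MOD p] :=
      (Nat.modEq_zero_iff_dvd).2 (dvd_add (dvd_pow hpr (by norm_num)) hpr)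
    simpa using this.add_right 1

end Crest.Agent.R177
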