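import Crest.Agent.R177.Defs

/-! Rays in gems, and consequences of the girth condition. -/

set_option autoImplicit false

namespace Crest.Agent.R177

open Finset

@[simp] theorem alt_zero (b : Bool) : alt b 0 = b := by simp [alt]

theorem alt_succ (b : Bool) (t : ℕ) : alt b (t + 1) = !(alt b t) := by
  simp [alt, Nat.bodd_succ]

theorem alt_not (b : Bool) (t : ℕ) : alt (!b) t = !(alt b t) := by
  simp [alt]

theorem alt_add (b : Bool) (s t : ℕ) : alt b (s + t) = alt (alt b s) t := by
  simp [alt, Nat.bodd_add]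

theorem alt_succ' (b : Bool) (t : ℕ) : alt b (t + 1) = alt (!b) t := by
  rw [alt_succ, alt_not]

theorem alt_two_mul (b : Bool) (t : ℕ) : alt b (2 * t) = b := by
  simp [alt, Nat.bodd_mul]

variable {V P : Type}

theorem NB.shift {Γ : Finset (Edge V P)} {e : ℕ → Edge V P} {b : Bool} {k : ℕ}
    (h : NB Γ e b k) (s m : ℕ) (hsm : s + m ≤ k) :
    NB Γ (fun t => e (s + t)) (alt b s) m := by
  refine ⟨fun t ht => h.1 _ (by omega), fun t ht => ?_⟩
  have := h.2 (s + t) (by omega)
  rw [alt_add] at this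
  exact this

/-- In a non-backtracking walk with at most `g` edges all edges are distinct. -/
theorem Girth.ne_of_nb {Γ : Finset (Edge V P)} {g : ℕ} (hg : Girth Γ g) {e : ℕ → Edge V P}
    {b : Bool} {k : ℕ} (h : NB Γ e b k) (hk0 : 0 < k) (hk : k < g) : e k ≠ e 0 := by
  intro he
  obtain ⟨k, rfl⟩ : ∃ m, k = m + 1 := ⟨k - 1, by omega⟩
  have hlast := (h.2 k (by omega)).2
  by_cases hp : alt b k = !b
  · apply hg e b k (by omega) ⟨fun t ht => h.1 t (by omega), fun t ht => h.2 t (by omega)⟩
    rw [← hlast, he, hp]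
  · have hp' : alt b k = b := by
      revert hp; cases alt b k <;> cases b <;> simp
    rcases Nat.eq_zero_or_pos k with rfl | hk1
    · exact (h.2 0 (by omega)).1 he
    · obtain ⟨k, rfl⟩ : ∃ m, k = m + 1 := ⟨k - 1, by omega⟩
      have hs := h.shift 1 k (by omega)
      apply hg _ _ k (by omega) hs
      have h0 := (h.2 0 (by omega)).2
      simp only [alt_zero, zero_add] at h0
      have e1 : alt b 1 = !b := by simpa using alt_succ b 0
      simp only [e1, Bool.not_not, Nat.add_zero]
      rw [← alt_succ', hp', h0, ← he, Nat.add_comm 1 k]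
      rw [hp'] at hlast
      exact hlast

theorem Girth.inj_of_nb {Γ : Finset (Edge V P)} {g : ℕ} (hg : Girth Γ g) {e : ℕ → Edge V P}
    {b : Bool} {k : ℕ} (h : NB Γ e b k) (hk : k < g) {s t : ℕ} (hs : s ≤ k) (ht : t ≤ k)
    (hst : e s = e t) : s = t := by
  by_contra hne
  wlog hlt : s < t generalizing s t
  · exact this ht hs hst.symm (Ne.symm hne) (by omega)
  have := hg.ne_of_nb (h.shift s (t - s) (by omega)) (by omega) (by omega)
  apply this
  simp only [Nat.add_zero]
  rw [show s + (t - s) = t by omega, hst]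

namespace Gem

variable (D : Gem)

/-- The radial involution on side `b`. -/
abbrev ν (b : Bool) (x : D.F) : D.F := D.σ (rad b) x

/-- The alternating radial walk from `x` whose first step is on side `b`. -/
def ray (x : D.F) (b : Bool) : ℕ → D.F
  | 0 => x
  | t + 1 => D.ν (alt b t) (ray x b t)

/-- The first `t` steps of the ray really move. -/
def Live (x : D.F) (b : Bool) (t : ℕ) : Prop :=
  ∀ s < t, D.ν (alt b s) (D.ray x b s) ≠ D.ray x b s

theorem ray_succ (x : D.F) (b : Bool) (t : ℕ) :
    D.ray x b (t + 1) = D.ν (alt b t) (D.ray x b t) := rfl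

@[simp] theorem ray_zero (x : D.F) (b : Bool) : D.ray x b 0 = x := rfl

theorem ray_pred (x : D.F) (b : Bool) (t : ℕ) :
    D.ν (alt b t) (D.ray x b (t + 1)) = D.ray x b t := D.inv _ _

variable {D}

theorem Live.mono {x : D.F} {b : Bool} {s t : ℕ} (h : D.Live x b t) (hst : s ≤ t) :
    D.Live x b s := fun u hu => h u (by omega)

theorem live_zero (x : D.F) (b : Bool) : D.Live x b 0 := fun _ hu => absurd hu (by omega)

theorem live_succ {x : D.F} {b : Bool} {t : ℕ} :
    D.Live x b (t + 1) ↔ D.Live x b t ∧ D.ν (alt b t) (D.ray x b t) ≠ D.ray x b t := by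
  constructor
  · intro h; exact ⟨h.mono (by omega), h t (by omega)⟩
  · rintro ⟨h1, h2⟩ s hs
    rcases Nat.lt_succ_iff_lt_or_eq.1 hs with h | rfl
    · exact h1 s h
    · exact h2

end Gem

theorem Lab.nb_ray {Γ : Finset (Edge V P)} {D : Gem} {ε : D.F → Edge V P} (hL : Lab Γ D ε)
    {x : D.F} {b : Bool} {t : ℕ} (h : D.Live x b t) :
    NB Γ (fun s => ε (D.ray x b s)) b t :=
  ⟨fun _ _ => hL.mem _, fun s hs => ⟨hL.red _ _ (h s hs), hL.vtx _ _⟩⟩

theorem Lab.cone {Γ : Finset (Edge V P)} {D : Gem} {ε : D.F → Edge V P} (hL : Lab Γ D ε)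
    {g : ℕ} (hg : Girth Γ g) : D.Cone g := by
  rintro S ⟨x, hx⟩ hS
  have hmem : ∀ t, D.ray x false t ∈ S := by
    intro t
    induction t with
    | zero => exact hx
    | succ t ih => exact (hS _ ih _).1
  rcases Nat.eq_zero_or_pos g with rfl | hg0
  · omega
  have hlive : D.Live x false (g - 1) := fun s _ => (hS _ (hmem s) _).2
  have hnb := hL.nb_ray hlive
  calc g = (range g).card := by simp
    _ ≤ S.card := by
      apply card_le_card_of_injOn (fun t => D.ray x false t) (fun t _ => hmem t)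
      intro s hs t ht hst
      simp only [coe_range, Set.mem_Iio] at hs ht
      exact hg.inj_of_nb hnb (by omega) (by omega) (by omega) (congrArg ε hst)

theorem Lab.res {Γ : Finset (Edge V P)} {D : Gem} {ε : D.F → Edge V P} (hL : Lab Γ D ε)
    (S : Finset D.F) : Lab Γ (D.res S) (fun x => ε x.1) := by
  refine ⟨fun x => hL.mem _, fun x => ?_, fun x b => ?_, fun x i h => ?_⟩
  · by_cases h : D.σ 1 x.1 ∈ S
    · simp only [Gem.res, h, dif_pos]; exact hL.lab _
    · simp only [Gem.res, h, dif_neg, not_false_eq_true]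
  · by_cases h : D.σ (rad b) x.1 ∈ S
    · simp only [Gem.res, h, dif_pos]; exact hL.vtx _ _
    · simp only [Gem.res, h, dif_neg, not_false_eq_true]
  · by_cases h' : D.σ i x.1 ∈ S
    · simp only [Gem.res, h', dif_pos] at h ⊢
      apply hL.red
      intro h''
      exact h (Subtype.ext h'')
    · simp only [Gem.res, h', dif_neg, not_false_eq_true] at h
      exact absurd rfl h

theorem Lab.folded {P Sh : Type} [DecidableEq P] [DecidableEq Sh] {R : Finset (P × P)}
    {Q d n : ℕ} {𝒟 : Design P Sh R Q d n} {Γ : Finset (Edge 𝒟.V P)} (hΓ : IsGraph 𝒟 Γ)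
    {D : Gem} {ε : D.F → Edge 𝒟.V P} (hL : Lab Γ D ε) : D.Folded := by
  intro x b h
  by_contra hne
  apply hL.red x 1 hne
  apply hΓ.uniq _ (hL.mem _) _ (hL.mem _) b
  · rw [← h]; exact hL.vtx x b
  · exact hL.lab x

end Crest.Agent.R177
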