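import Crest.Agent.R177.Real2
import Crest.Prelude.Def_ClassifyingComplex

set_option autoImplicit false

namespace Crest.Agent.R177

open Set Metric

noncomputable section

variable {G Gen Tr : Type} [Group G] (gen : Gen → G) (l : Tr → Fin 3 → Gen)

/-- A partial equivalence on the open unit ball from a left inverse. -/
def mkPE {n : ℕ} {X : Type} (f : (Fin n → ℝ) → X) (g : X → Fin n → ℝ)
    (h : ∀ a ∈ ball (0 : Fin n → ℝ) 1, g (f a) = a) : PartialEquiv (Fin n → ℝ) X where
  toFun := f
  invFun := g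
  source := ball 0 1
  target := f '' ball 0 1
  map_source' a ha := ⟨a, ha, rfl⟩
  map_target' := by
    rintro _ ⟨a, ha, rfl⟩
    rwa [h a ha]
  left_inv' a ha := h a ha
  right_inv' := by
    rintro _ ⟨a, ha, rfl⟩
    rw [h a ha]

/-- Rescaling `[-1,1]` to the unit interval. -/
def resc (a : ℝ) : unitInterval := projIcc 0 1 zero_le_one ((a + 1) / 2)

theorem resc_cont : Continuous resc := continuous_projIcc.comp (by fun_prop)

theorem resc_val {a : ℝ} (h : |a| ≤ 1) : (resc a : ℝ) = (a + 1) / 2 := by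
  rw [abs_le] at h
  rw [resc, projIcc_of_mem _ ⟨by linarith [h.1], by linarith [h.2]⟩]

theorem resc_int {a : ℝ} (h : |a| < 1) : 0 < (resc a : ℝ) ∧ (resc a : ℝ) < 1 := by
  rw [resc_val h.le]
  rw [abs_lt] at h
  constructor <;> linarith [h.1, h.2]

theorem resc_surj (u : unitInterval) : |2 * (u : ℝ) - 1| ≤ 1 ∧ resc (2 * u - 1) = u := by
  have h : |2 * (u : ℝ) - 1| ≤ 1 := abs_le.2 ⟨by linarith [u.2.1], by linarith [u.2.2]⟩
  exact ⟨h, Subtype.ext (by rw [resc_val h]; ring)⟩

theorem resc_bd {a : ℝ} (h : |a| = 1) : resc a = 0 ∨ resc a = 1 := by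
  have h1 := resc_val h.le
  rcases (abs_eq zero_le_one).1 h with rfl | rfl
  · right; exact Subtype.ext (by rw [h1]; norm_num)
  · left; exact Subtype.ext (by rw [h1]; norm_num)

theorem ball_abs {n : ℕ} {a : Fin n → ℝ} (h : a ∈ ball (0 : Fin n → ℝ) 1) (i : Fin n) :
    |a i| < 1 := by
  rw [mem_ball_zero_iff] at h
  exact (norm_le_pi_norm a i).trans_lt h

theorem mem_cball {n : ℕ} {a : Fin n → ℝ} (h : ∀ i, |a i| ≤ 1) :
    a ∈ closedBall (0 : Fin n → ℝ) 1 := by
  rw [mem_closedBall_zero_iff]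
  exact (pi_norm_le_iff_of_nonneg zero_le_one).2 h

theorem sphere_abs {n : ℕ} {a : Fin n → ℝ} (h : a ∈ sphere (0 : Fin n → ℝ) 1) :
    ∃ i, |a i| = 1 := by
  rw [mem_sphere_zero_iff_norm] at h
  by_contra hc
  push Not at hc
  have : ‖a‖ < 1 := (pi_norm_lt_iff one_pos).2 fun i =>
    lt_of_le_of_ne ((norm_le_pi_norm a i).trans h.le) (hc i)
  exact this.ne h

/-- The square mapped onto the triangle. -/
def sq (a b : unitInterval) : Tri :=
  ⟨![1 - a, a * (1 - b), a * b], fun i => by
    have := a.2.1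
    have := a.2.2
    have := b.2.1
    have := b.2.2
    fin_cases i
    · simpa using a.2.2
    · exact mul_nonneg a.2.1 (sub_nonneg.2 b.2.2)
    · exact mul_nonneg a.2.1 b.2.1, by
    rw [Fin.sum_univ_three]
    change (1 - (a : ℝ)) + a * (1 - b) + a * b = 1
    ring⟩

theorem sq0 (a b : unitInterval) : (sq a b).1 0 = 1 - a := rfl
theorem sq1 (a b : unitInterval) : (sq a b).1 1 = a * (1 - b) := rfl
theorem sq2 (a b : unitInterval) : (sq a b).1 2 = a * b := rfl

theorem sq_cont : Continuous fun a : Fin 2 → ℝ => sq (resc (a 0)) (resc (a 1)) := by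
  have h0 : Continuous fun a : Fin 2 → ℝ => (resc (a 0) : ℝ) :=
    continuous_subtype_val.comp (resc_cont.comp (continuous_apply 0))
  have h1 : Continuous fun a : Fin 2 → ℝ => (resc (a 1) : ℝ) :=
    continuous_subtype_val.comp (resc_cont.comp (continuous_apply 1))
  refine Continuous.subtype_mk (continuous_pi fun i => ?_) _
  fin_cases i
  · exact continuous_const.sub h0
  · exact h0.mul (continuous_const.sub h1)
  · exact h0.mul h1

theorem sq_int {a b : unitInterval} (ha : 0 < (a : ℝ) ∧ (a : ℝ) < 1)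
    (hb : 0 < (b : ℝ) ∧ (b : ℝ) < 1) :
    0 < (sq a b).1 0 ∧ 0 < (sq a b).1 1 ∧ 0 < (sq a b).1 2 :=
  ⟨sub_pos.2 ha.2, mul_pos ha.1 (sub_pos.2 hb.2), mul_pos ha.1 hb.1⟩

theorem sq_surj (p : Tri) : ∃ a b, sq a b = p := by
  have h0 := tri_nonneg p 0
  have h1 := tri_nonneg p 1
  have h2 := tri_nonneg p 2
  have hs := tri_sum p
  rcases (add_nonneg h1 h2).eq_or_lt with h | h
  · refine ⟨0, 0, tri_ext ?_ ?_ ?_⟩
    · rw [sq0]; simp only [Icc.coe_zero]; linarith
    · rw [sq1]; simp only [Icc.coe_zero]; linarith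
    · rw [sq2]; simp only [Icc.coe_zero]; linarith
  · refine ⟨⟨p.1 1 + p.1 2, h.le, by linarith⟩, ⟨p.1 2 / (p.1 1 + p.1 2), div_nonneg h2 h.le,
      (div_le_one h).2 (by linarith)⟩, tri_ext ?_ ?_ ?_⟩
    · rw [sq0]; simp only; linarith
    · rw [sq1]; simp only; field_simp; ring
    · rw [sq2]; simp only; field_simp

/-- Index types of the cells. -/
def cellT (Gen Tr : Type) : ℕ → Type
  | 0 => Unit
  | 1 => Gen
  | 2 => Tr
  | _ + 3 => Empty

/-- The characteristic map of an edge. -/
def map1 (s : Gen) : PartialEquiv (Fin 1 → ℝ) (Base gen l) :=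
  mkPE (fun a => be gen l s (resc (a 0)))
    (fun x _ => 2 * (edX gen l s 1 x / edX gen l s 0 x) - 1) fun a ha => by
      funext i
      have h := ball_abs ha 0
      rw [edX_div gen l s (resc_int h), resc_val h.le, Subsingleton.elim i 0]
      ring

/-- The characteristic map of a triangle. -/
def map2 (t : Tr) : PartialEquiv (Fin 2 → ℝ) (Base gen l) :=
  mkPE (fun a => bt gen l t (sq (resc (a 0)) (resc (a 1))))
    (fun x => ![1 - 2 * (trX gen l t 0 x / (trX gen l t 0 x + trX gen l t 1 x + trX gen l t 2 x)),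
      2 * (trX gen l t 2 x / (trX gen l t 1 x + trX gen l t 2 x)) - 1]) fun a ha => by
      have h0 := ball_abs ha 0
      have h1 := ball_abs ha 1
      have hi := sq_int (resc_int h0) (resc_int h1)
      funext i
      fin_cases i
      · change 1 - 2 * _ = a 0
        rw [trX_div gen l t hi, sq0, resc_val h0.le]
        ring
      · change 2 * _ - 1 = a 1
        rw [trX_bt, trX_bt, rind_self, one_mul, one_mul, ← add_mul,
          mul_div_mul_right _ _ (mul_pos (mul_pos hi.1 hi.2.1) hi.2.2).ne', sq1, sq2, ← mul_add,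
          mul_div_mul_left _ _ (resc_int h0).1.ne', resc_val h1.le]
        ring

/-- The characteristic maps. -/
def cmap : (n : ℕ) → cellT Gen Tr n → PartialEquiv (Fin n → ℝ) (Base gen l)
  | 0, _ => mkPE (fun _ => bv gen l) (fun _ => 0) fun _ _ => Subsingleton.elim _ _
  | 1, s => map1 gen l s
  | 2, t => map2 gen l t
  | _ + 3, e => Empty.elim e

theorem bv_mem : bv gen l ∈ cmap gen l 0 () '' closedBall 0 1 :=
  ⟨0, mem_closedBall_self zero_le_one, rfl⟩

theorem be_mem (s : Gen) (u : unitInterval) : be gen l s u ∈ cmap gen l 1 s '' closedBall 0 1 :=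
  ⟨fun _ => 2 * u - 1, mem_cball fun _ => (resc_surj u).1, by
    change be gen l s (resc (2 * u - 1)) = _
    rw [(resc_surj u).2]⟩

theorem bt_mem (t : Tr) (p : Tri) : bt gen l t p ∈ cmap gen l 2 t '' closedBall 0 1 := by
  obtain ⟨a, b, rfl⟩ := sq_surj p
  refine ⟨![2 * a - 1, 2 * b - 1], mem_cball fun i => ?_, ?_⟩
  · fin_cases i
    · exact (resc_surj a).1
    · exact (resc_surj b).1
  · change bt gen l t (sq (resc (2 * a - 1)) (resc (2 * b - 1))) = _
    rw [(resc_surj a).2, (resc_surj b).2]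

theorem cell_ev : ∀ᶠ n in Filter.atTop, IsEmpty (cellT Gen Tr n) := by
  refine Filter.eventually_atTop.2 ⟨3, fun n hn => ?_⟩
  obtain ⟨k, rfl⟩ := Nat.exists_eq_add_of_le' hn
  exact inferInstanceAs (IsEmpty Empty)

theorem cell_fin [Finite Gen] [Finite Tr] : ∀ n, Finite (cellT Gen Tr n)
  | 0 => inferInstanceAs (Finite Unit)
  | 1 => inferInstanceAs (Finite Gen)
  | 2 => inferInstanceAs (Finite Tr)
  | _ + 3 => inferInstanceAs (Finite Empty)

theorem cmap_source : ∀ (n : ℕ) (i : cellT Gen Tr n), (cmap gen l n i).source = ball 0 1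
  | 0, _ => rfl
  | 1, _ => rfl
  | 2, _ => rfl
  | _ + 3, e => Empty.elim e

theorem cmap_cont : ∀ (n : ℕ) (i : cellT Gen Tr n), ContinuousOn (cmap gen l n i) (closedBall 0 1)
  | 0, _ => continuousOn_const
  | 1, s => ((be_cont gen l s).comp (resc_cont.comp (continuous_apply 0))).continuousOn
  | 2, t => ((bt_cont gen l t).comp sq_cont).continuousOn
  | _ + 3, e => Empty.elim e

theorem cmap_symm_cont : ∀ (n : ℕ) (i : cellT Gen Tr n),
    ContinuousOn (cmap gen l n i).symm (cmap gen l n i).target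
  | 0, _ => continuousOn_const
  | 1, s => by
    refine continuousOn_pi.2 fun _ => ?_
    refine (continuousOn_const.mul ((edX gen l s 1).continuous.continuousOn.div
      (edX gen l s 0).continuous.continuousOn ?_)).sub continuousOn_const
    rintro _ ⟨a, ha, rfl⟩
    exact (edX_pos gen l s (resc_int (ball_abs ha 0))).ne'
  | 2, t => by
    have hc := fun i => (trX gen l t i).continuous.continuousOn (s := (cmap gen l 2 t).target)
    have hp : ∀ x ∈ (cmap gen l 2 t).target, ∀ i, 0 < trX gen l t i x := by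
      rintro _ ⟨a, ha, rfl⟩ i
      exact trX_pos gen l t (sq_int (resc_int (ball_abs ha 0)) (resc_int (ball_abs ha 1))) i
    refine continuousOn_pi.2 fun i => ?_
    fin_cases i
    · exact continuousOn_const.sub (continuousOn_const.mul ((hc 0).div
        (((hc 0).add (hc 1)).add (hc 2))
        fun x hx => (add_pos (add_pos (hp x hx 0) (hp x hx 1)) (hp x hx 2)).ne'))
    · exact (continuousOn_const.mul ((hc 2).div ((hc 1).add (hc 2))
        fun x hx => (add_pos (hp x hx 1) (hp x hx 2)).ne')).sub continuousOn_const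
  | _ + 3, e => Empty.elim e

theorem cmap_disj : (univ : Set (Σ n, cellT Gen Tr n)).PairwiseDisjoint
    (fun ni => cmap gen l ni.1 ni.2 '' ball 0 1) := by
  have p1 : ∀ (s : Gen) (a : Fin 1 → ℝ), a ∈ ball (0 : Fin 1 → ℝ) 1 →
      0 < edX gen l s 0 (cmap gen l 1 s a) :=
    fun s a ha => edX_pos gen l s (resc_int (ball_abs ha 0))
  have p2 : ∀ (t : Tr) (a : Fin 2 → ℝ), a ∈ ball (0 : Fin 2 → ℝ) 1 →
      0 < trX gen l t 0 (cmap gen l 2 t a) :=
    fun t a ha => trX_pos gen l t (sq_int (resc_int (ball_abs ha 0)) (resc_int (ball_abs ha 1))) 0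
  rintro ⟨n, i⟩ - ⟨m, j⟩ - hne
  refine Set.disjoint_left.2 ?_
  rintro _ ⟨a, ha, rfl⟩ ⟨b, hb, hab⟩
  match n, i, a, ha, m, j, b, hb, hne, hab with
  | _ + 3, e, _, _, _, _, _, _, _, _ => exact Empty.elim e
  | _, _, _, _, _ + 3, e, _, _, _, _ => exact Empty.elim e
  | 0, _, _, _, 0, _, _, _, hne, _ => exact hne rfl
  | 0, _, _, _, 1, s, b, hb, _, hab =>
    have h := p1 s b hb
    rw [hab] at h
    exact lt_irrefl (0 : ℝ) h
  | 0, _, _, _, 2, t, b, hb, _, hab =>
    have h := p2 t b hb
    rw [hab] at h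
    exact lt_irrefl (0 : ℝ) h
  | 1, s, a, ha, 0, _, _, _, _, hab =>
    have h := p1 s a ha
    rw [← hab] at h
    exact lt_irrefl (0 : ℝ) h
  | 1, s, a, ha, 1, s', b, _, hne, hab =>
    have h := p1 s a ha
    rw [← hab] at h
    have hs : (s' : Gen) ≠ s := fun e => hne (by rw [e])
    change 0 < edX gen l s 0 (be gen l s' _) at h
    rw [edX_be, rind_ne (α := Gen) hs, zero_mul] at h
    exact lt_irrefl _ h
  | 1, _, _, _, 2, t, b, hb, _, hab =>
    have h := p2 t b hb
    rw [hab] at h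
    exact lt_irrefl (0 : ℝ) h
  | 2, t, a, ha, 0, _, _, _, _, hab =>
    have h := p2 t a ha
    rw [← hab] at h
    exact lt_irrefl (0 : ℝ) h
  | 2, t, a, ha, 1, _, _, _, _, hab =>
    have h := p2 t a ha
    rw [← hab] at h
    exact lt_irrefl (0 : ℝ) h
  | 2, t, a, ha, 2, t', b, _, hne, hab =>
    have h := p2 t a ha
    rw [← hab] at h
    have hs : (t' : Tr) ≠ t := fun e => hne (by rw [e])
    change 0 < trX gen l t 0 (bt gen l t' _) at h
    rw [trX_bt, rind_ne (α := Tr) hs, zero_mul] at h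
    exact lt_irrefl _ h

theorem cmap_mapsTo : ∀ (n : ℕ) (i : cellT Gen Tr n), MapsTo (cmap gen l n i) (sphere 0 1)
    (⋃ (m < n) (j : cellT Gen Tr m), cmap gen l m j '' closedBall 0 1)
  | 0, _ => fun a ha => by
    obtain ⟨i, _⟩ := sphere_abs ha
    exact i.elim0
  | 1, s => fun a ha => by
    obtain ⟨i, hi⟩ := sphere_abs ha
    rw [Subsingleton.elim i 0] at hi
    simp only [mem_iUnion]
    refine ⟨0, zero_lt_one, (), ?_⟩
    change be gen l s (resc (a 0)) ∈ _
    rcases resc_bd hi with h | h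
    · rw [h, be_zero]; exact bv_mem gen l
    · rw [h, be_one]; exact bv_mem gen l
  | 2, t => fun a ha => by
    obtain ⟨i, hi⟩ := sphere_abs ha
    simp only [mem_iUnion]
    rcases bt_cases gen l t (sq (resc (a 0)) (resc (a 1))) with ⟨s, u, h⟩ | ⟨h0, h1, h2⟩
    · refine ⟨1, one_lt_two, s, ?_⟩
      change bt gen l t (sq (resc (a 0)) (resc (a 1))) ∈ _
      rw [h]
      exact be_mem gen l s u
    · exfalso
      rw [sq0] at h0
      rw [sq1] at h1
      rw [sq2] at h2
      fin_cases i
      · rcases resc_bd hi with h | h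
        · change resc (a 0) = 0 at h
          simp [h] at h1
        · change resc (a 0) = 1 at h
          simp [h] at h0
      · rcases resc_bd hi with h | h
        · change resc (a 1) = 0 at h
          simp [h] at h2
        · change resc (a 1) = 1 at h
          simp [h] at h1
  | _ + 3, e => Empty.elim e

theorem cmap_union : ⋃ (n : ℕ) (j : cellT Gen Tr n), cmap gen l n j '' closedBall 0 1 = univ := by
  refine eq_univ_of_forall fun x => ?_
  simp only [mem_iUnion]
  rcases base_cases gen l x with rfl | ⟨s, u, rfl⟩ | ⟨t, p, rfl⟩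
  · exact ⟨0, (), bv_mem gen l⟩
  · exact ⟨1, s, be_mem gen l s u⟩
  · exact ⟨2, t, bt_mem gen l t p⟩

end

/-- If the realisation of the Cayley complex is contractible, its quotient is a finite
2-dimensional classifying complex. -/
theorem classifying_of {G Gen Tr : Type} [Group G] [Finite Gen] [Finite Tr] {gen : Gen → G}
    {l : Tr → Fin 3 → Gen} (hrel : Rel gen l) (deg : G →* Multiplicative ℤ)
    (hdeg : ∀ s, 0 < Multiplicative.toAdd (deg (gen s)))
    (hcontr : ∀ (Y : Type) [TopologicalSpace Y] (c : Cells gen l Y), IsReal c →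
      ContractibleSpace Y) :
    Crest.Topology.HasFiniteClassifyingComplex G 2 := by
  have hc : ContractibleSpace (Geo gen l) := hcontr _ _ Geo.isReal
  have hp := proj_cover hrel deg hdeg
  refine ⟨Base gen l, inferInstance,
    _root_.Topology.CWComplex.mkFinite univ (cellT Gen Tr) (cmap gen l) cell_ev cell_fin
      (cmap_source gen l) (cmap_cont gen l) (cmap_symm_cont gen l) (cmap_disj gen l)
      (cmap_mapsTo gen l) (cmap_union gen l), base_t2 gen l,
    _root_.Topology.CWComplex.finite_mkFinite univ (cellT Gen Tr) (cmap gen l) cell_ev cell_fin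
      (cmap_source gen l) (cmap_cont gen l) (cmap_symm_cont gen l) (cmap_disj gen l)
      (cmap_mapsTo gen l) (cmap_union gen l), ?_,
    ⟨Geo gen l, inferInstance, proj gen l, hc, hp.isCoveringMap, hp.surjective⟩,
    bv gen l, ⟨?_⟩⟩
  · intro n hn
    obtain ⟨k, rfl⟩ := Nat.exists_eq_add_of_le' (show 3 ≤ n from hn)
    exact inferInstanceAs (IsEmpty Empty)
  · exact (hp.fundamentalGroupEquiv ⟨(Geo.cells gen l).vx 1, rfl⟩).trans (MulEquiv.inv' G).symm

end Crest.Agent.R177
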