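import Crest.Agent.R177.Defs

/-! The realisation of the Cayley complex, the action of the group on it and coordinates. -/

set_option autoImplicit false

namespace Crest.Agent.R177

open Set

noncomputable section

variable {G Gen Tr : Type} [Group G]

/-- The disjoint union of the closed cells. -/
abbrev Pre (G Gen Tr : Type) : Type :=
  G ⊕ (G × Gen × unitInterval) ⊕ (G × Tr × Tri)

/-- Evaluation of a compatible family on a point of a cell. -/
def Cells.ev {gen : Gen → G} {l : Tr → Fin 3 → Gen} {Z : Type} [TopologicalSpace Z]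
    (d : Cells gen l Z) : Pre G Gen Tr → Z
  | Sum.inl x => d.vx x
  | Sum.inr (Sum.inl a) => d.ed a.1 a.2.1 a.2.2
  | Sum.inr (Sum.inr a) => d.tr a.1 a.2.1 a.2.2

/-- The realisation. -/
def Geo (gen : Gen → G) (l : Tr → Fin 3 → Gen) : Type :=
  Quot (fun a b : Pre G Gen Tr =>
    ∀ (Z : Type) [TopologicalSpace Z] (d : Cells gen l Z), d.ev a = d.ev b)

namespace Geo

variable (gen : Gen → G) (l : Tr → Fin 3 → Gen)

/-- The class of a point. -/
def mk (a : Pre G Gen Tr) : Geo gen l := Quot.mk _ a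

instance : TopologicalSpace (Geo gen l) where
  IsOpen S := (∀ x s, IsOpen ((fun u => mk gen l (Sum.inr (Sum.inl (x, s, u)))) ⁻¹' S)) ∧
    ∀ x t, IsOpen ((fun p => mk gen l (Sum.inr (Sum.inr (x, t, p)))) ⁻¹' S)
  isOpen_univ := ⟨fun _ _ => isOpen_univ, fun _ _ => isOpen_univ⟩
  isOpen_inter _ _ h h' :=
    ⟨fun x s => (h.1 x s).inter (h'.1 x s), fun x t => (h.2 x t).inter (h'.2 x t)⟩
  isOpen_sUnion S h := by
    refine ⟨fun x s => ?_, fun x t => ?_⟩
    · rw [preimage_sUnion]; exact isOpen_biUnion fun U hU => (h U hU).1 x s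
    · rw [preimage_sUnion]; exact isOpen_biUnion fun U hU => (h U hU).2 x t

/-- The cells of the realisation. -/
def cells : Cells gen l (Geo gen l) where
  vx x := mk gen l (Sum.inl x)
  ed x s := ⟨fun u => mk gen l (Sum.inr (Sum.inl (x, s, u))), ⟨fun _ h => h.1 x s⟩⟩
  tr x t := ⟨fun p => mk gen l (Sum.inr (Sum.inr (x, t, p))), ⟨fun _ h => h.2 x t⟩⟩
  ed0 x s := Quot.sound fun _ _ d => d.ed0 x s
  ed1 x s := Quot.sound fun _ _ d => d.ed1 x s
  tr0 x t u := Quot.sound fun _ _ d => d.tr0 x t u
  tr1 x t u := Quot.sound fun _ _ d => d.tr1 x t u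
  tr2 x t u := Quot.sound fun _ _ d => d.tr2 x t u

variable {gen l}

/-- The map out of the realisation given by a compatible family. -/
def lift {Z : Type} [TopologicalSpace Z] (d : Cells gen l Z) : C(Geo gen l, Z) where
  toFun := Quot.lift d.ev fun _ _ h => h Z d
  continuous_toFun := ⟨fun U hU =>
    ⟨fun x s => (d.ed x s).continuous.isOpen_preimage U hU,
      fun x t => (d.tr x t).continuous.isOpen_preimage U hU⟩⟩

@[simp] theorem lift_vx {Z : Type} [TopologicalSpace Z] (d : Cells gen l Z) (x : G) :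
    lift d ((cells gen l).vx x) = d.vx x := rfl

@[simp] theorem lift_ed {Z : Type} [TopologicalSpace Z] (d : Cells gen l Z) (x : G) (s : Gen)
    (u : unitInterval) : lift d ((cells gen l).ed x s u) = d.ed x s u := rfl

@[simp] theorem lift_tr {Z : Type} [TopologicalSpace Z] (d : Cells gen l Z) (x : G) (t : Tr)
    (p : Tri) : lift d ((cells gen l).tr x t p) = d.tr x t p := rfl

theorem surj (y : Geo gen l) : (∃ x, y = (cells gen l).vx x) ∨
    (∃ x s u, y = (cells gen l).ed x s u) ∨ (∃ x t p, y = (cells gen l).tr x t p) := by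
  induction y using Quot.ind with
  | mk a =>
    rcases a with x | ⟨x, s, u⟩ | ⟨x, t, p⟩
    · exact Or.inl ⟨x, rfl⟩
    · exact Or.inr (Or.inl ⟨x, s, u, rfl⟩)
    · exact Or.inr (Or.inr ⟨x, t, p, rfl⟩)

theorem isReal : IsReal (cells gen l) where
  surj := surj
  lift _ _ d := ⟨lift d, fun _ => rfl, fun _ _ _ => rfl, fun _ _ _ => rfl⟩

/-- The translated cells. -/
def shift (g : G) : Cells gen l (Geo gen l) where
  vx x := (cells gen l).vx (g * x)
  ed x s := (cells gen l).ed (g * x) s
  tr x t := (cells gen l).tr (g * x) t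
  ed0 x s := (cells gen l).ed0 _ s
  ed1 x s := by rw [(cells gen l).ed1, mul_assoc]
  tr0 x t u := (cells gen l).tr0 _ t u
  tr1 x t u := by rw [(cells gen l).tr1, mul_assoc]
  tr2 x t u := (cells gen l).tr2 _ t u

instance : SMul G (Geo gen l) := ⟨fun g y => lift (shift g) y⟩

@[simp] theorem smul_vx (g x : G) : g • (cells gen l).vx x = (cells gen l).vx (g * x) := rfl

@[simp] theorem smul_ed (g x : G) (s : Gen) (u : unitInterval) :
    g • (cells gen l).ed x s u = (cells gen l).ed (g * x) s u := rfl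

@[simp] theorem smul_tr (g x : G) (t : Tr) (p : Tri) :
    g • (cells gen l).tr x t p = (cells gen l).tr (g * x) t p := rfl

instance : MulAction G (Geo gen l) where
  one_smul y := by
    rcases surj y with ⟨x, rfl⟩ | ⟨x, s, u, rfl⟩ | ⟨x, t, p, rfl⟩ <;> simp
  mul_smul g h y := by
    rcases surj y with ⟨x, rfl⟩ | ⟨x, s, u, rfl⟩ | ⟨x, t, p, rfl⟩ <;> simp [mul_assoc]

instance : ContinuousConstSMul G (Geo gen l) := ⟨fun g => (lift (shift g)).continuous⟩

end Geo

theorem seg01 (u : unitInterval) :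
    (seg 0 1 u).1 0 = 1 - u ∧ (seg 0 1 u).1 1 = u ∧ (seg 0 1 u).1 2 = 0 := by
  simp [seg]

theorem seg12 (u : unitInterval) :
    (seg 1 2 u).1 0 = 0 ∧ (seg 1 2 u).1 1 = 1 - u ∧ (seg 1 2 u).1 2 = u := by
  simp [seg]

theorem seg02 (u : unitInterval) :
    (seg 0 2 u).1 0 = 1 - u ∧ (seg 0 2 u).1 1 = 0 ∧ (seg 0 2 u).1 2 = u := by
  simp [seg]

theorem tri_cont (i : Fin 3) : Continuous fun p : Tri => p.1 i :=
  (continuous_apply i).comp continuous_subtype_val

theorem tri_sum (p : Tri) : p.1 0 + p.1 1 + p.1 2 = 1 := by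
  have := p.2.2
  rwa [Fin.sum_univ_three] at this

theorem tri_nonneg (p : Tri) (i : Fin 3) : 0 ≤ p.1 i := p.2.1 i

theorem tri_ext {p q : Tri} (h0 : p.1 0 = q.1 0) (h1 : p.1 1 = q.1 1) (h2 : p.1 2 = q.1 2) :
    p = q := by
  apply Subtype.ext
  funext i
  fin_cases i
  · exact h0
  · exact h1
  · exact h2

variable {gen : Gen → G} {l : Tr → Fin 3 → Gen}

/-- The affine extension of a function on the vertices. -/
def affC (hrel : Rel gen l) (φ : G → ℝ) : Cells gen l ℝ where
  vx x := φ x
  ed x s := ⟨fun u => (1 - u) * φ x + u * φ (x * gen s), by fun_prop⟩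
  tr x t := ⟨fun p => p.1 0 * φ x + p.1 1 * φ (x * gen (l t 0)) + p.1 2 * φ (x * gen (l t 2)),
    (((tri_cont 0).mul continuous_const).add ((tri_cont 1).mul continuous_const)).add
      ((tri_cont 2).mul continuous_const)⟩
  ed0 x s := by simp
  ed1 x s := by simp
  tr0 x t u := by
    obtain ⟨a, b, c⟩ := seg01 u
    simp only [ContinuousMap.coe_mk, a, b, c]; ring
  tr1 x t u := by
    obtain ⟨a, b, c⟩ := seg12 u
    simp only [ContinuousMap.coe_mk, a, b, c, mul_assoc x, hrel t]; ring
  tr2 x t u := by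
    obtain ⟨a, b, c⟩ := seg02 u
    simp only [ContinuousMap.coe_mk, a, b, c]; ring

/-- The affine extension as a function on the realisation. -/
def aff (hrel : Rel gen l) (φ : G → ℝ) : C(Geo gen l, ℝ) := Geo.lift (affC hrel φ)

theorem aff_vx (hrel : Rel gen l) (φ : G → ℝ) (x : G) :
    aff hrel φ ((Geo.cells gen l).vx x) = φ x := rfl

theorem aff_ed (hrel : Rel gen l) (φ : G → ℝ) (x : G) (s : Gen) (u : unitInterval) :
    aff hrel φ ((Geo.cells gen l).ed x s u) = (1 - u) * φ x + u * φ (x * gen s) := rfl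

theorem aff_tr (hrel : Rel gen l) (φ : G → ℝ) (x : G) (t : Tr) (p : Tri) :
    aff hrel φ ((Geo.cells gen l).tr x t p) =
      p.1 0 * φ x + p.1 1 * φ (x * gen (l t 0)) + p.1 2 * φ (x * gen (l t 2)) := rfl

theorem aff_smul (hrel : Rel gen l) (φ : G → ℝ) (g : G) (y : Geo gen l) :
    aff hrel φ (g • y) = aff hrel (fun x => φ (g * x)) y := by
  rcases Geo.surj y with ⟨x, rfl⟩ | ⟨x, s, u, rfl⟩ | ⟨x, t, p, rfl⟩
  · rfl
  · rw [Geo.smul_ed, aff_ed, aff_ed, mul_assoc g]
  · rw [Geo.smul_tr, aff_tr, aff_tr, mul_assoc g, mul_assoc g]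

theorem aff_add_const (hrel : Rel gen l) (φ : G → ℝ) (a : ℝ) (y : Geo gen l) :
    aff hrel (fun x => a + φ x) y = a + aff hrel φ y := by
  rcases Geo.surj y with ⟨x, rfl⟩ | ⟨x, s, u, rfl⟩ | ⟨x, t, p, rfl⟩
  · rfl
  · rw [aff_ed, aff_ed]; ring
  · rw [aff_tr, aff_tr]
    have := tri_sum p
    linear_combination a * this

open Classical in
/-- The barycentric coordinate at `z`. -/
def lam (hrel : Rel gen l) (z : G) : C(Geo gen l, ℝ) := aff hrel fun x => if x = z then 1 else 0

theorem exists_lam_pos (hrel : Rel gen l) (y : Geo gen l) : ∃ z, 0 < lam hrel z y := by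
  classical
  have hn : ∀ a b : G, (0 : ℝ) ≤ if a = b then 1 else 0 := fun a b => by split_ifs <;> norm_num
  rcases Geo.surj y with ⟨x, rfl⟩ | ⟨x, s, u, rfl⟩ | ⟨x, t, p, rfl⟩
  · exact ⟨x, by simp [lam, aff_vx]⟩
  · have h0 := u.2.1
    have h1 := u.2.2
    by_cases h : (u : ℝ) < 1
    · refine ⟨x, ?_⟩
      simp only [lam, aff_ed, if_true]
      have := mul_nonneg h0 (hn (x * gen s) x)
      linarith
    · refine ⟨x * gen s, ?_⟩
      simp only [lam, aff_ed, if_true]
      have := mul_nonneg (sub_nonneg.2 h1) (hn x (x * gen s))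
      linarith
  · have h0 := tri_nonneg p 0
    have h1 := tri_nonneg p 1
    have h2 := tri_nonneg p 2
    have hs := tri_sum p
    by_cases a0 : 0 < p.1 0
    · refine ⟨x, ?_⟩
      simp only [lam, aff_tr, if_true]
      have := mul_nonneg h1 (hn (x * gen (l t 0)) x)
      have := mul_nonneg h2 (hn (x * gen (l t 2)) x)
      linarith
    by_cases a1 : 0 < p.1 1
    · refine ⟨x * gen (l t 0), ?_⟩
      simp only [lam, aff_tr, if_true]
      have := mul_nonneg h0 (hn x (x * gen (l t 0)))
      have := mul_nonneg h2 (hn (x * gen (l t 2)) (x * gen (l t 0)))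
      linarith
    · refine ⟨x * gen (l t 2), ?_⟩
      simp only [lam, aff_tr, if_true]
      have := mul_nonneg h0 (hn x (x * gen (l t 2)))
      have := mul_nonneg h1 (hn (x * gen (l t 0)) (x * gen (l t 2)))
      linarith

theorem eq_of_lam_pos (hrel : Rel gen l) (deg : G →* Multiplicative ℤ)
    (hdeg : ∀ s, 0 < Multiplicative.toAdd (deg (gen s))) (y : Geo gen l) {a b : G}
    (ha : 0 < lam hrel a y) (hb : 0 < lam hrel b y) (hab : deg a = deg b) : a = b := by
  classical
  have hab' : Multiplicative.toAdd (deg a) = Multiplicative.toAdd (deg b) := by rw [hab]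
  rcases Geo.surj y with ⟨x, rfl⟩ | ⟨x, s, u, rfl⟩ | ⟨x, t, p, rfl⟩
  · simp only [lam, aff_vx] at ha hb
    have h1 : x = a := by by_contra h; simp [h] at ha
    have h2 : x = b := by by_contra h; simp [h] at hb
    rw [← h1, h2]
  · simp only [lam, aff_ed] at ha hb
    have h1 : x = a ∨ x * gen s = a := by
      by_contra h; push Not at h; simp [h.1, h.2] at ha
    have h2 : x = b ∨ x * gen s = b := by
      by_contra h; push Not at h; simp [h.1, h.2] at hb
    have := hdeg s
    rcases h1 with rfl | rfl <;> rcases h2 with rfl | rfl <;>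
      first | rfl | (simp only [map_mul, toAdd_mul] at hab'; omega)
  · simp only [lam, aff_tr] at ha hb
    have h1 : x = a ∨ x * gen (l t 0) = a ∨ x * gen (l t 2) = a := by
      by_contra h; push Not at h; simp [h.1, h.2.1, h.2.2] at ha
    have h2 : x = b ∨ x * gen (l t 0) = b ∨ x * gen (l t 2) = b := by
      by_contra h; push Not at h; simp [h.1, h.2.1, h.2.2] at hb
    have d0 := hdeg (l t 0)
    have d1 := hdeg (l t 1)
    have d2 : Multiplicative.toAdd (deg (gen (l t 2))) = Multiplicative.toAdd (deg (gen (l t 0))) +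
        Multiplicative.toAdd (deg (gen (l t 1))) := by rw [← hrel t, map_mul, toAdd_mul]
    rcases h1 with rfl | rfl | rfl <;> rcases h2 with rfl | rfl | rfl <;>
      first | rfl | (simp only [map_mul, toAdd_mul] at hab'; omega)

/-- The quotient of the realisation by the group. -/
abbrev Base (gen : Gen → G) (l : Tr → Fin 3 → Gen) : Type :=
  MulAction.orbitRel.Quotient G (Geo gen l)

/-- The projection. -/
def proj (gen : Gen → G) (l : Tr → Fin 3 → Gen) (y : Geo gen l) : Base gen l := Quotient.mk _ y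

theorem proj_cover (hrel : Rel gen l) (deg : G →* Multiplicative ℤ)
    (hdeg : ∀ s, 0 < Multiplicative.toAdd (deg (gen s))) :
    IsQuotientCoveringMap (proj gen l) G where
  toIsQuotientMap := isQuotientMap_quotient_mk'
  continuous_const_smul g := continuous_const_smul g
  apply_eq_iff_mem_orbit := Quotient.eq
  disjoint y := by
    classical
    obtain ⟨z, hz⟩ := exists_lam_pos hrel y
    let f := aff hrel fun x => ((Multiplicative.toAdd (deg x) : ℤ) : ℝ)
    refine ⟨{w | 0 < lam hrel z w} ∩ {w | |f w - f y| < 1 / 2}, ?_, ?_⟩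
    · apply IsOpen.mem_nhds
      · exact (isOpen_lt continuous_const (lam hrel z).continuous).inter
          (isOpen_lt (by fun_prop) continuous_const)
      · exact ⟨hz, by simp⟩
    · rintro g ⟨_, ⟨w, ⟨h1, h2⟩, rfl⟩, h3, h4⟩
      simp only [mem_ofPred_eq] at h1 h2 h3 h4
      have hf : f (g • w) = (Multiplicative.toAdd (deg g) : ℤ) + f w := by
        simp only [f]
        rw [aff_smul, ← aff_add_const]
        simp only [map_mul, toAdd_mul, Int.cast_add]
      rw [hf, abs_lt] at h4
      rw [abs_lt] at h2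
      have h5 : ((Multiplicative.toAdd (deg g) : ℤ) : ℝ) < 1 := by linarith
      have h6 : (-1 : ℝ) < (Multiplicative.toAdd (deg g) : ℤ) := by linarith
      have h5' : Multiplicative.toAdd (deg g) < 1 := by exact_mod_cast h5
      have h6' : -1 < Multiplicative.toAdd (deg g) := by exact_mod_cast h6
      have h7 : deg g = 1 := by
        apply Multiplicative.toAdd.injective
        rw [toAdd_one]; omega
      have h8 : 0 < lam hrel (g⁻¹ * z) w := by
        simp only [lam] at h3 ⊢
        rw [aff_smul] at h3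
        simpa only [eq_inv_mul_iff_mul_eq] using h3
      have := eq_of_lam_pos hrel deg hdeg w h8 h1 (by simp [h7])
      simpa using this

end

end Crest.Agent.R177
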