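import Crest.Agent.R177.Real1

/-! Invariant coordinates on the quotient of the realisation, and its cells. -/

set_option autoImplicit false

namespace Crest.Agent.R177

open Set Metric

noncomputable section

variable {G Gen Tr : Type} [Group G] {gen : Gen → G} {l : Tr → Fin 3 → Gen}

open Classical in
/-- Indicator of equality. -/
def rind {α : Type} (a b : α) : ℝ := if a = b then 1 else 0

theorem rind_self {α : Type} (a : α) : rind a a = 1 := by simp [rind]

theorem rind_ne {α : Type} {a b : α} (h : a ≠ b) : rind a b = 0 := by simp [rind, h]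

/-- Edge coordinates. -/
def edC (gen : Gen → G) (l : Tr → Fin 3 → Gen) (s₀ : Gen) (k : ℕ) : Cells gen l ℝ where
  vx _ := 0
  ed _ s := ⟨fun u => rind s s₀ * ((1 - u) * u ^ (k + 1)), by fun_prop⟩
  tr _ t := ⟨fun p => rind (l t 0) s₀ * (p.1 0 * p.1 1 ^ (k + 1)) +
      rind (l t 1) s₀ * (p.1 1 * p.1 2 ^ (k + 1)) + rind (l t 2) s₀ * (p.1 0 * p.1 2 ^ (k + 1)),
    ((continuous_const.mul ((tri_cont 0).mul ((tri_cont 1).pow _))).add
      (continuous_const.mul ((tri_cont 1).mul ((tri_cont 2).pow _)))).add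
      (continuous_const.mul ((tri_cont 0).mul ((tri_cont 2).pow _)))⟩
  ed0 x s := by simp
  ed1 x s := by simp
  tr0 x t u := by
    obtain ⟨a, b, c⟩ := seg01 u
    simp only [ContinuousMap.coe_mk, a, b, c]; ring
  tr1 x t u := by
    obtain ⟨a, b, c⟩ := seg12 u
    simp only [ContinuousMap.coe_mk, a, b, c]; ring
  tr2 x t u := by
    obtain ⟨a, b, c⟩ := seg02 u
    simp only [ContinuousMap.coe_mk, a, b, c]; ring

/-- Triangle coordinates. -/
def trC (gen : Gen → G) (l : Tr → Fin 3 → Gen) (t₀ : Tr) (i : Fin 3) : Cells gen l ℝ where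
  vx _ := 0
  ed _ _ := ⟨fun _ => 0, continuous_const⟩
  tr _ t := ⟨fun p => rind t t₀ * (p.1 i * (p.1 0 * p.1 1 * p.1 2)),
    continuous_const.mul ((tri_cont i).mul (((tri_cont 0).mul (tri_cont 1)).mul (tri_cont 2)))⟩
  ed0 x s := rfl
  ed1 x s := rfl
  tr0 x t u := by
    obtain ⟨a, b, c⟩ := seg01 u
    simp only [ContinuousMap.coe_mk, c]; ring
  tr1 x t u := by
    obtain ⟨a, b, c⟩ := seg12 u
    simp only [ContinuousMap.coe_mk, a]; ring
  tr2 x t u := by
    obtain ⟨a, b, c⟩ := seg02 u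
    simp only [ContinuousMap.coe_mk, b]; ring

/-- An invariant function descends to the quotient. -/
def desc (f : C(Geo gen l, ℝ)) (h : ∀ (g : G) y, f (g • y) = f y) : C(Base gen l, ℝ) where
  toFun := Quotient.lift f (by
    rintro _ b ⟨g, rfl⟩
    exact h g b)
  continuous_toFun := f.continuous.quotient_lift _

/-- Edge coordinates on the quotient. -/
def edX (gen : Gen → G) (l : Tr → Fin 3 → Gen) (s₀ : Gen) (k : ℕ) : C(Base gen l, ℝ) :=
  desc (Geo.lift (edC gen l s₀ k)) fun g y => by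
    rcases Geo.surj y with ⟨x, rfl⟩ | ⟨x, s, u, rfl⟩ | ⟨x, t, p, rfl⟩ <;> rfl

/-- Triangle coordinates on the quotient. -/
def trX (gen : Gen → G) (l : Tr → Fin 3 → Gen) (t₀ : Tr) (i : Fin 3) : C(Base gen l, ℝ) :=
  desc (Geo.lift (trC gen l t₀ i)) fun g y => by
    rcases Geo.surj y with ⟨x, rfl⟩ | ⟨x, s, u, rfl⟩ | ⟨x, t, p, rfl⟩ <;> rfl

variable (gen l)

/-- The vertex of the quotient. -/
def bv : Base gen l := proj gen l ((Geo.cells gen l).vx 1)

/-- The edges of the quotient. -/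
def be (s : Gen) (u : unitInterval) : Base gen l := proj gen l ((Geo.cells gen l).ed 1 s u)

/-- The triangles of the quotient. -/
def bt (t : Tr) (p : Tri) : Base gen l := proj gen l ((Geo.cells gen l).tr 1 t p)

theorem proj_smul (g : G) (y : Geo gen l) : proj gen l (g • y) = proj gen l y :=
  Quotient.sound ⟨g, rfl⟩

theorem proj_vx (x : G) : proj gen l ((Geo.cells gen l).vx x) = bv gen l := by
  rw [bv, ← proj_smul gen l x ((Geo.cells gen l).vx 1), Geo.smul_vx, mul_one]

theorem proj_ed (x : G) (s : Gen) (u : unitInterval) :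
    proj gen l ((Geo.cells gen l).ed x s u) = be gen l s u := by
  rw [be, ← proj_smul gen l x ((Geo.cells gen l).ed 1 s u), Geo.smul_ed, mul_one]

theorem proj_tr (x : G) (t : Tr) (p : Tri) :
    proj gen l ((Geo.cells gen l).tr x t p) = bt gen l t p := by
  rw [bt, ← proj_smul gen l x ((Geo.cells gen l).tr 1 t p), Geo.smul_tr, mul_one]

theorem proj_cont : Continuous (proj gen l) := continuous_quotient_mk'

theorem be_cont (s : Gen) : Continuous (be gen l s) :=
  (proj_cont gen l).comp ((Geo.cells gen l).ed 1 s).continuous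

theorem bt_cont (t : Tr) : Continuous (bt gen l t) :=
  (proj_cont gen l).comp ((Geo.cells gen l).tr 1 t).continuous

theorem be_zero (s : Gen) : be gen l s 0 = bv gen l := by
  rw [be, (Geo.cells gen l).ed0, proj_vx]

theorem be_one (s : Gen) : be gen l s 1 = bv gen l := by
  rw [be, (Geo.cells gen l).ed1, proj_vx]

theorem bt_01 (t : Tr) (u : unitInterval) : bt gen l t (seg 0 1 u) = be gen l (l t 0) u := by
  rw [bt, (Geo.cells gen l).tr0, proj_ed]

theorem bt_12 (t : Tr) (u : unitInterval) : bt gen l t (seg 1 2 u) = be gen l (l t 1) u := by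
  rw [bt, (Geo.cells gen l).tr1, proj_ed]

theorem bt_02 (t : Tr) (u : unitInterval) : bt gen l t (seg 0 2 u) = be gen l (l t 2) u := by
  rw [bt, (Geo.cells gen l).tr2, proj_ed]

theorem edX_bv (s₀ : Gen) (k : ℕ) : edX gen l s₀ k (bv gen l) = 0 := rfl

theorem edX_be (s₀ : Gen) (k : ℕ) (s : Gen) (u : unitInterval) :
    edX gen l s₀ k (be gen l s u) = rind s s₀ * ((1 - u) * u ^ (k + 1)) := rfl

theorem trX_bv (t₀ : Tr) (i : Fin 3) : trX gen l t₀ i (bv gen l) = 0 := rfl

theorem trX_be (t₀ : Tr) (i : Fin 3) (s : Gen) (u : unitInterval) :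
    trX gen l t₀ i (be gen l s u) = 0 := rfl

theorem trX_bt (t₀ : Tr) (i : Fin 3) (t : Tr) (p : Tri) :
    trX gen l t₀ i (bt gen l t p) = rind t t₀ * (p.1 i * (p.1 0 * p.1 1 * p.1 2)) := rfl

theorem base_cases (x : Base gen l) :
    x = bv gen l ∨ (∃ s u, x = be gen l s u) ∨ ∃ t p, x = bt gen l t p := by
  induction x using Quotient.ind with
  | _ y =>
    rcases Geo.surj y with ⟨x, rfl⟩ | ⟨x, s, u, rfl⟩ | ⟨x, t, p, rfl⟩
    · exact Or.inl (proj_vx gen l x)
    · exact Or.inr (Or.inl ⟨s, u, proj_ed gen l x s u⟩)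
    · exact Or.inr (Or.inr ⟨t, p, proj_tr gen l x t p⟩)

theorem be_cases (s : Gen) (u : unitInterval) :
    be gen l s u = bv gen l ∨ (0 < (u : ℝ) ∧ (u : ℝ) < 1) := by
  rcases u.2.1.eq_or_lt with h | h
  · left
    rw [show u = 0 from Subtype.ext h.symm, be_zero]
  rcases u.2.2.eq_or_lt with h' | h'
  · left
    rw [show u = 1 from Subtype.ext h', be_one]
  · exact Or.inr ⟨h, h'⟩

theorem bt_cases (t : Tr) (p : Tri) :
    (∃ s u, bt gen l t p = be gen l s u) ∨ (0 < p.1 0 ∧ 0 < p.1 1 ∧ 0 < p.1 2) := by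
  have h0 := tri_nonneg p 0
  have h1 := tri_nonneg p 1
  have h2 := tri_nonneg p 2
  have hs := tri_sum p
  rcases h0.eq_or_lt with a | a
  · left
    let u : unitInterval := ⟨p.1 2, h2, by linarith⟩
    refine ⟨l t 1, u, ?_⟩
    obtain ⟨b, c, d⟩ := seg12 u
    rw [← bt_12]
    congr 1
    exact tri_ext (by rw [b, a]) (by rw [c]; simp only [u]; linarith) (by rw [d])
  rcases h1.eq_or_lt with a' | a'
  · left
    let u : unitInterval := ⟨p.1 2, h2, by linarith⟩
    refine ⟨l t 2, u, ?_⟩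
    obtain ⟨b, c, d⟩ := seg02 u
    rw [← bt_02]
    congr 1
    exact tri_ext (by rw [b]; simp only [u]; linarith) (by rw [c, a']) (by rw [d])
  rcases h2.eq_or_lt with a'' | a''
  · left
    let u : unitInterval := ⟨p.1 1, h1, by linarith⟩
    refine ⟨l t 0, u, ?_⟩
    obtain ⟨b, c, d⟩ := seg01 u
    rw [← bt_01]
    congr 1
    exact tri_ext (by rw [b]; simp only [u]; linarith) (by rw [c]) (by rw [d, a''])
  · exact Or.inr ⟨a, a', a''⟩

theorem base_cases' (x : Base gen l) :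
    x = bv gen l ∨ (∃ s, ∃ u : unitInterval, (0 < (u : ℝ) ∧ (u : ℝ) < 1) ∧ x = be gen l s u) ∨
      ∃ t, ∃ p : Tri, (0 < p.1 0 ∧ 0 < p.1 1 ∧ 0 < p.1 2) ∧ x = bt gen l t p := by
  have key : ∀ s u, be gen l s u = bv gen l ∨ (∃ s', ∃ u' : unitInterval,
      (0 < (u' : ℝ) ∧ (u' : ℝ) < 1) ∧ be gen l s u = be gen l s' u') := fun s u =>
    (be_cases gen l s u).imp id fun h => ⟨s, u, h, rfl⟩
  rcases base_cases gen l x with h | ⟨s, u, rfl⟩ | ⟨t, p, rfl⟩
  · exact Or.inl h
  · exact (key s u).imp id Or.inl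
  · rcases bt_cases gen l t p with ⟨s, u, h⟩ | h
    · rw [h]; exact (key s u).imp id Or.inl
    · exact Or.inr (Or.inr ⟨t, p, h, rfl⟩)

theorem edX_pos (s : Gen) {u : unitInterval} (h : 0 < (u : ℝ) ∧ (u : ℝ) < 1) :
    0 < edX gen l s 0 (be gen l s u) := by
  rw [edX_be, rind_self, one_mul]
  exact mul_pos (sub_pos.2 h.2) (pow_pos h.1 _)

theorem trX_pos (t : Tr) {p : Tri} (h : 0 < p.1 0 ∧ 0 < p.1 1 ∧ 0 < p.1 2) (i : Fin 3) :
    0 < trX gen l t i (bt gen l t p) := by
  rw [trX_bt, rind_self, one_mul]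
  refine mul_pos ?_ (mul_pos (mul_pos h.1 h.2.1) h.2.2)
  fin_cases i
  · exact h.1
  · exact h.2.1
  · exact h.2.2

theorem edX_div (s : Gen) {u : unitInterval} (h : 0 < (u : ℝ) ∧ (u : ℝ) < 1) :
    edX gen l s 1 (be gen l s u) / edX gen l s 0 (be gen l s u) = u := by
  rw [edX_be, edX_be, rind_self]
  have := h.1.ne'
  have := (sub_pos.2 h.2).ne'
  field_simp
  ring

theorem trX_div (t : Tr) {p : Tri} (h : 0 < p.1 0 ∧ 0 < p.1 1 ∧ 0 < p.1 2) (i : Fin 3) :
    trX gen l t i (bt gen l t p) / (trX gen l t 0 (bt gen l t p) + trX gen l t 1 (bt gen l t p) +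
      trX gen l t 2 (bt gen l t p)) = p.1 i := by
  simp only [trX_bt, rind_self, one_mul]
  rw [← add_mul, ← add_mul, tri_sum, one_mul]
  exact mul_div_cancel_right₀ _ (mul_pos (mul_pos h.1 h.2.1) h.2.2).ne'

theorem base_t2 : T2Space (Base gen l) := by
  let Φ : Base gen l → (Gen × ℕ → ℝ) × (Tr × Fin 3 → ℝ) :=
    fun x => (fun a => edX gen l a.1 a.2 x, fun a => trX gen l a.1 a.2 x)
  have hΦ : Continuous Φ := by
    refine Continuous.prodMk ?_ ?_
    · exact continuous_pi fun a => (edX gen l a.1 a.2).continuous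
    · exact continuous_pi fun a => (trX gen l a.1 a.2).continuous
  refine T2Space.of_injective_continuous (f := Φ) ?_ hΦ
  intro x y hxy
  have hE : ∀ s k, edX gen l s k x = edX gen l s k y :=
    fun s k => congrFun (congrArg Prod.fst hxy) (s, k)
  have hT : ∀ t i, trX gen l t i x = trX gen l t i y :=
    fun t i => congrFun (congrArg Prod.snd hxy) (t, i)
  rcases base_cases' gen l x with rfl | ⟨s, u, hu, rfl⟩ | ⟨t, p, hp, rfl⟩ <;>
    rcases base_cases' gen l y with rfl | ⟨s', u', hu', rfl⟩ | ⟨t', p', hp', rfl⟩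
  · rfl
  · exact absurd (hE s' 0) (edX_pos gen l s' hu').ne
  · exact absurd (hT t' 0) (trX_pos gen l t' hp' 0).ne
  · exact absurd (hE s 0) (edX_pos gen l s hu).ne'
  · by_cases h : s' = s
    · subst h
      have h1 := edX_div gen l s' hu
      rw [hE, hE, edX_div gen l s' hu'] at h1
      rw [Subtype.ext h1]
    · have h1 := edX_pos gen l s hu
      rw [hE, edX_be, rind_ne h, zero_mul] at h1
      exact absurd h1 (lt_irrefl _)
  · exact absurd (hT t' 0) (trX_pos gen l t' hp' 0).ne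
  · exact absurd (hT t 0) (trX_pos gen l t hp 0).ne'
  · exact absurd (hT t 0) (trX_pos gen l t hp 0).ne'
  · by_cases h : t' = t
    · subst h
      have h1 : ∀ i, p'.1 i = p.1 i := fun i => by
        have h1 := trX_div gen l t' hp i
        rwa [hT, hT, hT, hT, trX_div gen l t' hp'] at h1
      rw [tri_ext (h1 0) (h1 1) (h1 2)]
    · have h1 := trX_pos gen l t hp 0
      rw [hT, trX_bt, rind_ne h, zero_mul] at h1
      exact absurd h1 (lt_irrefl _)

end

end Crest.Agent.R177
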