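import Crest.Agent.R177.Defs

set_option autoImplicit false

namespace Crest.Agent.R177

open Finset

namespace Tors

variable {G : Type} [Group G]

/-- A partition of unity for the free action of a finite cyclic subgroup. -/
theorem exists_pou (g : G) (hg : IsOfFinOrder g) :
    ∃ e : G → ℤ, ∀ x, ∑ i ∈ range (orderOf g), e (g ^ i * x) = 1 := by
  classical
  let S := QuotientGroup.rightRel (Subgroup.zpowers g)
  let rep : G → G := fun x => (Quotient.mk S x).out
  have h1 : ∀ x, rep x * x⁻¹ ∈ Subgroup.zpowers g := fun x => by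
    have : S x (rep x) := S.symm (Quotient.exact (Quotient.out_eq (Quotient.mk S x)))
    exact QuotientGroup.rightRel_apply.1 this
  have h2 : ∀ x i, rep (g ^ i * x) = rep x := fun x i => by
    have : Quotient.mk S (g ^ i * x) = Quotient.mk S x := by
      refine (Quotient.sound ?_).symm
      refine QuotientGroup.rightRel_apply.2 ?_
      simp
    simp only [rep, this]
  refine ⟨fun x => if rep x = x then 1 else 0, fun x => ?_⟩
  obtain ⟨j, hj, hjx⟩ := mem_image.1 (hg.mem_zpowers_iff_mem_range_orderOf.1 (h1 x))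
  have hj' : rep x = g ^ j * x := by rw [hjx]; simp
  rw [sum_eq_single j]
  · simp [h2, hj']
  · intro i hi hij
    simp only [h2, hj', mul_left_inj, ite_eq_right_iff, one_ne_zero, imp_false]
    intro h
    exact hij (pow_injOn_Iio_orderOf (mem_range.1 hj) (mem_range.1 hi) h).symm
  · intro h; exact absurd hj h

theorem sum_shift (g : G) (f : G → ℤ) (x : G) :
    ∑ i ∈ range (orderOf g), f (g ^ i * (g * x)) = ∑ i ∈ range (orderOf g), f (g ^ i * x) := by
  have h1 := sum_range_succ (fun i => f (g ^ i * x)) (orderOf g)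
  have h2 := sum_range_succ' (fun i => f (g ^ i * x)) (orderOf g)
  simp only [pow_orderOf_eq_one, pow_zero] at h1 h2
  simp only [← mul_assoc, ← pow_succ]
  linarith

theorem ker_norm (g : G) (e : G → ℤ) (he : ∀ x, ∑ i ∈ range (orderOf g), e (g ^ i * x) = 1)
    (f : G → ℤ) (hf : ∀ x, ∑ i ∈ range (orderOf g), f (g ^ i * x) = 0) :
    ∃ h : G → ℤ, ∀ x, h (g * x) - h x = f x := by
  refine ⟨fun x => -∑ i ∈ range (orderOf g), e (g ^ i * x) * ∑ j ∈ range i, f (g ^ j * x),
    fun x => ?_⟩
  have h1 := sum_range_succ (fun i => e (g ^ i * x) * ∑ j ∈ range i, f (g ^ j * x)) (orderOf g)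
  have h2 := sum_range_succ' (fun i => e (g ^ i * x) * ∑ j ∈ range i, f (g ^ j * x)) (orderOf g)
  rw [hf x, mul_zero, add_zero] at h1
  simp only [range_zero, sum_empty, mul_zero, add_zero] at h2
  have h3 : ∀ i, ∑ j ∈ range (i + 1), f (g ^ j * x) =
      ∑ j ∈ range i, f (g ^ j * (g * x)) + f x := by
    intro i
    rw [sum_range_succ']
    simp only [← mul_assoc, ← pow_succ, pow_zero, one_mul]
  have h4 := he (g * x)
  simp only [h3, mul_add, sum_add_distrib, ← sum_mul] at h2
  simp only [← mul_assoc, ← pow_succ] at h4 h2 ⊢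
  rw [h4] at h2
  linarith

end Tors

/-- Cohomological dimension at most two implies torsion free. -/
theorem torsionFree {G Gen Tr : Type} [Group G] {gen : Gen → G} {l : Tr → Fin 3 → Gen}
    (hrel : Rel gen l) (hgen : Subgroup.closure (Set.range gen) = ⊤)
    (hLS : LS gen l) (hH2 : H2 gen l) (g : G) (hg : IsOfFinOrder g) : g = 1 := by
  obtain ⟨e, he⟩ := Tors.exists_pou g hg
  have h1 : ∀ s, ∃ h : G → ℤ, ∀ x, h (g * x) - h x = e (x * gen s) - e x := fun s =>
    Tors.ker_norm g e he (fun x => e (x * gen s) - e x) (fun x => by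
      simp only [sum_sub_distrib, mul_assoc, he, sub_self])
  choose h hh using h1
  let ζ : G → Tr → ℤ := fun x t => h (l t 0) x + h (l t 1) (x * gen (l t 0)) - h (l t 2) x
  have hζ : ∀ x t, ζ (g * x) t = ζ x t := by
    intro x t
    have a0 := hh (l t 0) x
    have a1 := hh (l t 1) (x * gen (l t 0))
    have a2 := hh (l t 2) x
    rw [mul_assoc x, hrel t] at a1
    simp only [ζ, mul_assoc]
    linarith
  have hζ' : ∀ i x t, ζ (g ^ i * x) t = ζ x t := by
    intro i x t
    induction i with
    | zero => simp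
    | succ i ih => rw [pow_succ', mul_assoc, hζ, ih]
  obtain ⟨k, hk⟩ := hH2 ℤ (fun x t => e x * ζ x t)
  let ω : G → Gen → ℤ := fun x s => h s x - ∑ i ∈ range (orderOf g), k (g ^ i * x) s
  obtain ⟨π, hπ⟩ := hLS (Multiplicative ℤ) (fun x s => Multiplicative.ofAdd (ω x s)) (by
    intro x t
    rw [← ofAdd_add]
    congr 1
    have : ∑ i ∈ range (orderOf g), (k (g ^ i * x) (l t 0) +
        k (g ^ i * x * gen (l t 0)) (l t 1) - k (g ^ i * x) (l t 2)) = ζ x t := by
      simp only [hk, hζ', ← sum_mul, he, one_mul]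
    simp only [sum_add_distrib, sum_sub_distrib, mul_assoc, ζ] at this
    simp only [ω]
    linarith)
  let f : G → ℤ := fun x => (π x).toAdd
  have hf : ∀ x s, f (x * gen s) = f x + ω x s := fun x s => by simp [f, hπ]
  let c : G → ℤ := fun x => e x - (f (g * x) - f x)
  have hc : ∀ x s, c (x * gen s) = c x := by
    intro x s
    have a := hf x s
    have b := hf (g * x) s
    have d := hh s x
    have d' := Tors.sum_shift g (fun y => k y s) x
    simp only [c, ω, mul_assoc] at a b ⊢
    linarith
  have hc1 : ∀ x, c x = c 1 := by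
    intro x
    have hx : x ∈ Subgroup.closure (Set.range gen) := hgen ▸ Subgroup.mem_top x
    induction hx using Subgroup.closure_induction_right with
    | one => rfl
    | mul_right x _ y hy ih =>
      obtain ⟨s, rfl⟩ := hy
      rw [hc, ih]
    | mul_inv_cancel x _ y hy ih =>
      obtain ⟨s, rfl⟩ := hy
      rw [← hc _ s, ← ih]; simp
  have hsum : ∑ i ∈ range (orderOf g), c (g ^ i * 1) = 1 := by
    have d' := Tors.sum_shift g f 1
    have : ∀ i, g * (g ^ i * 1) = g ^ i * (g * 1) := fun i => by
      simp only [mul_one, ← pow_succ, ← pow_succ']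
    simp only [c, sum_sub_distrib, he, this, d', sub_self, sub_zero]
  simp only [hc1 (g ^ _ * 1), sum_const, card_range, nsmul_eq_mul] at hsum
  have := Int.eq_one_of_mul_eq_one_right (by positivity) hsum
  exact orderOf_eq_one_iff.1 (by exact_mod_cast this)

/-- Central extension realising a twist of the triangle relations. -/
theorem central_ext {G Gen Tr : Type} [Group G] [Finite Gen] {gen : Gen → G}
    {l : Tr → Fin 3 → Gen} (hrel : Rel gen l) (hH2 : H2 gen l)
    (Z : Type) [CommGroup Z] [Finite Z] (tw : Tr → Z) :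
    ∃ (G' : Type) (_ : Group G') (gen' : Gen → G') (ι : Z →* G'), Group.FG G' ∧
      Function.Injective ι ∧ (∀ z g, ι z * g = g * ι z) ∧
      ∀ t, gen' (l t 0) * gen' (l t 1) = ι (tw t) * gen' (l t 2) := by
  obtain ⟨κ', hκ'⟩ := hH2 (Additive Z) (fun _ t => Additive.ofMul (tw t)⁻¹)
  let κ : G → Gen → Z := fun x s => (κ' x s).toMul
  have hκ : ∀ x t, κ x (l t 0) * κ (x * gen (l t 0)) (l t 1) = (tw t)⁻¹ * κ x (l t 2) :=
    fun x t => congrArg Additive.toMul (sub_eq_iff_eq_add.1 (hκ' x t))
  let r : Gen → Equiv.Perm (G × Z) := fun s =>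
    { toFun := fun p => (p.1 * gen s, p.2 * κ p.1 s)
      invFun := fun p => (p.1 * (gen s)⁻¹, p.2 * (κ (p.1 * (gen s)⁻¹) s)⁻¹)
      left_inv := fun p => by simp
      right_inv := fun p => by simp }
  let ι : Z →* Equiv.Perm (G × Z) := (MulAction.toPermHom (G × Z) (G × Z)).comp (MonoidHom.inr G Z)
  have hι : ∀ z p, ι z p = (p.1, z * p.2) := fun z p => by
    simp [ι, Prod.ext_iff]
  have hcomm : ∀ z s, ι z * r s = r s * ι z := fun z s => by
    ext p <;> simp [hι, r, mul_assoc]
  let S : Set (Equiv.Perm (G × Z)) := Set.range r ∪ Set.range ι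
  have hS : S.Finite := (Set.finite_range r).union (Set.finite_range ι)
  have := hS.to_subtype
  refine ⟨Subgroup.closure S, inferInstance,
    fun s => ⟨(r s)⁻¹, inv_mem (Subgroup.subset_closure (Or.inl ⟨s, rfl⟩))⟩,
    ι.codRestrict _ (fun z => Subgroup.subset_closure (Or.inr ⟨z, rfl⟩)), inferInstance, ?_, ?_, ?_⟩
  · intro z z' h
    have := congrArg (fun a : Subgroup.closure S => (a.1 (1, 1)).2) h
    simpa [hι] using this
  · intro z g
    apply Subtype.ext
    have : Subgroup.closure S ≤ Subgroup.centralizer {ι z} := by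
      rw [Subgroup.closure_le]
      rintro _ (⟨s, rfl⟩ | ⟨z', rfl⟩)
      · exact Subgroup.mem_centralizer_singleton_iff.2 (hcomm z s).symm
      · refine Subgroup.mem_centralizer_singleton_iff.2 ?_
        rw [← map_mul, ← map_mul, mul_comm]
    exact (Subgroup.mem_centralizer_singleton_iff.1 (this g.2)).symm
  · intro t
    apply Subtype.ext
    change (r (l t 0))⁻¹ * (r (l t 1))⁻¹ = ι (tw t) * (r (l t 2))⁻¹
    have : r (l t 1) * r (l t 0) = r (l t 2) * ι (tw t)⁻¹ := by
      ext p
      · simp only [Equiv.Perm.coe_mul, Function.comp_apply, hι, r, Equiv.coe_fn_mk, mul_assoc,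
          hrel t]
      · simp only [Equiv.Perm.coe_mul, Function.comp_apply, hι, r, Equiv.coe_fn_mk, mul_assoc, hκ]
        rw [mul_left_comm]
    rw [← mul_inv_rev, this, mul_inv_rev, map_inv, inv_inv]

/-- Group algebras of residually finite groups over finite fields are directly finite. -/
theorem directlyFinite_of_residuallyFinite {G : Type} [Group G] [Group.ResiduallyFinite G]
    (a b : MonoidAlgebra (ZMod 2) G) (h : a * b = 1) : b * a = 1 := by
  classical
  let S : Finset G := (b * a).coeff.support ∪ (1 : MonoidAlgebra (ZMod 2) G).coeff.support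
  have h1 : ∀ p : {p : S × S // p.1 ≠ p.2}, ∃ H : FiniteIndexNormalSubgroup G,
      (p.1.1.1)⁻¹ * p.1.2.1 ∉ H := fun p =>
    Group.exists_finiteIndexNormalSubgroup_notMem _ (fun h => p.2 (Subtype.ext
      (eq_of_inv_mul_eq_one h)))
  choose H hH using h1
  let N : Subgroup G := ⨅ p, (H p).toSubgroup
  have : N.FiniteIndex := Subgroup.finiteIndex_iInf fun p => (H p).isFiniteIndex'
  have : N.Normal := Subgroup.normal_iInf_normal fun p => (H p).isNormal'
  have : Finite (G ⧸ N) := inferInstance
  have : Fintype (G ⧸ N) := Fintype.ofFinite _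
  have : Finite (MonoidAlgebra (ZMod 2) (G ⧸ N)) :=
    Finite.of_injective _ MonoidAlgebra.coeff_injective
  let φ := MonoidAlgebra.mapDomainRingHom (ZMod 2) (QuotientGroup.mk' N)
  have h2 : φ (b * a) = φ 1 := by
    rw [map_mul, map_one, mul_eq_one_comm, ← map_mul, h, map_one]
  have hinj : Set.InjOn (QuotientGroup.mk' N) (S : Set G) := by
    intro x hx y hy hxy
    by_contra hne
    have hm : x⁻¹ * y ∈ N := QuotientGroup.eq.1 hxy
    exact hH ⟨(⟨x, hx⟩, ⟨y, hy⟩), fun h => hne (congrArg Subtype.val h)⟩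
      (Subgroup.mem_iInf.1 hm _)
  apply MonoidAlgebra.coeff_injective
  refine Finsupp.mapDomain_injOn (S : Set G) hinj ?_ ?_ (congrArg MonoidAlgebra.coeff h2)
  · exact Finset.coe_subset.2 subset_union_left
  · exact Finset.coe_subset.2 subset_union_right

end Crest.Agent.R177
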