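import Crest.Agent.R177.Main
import Crest.Agent.R177.Tors

set_option autoImplicit false

namespace Crest.Agent.R177

open Finset

/-- The twisted example: a Leavitt relation modulo `p`, `1 + m` and `1 + w + w ^ 2`. -/
theorem exists_groupII (p k : ℕ) (hp : p.Prime) (hk : 0 < k) (h4 : 4 ≤ p ^ k)
    (Z : Type) [CommGroup Z] [Finite Z] (m w : Z) :
    ∃ (G : Type) (_ : Group G) (ι : Z →* G), Group.FG G ∧ Function.Injective ι ∧
      (∀ z g, ι z * g = g * ι z) ∧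
      ∀ (k : Type) [CommRing k], ∃ a b : Fin 2 → MonoidAlgebra k G, ∀ i j,
        ∃ W₁ W₂ W₃ : MonoidAlgebra k G, a i * b j = (if i = j then 1 else 0) + p • W₁ +
          (1 + MonoidAlgebra.of k G (ι m)) * W₂ +
          (1 + MonoidAlgebra.of k G (ι w) + MonoidAlgebra.of k G (ι w) ^ 2) * W₃ := by
  obtain ⟨PP⟩ := exists_bplane p k hp hk h4
  obtain ⟨n, -, -, hcore⟩ := core (Pt PP.Pr) (Fin 2 × Bool) (blkRel PP.Pr) PP.Q
    (Fintype.card (Pt PP.Pr)) PP.two_le (by rw [card_blkRel]; exact PP.small)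
  obtain ⟨𝒟, ⟨pin⟩, hD⟩ := designII PP n
  obtain ⟨Γ, hΓ, ⟨C, hC⟩, -⟩ := hcore 𝒟 pin
  obtain ⟨tw, htw⟩ := hD Z m w
  obtain ⟨G, hG, gen, ι, hfg, hinj, hcen, hrel⟩ :=
    central_ext (rel_pgen (graphL Γ)) (h2_of_dehn _ C hC) Z (fun t => tw t.1)
  refine ⟨G, hG, ι, hfg, hinj, hcen, htw Γ hΓ G gen ι hcen (fun e he => ?_)⟩
  simpa [graphL] using hrel ⟨e, he⟩

end Crest.Agent.R177
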