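import Crest.Agent.R177.VKPre

set_option autoImplicit false

namespace Crest.Agent.R177

open Finset

section
variable {Gen Tr : Type} {l : Tr → Fin 3 → Gen}

lemma mk_triBd (l : Tr → Fin 3 → Gen) (t : Tr) (s : Bool) :
    FreeGroup.mk ((triBd s).map (Prod.map (l t) id)) =
      if s then relator l t else (relator l t)⁻¹ := by
  cases s <;> rfl

theorem PD.exists [DecidableEq Gen] (l : Tr → Fin 3 → Gen) (L : List (FreeGroup Gen × Tr × Bool))
    (W : List (Gen × Bool)) (hW : FreeGroup.mk W = vkProd l L) :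
    Nonempty (PD l W (vkChain l L)) := by
  induction L generalizing W with
  | nil => exact (PD.congr (W' := []) hW).mpr ⟨PD.nil l⟩
  | cons a L ih =>
    obtain ⟨u, t, s⟩ := a
    obtain ⟨d⟩ := ih (u.toWord ++ (u⁻¹.toWord ++ (vkProd l L).toWord)) (by
      simp only [← FreeGroup.mul_mk, FreeGroup.mk_toWord, mul_inv_cancel_left])
    obtain ⟨d'⟩ := d.face t s
    rw [FreeGroup.mk_toWord] at d'
    refine (PD.congr ?_).mpr ⟨d'⟩
    simp only [hW, ← FreeGroup.mul_mk, FreeGroup.mk_toWord, mk_triBd, vkProd, List.map_cons,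
      List.prod_cons, conjRel, mul_assoc]

namespace PD
variable {W : List (Gen × Bool)} {c : PG l × Tr →₀ ZMod 2} (d : PD l W c)

open Classical in
/-- The other face on an edge. -/
noncomputable def σ (i : Fin 3) (x : d.F) : d.F :=
  if h : ∃ y, y ≠ x ∧ d.fe y i = d.fe x i then h.choose else x

lemma fe_σ (i : Fin 3) (x : d.F) : d.fe (d.σ i x) i = d.fe x i := by
  unfold σ
  split_ifs with h
  · exact h.choose_spec.2
  · rfl

lemma not_three {i : Fin 3} {x y z : d.F} (hxy : x ≠ y) (hxz : x ≠ z) (hyz : y ≠ z)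
    (h1 : d.fe y i = d.fe x i) (h2 : d.fe z i = d.fe x i) : False := by
  have h3 : ∑ w ∈ ({x, y, z} : Finset d.F), ∑ j, ind (d.fe x i) (d.fe w j) ≤
      ∑ w, ∑ j, ind (d.fe x i) (d.fe w j) :=
    Finset.sum_le_sum_of_subset (Finset.subset_univ _)
  have h4 : ∀ w, d.fe w i = d.fe x i → 1 ≤ ∑ j, ind (d.fe x i) (d.fe w j) := fun w hw =>
    le_trans (by simp [ind, hw]) (Finset.single_le_sum
      (f := fun j => ind (d.fe x i) (d.fe w j)) (fun _ _ => Nat.zero_le _) (Finset.mem_univ i))
  rw [Finset.sum_insert (by simp [hxy, hxz]), Finset.sum_pair hyz] at h3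
  have := h4 x rfl
  have := h4 y h1
  have := h4 z h2
  have h5 := d.cnt (d.fe x i)
  unfold wt at h5
  omega

lemma eq_σ {i : Fin 3} {x y : d.F} (hxy : y ≠ x) (h : d.fe y i = d.fe x i) : d.σ i x = y := by
  have h' : ∃ y, y ≠ x ∧ d.fe y i = d.fe x i := ⟨y, hxy, h⟩
  unfold σ
  rw [dif_pos h']
  by_contra hne
  exact d.not_three h'.choose_spec.1.symm hxy.symm hne h'.choose_spec.2 h

lemma σ_σ (i : Fin 3) (x : d.F) : d.σ i (d.σ i x) = x := by
  by_cases h : d.σ i x = x
  · rw [h, h]
  · exact d.eq_σ (Ne.symm h) (d.fe_σ i x).symm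

/-- The gem of a pre-diagram. -/
noncomputable def gem : Gem where
  F := d.F
  σ := d.σ
  inv := d.σ_σ

variable {role : Gen → Fin 3}

lemma role_eq (hrole : ∀ t i, role (l t i) = i) {x y : d.F} {i j : Fin 3}
    (h : d.fe y j = d.fe x i) : j = i := by
  rw [← hrole (d.tri y) j, ← hrole (d.tri x) i, ← d.lab_fe, ← d.lab_fe, h]

lemma mem_bd (hrole : ∀ t i, role (l t i) = i) {x : d.F} {i : Fin 3} (h : d.σ i x = x) :
    d.fe x i ∈ d.bd.map Prod.fst := by
  by_contra hn
  have h1 : (d.bd.map fun z => ind (d.fe x i) z.1).sum = 0 := by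
    rw [List.sum_eq_zero_iff]
    intro n hn'
    obtain ⟨z, hz, rfl⟩ := List.mem_map.mp hn'
    have : z.1 ≠ d.fe x i := fun e => hn (e ▸ List.mem_map_of_mem hz)
    simp [ind, this]
  have h2 : ∑ w, ∑ j, ind (d.fe x i) (d.fe w j) = 1 := by
    rw [Finset.sum_eq_single x, Finset.sum_eq_single i]
    · simp [ind]
    · intro j _ hj
      have : d.fe x j ≠ d.fe x i := fun e => hj (d.role_eq hrole e)
      simp [ind, this]
    · simp
    · intro w _ hw
      refine Finset.sum_eq_zero fun j _ => ?_
      have : d.fe w j ≠ d.fe x i := by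
        intro e
        obtain rfl := d.role_eq hrole e
        exact hw ((d.eq_σ hw e).symm.trans h)
      simp [ind, this]
    · simp
  have h5 := d.cnt (d.fe x i)
  unfold wt at h5
  omega

lemma gem_bd (hrole : ∀ t i, role (l t i) = i) (i : Fin 3) :
    d.gem.bd i ≤ W.countP (fun a => role a.1 = i) := by
  have h1 : W.countP (fun a => role a.1 = i) =
      ((d.bd.map Prod.fst).filter fun e => role (d.lab e) = i).length := by
    rw [← List.countP_eq_length_filter, List.countP_map]
    refine (congrArg _ d.word.symm).trans ?_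
    rw [List.countP_map]
    rfl
  rw [h1]
  refine le_trans ?_ (List.toFinset_card_le _)
  refine Finset.card_le_card_of_injOn (fun x : d.F => d.fe x i) ?_ ?_
  · intro x hx
    have hx' : d.σ i x = x := (Finset.mem_filter.mp (Finset.mem_coe.mp hx)).2
    simp only [List.coe_toFinset, List.mem_filter, Set.mem_ofPred_eq, decide_eq_true_eq]
    exact ⟨d.mem_bd hrole hx', by rw [d.lab_fe, hrole]⟩
  · intro x hx y _ h
    have hx' : d.σ i x = x := (Finset.mem_filter.mp (Finset.mem_coe.mp hx)).2
    by_contra hne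
    exact hne (hx'.symm.trans (d.eq_σ (Ne.symm hne) h.symm))

lemma gem_ac (hrole : ∀ t i, role (l t i) = i) : d.gem.Ac := by
  classical
  intro ω hω hsum
  let ω' : d.E → ZMod 2 := fun e =>
    if h : ∃ p : d.F × Fin 3, d.fe p.1 p.2 = e then ω h.choose.1 h.choose.2 else 0
  have h1 : ∀ x i, ω' (d.fe x i) = ω x i := by
    intro x i
    have h : ∃ p : d.F × Fin 3, d.fe p.1 p.2 = d.fe x i := ⟨(x, i), rfl⟩
    simp only [ω', dif_pos h]
    have h2 := h.choose_spec
    generalize h.choose = p at h2
    obtain ⟨y, j⟩ := p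
    obtain rfl := d.role_eq hrole h2
    by_cases hy : y = x
    · rw [hy]
    · rw [← d.eq_σ hy h2]
      exact hω x j
  obtain ⟨π, hc, -, h3, -⟩ := d.ac ω' fun x => by rw [h1, h1, h1]; exact hsum x
  refine ⟨fun x => ![π (d.fe x 1) true, π (d.fe x 0) false, π (d.fe x 0) true], ?_, ?_⟩
  · intro x i k hk
    have a1 := hc x
    have a2 := hc (d.σ i x)
    have a3 := d.fe_σ i x
    change ![π (d.fe (d.σ i x) 1) true, π (d.fe (d.σ i x) 0) false, π (d.fe (d.σ i x) 0) true] k = _
    fin_cases i <;> fin_cases k <;> simp_all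
  · intro x i
    have a1 := hc x
    rw [← h1, h3]
    fin_cases i <;> simp_all [add_comm]

/-- The labelled gem of a pre-diagram. -/
noncomputable def gd (hrole : ∀ t i, role (l t i) = i) :
    GD l (fun i => W.countP (fun a => role a.1 = i)) c where
  D := d.gem
  tri := d.tri
  pos x := d.P (d.fe x 0) false
  lab x i := by
    rw [← d.lab_fe, ← d.lab_fe]
    exact congrArg d.lab (d.fe_σ i x)
  ep := by
    have h : ∀ x i, epos l (d.P (d.fe x 0) false) (d.tri x) i = d.P (d.fe x i) false := by
      intro x i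
      have a1 := d.P_corner x
      have a2 := d.P_lab (d.fe x 0)
      rw [d.lab_fe] at a2
      fin_cases i
      · rfl
      · exact a2.symm.trans a1.2.1
      · exact a1.1
    intro x i
    rw [h, h]
    exact congrArg (fun e => d.P e false) (d.fe_σ i x)
  ac := d.gem_ac hrole
  bd := d.gem_bd hrole
  chain := d.chain

end PD

/-- Parity of the number of occurrences of a letter. -/
def par [DecidableEq Gen] (s : Gen) : FreeGroup Gen →* Multiplicative (ZMod 2) :=
  FreeGroup.lift fun g => Multiplicative.ofAdd (if g = s then 1 else 0)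

lemma par_mk [DecidableEq Gen] (s : Gen) (W : List (Gen × Bool)) :
    par s (FreeGroup.mk W) = Multiplicative.ofAdd (W.countP (fun a => a.1 = s) : ZMod 2) := by
  induction W with
  | nil => rfl
  | cons a W ih =>
    rw [← List.singleton_append, ← FreeGroup.mul_mk, map_mul, ih, List.countP_append,
      Nat.cast_add, ofAdd_add]
    congr 1
    obtain ⟨g, b⟩ := a
    by_cases h : g = s <;> cases b <;> simp [par, h]
    rfl

lemma par_vkProd [DecidableEq Gen] (s : Gen) (l : Tr → Fin 3 → Gen)
    (L : List (FreeGroup Gen × Tr × Bool)) :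
    par s (vkProd l L) = Multiplicative.ofAdd (Finsupp.linearCombination (ZMod 2)
      (fun f : PG l × Tr => (par s (relator l f.2)).toAdd) (vkChain l L)) := by
  induction L with
  | nil => simp [vkProd, vkChain]
  | cons a L ih =>
    obtain ⟨u, t, b⟩ := a
    unfold vkProd vkChain at ih ⊢
    rw [List.map_cons, List.prod_cons, map_mul, ih, List.map_cons, List.sum_cons, map_add,
      ofAdd_add, Finsupp.linearCombination_single, one_smul, ofAdd_toAdd]
    congr 1
    have h1 : ∀ u z : Multiplicative (ZMod 2), u * z⁻¹ * u⁻¹ = z := by decide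
    have h2 : ∀ u z : Multiplicative (ZMod 2), u * z * u⁻¹ = z := by decide
    cases b
    · simp only [conjRel, map_mul, map_inv, Bool.false_eq_true, if_false, h1]
    · simp only [conjRel, map_mul, map_inv, if_true, h2]

end

/-- Van Kampen's lemma: a product of conjugates of relators bounds a reduced acyclic gem. -/
theorem vk {Gen Tr : Type} [DecidableEq Gen] (l : Tr → Fin 3 → Gen) (role : Gen → Fin 3)
    (hrole : ∀ t i, role (l t i) = i) (L : List (FreeGroup Gen × Tr × Bool)) :
    ∃ (D : Gem) (tri : D.F → Tr),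
      (∀ x i, l (tri (D.σ i x)) i = l (tri x) i) ∧
      (∀ x i, D.σ i x ≠ x → tri (D.σ i x) ≠ tri x) ∧ D.Ac ∧
      (∀ i, D.bd i ≤ (vkProd l L).toWord.countP (fun a => role a.1 = i)) ∧
      (∀ s, (vkProd l L).toWord.countP (fun a => a.1 = s) = 1 → ∃ x i, l (tri x) i = s) ∧
      (vkChain l L).support.card ≤ D.area := by
  obtain ⟨d⟩ := PD.exists l L (vkProd l L).toWord FreeGroup.mk_toWord
  obtain ⟨g, hg⟩ := (d.gd hrole).exists_reduced
  refine ⟨g.D, g.tri, g.lab, hg, g.ac, g.bd, fun s hs => ?_, ?_⟩
  · by_contra hn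
    push Not at hn
    have h1 := par_vkProd s l L
    rw [← FreeGroup.mk_toWord (x := vkProd l L), par_mk, hs] at h1
    have h2 := congrArg (Finsupp.linearCombination (ZMod 2)
      (fun f : PG l × Tr => (par s (relator l f.2)).toAdd)) g.chain
    rw [h2, map_sum, Finset.sum_eq_zero] at h1
    · exact absurd h1 (by decide)
    · intro x _
      simp [relator, par, hn]
  · classical
    have h1 : (vkChain l L).support ⊆ Finset.univ.image fun x : g.D.F => (g.pos x, g.tri x) := by
      intro f hf
      by_contra hn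
      refine Finsupp.mem_support_iff.mp hf ?_
      refine (congrArg (fun c => c f) g.chain).trans ?_
      simp only [Finsupp.finsetSum_apply]
      refine Finset.sum_eq_zero fun x _ => Finsupp.single_eq_of_ne fun e => hn ?_
      exact Finset.mem_image.mpr ⟨x, Finset.mem_univ _, e.symm⟩
    exact (Finset.card_le_card h1).trans Finset.card_image_le

end Crest.Agent.R177
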