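import Crest.Agent.R177.Defs

/-! Van Kampen gems: labelled gems with positions in the Cayley complex, and removal of a
cancelling pair of faces. -/

set_option autoImplicit false

namespace Crest.Agent.R177

open Finset

/-- Regluing an involution after the removal of `x` and `y`. -/
def resig {F : Type} [DecidableEq F] (σ : F → F) (x y z : F) : F :=
  if σ z = x then (if σ y = y then z else σ y)
  else if σ z = y then (if σ x = x then z else σ x) else σ z

section resig
variable {F : Type} [DecidableEq F] {σ : F → F} {x y : F}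

lemma resig_ne (hσ : ∀ z, σ (σ z) = z) {z : F} (hz : z ≠ x ∧ z ≠ y) :
    resig σ x y z ≠ x ∧ resig σ x y z ≠ y := by
  unfold resig
  have := hσ z; have := hσ x; have := hσ y
  split_ifs <;> grind

lemma resig_resig (hσ : ∀ z, σ (σ z) = z) (hxy : x ≠ y) {z : F} (hz : z ≠ x ∧ z ≠ y) :
    resig σ x y (resig σ x y z) = z := by
  unfold resig
  have := hσ z; have := hσ x; have := hσ y
  split_ifs <;> grind

lemma apply_resig {α : Type} (f : F → α) (hf : ∀ z, f (σ z) = f z) (hxy : f x = f y) (z : F) :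
    f (resig σ x y z) = f z := by
  unfold resig
  have := hf z; have := hf x; have := hf y
  split_ifs <;> grind

end resig

variable {Gen Tr : Type}

/-- Base point of edge `i` of a triangle `t` placed at `p`. -/
def epos (l : Tr → Fin 3 → Gen) (p : PG l) (t : Tr) (i : Fin 3) : PG l :=
  if i = 1 then p * pgen l (l t 0) else p

lemma epos_inj (l : Tr → Fin 3 → Gen) {p q : PG l} {t : Tr} {i : Fin 3}
    (h : epos l p t i = epos l q t i) : p = q := by
  unfold epos at h
  split_ifs at h
  · exact mul_right_cancel h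
  · exact h

/-- A labelled acyclic gem with bounded boundary and given chain. -/
structure GD (l : Tr → Fin 3 → Gen) (n : Fin 3 → ℕ) (c : PG l × Tr →₀ ZMod 2) where
  D : Gem
  tri : D.F → Tr
  pos : D.F → PG l
  lab : ∀ x i, l (tri (D.σ i x)) i = l (tri x) i
  ep : ∀ x i, epos l (pos (D.σ i x)) (tri (D.σ i x)) i = epos l (pos x) (tri x) i
  ac : D.Ac
  bd : ∀ i, D.bd i ≤ n i
  chain : c = ∑ x, Finsupp.single (pos x, tri x) 1

/-- The gem obtained by removing two faces and regluing. -/
def Gem.cut (D : Gem) (x y : D.F) (hxy : x ≠ y) : Gem where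
  F := {z // z ≠ x ∧ z ≠ y}
  σ j z := ⟨resig (D.σ j) x y z.1, resig_ne (D.inv j) z.2⟩
  inv j z := Subtype.ext (resig_resig (D.inv j) hxy z.2)

lemma Gem.cut_area (D : Gem) (x y : D.F) (hxy : x ≠ y) : (D.cut x y hxy).area < D.area :=
  Fintype.card_subtype_lt (p := fun z => z ≠ x ∧ z ≠ y) (x := x) (by simp)

lemma Gem.cut_bd (D : Gem) (x y : D.F) (hxy : x ≠ y) (j : Fin 3) :
    (D.cut x y hxy).bd j ≤ D.bd j := by
  unfold Gem.bd
  refine Finset.card_le_card_of_injOn
    (fun z : {z // z ≠ x ∧ z ≠ y} => if D.σ j z.1 = x then y else if D.σ j z.1 = y then x else z.1)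
    ?_ ?_
  · rintro ⟨z, hz⟩ h
    have h' : resig (D.σ j) x y z = z := by
      have := (Finset.mem_filter.mp (Finset.mem_coe.mp h)).2
      exact congrArg Subtype.val this
    simp only [Finset.coe_filter, Finset.mem_univ, true_and, Set.mem_ofPred_eq]
    unfold resig at h'
    have := D.inv j z; have := D.inv j x; have := D.inv j y
    split_ifs at h' ⊢ <;> grind
  · rintro ⟨z, hz⟩ - ⟨w, hw⟩ - h
    apply Subtype.ext
    simp only at h ⊢
    have := D.inv j z; have := D.inv j w
    split_ifs at h <;> grind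

lemma Gem.cut_ac (D : Gem) (hD : D.Ac) (x : D.F) (i : Fin 3) (hxy : x ≠ D.σ i x) :
    (D.cut x (D.σ i x) hxy).Ac := by
  set y := D.σ i x with hy
  intro ω' hω' hsum
  let ω₁ : D.F → Fin 3 → ZMod 2 := fun z j => if h : z ≠ x ∧ z ≠ y then ω' ⟨z, h⟩ j else 0
  let val : Fin 3 → ZMod 2 := fun j =>
    if D.σ j x ≠ x ∧ D.σ j x ≠ y then ω₁ (D.σ j x) j else ω₁ (D.σ j y) j
  let val' : Fin 3 → ZMod 2 := fun j => if j = i then val (i + 1) + val (i + 2) else val j
  let ω : D.F → Fin 3 → ZMod 2 := fun z j => if z ≠ x ∧ z ≠ y then ω₁ z j else val' j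
  have h1 : ∀ z j, z ≠ x ∧ z ≠ y → ω₁ (resig (D.σ j) x y z) j = ω₁ z j := by
    intro z j hz
    have := hω' ⟨z, hz⟩ j
    simp only [ω₁, dif_pos hz, dif_pos (resig_ne (D.inv j) hz)]
    exact this
  have h2 : ∀ z j, z ≠ x ∧ z ≠ y → ω (D.σ j z) j = ω z j := by
    intro z j hz
    have h3 := h1 z j hz
    have hi : j = i → D.σ j x = y := by rintro rfl; rfl
    unfold resig at h3
    have := D.inv j z; have := D.inv j x; have := D.inv j y
    simp only [ω, val', val]
    split_ifs at h3 ⊢ <;> grind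
  have hsym : ∀ z j, ω (D.σ j z) j = ω z j := by
    intro z j
    by_cases hz : z ≠ x ∧ z ≠ y
    · exact h2 z j hz
    · by_cases hz' : D.σ j z ≠ x ∧ D.σ j z ≠ y
      · have := h2 _ j hz'
        rw [D.inv] at this
        exact this.symm
      · simp only [ω, if_neg hz, if_neg hz']
  have hval : val' 0 + val' 1 + val' 2 = 0 := by
    have : ∀ (i : Fin 3) (v : Fin 3 → ZMod 2),
        (if 0 = i then v (i + 1) + v (i + 2) else v 0) +
        (if 1 = i then v (i + 1) + v (i + 2) else v 1) +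
        (if 2 = i then v (i + 1) + v (i + 2) else v 2) = 0 := by decide
    exact this i val
  obtain ⟨π, hπ, hω⟩ := hD ω hsym (by
    intro z
    by_cases hz : z ≠ x ∧ z ≠ y
    · simp only [ω, ω₁, if_pos hz, dif_pos hz]
      exact hsum ⟨z, hz⟩
    · simp only [ω, if_neg hz]
      exact hval)
  have hπxy : ∀ k, π x k = π y k := by
    have a1 : ∀ k, k ≠ i → π y k = π x k := hπ x i
    have a2 := hω x (i + 1)
    have a3 := hω y (i + 1)
    have a4 : ω x (i + 1) = ω y (i + 1) := by simp [ω]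
    have a5 : i + 1 + 1 ≠ i := (by decide : ∀ i : Fin 3, i + 1 + 1 ≠ i) i
    have a6 : i + 1 + 2 = i := (by decide : ∀ i : Fin 3, i + 1 + 2 = i) i
    intro k
    by_cases hk : k = i
    · rw [a4, a3, a1 _ a5, a6] at a2
      rw [hk]
      exact (add_left_cancel a2).symm
    · exact (a1 k hk).symm
  refine ⟨fun z => π z.1, fun z j k hk => ?_, fun z j => ?_⟩
  · exact apply_resig (fun z => π z k) (fun w => hπ w j k hk) (hπxy k) z.1
  · obtain ⟨z, hz⟩ := z
    have hz' : z ≠ x ∧ z ≠ y := hz
    have := hω z j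
    simp only [ω, ω₁, if_pos hz', dif_pos hz'] at this
    exact this

/-- Removal of a cancelling pair. -/
def GD.cut {l : Tr → Fin 3 → Gen} {n : Fin 3 → ℕ} {c : PG l × Tr →₀ ZMod 2} (g : GD l n c)
    (x : g.D.F) (i : Fin 3) (hxy : x ≠ g.D.σ i x) (ht : g.tri (g.D.σ i x) = g.tri x) :
    GD l n c where
  D := g.D.cut x (g.D.σ i x) hxy
  tri z := g.tri z.1
  pos z := g.pos z.1
  lab z j := apply_resig (fun z => l (g.tri z) j) (fun w => g.lab w j) (by simp only [ht]) z.1
  ep z j := apply_resig (fun z => epos l (g.pos z) (g.tri z) j) (fun w => g.ep w j) (by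
    have h := g.ep x i
    rw [ht] at h
    simp only [ht, epos_inj l h]) z.1
  ac := g.D.cut_ac g.ac x i hxy
  bd j := (g.D.cut_bd _ _ hxy j).trans (g.bd j)
  chain := by
    have h := g.ep x i
    rw [ht] at h
    have hp := epos_inj l h
    refine g.chain.trans ?_
    have h1 := Finset.sum_subtype (F := inferInstance) (p := fun z => z ≠ x ∧ z ≠ g.D.σ i x)
      ((Finset.univ.erase x).erase (g.D.σ i x)) (by intro z; simp [and_comm])
      (fun z => (Finsupp.single (g.pos z, g.tri z) 1 : PG l × Tr →₀ ZMod 2))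
    refine Eq.trans ?_ h1
    rw [← Finset.add_sum_erase _ _ (Finset.mem_univ x),
      ← Finset.add_sum_erase _ _ (Finset.mem_erase.mpr ⟨hxy.symm, Finset.mem_univ _⟩), ht, hp,
      ← add_assoc, ← Finsupp.single_add]
    have : (1 : ZMod 2) + 1 = 0 := by decide
    rw [this, Finsupp.single_zero, zero_add]

theorem GD.exists_reduced {l : Tr → Fin 3 → Gen} {n : Fin 3 → ℕ} {c : PG l × Tr →₀ ZMod 2}
    (g : GD l n c) :
    ∃ g' : GD l n c, ∀ x i, g'.D.σ i x ≠ x → g'.tri (g'.D.σ i x) ≠ g'.tri x := by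
  induction h : g.D.area using Nat.strong_induction_on generalizing g with
  | _ m ih =>
    by_cases hr : ∀ x i, g.D.σ i x ≠ x → g.tri (g.D.σ i x) ≠ g.tri x
    · exact ⟨g, hr⟩
    · push Not at hr
      obtain ⟨x, i, h1, h2⟩ := hr
      exact ih _ (h ▸ g.D.cut_area _ _ h1.symm) (g.cut x i h1.symm h2) rfl

end Crest.Agent.R177
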