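import Crest.Agent.R177.VKGem

/-! Van Kampen pre-diagrams: faces, named edges and a boundary word; closure under free
reduction, free expansion and insertion of a relator. -/

set_option autoImplicit false

namespace Crest.Agent.R177

open Finset

section Walk
variable {E E' α F : Type}

/-- The list of directed edges is a walk from `a` to `b` for the end point values `π`. -/
def Walk (π : E → Bool → α) : α → List (E × Bool) → α → Prop
  | a, [], b => a = b
  | a, d :: r, b => π d.1 (!d.2) = a ∧ Walk π (π d.1 d.2) r b

lemma walk_append {π : E → Bool → α} {a b : α} {U V : List (E × Bool)} :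
    Walk π a (U ++ V) b ↔ ∃ m, Walk π a U m ∧ Walk π m V b := by
  induction U generalizing a with
  | nil => simp [Walk]
  | cons d U ih => simp only [List.cons_append, Walk, ih, and_assoc, exists_and_left]

lemma walk_map {π : E' → Bool → α} (φ : E → E') {a b : α} {U : List (E × Bool)} :
    Walk π a (U.map (Prod.map φ id)) b ↔ Walk (fun e => π (φ e)) a U b := by
  induction U generalizing a with
  | nil => simp [Walk]
  | cons d U ih => simp only [List.map_cons, Walk, ih, Prod.map_fst, Prod.map_snd, id]

/-- The end points of the three edges of each face match. -/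
def Corner (fe : F → Fin 3 → E) (π : E → Bool → α) : Prop :=
  ∀ x, π (fe x 0) false = π (fe x 2) false ∧ π (fe x 0) true = π (fe x 1) false ∧
    π (fe x 1) true = π (fe x 2) true

/-- Total weight of the darts. -/
def wt [Fintype F] (fe : F → Fin 3 → E) (bd : List (E × Bool)) (f : E → ℕ) : ℕ :=
  ∑ x, ∑ i, f (fe x i) + (bd.map fun d => f d.1).sum

/-- Indicator of an edge. -/
def ind [DecidableEq E] (e : E) : E → ℕ := fun u => if u = e then 1 else 0

lemma wt_add [Fintype F] (fe : F → Fin 3 → E) (bd : List (E × Bool)) (f g : E → ℕ) :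
    wt fe bd (fun u => f u + g u) = wt fe bd f + wt fe bd g := by
  unfold wt
  simp only [Finset.sum_add_distrib, List.sum_map_add]
  ring

lemma wt_zero [Fintype F] (fe : F → Fin 3 → E) (bd : List (E × Bool)) :
    wt fe bd (fun _ => 0) = 0 := by
  simp [wt]

/-- End point values of the three edges of a triangle with vertex values `v0, v1, v2`. -/
def ends (v0 v1 v2 : α) : Fin 3 → Bool → α :=
  ![fun b => cond b v1 v0, fun b => cond b v2 v1, fun b => cond b v2 v0]

/-- The boundary of a triangle, in both directions. -/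
def triBd : Bool → List (Fin 3 × Bool)
  | true => [(0, true), (1, true), (2, false)]
  | false => [(2, true), (1, false), (0, false)]

lemma walk_triBd (v0 v1 v2 : α) (b : Bool) : Walk (ends v0 v1 v2) v0 (triBd b) v0 := by
  cases b <;> simp [triBd, Walk, ends]

end Walk

variable {Gen Tr : Type}

lemma pgen_rel (l : Tr → Fin 3 → Gen) (t : Tr) :
    pgen l (l t 0) * pgen l (l t 1) = pgen l (l t 2) := by
  have h : PresentedGroup.mk (Set.range (relator l)) (relator l t) = 1 :=
    PresentedGroup.one_of_mem ⟨t, rfl⟩
  simp only [relator, map_mul, map_inv] at h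
  exact mul_inv_eq_one.mp h

lemma walk_pos {l : Tr → Fin 3 → Gen} {E : Type} {lab : E → Gen} {P : E → Bool → PG l}
    (hP : ∀ e, P e true = P e false * pgen l (lab e)) {a b : PG l} {U : List (E × Bool)}
    (h : Walk P a U b) : b = a * PresentedGroup.mk (Set.range (relator l))
      (FreeGroup.mk (U.map (Prod.map lab id))) := by
  induction U generalizing a with
  | nil =>
    rw [List.map_nil, ← FreeGroup.one_eq_mk, map_one, mul_one]
    exact h.symm
  | cons d U ih =>
    obtain ⟨e, s⟩ := d
    obtain ⟨h1, h2⟩ := h
    rw [ih h2, List.map_cons, ← List.singleton_append, ← FreeGroup.mul_mk, map_mul, ← mul_assoc,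
      ← h1]
    congr 1
    cases s
    · have : FreeGroup.mk [Prod.map lab id (e, false)] = (FreeGroup.of (lab e))⁻¹ := rfl
      rw [this, map_inv]
      simp only [Bool.not_false, hP, pgen, PresentedGroup.of, mul_inv_cancel_right]
    · exact hP e

/-- A pre-diagram with boundary word `W` and chain `c`. -/
structure PD (l : Tr → Fin 3 → Gen) (W : List (Gen × Bool)) (c : PG l × Tr →₀ ZMod 2) where
  E : Type
  F : Type
  [fin : Fintype F]
  [decE : DecidableEq E]
  [decF : DecidableEq F]
  lab : E → Gen
  P : E → Bool → PG l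
  tri : F → Tr
  fe : F → Fin 3 → E
  bd : List (E × Bool)
  word : bd.map (Prod.map lab id) = W
  lab_fe : ∀ x i, lab (fe x i) = l (tri x) i
  P_lab : ∀ e, P e true = P e false * pgen l (lab e)
  P_corner : Corner fe P
  P_walk : Walk P 1 bd 1
  cnt : ∀ e, wt fe bd (ind e) = 0 ∨ wt fe bd (ind e) = 2
  ac : ∀ ω : E → ZMod 2, (∀ x, ω (fe x 0) + ω (fe x 1) + ω (fe x 2) = 0) →
    ∃ π : E → Bool → ZMod 2, Corner fe π ∧ Walk π 0 bd 0 ∧
      (∀ x i, ω (fe x i) = π (fe x i) false + π (fe x i) true) ∧
      ∀ d ∈ bd, ω d.1 = π d.1 false + π d.1 true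
  chain : c = ∑ x, Finsupp.single (P (fe x 0) false, tri x) 1

attribute [instance] PD.fin PD.decE PD.decF

variable {l : Tr → Fin 3 → Gen}

/-- The empty diagram. -/
def PD.nil (l : Tr → Fin 3 → Gen) : PD l [] 0 where
  E := Empty
  F := Empty
  lab := fun e => e.elim
  P := fun e => e.elim
  tri := fun x => x.elim
  fe := fun x => x.elim
  bd := []
  word := rfl
  lab_fe := fun x => x.elim
  P_lab := fun e => e.elim
  P_corner := fun x => x.elim
  P_walk := rfl
  cnt := fun e => e.elim
  ac := fun _ _ => ⟨fun e => e.elim, fun x => x.elim, rfl, fun x => x.elim, by simp⟩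
  chain := by simp

lemma fold_eq {E α : Type} {π : E → Bool → α} {e e' : E} {s : Bool} (h1 : π e' s = π e s)
    (h2 : π e' (!s) = π e (!s)) : π e' = π e := by
  funext b
  cases b <;> cases s <;> assumption

lemma fold_walk {E α : Type} [DecidableEq E] {π : E → Bool → α} {e e' : E} {s : Bool}
    {U V : List (E × Bool)} {a b : α} (h : Walk π a (U ++ (e, s) :: (e', !s) :: V) b)
    (he : π e' = π e) :
    Walk π a ((U ++ V).map (Prod.map (fun u => if u = e' then e else u) id)) b := by
  have : (fun u => π (if u = e' then e else u)) = π := by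
    funext u; split_ifs with h
    · rw [h, he]
    · rfl
  rw [walk_map, this]
  rw [walk_append] at h ⊢
  obtain ⟨m, h1, h2, -, h4⟩ := h
  refine ⟨m, h1, ?_⟩
  simp only [he] at h4
  rw [← h2]
  exact h4

lemma fold_corner {E F α : Type} [DecidableEq E] {π : E → Bool → α} {e e' : E}
    {fe : F → Fin 3 → E} (h : Corner fe π) (he : π e' = π e) :
    Corner (fun x i => if fe x i = e' then e else fe x i) π := by
  have : ∀ u, π (if u = e' then e else u) = π u := by
    intro u; split_ifs with h
    · rw [h, he]
    · rfl
  intro x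
  simp only [this]
  exact h x

/-- Free reduction. -/
theorem PD.fold {U V : List (Gen × Bool)} {a : Gen} {s : Bool} {c : PG l × Tr →₀ ZMod 2}
    (d : PD l (U ++ (a, s) :: (a, !s) :: V) c) : Nonempty (PD l (U ++ V) c) := by
  obtain ⟨U', W', hbd, hU, hW⟩ := List.map_eq_append_iff.mp d.word
  obtain ⟨⟨e, s1⟩, W'', rfl, h1, hW⟩ := List.map_eq_cons_iff.mp hW
  obtain ⟨⟨e', s2⟩, V', rfl, h2, hV⟩ := List.map_eq_cons_iff.mp hW
  simp only [Prod.map_apply, id, Prod.mk.injEq] at h1 h2
  obtain ⟨hl1, rfl⟩ := h1
  obtain ⟨hl2, rfl⟩ := h2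
  let φ : d.E → d.E := fun u => if u = e' then e else u
  have hlab : ∀ u, d.lab (φ u) = d.lab u := by
    intro u; simp only [φ]; split_ifs with h
    · rw [h, hl1, hl2]
    · rfl
  have hj : ∀ {α : Type} {π : d.E → Bool → α} {x y : α}, Walk π x d.bd y →
      π e' s1 = π e s1 := by
    intro α π x y h
    rw [hbd, walk_append] at h
    obtain ⟨m, -, -, h3, -⟩ := h
    simpa using h3
  have hP : d.P e' = d.P e := by
    refine fold_eq (hj d.P_walk) ?_
    have h1 := hj d.P_walk
    have h2 := d.P_lab e
    have h3 := d.P_lab e'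
    rw [hl1] at h2
    rw [hl2] at h3
    cases s1
    · simp only [Bool.not_false, h1, h2, h3]
    · rw [h2, h3] at h1
      exact mul_right_cancel h1
  have hwt : ∀ f : d.E → ℕ, wt (fun x i => φ (d.fe x i)) ((U' ++ V').map (Prod.map φ id)) f +
      2 * f e = wt d.fe d.bd (fun u => f (φ u)) := by
    intro f
    have : φ e = e := by simp [φ]
    have : φ e' = e := by simp [φ]
    simp only [wt, List.map_append, List.map_map, List.sum_append, List.map_cons,
      List.sum_cons, Function.comp_def, Prod.map_fst, *]
    ring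
  refine ⟨{
    E := d.E, F := d.F, lab := d.lab, P := d.P, tri := d.tri
    fe := fun x i => φ (d.fe x i)
    bd := (U' ++ V').map (Prod.map φ id)
    word := ?_
    lab_fe := fun x i => by rw [hlab, d.lab_fe]
    P_lab := d.P_lab
    P_corner := fold_corner d.P_corner hP
    P_walk := fold_walk (hbd ▸ d.P_walk) hP
    cnt := ?_
    ac := ?_
    chain := ?_ }⟩
  · have : Prod.map d.lab (id : Bool → Bool) ∘ Prod.map φ id = Prod.map d.lab id := by
      funext z
      simp [Prod.map, hlab]
    rw [List.map_map, this, List.map_append, hU, hV]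
  · intro z
    have h1 := hwt (ind z)
    by_cases hee : e' = e
    · have : (fun u => ind z (φ u)) = ind z := by
        funext u; simp only [φ]; split_ifs with h
        · rw [h, hee]
        · rfl
      rw [this] at h1
      have h2 := d.cnt z
      have h3 : ind z e ≤ 1 := by unfold ind; split_ifs <;> simp
      omega
    · by_cases hz : z = e'
      · have : (fun u => ind z (φ u)) = fun _ => 0 := by
          funext u; simp only [φ, ind]; grind
        rw [this, wt_zero] at h1
        omega
      · by_cases hz' : z = e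
        · have : (fun u => ind z (φ u)) = fun u => ind e u + ind e' u := by
            funext u; simp only [φ, ind]; grind
          rw [this, wt_add] at h1
          have h2 := d.cnt e
          have h3 := d.cnt e'
          have h4 : ind z e = 1 := by simp [ind, hz']
          omega
        · have : (fun u => ind z (φ u)) = ind z := by
            funext u; simp only [φ, ind]; grind
          rw [this] at h1
          have h2 := d.cnt z
          have h4 : ind z e = 0 := by simp [ind, Ne.symm hz']
          omega
  · intro ω hω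
    obtain ⟨π, h1, h2, h3, h4⟩ := d.ac (fun u => ω (φ u)) hω
    have hπ : π e' = π e := by
      refine fold_eq (hj h2) ?_
      have a1 := hj h2
      have a2 := h4 (e, s1) (by simp [hbd])
      have a3 := h4 (e', !s1) (by simp [hbd])
      have a4 : φ e = e := by simp [φ]
      have a5 : φ e' = e := by simp [φ]
      simp only [a4, a5] at a2 a3
      rw [a2] at a3
      cases s1
      · rw [a1] at a3
        exact (add_left_cancel a3).symm
      · rw [a1] at a3
        exact (add_right_cancel a3).symm
    have hφ : ∀ u, π (φ u) = π u := by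
      intro u; simp only [φ]; split_ifs with h
      · rw [h, hπ]
      · rfl
    refine ⟨π, fold_corner h1 hπ, fold_walk (hbd ▸ h2) hπ, fun x i => ?_, fun z hz => ?_⟩
    · rw [hφ]; exact h3 x i
    · obtain ⟨z', hz', rfl⟩ := List.mem_map.mp hz
      simp only [Prod.map_fst, hφ]
      refine h4 z' ?_
      rw [hbd]
      simp only [List.mem_append, List.mem_cons] at hz' ⊢
      tauto
  · have hφ : ∀ u, d.P (φ u) = d.P u := by
      intro u; simp only [φ]; split_ifs with h
      · rw [h, hP]
      · rfl
    simp only [hφ]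
    exact d.chain

/-- Free expansion. -/
theorem PD.expand {U V : List (Gen × Bool)} (a : Gen) (s : Bool) {c : PG l × Tr →₀ ZMod 2}
    (d : PD l (U ++ V) c) : Nonempty (PD l (U ++ (a, s) :: (a, !s) :: V) c) := by
  obtain ⟨U', V', hbd, hU, hV⟩ := List.map_eq_append_iff.mp d.word
  have hw : ∀ {α : Type} {π : d.E → Bool → α} {x y m : α} (q : Bool → α), Walk π x U' m →
      Walk π m V' y → q (!s) = m →
      Walk (fun o : Option d.E => o.elim q π) x (U'.map (Prod.map some id) ++
        (none, s) :: (none, !s) :: V'.map (Prod.map some id)) y := by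
    intro α π x y m q h1 h2 h3
    rw [walk_append]
    refine ⟨m, (walk_map some).mpr h1, h3, by simp, ?_⟩
    simp only [Option.elim, h3]
    exact (walk_map some).mpr h2
  obtain ⟨m, hm1, hm2⟩ := walk_append.mp (hbd ▸ d.P_walk)
  refine ⟨{
    E := Option d.E, F := d.F, lab := fun o => o.elim a d.lab
    P := fun o => o.elim
      (fun b => if b = s then (if s then m * pgen l a else m * (pgen l a)⁻¹) else m) d.P
    tri := d.tri
    fe := fun x i => some (d.fe x i)
    bd := U'.map (Prod.map some id) ++ (none, s) :: (none, !s) :: V'.map (Prod.map some id)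
    word := ?_
    lab_fe := d.lab_fe
    P_lab := ?_
    P_corner := d.P_corner
    P_walk := hw _ hm1 hm2 (by simp)
    cnt := ?_
    ac := ?_
    chain := d.chain }⟩
  · have : Prod.map (fun o : Option d.E => o.elim a d.lab) (id : Bool → Bool) ∘ Prod.map some id =
        Prod.map d.lab id := rfl
    simp only [List.map_append, List.map_cons, List.map_map, this, hU, hV]
    rfl
  · rintro (_ | e)
    · cases s <;> simp
    · exact d.P_lab e
  · rintro (_ | e)
    · right
      simp [wt, ind, Function.comp_def]
    · have := d.cnt e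
      simpa [wt, ind, Function.comp_def, hbd] using this
  · intro ω hω
    obtain ⟨π, h1, h2, h3, h4⟩ := d.ac (fun u => ω (some u)) hω
    obtain ⟨m', hm1', hm2'⟩ := walk_append.mp (hbd ▸ h2)
    refine ⟨fun o => o.elim (fun b => if b = s then m' + ω none else m') π, h1,
      hw _ hm1' hm2' (by simp), h3, fun z hz => ?_⟩
    have hn : ω none = (if false = s then m' + ω none else m') +
        (if true = s then m' + ω none else m') := by
      exact (by decide : ∀ (s : Bool) (m u : ZMod 2),
        u = (if false = s then m + u else m) + (if true = s then m + u else m)) s m' _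
    simp only [List.mem_append, List.mem_map, List.mem_cons] at hz
    rcases hz with ⟨z', hz', rfl⟩ | rfl | rfl | ⟨z', hz', rfl⟩
    · exact h4 z' (by simp [hbd, hz'])
    · exact hn
    · exact hn
    · exact h4 z' (by simp [hbd, hz'])

/-- Insertion of a relator. -/
theorem PD.face {U V : List (Gen × Bool)} (t : Tr) (s : Bool) {c : PG l × Tr →₀ ZMod 2}
    (d : PD l (U ++ V) c) :
    Nonempty (PD l (U ++ (triBd s).map (Prod.map (l t) id) ++ V)
      (Finsupp.single (PresentedGroup.mk (Set.range (relator l)) (FreeGroup.mk U), t) 1 + c)) := by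
  obtain ⟨U', V', hbd, hU, hV⟩ := List.map_eq_append_iff.mp d.word
  have hw : ∀ {α : Type} {π : d.E → Bool → α} {x y m : α} (v1 v2 : α), Walk π x U' m →
      Walk π m V' y →
      Walk (Sum.elim π (ends m v1 v2)) x (U'.map (Prod.map Sum.inl id) ++
        (triBd s).map (Prod.map Sum.inr id) ++ V'.map (Prod.map Sum.inl id)) y := by
    intro α π x y m v1 v2 h1 h2
    rw [walk_append]
    refine ⟨m, walk_append.mpr ⟨m, (walk_map Sum.inl).mpr h1, (walk_map Sum.inr).mpr ?_⟩,
      (walk_map Sum.inl).mpr h2⟩
    exact walk_triBd m v1 v2 s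
  have hc : ∀ {α : Type} {π : d.E → Bool → α} (m v1 v2 : α), Corner d.fe π →
      Corner (fun (o : Option d.F) i => o.elim (Sum.inr i) fun x => Sum.inl (d.fe x i))
        (Sum.elim π (ends m v1 v2)) := by
    rintro α π m v1 v2 h (_ | x)
    · simp [ends]
    · exact h x
  obtain ⟨m, hm1, hm2⟩ := walk_append.mp (hbd ▸ d.P_walk)
  have hm := walk_pos d.P_lab hm1
  rw [hU, one_mul] at hm
  refine ⟨{
    E := d.E ⊕ Fin 3, F := Option d.F, lab := Sum.elim d.lab (l t)
    P := Sum.elim d.P (ends m (m * pgen l (l t 0)) (m * pgen l (l t 2)))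
    tri := fun o => o.elim t d.tri
    fe := fun o i => o.elim (Sum.inr i) fun x => Sum.inl (d.fe x i)
    bd := U'.map (Prod.map Sum.inl id) ++
        (triBd s).map (Prod.map Sum.inr id) ++ V'.map (Prod.map Sum.inl id)
    word := ?_
    lab_fe := ?_
    P_lab := ?_
    P_corner := hc _ _ _ d.P_corner
    P_walk := hw _ _ hm1 hm2
    cnt := ?_
    ac := ?_
    chain := ?_ }⟩
  · have h1 : Prod.map (Sum.elim d.lab (l t)) (id : Bool → Bool) ∘ Prod.map Sum.inl id =
        Prod.map d.lab id := rfl
    have h2 : Prod.map (Sum.elim d.lab (l t)) (id : Bool → Bool) ∘ Prod.map Sum.inr id =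
        Prod.map (l t) id := rfl
    simp only [List.map_append, List.map_map, h1, h2, hU, hV]
  · rintro (_ | x) i
    · rfl
    · exact d.lab_fe x i
  · rintro (e | i)
    · exact d.P_lab e
    · fin_cases i <;> simp [ends, mul_assoc, pgen_rel]
  · rintro (e | i)
    · have := d.cnt e
      simpa [wt, ind, Function.comp_def, hbd] using this
    · right
      cases s <;> fin_cases i <;> simp [wt, ind, Function.comp_def, triBd, Finset.filter_eq']
  · intro ω hω
    obtain ⟨π, h1, h2, h3, h4⟩ := d.ac (fun u => ω (Sum.inl u)) fun x => hω (some x)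
    obtain ⟨m', hm1', hm2'⟩ := walk_append.mp (hbd ▸ h2)
    have hn : ∀ i, ω (Sum.inr i) =
        ends m' (m' + ω (Sum.inr 0)) (m' + ω (Sum.inr 2)) i false +
          ends m' (m' + ω (Sum.inr 0)) (m' + ω (Sum.inr 2)) i true := by
      have h0 : ω (Sum.inr 0) + ω (Sum.inr 1) + ω (Sum.inr 2) = 0 := hω none
      have key : ∀ m a b c : ZMod 2, a + b + c = 0 →
          a = m + (m + a) ∧ b = m + a + (m + c) ∧ c = m + (m + c) := by decide
      obtain ⟨k0, k1, k2⟩ := key m' _ _ _ h0
      intro i
      fin_cases i
      · exact k0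
      · exact k1
      · exact k2
    refine ⟨Sum.elim π (ends m' (m' + ω (Sum.inr 0)) (m' + ω (Sum.inr 2))), hc _ _ _ h1,
      hw _ _ hm1' hm2', ?_, fun z hz => ?_⟩
    · rintro (_ | x) i
      · exact hn i
      · exact h3 x i
    · simp only [List.mem_append, List.mem_map] at hz
      rcases hz with (⟨z', hz', rfl⟩ | ⟨z', -, rfl⟩) | ⟨z', hz', rfl⟩
      · exact h4 z' (by simp [hbd, hz'])
      · exact hn z'.1
      · exact h4 z' (by simp [hbd, hz'])
  · rw [Fintype.sum_option, ← hm]
    exact congrArg₂ (· + ·) rfl d.chain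

theorem PD.congr {W W' : List (Gen × Bool)} {c : PG l × Tr →₀ ZMod 2}
    (h : FreeGroup.mk W = FreeGroup.mk W') : Nonempty (PD l W c) ↔ Nonempty (PD l W' c) := by
  have h1 : Relation.EqvGen FreeGroup.Red.Step W W' := Quot.eqvGen_exact h
  clear h
  induction h1 with
  | rel x y h =>
    cases h
    exact ⟨fun ⟨d⟩ => d.fold, fun ⟨d⟩ => d.expand _ _⟩
  | refl x => rfl
  | symm x y _ ih => exact ih.symm
  | trans x y z _ _ ih1 ih2 => exact ih1.trans ih2

end Crest.Agent.R177
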